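import Crest.Agent.R40.TCut
import Crest.Agent.Lib.Brouwer.Basic

/-!
# R40/TCross: crossing lemma for a square, totally disconnected sets do not separate  (task)

* `cross`: let `Q = Icc 0 1 ×ℂ Icc 0 1`, `P0' = Q ∩ φ⁻¹ P0`, `P1'` likewise, `S = P0' ∩ P1'`
  (compact).  If no continuum in `S` meets `{im = 0}` and `{im = 1}`, `cut_wire` splits
  `S = S0 ⊔ S1` with `S0` missing `{im = 1}`, `S1` missing `{im = 0}`.  Put
  `f1 w = infDist w P0' - infDist w P1'` (`< 0` on the left side, `> 0` on the right side, zero on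
  `Q` exactly on `S`), `f2 w = infDist w (S0 ∪ bottom) - infDist w (S1 ∪ top)` (`< 0` on bottom,
  `> 0` on top, `≠ 0` on `S`).  Brouwer (`exists_fixedPoint_of_isCompact_convex`, Lib/Brouwer) for
  `w ↦ clamp (w - (f1 w + f2 w * I))` (clamp each coordinate to `[0,1]`) gives a common zero of
  `f1, f2` (Poincaré–Miranda), contradiction.  The answer is `φ '' (continuum)`.
* `lc_convex`: if `g u ≠ g v` (so `u ≠ v`), take `φ w = u + w.re (v - u) + t (w.im - 1/2) I (v-u)`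
  with `t > 0` so small that `φ Q ⊆ V` (tube round the compact segment,
  `IsCompact.exists_thickening_subset_open`) and the short sides lie in the balls round `u`, `v`
  on which `g` is constant on `U`.  `P0 = closure {w ∈ U | g w = g u}`,
  `P1 = closure {w ∈ U | g w ≠ g u}`; `P0 ∩ P1 ∩ V ⊆ M`; the continuum from `cross` has two distinct
  points.
* `sep_cont` (P1): shrink to a ball `ball x ε ⊆ V`; if `M = closure U₁ ∩ closure U₂ ∩ closedBall x (ε/2)`
  were totally disconnected, `lc_convex` on `ball x (ε/2)` with `U = (U₁ ∪ U₂)`, `g u = (u ∈ U₁)`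
  gives a contradiction (`U₁` open and disjoint from `U₂` is disjoint from `closure U₂`).
  Otherwise take the closure of a non-trivial preconnected subset of the compact set `M`.
* `lc_interval`: `IsPreconnected` argument on `Icc α β` (the set of `t` near which `g = g u` on `G` is
  relatively open, and so is its complement).
-/

set_option autoImplicit false
open Set Metric

namespace Crest.Agent.R40

private theorem clamp_fix {x a : ℝ} (h : max 0 (min 1 (x - a)) = x) (h0 : x = 0 → a < 0)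
    (h1 : x = 1 → 0 < a) : a = 0 := by
  rcases lt_trichotomy a 0 with ha | ha | ha
  · have h2 : min 1 (x - a) ≤ x := (le_max_right _ _).trans_eq h
    have h3 : x ≤ 1 := h.symm.trans_le (max_le zero_le_one (min_le_left _ _))
    rcases min_le_iff.1 h2 with h4 | h4
    · linarith [h1 (le_antisymm h3 h4)]
    · linarith
  · exact ha
  · rcases max_choice 0 (min 1 (x - a)) with h2 | h2
    · linarith [h0 (h.symm.trans h2)]
    · have := min_le_right 1 (x - a)
      linarith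

/-- Poincaré–Miranda in the square -/
private theorem miranda {f₁ f₂ : ℂ → ℝ} (c₁ : Continuous f₁) (c₂ : Continuous f₂)
    (hl : ∀ w ∈ Icc (0 : ℝ) 1 ×ℂ Icc (0 : ℝ) 1, w.re = 0 → f₁ w < 0)
    (hr : ∀ w ∈ Icc (0 : ℝ) 1 ×ℂ Icc (0 : ℝ) 1, w.re = 1 → 0 < f₁ w)
    (hb : ∀ w ∈ Icc (0 : ℝ) 1 ×ℂ Icc (0 : ℝ) 1, w.im = 0 → f₂ w < 0)
    (ht : ∀ w ∈ Icc (0 : ℝ) 1 ×ℂ Icc (0 : ℝ) 1, w.im = 1 → 0 < f₂ w) :
    ∃ w ∈ Icc (0 : ℝ) 1 ×ℂ Icc (0 : ℝ) 1, f₁ w = 0 ∧ f₂ w = 0 := by
  have hconv : Convex ℝ (Icc (0 : ℝ) 1 ×ℂ Icc (0 : ℝ) 1) :=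
    ((convex_Icc (0 : ℝ) 1).linear_preimage Complex.reLm).inter
      ((convex_Icc (0 : ℝ) 1).linear_preimage Complex.imLm)
  obtain ⟨w, hw, h⟩ := Lib.Brouwer.exists_fixedPoint_of_isCompact_convex
    (isCompact_Icc.reProdIm isCompact_Icc) hconv ⟨0, by simp [Complex.mem_reProdIm]⟩
    (fun w => ((max 0 (min 1 (w.re - f₁ w)) : ℝ) : ℂ) +
      ((max 0 (min 1 (w.im - f₂ w)) : ℝ) : ℂ) * Complex.I)
    (Continuous.continuousOn (by fun_prop))
    (fun w _ => by
      rw [Complex.mem_reProdIm]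
      simp)
  have e1 := congrArg Complex.re h
  have e2 := congrArg Complex.im h
  simp only [Complex.add_re, Complex.ofReal_re, Complex.mul_re, Complex.I_re, mul_zero,
    Complex.ofReal_im, Complex.I_im, mul_one, sub_self, add_zero, Complex.add_im, Complex.mul_im,
    zero_add] at e1 e2
  exact ⟨w, hw, clamp_fix e1 (hl w hw) (hr w hw), clamp_fix e2 (hb w hw) (ht w hw)⟩

private theorem dist_neg {A B : Set ℂ} (hB : IsClosed B) (hne : B.Nonempty) {w : ℂ} (h : w ∈ A)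
    (h' : w ∉ B) : infDist w A - infDist w B < 0 := by
  rw [infDist_zero_of_mem h]
  linarith [(hB.notMem_iff_infDist_pos hne).1 h']

private theorem dist_pos' {A B : Set ℂ} (hA : IsClosed A) (hne : A.Nonempty) {w : ℂ} (h : w ∈ B)
    (h' : w ∉ A) : 0 < infDist w A - infDist w B := by
  linarith [dist_neg hA hne h h']

theorem cross (φ : ℂ → ℂ) (hφ : Continuous φ) {P0 P1 : Set ℂ} (h0 : IsClosed P0)
    (h1 : IsClosed P1) (hcov : ∀ w ∈ Icc (0 : ℝ) 1 ×ℂ Icc (0 : ℝ) 1, φ w ∈ P0 ∪ P1)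
    (hl : ∀ w ∈ Icc (0 : ℝ) 1 ×ℂ Icc (0 : ℝ) 1, w.re = 0 → φ w ∉ P1)
    (hr : ∀ w ∈ Icc (0 : ℝ) 1 ×ℂ Icc (0 : ℝ) 1, w.re = 1 → φ w ∉ P0) :
    ∃ K : Set ℂ, IsCompact K ∧ IsPreconnected K ∧ K ⊆ P0 ∩ P1 ∧
      K ⊆ φ '' (Icc (0 : ℝ) 1 ×ℂ Icc (0 : ℝ) 1) ∧
      (∃ w ∈ Icc (0 : ℝ) 1 ×ℂ Icc (0 : ℝ) 1, w.im = 0 ∧ φ w ∈ K) ∧
      (∃ w ∈ Icc (0 : ℝ) 1 ×ℂ Icc (0 : ℝ) 1, w.im = 1 ∧ φ w ∈ K) := by
  set Q := Icc (0 : ℝ) 1 ×ℂ Icc (0 : ℝ) 1 with hQ
  have hQc : IsCompact Q := isCompact_Icc.reProdIm isCompact_Icc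
  have c0 : IsClosed (Q ∩ φ ⁻¹' P0) := hQc.isClosed.inter (h0.preimage hφ)
  have c1 : IsClosed (Q ∩ φ ⁻¹' P1) := hQc.isClosed.inter (h1.preimage hφ)
  have hS : IsCompact (Q ∩ (φ ⁻¹' P0 ∩ φ ⁻¹' P1)) :=
    hQc.inter_right ((h0.preimage hφ).inter (h1.preimage hφ))
  have cb : IsClosed {w : ℂ | w.im = 0} := isClosed_eq Complex.continuous_im continuous_const
  have ct : IsClosed {w : ℂ | w.im = 1} := isClosed_eq Complex.continuous_im continuous_const
  by_contra hcon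
  obtain ⟨S0, S1, k0, k1, hd, hu, d0, d1⟩ := cut_wire hS cb ct (by
    rintro K hK hKc hKp ⟨w0, hw0, e0⟩ ⟨w1, hw1, e1⟩
    refine hcon ⟨φ '' K, hKc.image hφ, hKp.image φ hφ.continuousOn, ?_,
      image_mono fun w hw => (hK hw).1, ⟨w0, (hK hw0).1, e0, mem_image_of_mem φ hw0⟩,
      ⟨w1, (hK hw1).1, e1, mem_image_of_mem φ hw1⟩⟩
    rintro _ ⟨w, hw, rfl⟩
    exact (hK hw).2)
  have q0 : (0 : ℂ) ∈ Q := by simp [hQ, Complex.mem_reProdIm]
  have q1 : (1 : ℂ) ∈ Q := by simp [hQ, Complex.mem_reProdIm]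
  have n0 : (Q ∩ φ ⁻¹' P0).Nonempty := ⟨0, q0, (hcov 0 q0).resolve_right (hl 0 q0 rfl)⟩
  have n1 : (Q ∩ φ ⁻¹' P1).Nonempty := ⟨1, q1, (hcov 1 q1).resolve_left (hr 1 q1 rfl)⟩
  have cA : IsClosed (S0 ∪ {w : ℂ | w.im = 0}) := k0.isClosed.union cb
  have cB : IsClosed (S1 ∪ {w : ℂ | w.im = 1}) := k1.isClosed.union ct
  have nA : (S0 ∪ {w : ℂ | w.im = 0}).Nonempty := ⟨0, Or.inr rfl⟩
  have nB : (S1 ∪ {w : ℂ | w.im = 1}).Nonempty := ⟨Complex.I, Or.inr Complex.I_im⟩
  obtain ⟨w, hw, e1, e2⟩ := miranda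
    (f₁ := fun w => infDist w (Q ∩ φ ⁻¹' P0) - infDist w (Q ∩ φ ⁻¹' P1))
    (f₂ := fun w => infDist w (S0 ∪ {w : ℂ | w.im = 0}) - infDist w (S1 ∪ {w : ℂ | w.im = 1}))
    ((continuous_infDist_pt _).sub (continuous_infDist_pt _))
    ((continuous_infDist_pt _).sub (continuous_infDist_pt _))
    (fun w hw e => dist_neg c1 n1 ⟨hw, (hcov w hw).resolve_right (hl w hw e)⟩
      fun h => hl w hw e h.2)
    (fun w hw e => dist_pos' c0 n0 ⟨hw, (hcov w hw).resolve_left (hr w hw e)⟩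
      fun h => hr w hw e h.2)
    (fun w _ e => dist_neg cB nB (Or.inr e) (by
      rintro (h | h)
      · exact Set.disjoint_left.1 d1 h e
      · have h' : w.im = 1 := h
        rw [e] at h'; exact zero_ne_one h'))
    (fun w _ e => dist_pos' cA nA (Or.inr e) (by
      rintro (h | h)
      · exact Set.disjoint_left.1 d0 h e
      · have h' : w.im = 0 := h
        rw [e] at h'; exact one_ne_zero h'))
  have m0 : φ w ∈ P0 := by
    by_contra h
    exact (dist_pos' c0 n0 (B := Q ∩ φ ⁻¹' P1) ⟨hw, (hcov w hw).resolve_left h⟩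
      fun h' => h h'.2).ne' e1
  have m1 : φ w ∈ P1 := by
    by_contra h
    exact (dist_neg c1 n1 (A := Q ∩ φ ⁻¹' P0) ⟨hw, m0⟩ fun h' => h h'.2).ne e1
  have : w ∈ S0 ∪ S1 := by rw [hu]; exact ⟨hw, m0, m1⟩
  rcases this with h | h
  · refine (dist_neg cB nB (A := S0 ∪ {w : ℂ | w.im = 0}) (Or.inl h) ?_).ne e2
    rintro (h' | h')
    · exact Set.disjoint_left.1 hd h h'
    · exact Set.disjoint_left.1 d0 h h'
  · refine (dist_pos' cA nA (B := S1 ∪ {w : ℂ | w.im = 1}) (Or.inl h) ?_).ne' e2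
    rintro (h' | h')
    · exact Set.disjoint_left.1 hd h' h
    · exact Set.disjoint_left.1 d1 h h'

/-- a function on the dense set `U` that is locally constant off the totally disconnected set `M`
is constant on every open convex set -/
theorem lc_convex {A : Type} {V U M : Set ℂ} (hV : IsOpen V) (hc : Convex ℝ V)
    (hU : V ⊆ closure U) (hM : IsTotallyDisconnected M) (hUM : Disjoint U M) (g : ℂ → A)
    (hg : ∀ x ∈ V, x ∉ M → ∃ ε > 0, ∀ u ∈ U, ∀ v ∈ U, u ∈ ball x ε → v ∈ ball x ε → g u = g v) :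
    ∀ u ∈ U, ∀ v ∈ U, u ∈ V → v ∈ V → g u = g v := by
  intro u hu v hv huV hvV
  by_contra hne
  have huv : v - u ≠ 0 := fun h => hne (by rw [sub_eq_zero.1 h])
  have hn0 : 0 < ‖v - u‖ := norm_pos_iff.2 huv
  obtain ⟨εu, hεu, gu⟩ := hg u huV (Set.disjoint_left.1 hUM hu)
  obtain ⟨εv, hεv, gv⟩ := hg v hvV (Set.disjoint_left.1 hUM hv)
  obtain ⟨δu, hδu, bu⟩ := Metric.isOpen_iff.1 hV u huV
  obtain ⟨δv, hδv, bv⟩ := Metric.isOpen_iff.1 hV v hvV
  set r := min (min εu εv) (min δu δv) with hr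
  have hr0 : 0 < r := lt_min (lt_min hεu hεv) (lt_min hδu hδv)
  set t := r / ‖v - u‖ with ht
  have ht0 : 0 < t := by positivity
  set τ : ℂ → ℂ := fun w => ((w.im - 1 / 2 : ℝ) : ℂ) * ((t : ℂ) * Complex.I * (v - u)) with hτ
  have hτr : ∀ w ∈ Icc (0 : ℝ) 1 ×ℂ Icc (0 : ℝ) 1, ∀ z, z + τ w ∈ ball z r := fun w hw z => by
    rw [mem_ball, dist_self_add_left, hτ]
    simp only [norm_mul, Complex.norm_real, Complex.norm_I, mul_one, Real.norm_eq_abs]
    rw [abs_of_pos ht0, ht, div_mul_cancel₀ _ hn0.ne']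
    have h1 : |w.im - 1 / 2| ≤ 1 / 2 := by
      have := hw.2
      rw [abs_le]; constructor <;> linarith [this.1, this.2]
    nlinarith
  have hφV : ∀ w ∈ Icc (0 : ℝ) 1 ×ℂ Icc (0 : ℝ) 1, u + (w.re : ℂ) * (v - u) + τ w ∈ V := fun w hw => by
    have a1 : u + τ w ∈ V :=
      bu (ball_subset_ball ((min_le_right _ _).trans (min_le_left _ _)) (hτr w hw u))
    have a2 : v + τ w ∈ V :=
      bv (ball_subset_ball ((min_le_right _ _).trans (min_le_right _ _)) (hτr w hw v))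
    have := hc a1 a2 (a := 1 - w.re) (b := w.re) (by linarith [hw.1.2]) hw.1.1 (by ring)
    convert this using 1
    simp only [Complex.real_smul]
    push_cast
    ring
  obtain ⟨K, -, hKp, hK1, hK2, ⟨w0, -, e0, m0⟩, ⟨w1, -, e1, m1⟩⟩ :=
    cross (fun w => u + (w.re : ℂ) * (v - u) + τ w) (by simp only [hτ]; fun_prop)
      (P0 := closure {w ∈ U | g w = g u}) (P1 := closure {w ∈ U | g w ≠ g u})
      isClosed_closure isClosed_closure
      (fun w hw => by
        rw [← closure_union]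
        refine closure_mono (fun z hz => ?_) (hU (hφV w hw))
        by_cases h : g z = g u
        · exact Or.inl ⟨hz, h⟩
        · exact Or.inr ⟨hz, h⟩)
      (fun w hw e h => by
        rw [e] at h
        simp only [Complex.ofReal_zero, zero_mul, add_zero] at h
        obtain ⟨z, hz1, hz2, hz3⟩ := mem_closure_iff.1 h (ball u εu) isOpen_ball
          (ball_subset_ball ((min_le_left _ _).trans (min_le_left _ _)) (hτr w hw u))
        exact hz3 (gu z hz2 u hu hz1 (mem_ball_self hεu)))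
      (fun w hw e h => by
        rw [e] at h
        simp only [Complex.ofReal_one, one_mul, add_sub_cancel] at h
        obtain ⟨z, hz1, hz2, hz3⟩ := mem_closure_iff.1 h (ball v εv) isOpen_ball
          (ball_subset_ball ((min_le_left _ _).trans (min_le_right _ _)) (hτr w hw v))
        exact hne (hz3.symm.trans (gv z hz2 v hv hz1 (mem_ball_self hεv))))
  have hKM : K ⊆ M := fun x hx => by
    by_contra hxM
    obtain ⟨w, hw, rfl⟩ := hK2 hx
    obtain ⟨ε, hε, h⟩ := hg _ (hφV w hw) hxM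
    obtain ⟨z, hz1, hz2, hz3⟩ := mem_closure_iff.1 (hK1 hx).1 _ isOpen_ball (mem_ball_self hε)
    obtain ⟨z', hz1', hz2', hz3'⟩ := mem_closure_iff.1 (hK1 hx).2 _ isOpen_ball (mem_ball_self hε)
    exact hz3' ((h z' hz2' z hz2 hz1' hz1).trans hz3)
  have heq := hM K hKM hKp m0 m1
  simp only [hτ, e0, e1] at heq
  have h2 : (((w0.re - w1.re : ℝ) : ℂ) - (t : ℂ) * Complex.I) * (v - u) = 0 := by
    push_cast at heq ⊢
    linear_combination heq
  have h3 := congrArg Complex.im ((mul_eq_zero.1 h2).resolve_right huv)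
  simp at h3
  exact ht0.ne' h3

/-- two disjoint open sets, together dense in `V`, touch along a non-degenerate continuum -/
theorem sep_cont {V U₁ U₂ : Set ℂ} (hV : IsOpen V) (h₁ : IsOpen U₁) (h₂ : IsOpen U₂)
    (hd : Disjoint U₁ U₂) (hc : V ⊆ closure (U₁ ∪ U₂)) {x : ℂ} (hx : x ∈ V)
    (hx₁ : x ∈ closure U₁) (hx₂ : x ∈ closure U₂) :
    ∃ K, IsCompact K ∧ IsPreconnected K ∧ K.Nontrivial ∧ K ⊆ V ∩ (closure U₁ ∩ closure U₂) := by
  obtain ⟨ε, hε, hb⟩ := Metric.isOpen_iff.1 hV x hx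
  have hε2 : 0 < ε / 2 := by positivity
  have hb' : closedBall x (ε / 2) ⊆ V := (closedBall_subset_ball (by linarith)).trans hb
  have hMc : IsCompact (closedBall x (ε / 2) ∩ (closure U₁ ∩ closure U₂)) :=
    (isCompact_closedBall x _).inter_right (isClosed_closure.inter isClosed_closure)
  by_cases hM : IsTotallyDisconnected (closedBall x (ε / 2) ∩ (closure U₁ ∩ closure U₂))
  · exfalso
    obtain ⟨u₁, a₁, b₁⟩ := mem_closure_iff.1 hx₁ _ isOpen_ball (mem_ball_self hε2)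
    obtain ⟨u₂, a₂, b₂⟩ := mem_closure_iff.1 hx₂ _ isOpen_ball (mem_ball_self hε2)
    have := lc_convex (U := U₁ ∪ U₂) isOpen_ball (convex_ball x (ε / 2))
      ((ball_subset_closedBall.trans hb').trans hc) hM
      (Set.disjoint_left.2 fun z hz hz' => by
        rcases hz with hz | hz
        · exact Set.disjoint_left.1 (hd.closure_right h₁) hz hz'.2.2
        · exact Set.disjoint_left.1 (hd.closure_left h₂) hz'.2.1 hz)
      (fun z => z ∈ U₁)
      (fun y hy hyM => by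
        by_cases h : y ∈ closure U₁
        · have h' : y ∉ closure U₂ := fun h' => hyM ⟨ball_subset_closedBall hy, h, h'⟩
          obtain ⟨δ, hδ, hs⟩ := Metric.isOpen_iff.1 isClosed_closure.isOpen_compl y h'
          refine ⟨δ, hδ, fun p hp q hq hp' hq' => propext (iff_of_true ?_ ?_)⟩
          · exact hp.resolve_right fun h2 => hs hp' (subset_closure h2)
          · exact hq.resolve_right fun h2 => hs hq' (subset_closure h2)
        · obtain ⟨δ, hδ, hs⟩ := Metric.isOpen_iff.1 isClosed_closure.isOpen_compl y h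
          exact ⟨δ, hδ, fun p _ q _ hp' hq' => propext (iff_of_false
            (fun h2 => hs hp' (subset_closure h2)) fun h2 => hs hq' (subset_closure h2))⟩)
      u₁ (Or.inl b₁) u₂ (Or.inr b₂) a₁ a₂
    exact Set.disjoint_left.1 hd (this ▸ b₁ : u₂ ∈ U₁) b₂
  · unfold IsTotallyDisconnected at hM
    push Not at hM
    obtain ⟨t, h1, h2, h3⟩ := hM
    have h4 : closure t ⊆ closedBall x (ε / 2) ∩ (closure U₁ ∩ closure U₂) :=
      closure_minimal h1 hMc.isClosed
    exact ⟨closure t, hMc.of_isClosed_subset isClosed_closure h4, h2.closure,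
      h3.mono subset_closure, h4.trans (inter_subset_inter_left _ hb')⟩

theorem lc_interval {A : Type} {G : Set ℝ} (hG : Dense G) (g : ℝ → A) {α β : ℝ}
    (hg : ∀ t ∈ Icc α β, ∃ ε > 0, ∀ u ∈ G, ∀ v ∈ G, |u - t| < ε → |v - t| < ε → g u = g v) :
    ∀ u ∈ G, ∀ v ∈ G, u ∈ Icc α β → v ∈ Icc α β → g u = g v := by
  intro u hu v hv huI hvI
  by_contra hne
  obtain ⟨t, ht, h0, h1⟩ := isPreconnected_closed_iff.1 (isPreconnected_Icc (a := α) (b := β))
    (closure {w ∈ G | g w = g u}) (closure {w ∈ G | g w ≠ g u}) isClosed_closure isClosed_closure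
    (fun w _ => by
      rw [← closure_union]
      refine closure_mono (fun z hz => ?_) (hG w)
      by_cases h : g z = g u
      · exact Or.inl ⟨hz, h⟩
      · exact Or.inr ⟨hz, h⟩)
    ⟨u, huI, subset_closure ⟨hu, rfl⟩⟩ ⟨v, hvI, subset_closure ⟨hv, fun h => hne h.symm⟩⟩
  obtain ⟨ε, hε, h⟩ := hg t ht
  obtain ⟨z, hz1, hz2, hz3⟩ := mem_closure_iff.1 h0 _ isOpen_ball (mem_ball_self hε)
  obtain ⟨z', hz1', hz2', hz3'⟩ := mem_closure_iff.1 h1 _ isOpen_ball (mem_ball_self hε)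
  exact hz3' ((h z' hz2' z hz2 hz1' hz1).trans hz3)

end Crest.Agent.R40
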