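import Crest.Agent.R40.Inv

/-!
# Row 40: Bochner's theorem for `K`

`bochner`.  Let `haar` be the Haar probability measure of the compact group `Ch K`
(`Measure.addHaarMeasure ⊤`); `∫ e (χ z) = 0` for `z ≠ 0` (translate by `χ₀` with `χ₀ z ≠ 0`,
`exists_ch_ne_zero`, `e_eq_one_iff`, `integral_add_left_eq_self`).
Enumerate `f : ℕ → K` onto; `ι n = Fin (n+1) → Fin (n+1)`, `z a = ∑ k, (a k : ℕ) • f k`,
`D n χ = ∑_{a,b} conj (e (χ (z a))) * e (χ (z b)) * φ (z a - z b) ≥ 0` (by `hpd`), continuous.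
`N n w = #{(a,b) | z a - z b = w}`; `∫ D n χ * e (χ w) dhaar = φ w * N n w`, `N n 0 ≥ 1`.
`μ n = haar.withDensity (D n / N n 0)` is a probability measure with `ft (μ n) w = φ w N n w / N n 0`.
KEY `N n w / N n 0 → 1`: with `B χ = ∑_a e(χ(z a)) = B' χ * ∑_{j ≤ n} e(χ w)^j` for `w = f k`, `k ≤ n`
(`B'` the sum over the other coordinates),
`2 (N n 0 - N n w) = ∫ |B|² |e(χ w) - 1|² = ∫ |B'|² |e(χ w)^(n+1) - 1|² ≤ 4 N'` and
`N n 0 ≥ (n+1) N'` (`N' = ∫ |B'|²` = number of coincidences of the other coordinates).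
(Any other Følner argument is welcome, e.g. weights `β : K →₀ ℝ`.)  Take a cluster point of `μ n` in the
compact space `ProbabilityMeasure (Ch K)`.

`bochner_inv`: if `φ 0 = 0` then `φ = 0` (2×2 positivity), take `μ = 0`; otherwise normalise and apply
`exists_fixed` to the rotations (index `{u : K // ‖u‖ = 1}`) with conditions `∫ e (χ z) = φ z / φ 0`.
-/

set_option autoImplicit false

open MeasureTheory Set Filter Topology
open scoped ComplexConjugate ComplexOrder

namespace Crest.Agent.R40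

/-- positive definite functions on `K` -/
def PosDef (φ : K → ℂ) : Prop :=
  ∀ {ι : Type} [Fintype ι] (z : ι → K) (a : ι → ℂ),
    0 ≤ ∑ i, ∑ j, a i * conj (a j) * φ (z i - z j)

/-- normalised Haar measure of the dual group -/
noncomputable def bHaar : Measure (Ch K) := Measure.addHaarMeasure ⊤

instance : IsProbabilityMeasure bHaar :=
  ⟨by simpa [bHaar] using Measure.addHaarMeasure_self (G := Ch K) (K₀ := ⊤)⟩

instance : bHaar.IsAddLeftInvariant := Measure.isAddLeftInvariant_addHaarMeasure _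

open Classical in
theorem ft_bHaar (z : K) : ∫ χ, e (χ.1 z) ∂bHaar = if z = 0 then 1 else 0 := by
  split_ifs with hz
  · simp [hz, Ch.map_zero]
  · obtain ⟨χ₀, h₀⟩ := exists_ch_ne_zero hz
    have h := integral_add_left_eq_self (μ := bHaar) (fun χ : Ch K => e (χ.1 z)) χ₀
    simp only [Ch.add_apply, e_add] at h
    rw [integral_const_mul] at h
    by_contra hne
    exact h₀ (e_eq_one_iff.1 (mul_right_cancel₀ hne (h.trans (one_mul _).symm)))

theorem integrable_bHaar {E : Type} [NormedAddCommGroup E] {f : Ch K → E} (hf : Continuous f) :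
    Integrable f bHaar :=
  hf.integrable_of_hasCompactSupport (HasCompactSupport.of_compactSpace f)

/-- nonempty sums of characters -/
def IsPT (B : Ch K → ℂ) : Prop :=
  ∃ (ι : Type) (_ : Fintype ι) (_ : Nonempty ι) (z : ι → K), ∀ χ, B χ = ∑ a, e (χ.1 (z a))

theorem IsPT.mul {B B' : Ch K → ℂ} (h : IsPT B) (h' : IsPT B') : IsPT (B * B') := by
  obtain ⟨ι, _, _, z, hz⟩ := h
  obtain ⟨ι', _, _, z', hz'⟩ := h'
  refine ⟨ι × ι', inferInstance, inferInstance, fun p => z p.1 + z' p.2, fun χ => ?_⟩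
  simp only [Pi.mul_apply, hz, hz', Fintype.sum_prod_type, Ch.map_add, e_add, Finset.sum_mul_sum]

theorem IsPT.one : IsPT 1 :=
  ⟨Unit, inferInstance, inferInstance, fun _ => 0, fun χ => by simp [Ch.map_zero]⟩

theorem IsPT.continuous {B : Ch K → ℂ} (h : IsPT B) : Continuous B := by
  obtain ⟨ι, _, _, z, hz⟩ := h
  rw [funext hz]
  fun_prop

/-- Dirichlet-type kernel -/
noncomputable def bP (n : ℕ) (w : K) (χ : Ch K) : ℂ := ∑ j : Fin (n + 1), e (χ.1 ((j : ℕ) • w))

theorem isPT_bP (n : ℕ) (w : K) : IsPT (bP n w) :=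
  ⟨Fin (n + 1), inferInstance, inferInstance, _, fun _ => rfl⟩

theorem bP_mul (n : ℕ) (w : K) (χ : Ch K) :
    bP n w χ * (e (χ.1 w) - 1) = e (χ.1 w) ^ (n + 1) - 1 := by
  simp only [bP, Ch.map_nsmul, e_nsmul]
  rw [Fin.sum_univ_eq_sum_range (fun j => e (χ.1 w) ^ j), geom_sum_mul]

theorem IsPT.exists_N {B : Ch K → ℂ} (h : IsPT B) : ∃ N : K → ℝ, (∀ w, 0 ≤ N w) ∧ 1 ≤ N 0 ∧
    (∀ w, ∫ χ, conj (B χ) * B χ * e (χ.1 w) ∂bHaar = N w) ∧
    ∀ φ : K → ℂ, PosDef φ → ∃ D : Ch K → ℝ, Continuous D ∧ (∀ χ, 0 ≤ D χ) ∧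
      ∀ w, ∫ χ, (D χ : ℂ) * e (χ.1 w) ∂bHaar = φ w * N w := by
  classical
  obtain ⟨ι, _, ⟨a₀⟩, z, hz⟩ := h
  have key : ∀ (φ : K → ℂ) (w : K), ∫ χ, (∑ a, ∑ b, conj (e (χ.1 (z a))) *
      conj (conj (e (χ.1 (z b)))) * φ (z a - z b)) * e (χ.1 w) ∂bHaar =
      φ w * ((∑ a, ∑ b, if z a - z b = w then 1 else 0 : ℝ) : ℂ) := fun φ w => by
    have e1 : ∀ (χ : Ch K) a b, conj (e (χ.1 (z a))) * conj (conj (e (χ.1 (z b)))) *
        φ (z a - z b) * e (χ.1 w) = φ (z a - z b) * e (χ.1 (w - (z a - z b))) := fun χ a b => by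
      simp only [Ch.map_sub, e_sub, map_mul]
      ring
    simp only [Finset.sum_mul, e1]
    rw [integral_finsetSum _ fun a _ => integrable_bHaar (by fun_prop)]
    push_cast
    rw [Finset.mul_sum]
    refine Finset.sum_congr rfl fun a _ => ?_
    rw [integral_finsetSum _ fun b _ => integrable_bHaar (by fun_prop), Finset.mul_sum]
    refine Finset.sum_congr rfl fun b _ => ?_
    rw [integral_const_mul, ft_bHaar]
    by_cases h : z a - z b = w
    · simp [h]
    · simp [h, sub_eq_zero, Ne.symm h]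
  refine ⟨fun w => ∑ a, ∑ b, if z a - z b = w then 1 else 0, fun w => by positivity, ?_,
    fun w => ?_, fun φ hφ => ⟨fun χ => (∑ a, ∑ b, conj (e (χ.1 (z a))) *
      conj (conj (e (χ.1 (z b)))) * φ (z a - z b)).re, by fun_prop,
      fun χ => (Complex.nonneg_iff.1 (hφ z _)).1, fun w => ?_⟩⟩
  · refine le_trans ?_ (Finset.single_le_sum (f := fun a => ∑ b, if z a - z b = 0 then (1 : ℝ)
      else 0) (fun a _ => by positivity) (Finset.mem_univ a₀))
    refine le_trans (by simp) (Finset.single_le_sum (f := fun b => if z a₀ - z b = 0 then (1 : ℝ)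
      else 0) (fun a _ => by positivity) (Finset.mem_univ a₀))
  · have h1 := key (fun _ => 1) w
    rw [one_mul] at h1
    rw [← h1]
    simp only [hz, map_sum, Finset.sum_mul_sum, Complex.conj_conj, mul_one]
  · rw [← key φ w]
    refine integral_congr_ae (Eventually.of_forall fun χ => ?_)
    simp only
    congr 1
    exact Complex.ext rfl (by simpa using (Complex.nonneg_iff.1
      (hφ z fun a => conj (e (χ.1 (z a))))).2)

theorem bochner_key {B : Ch K → ℂ} (h : IsPT B) (n : ℕ) (w : K) {N₀ Nw : ℝ}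
    (h0 : ∫ χ, conj ((bP n w * B) χ) * (bP n w * B) χ * e (χ.1 0) ∂bHaar = N₀)
    (hw : ∫ χ, conj ((bP n w * B) χ) * (bP n w * B) χ * e (χ.1 w) ∂bHaar = Nw) :
    (n + 1) * |Nw - N₀| ≤ 2 * N₀ := by
  obtain ⟨N, hN, -, hN', -⟩ := h.exists_N
  have hB := h.continuous
  have hP := (isPT_bP n w).continuous
  have h1 : (n + 1) * N 0 ≤ N₀ := by
    have e1 : ∀ χ : Ch K, conj ((bP n w * B) χ) * (bP n w * B) χ * e (χ.1 0) =
        ∑ i : Fin (n + 1), ∑ j : Fin (n + 1),
          conj (B χ) * B χ * e (χ.1 ((j : ℕ) • w - (i : ℕ) • w)) := fun χ => by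
      simp only [Pi.mul_apply, bP, map_mul, map_sum, Ch.map_zero, e_zero, mul_one, Ch.map_sub,
        e_sub, Finset.sum_mul, Finset.mul_sum]
      rw [Finset.sum_comm]
      exact Finset.sum_congr rfl fun i _ => Finset.sum_congr rfl fun j _ => by ring
    simp only [e1] at h0
    rw [integral_finsetSum _ fun a _ => integrable_bHaar (by fun_prop)] at h0
    simp only [fun i : Fin (n + 1) => integral_finsetSum (μ := bHaar) Finset.univ
      (f := fun (j : Fin (n + 1)) χ => conj (B χ) * B χ * e (χ.1 ((j : ℕ) • w - (i : ℕ) • w)))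
      fun a _ => integrable_bHaar (by fun_prop), hN'] at h0
    have e2 : ∑ i : Fin (n + 1), ∑ j : Fin (n + 1), N ((j : ℕ) • w - (i : ℕ) • w) = N₀ := by
      exact_mod_cast h0
    rw [← e2]
    refine le_trans (by simp) (Finset.sum_le_sum (f := fun _ => N 0) fun i _ => ?_)
    simpa using Finset.single_le_sum (f := fun j : Fin (n + 1) => N ((j : ℕ) • w - (i : ℕ) • w))
      (fun j _ => hN _) (Finset.mem_univ i)
  have h2 : ∫ χ, ‖B χ‖ ^ 2 ∂bHaar = N 0 := by
    have e1 := hN' 0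
    simp only [Ch.map_zero, e_zero, mul_one, Complex.conj_mul'] at e1
    exact_mod_cast e1
  have h3 : ∫ χ, ‖B χ‖ ^ 2 * ‖e (χ.1 w) ^ (n + 1) - 1‖ ^ 2 ∂bHaar = 2 * (N₀ - Nw) := by
    have e1 : ∀ χ : Ch K, ‖B χ‖ ^ 2 * ‖e (χ.1 w) ^ (n + 1) - 1‖ ^ 2 =
        2 * RCLike.re (conj ((bP n w * B) χ) * (bP n w * B) χ * e (χ.1 0) -
          conj ((bP n w * B) χ) * (bP n w * B) χ * e (χ.1 w)) := fun χ => by
      have e2 : ‖e (χ.1 w) - 1‖ ^ 2 = 2 * (1 - (e (χ.1 w)).re) := by
        have e3 := norm_e (χ.1 w)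
        rw [← Complex.normSq_eq_norm_sq, Complex.normSq_sub, Complex.normSq_eq_norm_sq, e3]
        simp
        ring
      rw [← bP_mul, norm_mul, mul_pow, e2, Complex.conj_mul', Ch.map_zero, e_zero, ← mul_sub,
        ← Complex.ofReal_pow, RCLike.re_to_complex, Complex.re_ofReal_mul, Pi.mul_apply, norm_mul]
      simp
      ring
    simp only [e1]
    rw [integral_const_mul, integral_re (integrable_bHaar (by fun_prop)),
      integral_sub (integrable_bHaar (by fun_prop)) (integrable_bHaar (by fun_prop)), h0, hw]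
    simp
  have h4 : 0 ≤ 2 * (N₀ - Nw) := h3 ▸ integral_nonneg fun χ => by positivity
  have h5 : 2 * (N₀ - Nw) ≤ 4 * N 0 := by
    rw [← h3, ← h2, ← integral_const_mul]
    refine integral_mono (integrable_bHaar (by fun_prop)) (integrable_bHaar (by fun_prop))
      fun χ => ?_
    have e1 : ‖e (χ.1 w) ^ (n + 1) - 1‖ ≤ 2 := (norm_sub_le _ _).trans (by simp; norm_num)
    have e2 : ‖e (χ.1 w) ^ (n + 1) - 1‖ ^ 2 ≤ 2 ^ 2 := by gcongr
    simp only
    nlinarith [sq_nonneg ‖B χ‖]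
  rw [abs_sub_comm, abs_of_nonneg (by linarith)]
  have h6 : (0 : ℝ) ≤ n + 1 := by positivity
  nlinarith

theorem bochner_approx (φ : K → ℂ) (hpd : PosDef φ) (h1 : φ 0 = 1) (f : ℕ → K) (n : ℕ) :
    ∃ μ : ProbabilityMeasure (Ch K), ∀ k < n,
      ‖ft μ (f k) - φ (f k)‖ ≤ ‖φ (f k)‖ * (2 * (1 / ((n : ℝ) + 1))) := by
  have hpt : ∀ s : Finset ℕ, IsPT (∏ k ∈ s, bP n (f k)) := fun s =>
    Finset.prod_induction _ IsPT (fun _ _ => IsPT.mul) IsPT.one fun k _ => isPT_bP n (f k)
  obtain ⟨N, -, hN1, hN, hD⟩ := (hpt (Finset.range n)).exists_N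
  obtain ⟨D, hDc, hD0, hD⟩ := hD φ hpd
  have hN0 : 0 < N 0 := by linarith
  have hm : Measurable fun χ => Real.toNNReal (D χ / N 0) := by fun_prop
  have hint : ∫ χ, D χ / N 0 ∂bHaar = 1 := by
    have e1 := hD 0
    simp only [Ch.map_zero, e_zero, mul_one, h1, one_mul] at e1
    have e2 : ∫ χ, D χ ∂bHaar = N 0 := by exact_mod_cast e1
    rw [integral_div, e2, div_self hN0.ne']
  refine ⟨⟨bHaar.withDensity fun χ => (Real.toNNReal (D χ / N 0) : ENNReal), ⟨?_⟩⟩,
    fun k hk => ?_⟩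
  · rw [withDensity_apply _ MeasurableSet.univ, Measure.restrict_univ]
    have := ofReal_integral_eq_lintegral_ofReal (f := fun χ => D χ / N 0)
      (integrable_bHaar (by fun_prop))
      (Eventually.of_forall fun χ => div_nonneg (hD0 χ) hN0.le)
    rw [hint, ENNReal.ofReal_one] at this
    exact this.symm
  · have e1 := hN 0
    have e2 := hN (f k)
    rw [← Finset.mul_prod_erase _ _ (Finset.mem_range.2 hk)] at e1 e2
    have e3 := bochner_key (hpt _) n (f k) e1 e2
    have e4 : ft (bHaar.withDensity fun χ => (Real.toNNReal (D χ / N 0) : ENNReal)) (f k) =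
        φ (f k) * N (f k) / N 0 := by
      rw [ft, integral_withDensity_eq_integral_smul hm, ← hD, ← integral_div]
      refine integral_congr_ae (Eventually.of_forall fun χ => ?_)
      simp only [NNReal.smul_def, Real.coe_toNNReal _ (div_nonneg (hD0 χ) hN0.le),
        Complex.real_smul]
      push_cast
      ring
    have e5 : φ (f k) * N (f k) / N 0 - φ (f k) = φ (f k) * (((N (f k) - N 0) / N 0 : ℝ) : ℂ) := by
      have : (N 0 : ℂ) ≠ 0 := by exact_mod_cast hN0.ne'
      push_cast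
      field_simp
    rw [ProbabilityMeasure.coe_mk, e4, e5, norm_mul, Complex.norm_real, Real.norm_eq_abs, abs_div,
      abs_of_pos hN0]
    refine mul_le_mul_of_nonneg_left ?_ (norm_nonneg _)
    rw [mul_one_div, div_le_div_iff₀ hN0 (by positivity)]
    linarith

theorem bochner (φ : K → ℂ) (hpd : PosDef φ) (h1 : φ 0 = 1) :
    ∃ μ : Measure (Ch K), IsProbabilityMeasure μ ∧ ∀ z, ft μ z = φ z := by
  obtain ⟨f, hf⟩ := exists_surjective_nat K
  choose μ hμ using bochner_approx φ hpd h1 f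
  obtain ⟨ν, -, hν⟩ := isCompact_univ.ultrafilter_le_nhds ((hyperfilter ℕ).map μ) (by simp)
  refine ⟨ν, inferInstance, fun z => ?_⟩
  obtain ⟨k, rfl⟩ := hf z
  have h2 : Tendsto (fun n => ft (μ n) (f k)) (hyperfilter ℕ) (𝓝 (ft ν (f k))) :=
    (ProbabilityMeasure.tendsto_iff_forall_integral_rclike_tendsto ℂ).1 hν
      (BoundedContinuousFunction.mkOfCompact ⟨fun χ : Ch K => e (χ.1 (f k)), by fun_prop⟩)
  have h3 : Tendsto (fun n => ft (μ n) (f k)) atTop (𝓝 (φ (f k))) := by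
    rw [tendsto_iff_norm_sub_tendsto_zero]
    refine squeeze_zero' (Eventually.of_forall fun _ => norm_nonneg _)
      ((eventually_gt_atTop k).mono fun n hn => hμ n k hn) ?_
    simpa using (tendsto_one_div_add_atTop_nhds_zero_nat.const_mul (2 : ℝ)).const_mul ‖φ (f k)‖
  exact tendsto_nhds_unique h2 (h3.mono_left Nat.hyperfilter_le_atTop)

theorem bochner_inv (φ : K → ℂ) (hpd : PosDef φ)
    (hrot : ∀ u z : K, ‖(u : ℂ)‖ = 1 → φ (u * z) = φ z) :
    ∃ μ : Measure (Ch K), IsFiniteMeasure μ ∧ UInv μ ∧ ∀ z, ft μ z = φ z := by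
  have h0 : 0 ≤ φ 0 := by simpa using hpd (ι := Unit) (fun _ => 0) (fun _ => 1)
  rcases h0.eq_or_lt with h | h
  · refine ⟨0, inferInstance, fun u _ => ⟨measurable_rot u, by simp⟩, fun z => ?_⟩
    have e1 : ∀ t : ℂ, 0 ≤ conj t * φ z + t * φ (-z) := fun t => by
      simpa [Fin.sum_univ_two, ← h] using hpd ![z, 0] ![1, t]
    have e2 : ∀ t : ℂ, conj t * φ z + t * φ (-z) = 0 := fun t =>
      le_antisymm (by have := e1 (-t); rwa [map_neg, neg_mul, neg_mul, ← neg_add,
        neg_nonneg] at this) (e1 t)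
    have e3 := e2 1
    have e4 := e2 Complex.I
    rw [map_one] at e3
    rw [Complex.conj_I] at e4
    have e5 : φ z = 0 := by
      linear_combination e3 / 2 + Complex.I / 2 * e4 + (φ z - φ (-z)) / 2 * Complex.I_sq
    simp [ft, e5]
  · obtain ⟨r, hr⟩ : ∃ r : ℝ, φ 0 = r := ⟨(φ 0).re, Complex.ext rfl
      (by simpa using (Complex.nonneg_iff.1 h0).2.symm)⟩
    have hr0 : 0 < r := by
      rw [hr] at h
      exact_mod_cast h
    have hr' : (r : ℂ) ≠ 0 := by exact_mod_cast hr0.ne'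
    have hpd' : PosDef fun z => φ z / r := fun z a => by
      simp only [← mul_div_assoc, ← Finset.sum_div]
      exact div_nonneg (hpd z a) (by exact_mod_cast hr0.le)
    obtain ⟨μ, _, hμ, hinv⟩ := exists_fixed (X := Ch K) (ι := {u : K // ‖(u : ℂ)‖ = 1}) (J := K)
      (fun u => ⟨rot u.1, continuous_rot _⟩)
      (fun i j x => by simp only [ContinuousMap.coe_mk, rot_rot, mul_comm])
      (fun z => ⟨fun χ => e (χ.1 z), by fun_prop⟩) (fun z => φ z / r)
      (bochner _ hpd' (by simp only [hr, div_self hr']))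
      (fun μ _ hμ u z => by
        rw [← hrot u.1 z u.2]
        exact hμ (u.1 * z))
    refine ⟨ENNReal.ofReal r • μ, Measure.smul_finite _ ENNReal.ofReal_ne_top,
      fun u hu => (hinv ⟨u, hu⟩).smul_measure _, fun z => ?_⟩
    rw [ft, integral_smul_measure, ENNReal.toReal_ofReal hr0.le, Complex.real_smul]
    exact (congrArg _ (hμ z)).trans (mul_div_cancel₀ _ hr')

end Crest.Agent.R40
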