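import Crest.Agent.R40.FrostB

/-!
# Row 40: Frostman estimate (helper86)

Recipe.  Fix `x ≠ 0`, `c`, `ε ≤ 1/(8π)` (else trivial with `C ≥ √(8π)`), `p = μ.real {‖χ x - c‖ ≤ ε}`,
`L = ⌊1/(8πε)⌋₊ ≥ 1`, `1/L ≤ 16πε`.  For real `y ∈ K ∩ [0,1)` put `t = y + i √(1-y²) ∈ K`
(`sqrt_mem_KF`), `‖t‖ = 1`, `t + t⁻¹ = 2y`.  `E_j = {‖χ (t^(2j) x) - c‖ ≤ ε}` has measure `p` (`hU`).
For `k < j`: `t^(2j) + t^(2k) = t^(j+k) * P_{j-k}(y)` with `P_m = 2 T_m` (any sequence of polynomials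
over `K` with `P_m(y) = t^m + t^(-m)` and `natDegree = m`, e.g. `P_0 = 2, P_1 = 2X,
P_{m+2} = 2X P_{m+1} - P_m`), so `μ(E_j ∩ E_k) ≤ μ{‖χ(P_m(y) x) - 2c‖ ≤ 2ε}`.
Fejér: on `‖w‖ ≤ 2ε`, `‖∑_{l<L} e(l • w)‖ ≥ L/2` (`norm_e_sub_one_le`), so the indicator is
`≤ (4/L²) ∑_{l,l'<L} e((l-l') • w)`.  Average over `y = v n a` (`exists_folner`), integrate, and use
dominated convergence (`ae_lineDisc`; the polynomial `C ((l-l') x) * P_m` is non constant): the
average of `μ(E_j ∩ E_k)` has limsup `≤ 4/L`.  Second moment (Cauchy-Schwarz/Jensen) for each `y`: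
`(M p)² ≤ ∫ (∑_{j<M} 1_{E_j})² = M p + ∑_{j≠k} μ(E_j ∩ E_k)`.  Hence `p² ≤ p/M + 4/L` for all `M`.
-/

set_option autoImplicit false

open MeasureTheory Set Filter Topology
open scoped ComplexConjugate

namespace Crest.Agent.R40

theorem fr_sq {ι κ : Type} [Fintype ι] [Fintype κ] (g : ι → κ → ℂ) :
    ∑ a, ‖∑ i, g a i‖ ^ 2 ≤ ∑ i, ∑ j, ‖∑ a, g a i * conj (g a j)‖ := by
  have h : ((∑ a, ‖∑ i, g a i‖ ^ 2 : ℝ) : ℂ) = ∑ i, ∑ j, ∑ a, g a i * conj (g a j) := by
    push_cast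
    simp only [← Complex.mul_conj', map_sum, Finset.sum_mul_sum]
    rw [Finset.sum_comm]
    exact Finset.sum_congr rfl fun i _ => Finset.sum_comm
  refine (le_abs_self _).trans ?_
  rw [← Real.norm_eq_abs, ← Complex.norm_real, h]
  exact (norm_sum_le _ _).trans (Finset.sum_le_sum fun i _ => norm_sum_le _ _)

theorem fr_fejer {L : ℕ} {δ : ℝ} (h : 16 * L * δ ≤ 1) {w : UnitAddCircle} (hw : ‖w‖ ≤ δ) :
    (L : ℝ) / 2 ≤ ‖∑ l : Fin L, e ((l : ℕ) • w)‖ := by
  have h1 : ‖∑ l : Fin L, (e ((l : ℕ) • w) - 1)‖ ≤ L * (1 / 2) := by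
    refine (norm_sum_le _ _).trans ((Finset.sum_le_card_nsmul _ _ (1 / 2) fun l _ => ?_).trans
      (by simp))
    have h2 : ‖(l : ℕ) • w‖ ≤ L * δ := norm_nsmul_le.trans
      (mul_le_mul (by exact_mod_cast l.2.le) hw (norm_nonneg _) (Nat.cast_nonneg _))
    nlinarith [norm_e_sub_one_le ((l : ℕ) • w), Real.pi_le_four, Real.pi_pos,
      norm_nonneg ((l : ℕ) • w)]
  rw [Finset.sum_sub_distrib, Finset.sum_const, Finset.card_univ, Fintype.card_fin, nsmul_eq_mul,
    mul_one] at h1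
  have h3 := norm_sub_norm_le (L : ℂ) (∑ l : Fin L, e ((l : ℕ) • w))
  rw [norm_sub_rev, Complex.norm_natCast] at h3
  linarith

theorem fr_second {Ω ι : Type} [MeasurableSpace Ω] (μ : Measure Ω) [IsProbabilityMeasure μ]
    [Fintype ι] (E : ι → Set Ω) (hE : ∀ i, MeasurableSet (E i)) :
    (∑ i, μ.real (E i)) ^ 2 ≤ ∑ i, ∑ j, μ.real (E i ∩ E j) := by
  set m := ∑ i, μ.real (E i) with hm
  have hi : ∀ s, MeasurableSet s → Integrable (s.indicator (1 : Ω → ℝ)) μ :=
    fun s hs => (integrable_const 1).indicator hs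
  have h1 := (integrable_finsetSum Finset.univ fun i _ => hi _ (hE i)).const_mul (2 * m)
  have h2 := fun i => integrable_finsetSum Finset.univ fun j _ => hi _ ((hE i).inter (hE j))
  have h := integral_mono (μ := μ) (f := fun ω => 2 * m * ∑ i, (E i).indicator 1 ω - m ^ 2)
    (g := fun ω => ∑ i, ∑ j, (E i ∩ E j).indicator 1 ω) (h1.sub (integrable_const _))
    (integrable_finsetSum _ fun i _ => h2 i) fun ω => by
      simp only [inter_indicator_one, Pi.mul_apply, ← Finset.sum_mul_sum]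
      nlinarith [sq_nonneg (∑ i, (E i).indicator 1 ω - m)]
  rw [integral_sub h1 (integrable_const _), integral_const_mul,
    integral_finsetSum _ fun i _ => hi _ (hE i), integral_finsetSum _ fun i _ => h2 i,
    Finset.sum_congr rfl fun i _ => integral_finsetSum _ fun j _ => hi _ ((hE i).inter (hE j)),
    Finset.sum_congr rfl fun i _ => integral_indicator_one (hE i),
    Finset.sum_congr rfl fun i _ => Finset.sum_congr rfl fun j _ =>
      integral_indicator_one ((hE i).inter (hE j)), integral_const, probReal_univ, one_smul] at h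
  linarith

theorem fr_poly {j k : ℕ} (h : j ≠ k) : ∃ P : Polynomial K, 0 < P.natDegree ∧
    ∀ t s : K, t * s = 1 → t ^ (2 * j) + t ^ (2 * k) = t ^ (j + k) * P.eval (t + s) := by
  wlog hjk : k < j generalizing j k
  · simpa only [add_comm] using this h.symm (by omega)
  obtain ⟨m, rfl⟩ := Nat.exists_eq_add_of_lt hjk
  refine ⟨Polynomial.dickson 1 1 (m + 1), Nat.pos_of_ne_zero fun h0 => ?_, fun t s hts => ?_⟩
  · have h1 := Polynomial.dickson_one_one_eval_add_inv (1 : K) 1 (by norm_num) (m + 1)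
    have h2 := Polynomial.dickson_one_one_eval_add_inv (2 : K) 2⁻¹ (by norm_num) (m + 1)
    rw [Polynomial.eq_C_of_natDegree_eq_zero h0, Polynomial.eval_C] at h1 h2
    have h3 : ((2 : K) ^ (m + 1) - 1) ^ 2 = 0 := by
      rw [h1, one_pow, inv_pow] at h2
      field_simp at h2
      linear_combination -h2
    have h4 : (2 : ℕ) ^ (m + 1) = 1 := by
      exact_mod_cast sub_eq_zero.1 (pow_eq_zero_iff two_ne_zero |>.1 h3)
    omega
  · rw [Polynomial.dickson_one_one_eval_add_inv t s hts]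
    have := congrArg (· ^ (m + 1)) hts
    simp only [mul_pow, one_pow] at this
    linear_combination (-t ^ (2 * k)) * this

theorem fr_unit {y : K} (h0 : (y : ℂ).im = 0) (h1 : 0 ≤ (y : ℂ).re) (h2 : (y : ℂ).re < 1) :
    ∃ t s : K, t * s = 1 ∧ t + s = y ∧ ‖(t : ℂ)‖ = 1 := by
  obtain ⟨r, hr⟩ : ∃ r : ℝ, (y : ℂ) = r := ⟨(y : ℂ).re, Complex.ext (by simp) (by simp [h0])⟩
  rw [hr, Complex.ofReal_re] at h1 h2
  have h3 : 0 ≤ 1 - (r / 2) ^ 2 := by nlinarith
  have h4 : ((1 - (r / 2) ^ 2 : ℝ) : ℂ) ∈ KF := by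
    have : ((1 - (r / 2) ^ 2 : ℝ) : ℂ) = ((1 - (y / 2) ^ 2 : K) : ℂ) := by push_cast; rw [hr]; rfl
    rw [this]; exact SetLike.coe_mem _
  let q : K := ⟨_, sqrt_mem_KF h3 h4⟩
  have hq : (q : ℂ) = (Real.sqrt (1 - (r / 2) ^ 2) : ℝ) := rfl
  have h5 : ((y / 2 : K) : ℂ) = (r / 2 : ℝ) := by push_cast; rw [hr]; rfl
  refine ⟨y / 2 + q * iK, y / 2 - q * iK, Subtype.ext ?_, by ring, ?_⟩
  · have h6 : (q : ℂ) ^ 2 = 1 - ((r / 2 : ℝ) : ℂ) ^ 2 := by
      rw [hq]; exact_mod_cast Real.sq_sqrt h3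
    simp only [MulMemClass.coe_mul, AddMemClass.coe_add, AddSubgroupClass.coe_sub, h5, coe_iK,
      OneMemClass.coe_one]
    linear_combination h6 - (q : ℂ) ^ 2 * Complex.I_sq
  · simp only [MulMemClass.coe_mul, AddMemClass.coe_add, h5, coe_iK, hq]
    rw [Complex.norm_add_mul_I, Real.sq_sqrt h3, add_sub_cancel, Real.sqrt_one]

theorem fr_avg (μ : Measure (Ch K)) [IsProbabilityMeasure μ] (hae : ∀ᵐ χ ∂μ, LineDisc χ)
    {v : (n : ℕ) → (Fin (n + 1) → Fin (n + 1)) → K}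
    (hv : ∀ χ : Ch K, LineDisc χ → ∀ p : Polynomial K, 0 < p.natDegree →
      Tendsto (fun n : ℕ => (∑ a, e (χ.1 (p.eval (v n a)))) / ((n + 1 : ℂ) ^ (n + 1)))
        atTop (𝓝 0)) {P : Polynomial K} (hP : 0 < P.natDegree) (c : UnitAddCircle) {δ : ℝ}
    {L : ℕ} (hL : 0 < L) (h : 16 * L * δ ≤ 1) : ∀ᶠ n : ℕ in atTop,
      ∑ a, μ.real {χ | ‖χ.1 (P.eval (v n a)) - c‖ ≤ δ} ≤ (n + 1 : ℝ) ^ (n + 1) * (5 / L) := by
  have hL' : (0 : ℝ) < L := by exact_mod_cast hL
  have hn : ∀ n : ℕ, ‖(n + 1 : ℂ) ^ (n + 1)‖ = (n + 1 : ℝ) ^ (n + 1) := fun n => by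
    rw [norm_pow]; exact_mod_cast congrArg (· ^ (n + 1)) (Complex.norm_natCast (n + 1))
  let R : ℕ → Ch K → ℝ := fun n χ => ∑ l : Fin L, ∑ l' : Fin L,
    ‖(∑ a, e (χ.1 ((Polynomial.C (((l : ℕ) : K) - (l' : ℕ)) * P).eval (v n a)))) /
      ((n + 1 : ℂ) ^ (n + 1))‖
  have hc : ∀ n, Continuous (R n) := fun n => by fun_prop
  have hb : ∀ n χ, ‖R n χ‖ ≤ L * (L * 1) := fun n χ => by
    rw [Real.norm_of_nonneg (by positivity)]
    refine (Finset.sum_le_card_nsmul _ _ (L * 1 : ℝ) fun l _ =>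
      (Finset.sum_le_card_nsmul _ _ (1 : ℝ) fun l' _ => ?_).trans (by simp)).trans (by simp)
    rw [norm_div, hn, div_le_one (by positivity)]
    exact (norm_sum_le _ _).trans (by simp)
  have hi : ∀ n, Integrable (R n) μ := fun n =>
    (integrable_const _).mono' (hc n).aestronglyMeasurable (ae_of_all _ (hb n))
  have hlim : Tendsto (fun n => ∫ χ, R n χ ∂μ) atTop
      (𝓝 (∫ _, (∑ l : Fin L, ∑ l' : Fin L, if l = l' then 1 else 0 : ℝ) ∂μ)) := by
    refine tendsto_integral_of_dominated_convergence _ (fun n => (hc n).aestronglyMeasurable)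
      (integrable_const _) (fun n => ae_of_all _ (hb n)) (hae.mono fun χ hχ => ?_)
    refine tendsto_finsetSum _ fun l _ => tendsto_finsetSum _ fun l' _ => ?_
    split_ifs with hl
    · refine tendsto_const_nhds.congr fun n => ?_
      rw [norm_div, hn, eq_div_iff (by positivity)]
      simp [hl, χ.map_zero, ← hn]
    · refine tendsto_zero_iff_norm_tendsto_zero.1 (hv χ hχ _ ?_)
      rwa [Polynomial.natDegree_C_mul (sub_ne_zero.2 (by exact_mod_cast Fin.val_ne_of_ne hl))]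
  simp only [Finset.sum_ite_eq, Finset.mem_univ, if_true, Finset.sum_const, Finset.card_univ,
    Fintype.card_fin, nsmul_eq_mul, mul_one, integral_const, probReal_univ, one_smul] at hlim
  filter_upwards [hlim.eventually_le_const (show (L : ℝ) < 5 / 4 * L by linarith)] with n h1
  have hm : ∀ a, MeasurableSet {χ : Ch K | ‖χ.1 (P.eval (v n a)) - c‖ ≤ δ} := fun a =>
    measurableSet_le ((measurable_eval _).sub_const _).norm measurable_const
  have hi' : ∀ a, Integrable ({χ : Ch K | ‖χ.1 (P.eval (v n a)) - c‖ ≤ δ}.indicator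
    (1 : Ch K → ℝ)) μ := fun a => (integrable_const 1).indicator (hm a)
  rw [← Finset.sum_congr rfl fun a _ => integral_indicator_one (hm a),
    ← integral_finsetSum _ fun a _ => hi' a]
  refine (integral_mono (integrable_finsetSum _ fun a _ => hi' a)
    ((hi n).const_mul ((n + 1 : ℝ) ^ (n + 1) * (4 / L ^ 2))) fun χ => ?_).trans ?_
  · have h2 := fr_sq fun a (l : Fin L) => e ((l : ℕ) • (χ.1 (P.eval (v n a)) - c))
    have h3 : ∀ l l' : Fin L, ∑ a, e ((l : ℕ) • (χ.1 (P.eval (v n a)) - c)) *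
        conj (e ((l' : ℕ) • (χ.1 (P.eval (v n a)) - c))) =
        (∑ a, e (χ.1 ((Polynomial.C (((l : ℕ) : K) - (l' : ℕ)) * P).eval (v n a)))) *
          e ((l' : ℕ) • c - (l : ℕ) • c) := fun l l' => by
      rw [Finset.sum_mul]
      refine Finset.sum_congr rfl fun a _ => ?_
      rw [← e_sub, ← e_add, Polynomial.eval_mul, Polynomial.eval_C, sub_mul, ← nsmul_eq_mul,
        ← nsmul_eq_mul, χ.map_sub, χ.map_nsmul, χ.map_nsmul, smul_sub, smul_sub]
      congr 1; abel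
    simp only [h3, norm_mul, norm_e, mul_one] at h2
    simp only [R, norm_div, hn, ← Finset.sum_div]
    rw [mul_comm, ← mul_assoc, div_mul_cancel₀ _ (by positivity), mul_comm]
    refine le_trans ?_ (mul_le_mul_of_nonneg_left h2 (by positivity))
    rw [Finset.mul_sum]
    refine Finset.sum_le_sum fun a _ => ?_
    by_cases ha : ‖χ.1 (P.eval (v n a)) - c‖ ≤ δ
    · rw [indicator_of_mem (by exact ha), Pi.one_apply, div_mul_eq_mul_div,
        le_div_iff₀ (by positivity)]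
      nlinarith [fr_fejer h ha]
    · rw [indicator_of_notMem (by exact ha)]; positivity
  · rw [integral_const_mul, mul_assoc]
    refine mul_le_mul_of_nonneg_left ((mul_le_mul_of_nonneg_left h1 (by positivity)).trans
      (le_of_eq (by field_simp))) (by positivity)

theorem frostman (μ : Measure (Ch K)) [IsProbabilityMeasure μ] (hU : UInv μ) (h0 : μ Cont = 0) :
    ∃ C : ℝ, 0 ≤ C ∧ ∀ x : K, x ≠ 0 → ∀ (c : UnitAddCircle) (ε : ℝ), 0 < ε →
      μ.real {χ | ‖χ.1 x - c‖ ≤ ε} ≤ C * Real.sqrt ε := by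
  refine ⟨20, by norm_num, fun x hx c ε hε => ?_⟩
  set p := μ.real {χ | ‖χ.1 x - c‖ ≤ ε} with hp
  have hp0 : 0 ≤ p := measureReal_nonneg
  suffices h : p ^ 2 ≤ 400 * ε by
    refine (sq_le_sq₀ hp0 (by positivity)).1 ?_
    rw [mul_pow, Real.sq_sqrt hε.le]; linarith
  by_cases hε' : 1 ≤ 1 / (32 * ε)
  swap
  · rw [not_le, div_lt_one (by positivity)] at hε'
    nlinarith [measureReal_le_one (μ := μ) (s := {χ | ‖χ.1 x - c‖ ≤ ε})]
  set L := ⌊1 / (32 * ε)⌋₊
  have hL : 0 < L := Nat.floor_pos.2 hε'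
  have hL0 : (1 : ℝ) ≤ L := by exact_mod_cast hL
  have hL1 : 16 * L * (2 * ε) ≤ 1 := by
    have := Nat.floor_le (show 0 ≤ 1 / (32 * ε) by positivity)
    rw [le_div_iff₀ (by positivity)] at this
    linarith
  have hL2 : 1 ≤ 64 * ε * L := by
    have := Nat.lt_floor_add_one (1 / (32 * ε))
    rw [div_lt_iff₀ (by positivity)] at this
    nlinarith
  obtain ⟨v, hv0, hv⟩ := exists_folner
  choose P hP hP' using fun (j k : Fin L) (h : j ≠ k) => fr_poly (Fin.val_ne_of_ne h)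
  obtain ⟨n, hn⟩ := (eventually_all.2 fun j => eventually_all.2 fun k =>
    eventually_all.2 fun h => fr_avg μ (ae_lineDisc μ hU h0) hv (P := P j k h * Polynomial.C x)
      (by rw [Polynomial.natDegree_mul_C hx]; exact hP j k h) (c + c) hL hL1).exists
  choose t s hts hy ht using fun a => fr_unit (hv0 n a).1 (hv0 n a).2.1 (hv0 n a).2.2
  have hm : ∀ (z : K) (c : UnitAddCircle) (δ : ℝ), MeasurableSet {χ : Ch K | ‖χ.1 z - c‖ ≤ δ} :=
    fun z c δ => measurableSet_le ((measurable_eval _).sub_const _).norm measurable_const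
  have hr : ∀ a (j : ℕ) (z : K) (c : UnitAddCircle) (δ : ℝ),
      μ.real {χ | ‖χ.1 (t a ^ j * z) - c‖ ≤ δ} = μ.real {χ | ‖χ.1 z - c‖ ≤ δ} :=
    fun a j z c δ => (hU (t a ^ j) (by simp [ht])).measureReal_preimage
      (hm z c δ).nullMeasurableSet
  have h1 := Finset.sum_le_sum fun a (_ : a ∈ Finset.univ) => fr_second μ
    (fun j : Fin L => {χ : Ch K | ‖χ.1 (t a ^ (2 * (j : ℕ)) * x) - c‖ ≤ ε}) fun j => hm _ _ _
  rw [Finset.sum_comm] at h1
  replace h1 := h1.trans (Finset.sum_le_sum (g := fun j => ∑ k, (n + 1 : ℝ) ^ (n + 1) *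
      ((if j = k then 1 else 0) + 5 / L)) fun j _ => by
    rw [Finset.sum_comm]
    refine Finset.sum_le_sum fun k _ => ?_
    split_ifs with hjk
    · refine (Finset.sum_le_card_nsmul _ _ 1 fun a _ => measureReal_le_one).trans ?_
      simp only [Finset.card_univ, Fintype.card_fun, Fintype.card_fin, nsmul_eq_mul]
      push_cast
      exact mul_le_mul_of_nonneg_left (le_add_of_nonneg_right (by positivity)) (by positivity)
    · rw [zero_add]
      refine le_trans (Finset.sum_le_sum fun a _ => ?_) (hn j k hjk)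
      rw [← hr a (j + k)]
      refine measureReal_mono fun χ hχ => ?_
      rw [mem_ofPred_eq, Polynomial.eval_mul, Polynomial.eval_C, ← mul_assoc, ← hy,
        ← hP' j k hjk _ _ (hts a), add_mul, χ.map_add, add_sub_add_comm]
      exact (norm_add_le _ _).trans (by linarith [hχ.1.out, hχ.2.out]))
  simp only [hr, ← hp, ← Finset.mul_sum, Finset.sum_add_distrib, Finset.sum_ite_eq,
    Finset.mem_univ, if_true, Finset.sum_const, Finset.card_univ, Fintype.card_fun,
    Fintype.card_fin, nsmul_eq_mul, mul_one] at h1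
  push_cast at h1
  replace h1 := le_of_mul_le_mul_left h1 (by positivity)
  have h2 : (L : ℝ) * (L * (5 / L)) = 5 * L := by field_simp
  have h3 : L * p ^ 2 ≤ 6 := le_of_mul_le_mul_left (by nlinarith) (show (0 : ℝ) < L by linarith)
  nlinarith

end Crest.Agent.R40
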