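import Crest.Agent.R40.Host
import Crest.Agent.R40.Frost

/-!
# Row 40: rigidity

On the positive-measure set produced by `host` the new 5-adic digit is determined by the past most
of the time, so the set is covered by `1.28 ^ n` cells at level `(2 - i)^(-n)`; by the Frostman
estimate each cell has mass `≲ 5 ^ (-n/4)`.
-/

set_option autoImplicit false

open MeasureTheory Set Filter Topology
open scoped ComplexConjugate ENNReal

namespace Crest.Agent.R40

noncomputable section

theorem exists_arc (N : ℕ) (hN : 0 < N) :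
    ∃ q : UnitAddCircle → Fin N, ∀ x y, q x = q y → ‖x - y‖ ≤ 1 / N := by
  have hN' : (0 : ℝ) < N := by exact_mod_cast hN
  have h : ∀ x : UnitAddCircle, ∃ t : ℝ, 0 ≤ t ∧ t < 1 ∧ (t : UnitAddCircle) = x := by
    intro x
    induction x using QuotientAddGroup.induction_on with
    | H s => exact ⟨Int.fract s, Int.fract_nonneg s, Int.fract_lt_one s, AddCircle.coe_fract s⟩
  choose t ht0 ht1 ht using h
  refine ⟨fun x => ⟨⌊t x * N⌋₊, ?_⟩, fun x y hxy => ?_⟩
  · rw [Nat.floor_lt (mul_nonneg (ht0 x) hN'.le)]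
    nlinarith [ht1 x]
  · have h1 : ⌊t x * N⌋₊ = ⌊t y * N⌋₊ := congrArg Fin.val hxy
    rw [← ht x, ← ht y, ← AddCircle.coe_sub]
    refine (norm_coe_le _).trans ?_
    have a1 := Nat.floor_le (mul_nonneg (ht0 x) hN'.le)
    have a2 := Nat.lt_floor_add_one (t x * N)
    have b1 := Nat.floor_le (mul_nonneg (ht0 y) hN'.le)
    have b2 := Nat.lt_floor_add_one (t y * N)
    rw [h1] at a1 a2
    rw [le_div_iff₀ hN', ← abs_of_pos hN', ← abs_mul, abs_le]
    constructor <;> nlinarith

theorem exists_sep {L : Set (Ch O)} (hL : IsCompact L)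
    (hsep : ∀ x ∈ L, ∀ k : ZMod 5, k ≠ 0 → x + tk k ∉ L) :
    ∃ (Z : Finset O) (κ : ℝ), 0 < κ ∧ ∀ x ∈ L, ∀ x' ∈ L, ∀ k : ZMod 5, k ≠ 0 →
      ∃ z ∈ Z, κ < ‖x.1 z - x'.1 z - (tk k).1 z‖ := by
  classical
  let D : Set (Ch O) := ⋃ k ∈ {k : ZMod 5 | k ≠ 0}, (fun p : Ch O × Ch O => p.1 - p.2 - tk k) '' (L ×ˢ L)
  have hD : IsCompact D :=
    (Set.toFinite _).isCompact_biUnion fun k _ => (hL.prod hL).image (by fun_prop)
  let U : O × ℕ → Set (Ch O) := fun p => {y | 1 / ((p.2 : ℝ) + 1) < ‖y.1 p.1‖}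
  have hU : ∀ p, IsOpen (U p) := fun p => isOpen_lt continuous_const (by fun_prop)
  have hcov : D ⊆ ⋃ p, U p := by
    intro y hy
    simp only [D, mem_iUnion, mem_image, mem_prod, mem_ofPred_eq] at hy
    obtain ⟨k, hk, ⟨x, x'⟩, ⟨hx, hx'⟩, rfl⟩ := hy
    have hne : x - x' - tk k ≠ 0 := by
      intro h
      apply hsep x' hx' k hk
      have : x' + tk k = x := by rw [sub_sub, sub_eq_zero] at h; exact h.symm
      rw [this]; exact hx
    obtain ⟨z, hz⟩ : ∃ z, (x - x' - tk k).1 z ≠ 0 := by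
      by_contra h
      push Not at h
      exact hne (Ch.ext h)
    obtain ⟨n, hn⟩ := exists_nat_one_div_lt (norm_pos_iff.2 hz)
    exact mem_iUnion.2 ⟨(z, n), hn⟩
  obtain ⟨t, ht⟩ := hD.elim_finite_subcover U hU hcov
  refine ⟨t.image Prod.fst, 1 / ((t.sup Prod.snd : ℕ) + 1 : ℝ), by positivity, ?_⟩
  intro x hx x' hx' k hk
  have : x - x' - tk k ∈ D := by
    simp only [D, mem_iUnion, mem_image, mem_prod, mem_ofPred_eq]
    exact ⟨k, hk, (x, x'), ⟨hx, hx'⟩, rfl⟩
  obtain ⟨p, hp, hp'⟩ := mem_iUnion₂.1 (ht this)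
  refine ⟨p.1, Finset.mem_image_of_mem _ hp, lt_of_le_of_lt ?_ hp'⟩
  have : p.2 ≤ t.sup Prod.snd := Finset.le_sup (f := Prod.snd) hp
  have : (p.2 : ℝ) ≤ (t.sup Prod.snd : ℕ) := by exact_mod_cast this
  exact one_div_le_one_div_of_le (by positivity) (by linarith)

/-- `1/(2 - i)` -/
def bK : K := (gK pb)⁻¹
/-- `(2 + i)/(2 - i)` -/
def uK : K := gK pp * bK

theorem gK_pb_ne : gK pb ≠ 0 := gK_ne_zero (by decide)
theorem gK_pp_ne : gK pp ≠ 0 := gK_ne_zero (by decide)

theorem uK_mul_vO : uK * jO vO = 1 := by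
  rw [jO_vO, uK, bK]; field_simp [gK_pb_ne, gK_pp_ne]

theorem norm_uK : ‖(uK : ℂ)‖ = 1 := by
  have := congrArg (fun z : K => ‖(z : ℂ)‖) uK_mul_vO
  simp only [MulMemClass.coe_mul, norm_mul, norm_jO_vO, mul_one] at this
  simpa using this

theorem norm_uK_pow (j : ℕ) : ‖((uK ^ j : K) : ℂ)‖ = 1 := by
  push_cast; rw [norm_pow, norm_uK, one_pow]

theorem norm_bK : ‖(bK : ℂ)‖ = (Real.sqrt 5)⁻¹ := by
  rw [bK]; push_cast; rw [norm_inv, norm_gK_pb]

/-- `ψ` kills the lattice `(2 - i)^(-j) d⁻¹ ℤ[i]` -/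
def Kill (d : GaussianInt) (j : ℕ) (ψ : Ch K) : Prop :=
  ∀ a : GaussianInt, ψ.1 (bK ^ j * gK a / gK d) = 0

theorem Kill.exists_digit {d : GaussianInt} {j : ℕ} {ψ : Ch K} (h : Kill d j ψ) :
    ∃ k : ZMod 5, ∀ a, ψ.1 (uK ^ (j + 1) * gK a / gK d) = ZMod.toAddCircle (k * r0 a) := by
  refine exists_eq_r0 (AddMonoidHom.mk' (fun a => ψ.1 (uK ^ (j + 1) * gK a / gK d)) fun a b => by
    rw [map_add, mul_add, add_div, Ch.map_add]) fun a => ?_
  show ψ.1 _ = 0
  rw [← h (pp ^ (j + 1) * a)]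
  rw [map_mul, map_mul, map_pow, uK, mul_pow, pow_succ bK, bK]
  field_simp [gK_pb_ne]

theorem Kill.succ {d : GaussianInt} {j : ℕ} {ψ : Ch K} (h : Kill d j ψ)
    (h' : ∀ a, ψ.1 (uK ^ (j + 1) * gK a / gK d) = 0) : Kill d (j + 1) ψ := by
  intro a
  obtain ⟨n, hn⟩ := ZMod.intCast_surjective (r0 a / 4 ^ (j + 1))
  obtain ⟨a', ha'⟩ := pb_dvd_of_r0 (a := a - n * pp ^ (j + 1)) (by
    rw [map_sub, map_mul, map_intCast, map_pow, r0_pp, hn,
      div_mul_cancel₀ _ (pow_ne_zero _ four_ne_zero'), sub_self])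
  have : bK ^ (j + 1) * gK a / gK d = uK ^ (j + 1) * gK n / gK d + bK ^ j * gK a' / gK d := by
    rw [eq_add_of_sub_eq' ha', map_add, map_mul, map_mul, map_pow, uK, mul_pow, pow_succ bK, bK]
    field_simp [gK_pb_ne]
  rw [this, Ch.map_add, h', h, add_zero]

theorem exists_lin {d : GaussianInt} (hd : d ≠ 0) (ψ : Ch K) {ρ : ℝ}
    (h1 : ‖ψ.1 (1 / gK d)‖ ≤ ρ) (h2 : ‖ψ.1 (iK / gK d)‖ ≤ ρ) :
    ∃ s : ℂ, ‖s‖ ≤ 2 * ρ * ‖(gK d : ℂ)‖ ∧ Kill d 0 (ψ - lin s) := by
  obtain ⟨α, hα, hα'⟩ := exists_rep (ψ.1 (1 / gK d))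
  obtain ⟨β, hβ, hβ'⟩ := exists_rep (ψ.1 (iK / gK d))
  have hd' : (gK d : ℂ) ≠ 0 := by exact_mod_cast gK_ne_zero hd
  refine ⟨(α - β * Complex.I) * gK d, ?_, fun a => ?_⟩
  · rw [norm_mul]
    refine mul_le_mul_of_nonneg_right ((norm_sub_le _ _).trans ?_) (norm_nonneg _)
    simp only [Complex.norm_real, Real.norm_eq_abs, norm_mul, Complex.norm_I, mul_one]
    linarith
  · have : bK ^ 0 * gK a / gK d = a.re • (1 / gK d) + a.im • (iK / gK d) := by
      simp [gK, Zsqrtd.lift_apply_apply]; ring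
    rw [this, Ch.map_add, Ch.map_zsmul, Ch.map_zsmul, Ch.sub_apply, Ch.sub_apply, ← hα, ← hβ,
      lin_apply, lin_apply]
    have e1 : ((α - β * Complex.I) * gK d * ((1 / gK d : K) : ℂ)).re = α := by
      push_cast; rw [mul_assoc, mul_one_div_cancel hd']; simp
    have e2 : ((α - β * Complex.I) * gK d * ((iK / gK d : K) : ℂ)).re = β := by
      push_cast; rw [mul_assoc, mul_div_cancel₀ _ hd']; simp
    rw [e1, e2]; simp

theorem card_codes (n : ℕ) :
    ((Finset.univ.filter fun β : Fin n → Option (Fin 10) =>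
      40 * (Finset.univ.filter fun j => β j ≠ none).card ≤ n).card : ℝ) ≤ (32 / 25) ^ n := by
  let wt : Option (Fin 10) → ℝ := fun o => if o = none then 1 else (9 / 10) ^ 40
  have hwt : ∀ o, 0 ≤ wt o := fun o => by simp only [wt]; split_ifs <;> positivity
  have hsum : ∑ o, wt o ≤ 23 / 20 := by
    rw [Fintype.sum_option]; simp [wt]; norm_num
  have h1 : ∑ β : Fin n → Option (Fin 10), ∏ j, wt (β j) ≤ (23 / 20) ^ n := by
    rw [← Fintype.sum_pow]
    exact pow_le_pow_left₀ (Finset.sum_nonneg fun o _ => hwt o) hsum n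
  have h2 : ((Finset.univ.filter fun β : Fin n → Option (Fin 10) =>
      40 * (Finset.univ.filter fun j => β j ≠ none).card ≤ n).card : ℝ) * (9 / 10) ^ n ≤
      ∑ β : Fin n → Option (Fin 10), ∏ j, wt (β j) := by
    rw [← nsmul_eq_mul]
    refine (Finset.card_nsmul_le_sum _ (fun β => ∏ j, wt (β j)) _ fun β hβ => ?_).trans
      (Finset.sum_le_sum_of_subset_of_nonneg (Finset.subset_univ _)
        fun β _ _ => Finset.prod_nonneg fun j _ => hwt _)
    simp only [wt]
    rw [Finset.prod_ite, Finset.prod_const_one, one_mul, Finset.prod_const, ← pow_mul]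
    exact pow_le_pow_of_le_one (by norm_num) (by norm_num) (Finset.mem_filter.1 hβ).2
  have h3 : ((23 : ℝ) / 20) ^ n ≤ (32 / 25) ^ n * (9 / 10) ^ n := by
    rw [← mul_pow]; exact pow_le_pow_left₀ (by norm_num) (by norm_num) n
  exact le_of_mul_le_mul_right (h2.trans (h1.trans h3)) (by positivity)

open Classical in
/-- two characters with the same code agree on a fine lattice up to a small frequency -/
theorem coding {L : Set (Ch O)} (hL : IsCompact L)
    (hsep : ∀ x ∈ L, ∀ k : ZMod 5, k ≠ 0 → x + tk k ∉ L) :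
    ∃ (N : ℕ) (q₀ : Ch K → Fin N × Fin N) (q : ℕ → Ch K → Fin 10) (z : ℕ → K),
      (∀ n, z n ≠ 0) ∧ ∀ (n : ℕ) (χ χ' : Ch K), q₀ χ = q₀ χ' →
        (∀ j < n, (if res (rot (uK ^ (j + 1)) χ) ∈ L then none else some (q j χ)) =
          (if res (rot (uK ^ (j + 1)) χ') ∈ L then none else some (q j χ'))) →
        ‖χ.1 (z n) - χ'.1 (z n)‖ ≤ ((Real.sqrt 5)⁻¹) ^ n := by
  obtain ⟨Z, κ, hκ, hZ⟩ := exists_sep hL hsep
  obtain ⟨d, hd, hdZ⟩ := exists_common_den Z
  have hd0 : d ≠ 0 := ne_zero_of_r0 hd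
  have hdK : gK d ≠ 0 := gK_ne_zero hd0
  have hdC : 0 < ‖(gK d : ℂ)‖ := norm_pos_iff.2 (by exact_mod_cast hdK)
  set A : ℝ := ∑ z ∈ Z, ‖(jO z : ℂ)‖ with hA
  have hA0 : 0 ≤ A := Finset.sum_nonneg fun _ _ => norm_nonneg _
  obtain ⟨N, hN⟩ := exists_nat_gt (21 + 2 * ‖(gK d : ℂ)‖ * A / κ)
  have hN1 : (21 : ℝ) < N := lt_of_le_of_lt (le_add_of_nonneg_right (by positivity)) hN
  have hN2 : 2 * ‖(gK d : ℂ)‖ * A / κ < N := by linarith
  obtain ⟨q0, hq0⟩ := exists_arc N (by exact_mod_cast (by linarith : (0 : ℝ) < N))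
  obtain ⟨q1, hq1⟩ := exists_arc 10 (by norm_num)
  refine ⟨N, fun χ => (q0 (χ.1 (1 / gK d)), q0 (χ.1 (iK / gK d))),
    fun j χ => q1 (χ.1 (uK ^ (j + 1) * gK 1 / gK d)), fun n => bK ^ n * gK 1 / gK d, fun n => ?_,
    fun n χ χ' h0 hcode => ?_⟩
  · beta_reduce
    rw [map_one, mul_one]
    exact div_ne_zero (pow_ne_zero _ (inv_ne_zero gK_pb_ne)) hdK
  obtain ⟨s, hs, hK0⟩ := exists_lin hd0 (χ - χ') (hq0 _ _ (congrArg Prod.fst h0))
    (hq0 _ _ (congrArg Prod.snd h0))
  have hNinv : 2 * (1 / (N : ℝ)) < 1 / 10 := by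
    rw [mul_one_div, div_lt_div_iff₀ (by linarith) (by norm_num)]; linarith
  have hsd : ∀ w : K, ‖(lin s).1 (w * gK 1 / gK d)‖ ≤ 2 * (1 / N) * ‖(w : ℂ)‖ := by
    intro w
    refine (norm_lin_le _ _).trans ?_
    rw [map_one, mul_one]; push_cast
    rw [norm_div, ← mul_div_assoc, div_le_iff₀ hdC]
    nlinarith [norm_nonneg (w : ℂ)]
  have hK : ∀ j ≤ n, Kill d j (χ - χ' - lin s) := by
    intro j
    induction j with
    | zero => exact fun _ => hK0
    | succ j ih =>
      intro hj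
      have hj' := ih (by omega)
      obtain ⟨k, hk⟩ := hj'.exists_digit
      refine hj'.succ fun a => ?_
      suffices k = 0 by rw [hk, this]; simp
      by_contra hk0
      have hc := hcode j (by omega)
      split_ifs at hc with h1 h2 h2
      · obtain ⟨z, hz, hz'⟩ := hZ _ h1 _ h2 (k * r0 d) (mul_ne_zero hk0 hd)
        obtain ⟨a, ha⟩ := hdZ z hz
        have hja : jO z = gK a / gK d := by
          rw [eq_div_iff hdK, ← jO_gO, ← map_mul, ha, jO_gO]
        have hra : r0 d * rO z = r0 a := by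
          rw [← rO_gO d, ← map_mul, mul_comm, ha, rO_gO]
        have e1 := hk a
        rw [mul_div_assoc, ← hja, Ch.sub_apply, Ch.sub_apply] at e1
        rw [res_apply, res_apply, rot_apply, rot_apply, tk_apply, mul_assoc, hra, ← e1,
          sub_sub_cancel] at hz'
        have e2 := norm_lin_le s (uK ^ (j + 1) * jO z)
        rw [MulMemClass.coe_mul, norm_mul, norm_uK_pow, one_mul] at e2
        have e3 : ‖(jO z : ℂ)‖ ≤ A :=
          Finset.single_le_sum (f := fun z => ‖(jO z : ℂ)‖) (fun _ _ => norm_nonneg _) hz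
        have e4 : ‖s‖ * ‖(jO z : ℂ)‖ ≤ 2 * (1 / N) * ‖(gK d : ℂ)‖ * A :=
          mul_le_mul hs e3 (norm_nonneg _) (by positivity)
        have e5 : 2 * (1 / N) * ‖(gK d : ℂ)‖ * A ≤ κ := by
          rw [div_lt_iff₀ hκ] at hN2
          have : 2 * (1 / N) * ‖(gK d : ℂ)‖ * A = 2 * ‖(gK d : ℂ)‖ * A / N := by ring
          rw [this, div_le_iff₀ (by linarith)]; linarith
        linarith
      · have e0 := hq1 _ _ (Option.some.inj hc)
        have e1 := hk 1
        rw [map_one r0, mul_one, Ch.sub_apply, Ch.sub_apply] at e1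
        have e2 := le_norm_toAddCircle hk0
        rw [← e1] at e2
        have e3 := hsd (uK ^ (j + 1))
        rw [norm_uK_pow, mul_one] at e3
        have e4 := e2.trans (norm_sub_le _ _)
        push_cast at e0
        linarith
  have e1 := hK n le_rfl 1
  rw [Ch.sub_apply, sub_eq_zero, Ch.sub_apply] at e1
  rw [e1]
  refine (hsd _).trans ?_
  push_cast
  rw [norm_pow, norm_bK]
  exact mul_le_of_le_one_left (by positivity) (by linarith)

theorem rigid_one (μ : Measure (Ch K)) [IsProbabilityMeasure μ] (hU : UInv μ) (h0 : μ Cont = 0) :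
    ft μ 1 = 0 := by
  classical
  by_contra hc
  obtain ⟨C, hC0, hC⟩ := frostman μ hU h0
  have hres : MeasurePreserving res μ (μ.map res) := ⟨measurable_res, rfl⟩
  have : IsProbabilityMeasure (μ.map res) := Measure.isProbabilityMeasure_map measurable_res.aemeasurable
  set m := μ.map res with hm
  have hS : MeasurePreserving Sh m m := by
    refine ⟨measurable_Sh, ?_⟩
    rw [hm, Measure.map_map measurable_Sh measurable_res]
    have : Sh ∘ res = res ∘ rot (jO vO) := funext Sh_res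
    rw [this, ← Measure.map_map measurable_res (measurable_rot _), (hU _ norm_jO_vO).map_eq]
  have hw : ∀ a : ℕ, ft m (wO a) = ft μ 1 := by
    intro a
    unfold ft
    rw [hm, integral_map measurable_res.aemeasurable
      (Continuous.aestronglyMeasurable (by fun_prop))]
    conv_rhs => rw [← (hU _ (norm_jO_wO a)).map_eq, integral_map (measurable_rot _).aemeasurable
      (Continuous.aestronglyMeasurable (by fun_prop))]
    simp
  obtain ⟨Y, L₀, hY, hL₀, hY0, hSY, hYL, hsep⟩ := host m hS _ hc hw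
  have hYt : m Y ≠ ∞ := measure_ne_top _ _
  have hδ : m Y / 80 ≠ 0 := by
    rw [Ne, ENNReal.div_eq_zero_iff, not_or]; exact ⟨hY0, by simp⟩
  obtain ⟨L, hLs, hL, hLm⟩ := (hY.inter hL₀).exists_isCompact_sdiff_lt (measure_ne_top m _) hδ
  have hLmeas : MeasurableSet L := hL.isClosed.measurableSet
  have hYL' : m (Y \ L) ≤ m Y / 80 := by
    refine (measure_mono (t := (Y \ L₀) ∪ ((Y ∩ L₀) \ L)) ?_).trans ((measure_union_le _ _).trans ?_)
    · rintro x ⟨h1, h2⟩
      by_cases h : x ∈ L₀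
      · exact Or.inr ⟨⟨h1, h⟩, h2⟩
      · exact Or.inl ⟨h1, h⟩
    · rw [hYL, zero_add]; exact hLm.le
  obtain ⟨N, q₀, q, z, hz, hcode⟩ := coding hL fun x hx k hk h => hsep x (hLs hx).2 k hk (hLs h).2
  have hT : ∀ j : ℕ, MeasurePreserving (fun χ => res (rot (uK ^ j) χ)) μ m :=
    fun j => hres.comp (hU _ (norm_uK_pow j))
  have hback : ∀ (j : ℕ) (χ : Ch K), res (rot (uK ^ (j + 1)) χ) ∈ Y → res (rot (uK ^ j) χ) ∈ Y := by
    intro j χ h
    have := hSY h
    rwa [Sh_res, rot_rot, pow_succ, mul_assoc, uK_mul_vO, mul_one] at this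
  have hback' : ∀ (n j : ℕ) (χ : Ch K), j ≤ n → res (rot (uK ^ n) χ) ∈ Y →
      res (rot (uK ^ j) χ) ∈ Y := by
    intro n j χ hj h
    induction n, hj using Nat.le_induction with
    | base => exact h
    | succ n _ ih => exact ih (hback n χ h)
  have hy : 0 < (m Y).toReal := ENNReal.toReal_pos hY0 hYt
  -- the main estimate at level `n`
  have main : ∀ n : ℕ, 0 < n → (m Y).toReal / 2 ≤ N * N * C * (544 / 625) ^ n := by
    intro n hn
    let f : Ch K → ℝ≥0∞ := fun χ => ∑ j : Fin n, 40 *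
      ((fun χ => res (rot (uK ^ (j.1 + 1)) χ)) ⁻¹' (Y \ L)).indicator 1 χ
    have hfj : ∀ j : ℕ, MeasurableSet ((fun χ => res (rot (uK ^ j) χ)) ⁻¹' (Y \ L)) :=
      fun j => (hT j).measurable (hY.diff hLmeas)
    have hf : Measurable f := Finset.measurable_sum _ fun j _ =>
      (measurable_one.indicator (hfj _)).const_mul _
    have hMarkov : μ {χ | (n : ℝ≥0∞) ≤ f χ} ≤ m Y / 2 := by
      have h1 := mul_meas_ge_le_lintegral (μ := μ) hf (n : ℝ≥0∞)
      have h2 : ∫⁻ χ, f χ ∂μ ≤ n * (m Y / 2) := by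
        rw [lintegral_finsetSum _ fun j _ => (measurable_one.indicator (hfj _)).const_mul _]
        have : ∀ j ∈ (Finset.univ : Finset (Fin n)), ∫⁻ χ, 40 *
            ((fun χ => res (rot (uK ^ (j.1 + 1)) χ)) ⁻¹' (Y \ L)).indicator 1 χ ∂μ ≤ m Y / 2 := by
          intro j _
          rw [lintegral_const_mul' _ _ (by simp), lintegral_indicator_one (hfj _),
            (hT _).measure_preimage (hY.diff hLmeas).nullMeasurableSet]
          refine (mul_le_mul_right hYL' _).trans (le_of_eq ?_)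
          rw [show (80 : ℝ≥0∞) = 40 * 2 by norm_num, ← mul_div_assoc,
            ENNReal.mul_div_mul_left _ _ (by simp) (by simp)]
        simpa using Finset.sum_le_card_nsmul _ _ _ this
      exact (ENNReal.mul_le_mul_iff_right (by exact_mod_cast hn.ne') (by simp)).1 (h1.trans h2)
    let G : Set (Ch K) := (fun χ => res (rot (uK ^ n) χ)) ⁻¹' Y \ {χ | (n : ℝ≥0∞) ≤ f χ}
    have hG : (m Y).toReal / 2 ≤ μ.real G := by
      have h1 : m Y ≤ μ G + m Y / 2 := by
        rw [← (hT n).measure_preimage hY.nullMeasurableSet]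
        refine (measure_mono (subset_sdiff_union _ {χ | (n : ℝ≥0∞) ≤ f χ})).trans
          ((measure_union_le _ _).trans (add_le_add le_rfl ?_))
        rw [(hT n).measure_preimage hY.nullMeasurableSet]; exact hMarkov
      have h2 : m Y / 2 ≠ ∞ := ENNReal.div_ne_top hYt (by simp)
      have := ENNReal.toReal_mono (ENNReal.add_ne_top.2 ⟨measure_ne_top _ _, h2⟩) h1
      rw [ENNReal.toReal_add (measure_ne_top _ _) h2, ENNReal.toReal_div] at this
      simp only [ENNReal.toReal_ofNat] at this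
      rw [Measure.real]; linarith
    let code : Ch K → (Fin N × Fin N) × (Fin n → Option (Fin 10)) := fun χ =>
      (q₀ χ, fun j => if res (rot (uK ^ (j.1 + 1)) χ) ∈ L then none else some (q j χ))
    let S : Finset ((Fin N × Fin N) × (Fin n → Option (Fin 10))) := Finset.univ ×ˢ
      (Finset.univ.filter fun β => 40 * (Finset.univ.filter fun j => β j ≠ none).card ≤ n)
    have hGS : G ⊆ ⋃ c ∈ S, {χ | code χ = c} := by
      rintro χ ⟨h1, h2⟩
      refine mem_iUnion₂.2 ⟨code χ, ?_, rfl⟩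
      simp only [S, Finset.mem_product, Finset.mem_univ, Finset.mem_filter, true_and]
      have h3 : f χ = ((40 * (Finset.univ.filter fun j => (code χ).2 j ≠ none).card : ℕ) : ℝ≥0∞) := by
        simp only [f]
        rw [← Finset.mul_sum, Finset.card_filter]
        push_cast
        congr 1
        refine Finset.sum_congr rfl fun j _ => ?_
        have hj := hback' n (j + 1) χ j.2 h1
        by_cases hL : res (rot (uK ^ (j.1 + 1)) χ) ∈ L
        · simp [code, hL]
        · simp [code, hL, hj]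
      have h4 : f χ ≤ n := (not_le.1 h2).le
      rw [h3] at h4
      exact_mod_cast h4
    have hcell : ∀ c ∈ S, μ.real {χ | code χ = c} ≤ C * (17 / 25) ^ n := by
      intro c _
      rcases Set.eq_empty_or_nonempty {χ | code χ = c} with h | ⟨χ', hχ'⟩
      · rw [h, measureReal_empty]; positivity
      · refine le_trans (measureReal_mono (fun χ hχ => ?_)) ((hC (z n) (hz n) (χ'.1 (z n))
          (((Real.sqrt 5)⁻¹) ^ n) (by positivity)).trans (mul_le_mul_of_nonneg_left ?_ hC0))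
        · have h1 : code χ = code χ' := hχ.trans hχ'.symm
          exact hcode n χ χ' (congrArg Prod.fst h1)
            fun j hj => congrFun (congrArg Prod.snd h1) ⟨j, hj⟩
        · rw [Real.sqrt_le_left (by positivity), ← pow_mul, mul_comm, pow_mul]
          refine pow_le_pow_left₀ (by positivity) ?_ n
          rw [inv_le_comm₀ (by positivity) (by positivity)]
          exact Real.le_sqrt_of_sq_le (by norm_num)
    have hcard : (S.card : ℝ) ≤ N * N * (32 / 25) ^ n := by
      rw [Finset.card_product]; push_cast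
      refine mul_le_mul (by simp) ?_ (by positivity) (by positivity)
      convert card_codes n
    refine hG.trans ((measureReal_mono hGS (measure_ne_top _ _)).trans ((measureReal_biUnion_finset_le _ _).trans
      ((Finset.sum_le_card_nsmul _ _ _ hcell).trans ?_)))
    rw [nsmul_eq_mul, show (544 : ℝ) / 625 = 32 / 25 * (17 / 25) by norm_num, mul_pow]
    calc (S.card : ℝ) * (C * (17 / 25) ^ n) ≤ N * N * (32 / 25) ^ n * (C * (17 / 25) ^ n) :=
          mul_le_mul_of_nonneg_right hcard (by positivity)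
      _ = _ := by ring
  have hlim : Tendsto (fun n : ℕ => (N : ℝ) * N * C * (544 / 625) ^ n) atTop (𝓝 0) := by
    simpa using (tendsto_pow_atTop_nhds_zero_of_lt_one (r := (544 : ℝ) / 625) (by norm_num)
      (by norm_num)).const_mul ((N : ℝ) * N * C)
  have := ge_of_tendsto hlim ((eventually_gt_atTop 0).mono main)
  linarith

theorem rigid (μ : Measure (Ch K)) [IsFiniteMeasure μ] (hU : UInv μ) (h0 : μ Cont = 0)
    (z : K) (hz : z ≠ 0) : ft μ z = 0 := by
  rcases eq_zero_or_neZero μ with rfl | hμ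
  · simp [ft]
  let ν : Measure (Ch K) := ((μ univ)⁻¹ • μ).map (rot z)
  have : IsProbabilityMeasure ν := Measure.isProbabilityMeasure_map (measurable_rot z).aemeasurable
  have h1 := rigid_one ν (fun u hu => ⟨measurable_rot u, by
    simp only [ν]
    rw [Measure.map_map (measurable_rot _) (measurable_rot _)]
    have : rot u ∘ rot z = rot z ∘ rot u := funext fun χ => by simp [rot_rot, mul_comm]
    rw [this, ← Measure.map_map (measurable_rot _) (measurable_rot _), Measure.map_smul,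
      (hU u hu).map_eq]⟩) (by
    simp only [ν]
    rw [Measure.map_apply (measurable_rot z) measurableSet_Cont]
    have : rot z ⁻¹' Cont = Cont := by ext χ; exact rot_mem_Cont_iff hz
    rw [this, Measure.smul_apply, h0, smul_zero])
  unfold ft at h1 ⊢
  simp only [ν] at h1
  rw [integral_map (measurable_rot _).aemeasurable
    (Continuous.aestronglyMeasurable (by fun_prop)), integral_smul_measure] at h1
  simp only [rot_apply, mul_one, smul_eq_zero] at h1
  refine h1.resolve_left ?_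
  rw [ENNReal.toReal_eq_zero_iff, not_or]
  exact ⟨ENNReal.inv_ne_zero.2 (measure_ne_top _ _), ENNReal.inv_ne_top.2 (NeZero.ne _)⟩

end

end Crest.Agent.R40
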