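import Crest.Agent.R40.Bochner
import Crest.Agent.R40.Code

/-!
# Row 40: correlations of an invariant random colouring are uniformly continuous off `0`

Recipe.  `φ z = P.real {ω 0 = i ∧ ω z = i}` (as a complex number).
* `P {ω x = i ∧ ω y = i} = φ (x - y)` up to symmetry (`hP.transl`; `φ (-z) = φ z` by translation or by
  the rotation `u = -1`); `PosDef φ` since the double sum is `∫ ‖∑ a_j 1[ω (z_j) = i]‖² dP`;
  `φ (u z) = φ z` by `hP.rot`.
* `bochner_inv` gives `μ`.  `μ.restrict Contᶜ` is finite, `UInv` (`rot_mem_Cont_iff`,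
  `MeasurePreserving.restrict_preimage`) and null on `Cont`, so `rigid` applies:
  `φ z = ∫_{Cont} e (χ z) dμ` for `z ≠ 0` (`integral_add_compl`).  Put `ψ z = Re ∫_{Cont} e (χ z) dμ`.
* `|ψ x - ψ y| ≤ ∫_{Cont} ‖e (χ (x - y)) - 1‖`.  The sets
  `C m = {χ | ∀ z, ‖z‖ < 1/(m+1) → ‖χ z‖ ≤ η}` increase and cover `Cont`, so `μ (Cont \ C m) → 0`
  (`tendsto_measure_iInter_atTop`), and the integral is `≤ 2π η μ(univ) + 2 μ (Cont \ C m)`
  (`norm_e_sub_one_le`).
-/

set_option autoImplicit false

open MeasureTheory Set Filter Topology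
open scoped ComplexConjugate

namespace Crest.Agent.R40

theorem co_meas (i : Fin 5) (x y : K) : MeasurableSet {ω : K → Fin 5 | ω x = i ∧ ω y = i} :=
  (measurableSet_eq_fun (measurable_pi_apply x) measurable_const).inter
    (measurableSet_eq_fun (measurable_pi_apply y) measurable_const)

open scoped ComplexOrder in
theorem co_posDef {P : Measure (K → Fin 5)} (hP : InvCol P) (i : Fin 5) :
    PosDef fun z => (P.real {ω | ω 0 = i ∧ ω z = i} : ℝ) := by
  intro ι _ z a
  have := hP.prob
  have h1 : ∀ x y : K, ((P.real {ω | ω 0 = i ∧ ω (x - y) = i} : ℝ) : ℂ) =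
      ∫ ω, {ω : K → Fin 5 | ω y = i ∧ ω x = i}.indicator (fun _ => (1 : ℂ)) ω ∂P := fun x y => by
    rw [integral_indicator_const _ (co_meas i y x), Complex.real_smul, mul_one,
      ← (hP.transl y).measureReal_preimage (co_meas i 0 (x - y)).nullMeasurableSet]
    simp only [preimage_ofPred_eq, zero_add, sub_add_cancel]
  have h2 : ∀ j k, Integrable (fun ω => a j * conj (a k) *
      {ω : K → Fin 5 | ω (z k) = i ∧ ω (z j) = i}.indicator (fun _ => (1 : ℂ)) ω) P :=
    fun j k => ((integrable_const _).indicator (co_meas i _ _)).const_mul _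
  simp only [h1, ← integral_const_mul]
  rw [Finset.sum_congr rfl fun j _ => (integral_finsetSum _ fun k _ => h2 j k).symm,
    ← integral_finsetSum _ fun j _ => integrable_finsetSum _ fun k _ => h2 j k]
  refine integral_nonneg fun ω => ?_
  have h3 : ∑ j, ∑ k, a j * conj (a k) *
      {ω : K → Fin 5 | ω (z k) = i ∧ ω (z j) = i}.indicator (fun _ => (1 : ℂ)) ω =
      (∑ j, if ω (z j) = i then a j else 0) * conj (∑ j, if ω (z j) = i then a j else 0) := by
    rw [map_sum, Finset.sum_mul_sum]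
    refine Finset.sum_congr rfl fun j _ => Finset.sum_congr rfl fun k _ => ?_
    by_cases hj : ω (z j) = i <;> by_cases hk : ω (z k) = i <;> simp [hj, hk]
  simp only [Pi.zero_apply, h3, Complex.mul_conj]
  exact_mod_cast Complex.normSq_nonneg _

theorem co_unif (μ : Measure (Ch K)) [IsFiniteMeasure μ] {ε : ℝ} (hε : 0 < ε) :
    ∃ δ : ℝ, 0 < δ ∧ ∀ x y : K, ‖(x : ℂ) - y‖ < δ →
      ‖ft (μ.restrict Cont) x - ft (μ.restrict Cont) y‖ ≤ ε := by
  by_contra hc
  push Not at hc
  choose x y hxy h using fun n : ℕ => hc (1 / ((n : ℝ) + 1)) (by positivity)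
  have h1 : Tendsto (fun n => ∫ χ in Cont, ‖e (χ.1 (x n)) - e (χ.1 (y n))‖ ∂μ) atTop
      (𝓝 (∫ _ in Cont, 0 ∂μ)) := by
    refine tendsto_integral_of_dominated_convergence (fun _ => 2)
      (fun n => ((integrable_e _ _).sub (integrable_e _ _)).norm.aestronglyMeasurable)
      (integrable_const _) (fun n => ae_of_all _ fun χ => ?_)
      ((ae_restrict_mem measurableSet_Cont).mono fun χ hχ => ?_)
    · rw [norm_norm]
      exact (norm_sub_le _ _).trans (by norm_num)
    · refine tendsto_order.2 ⟨fun a ha => Eventually.of_forall fun n =>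
        ha.trans_le (norm_nonneg _), fun η hη => ?_⟩
      obtain ⟨δ, hδ, hχ⟩ := hχ (η / 16) (by positivity)
      filter_upwards [tendsto_one_div_add_atTop_nhds_zero_nat.eventually_lt_const hδ] with n hn
      have h2 := hχ (x n - y n) (by push_cast; exact (hxy n).trans hn)
      have h3 : e (χ.1 (x n)) - e (χ.1 (y n)) = (e (χ.1 (x n - y n)) - 1) * e (χ.1 (y n)) := by
        rw [sub_one_mul, ← e_add, ← χ.map_add, sub_add_cancel]
      rw [h3, norm_mul, norm_e, mul_one]
      nlinarith [norm_e_sub_one_le (χ.1 (x n - y n)), Real.pi_le_four, Real.pi_pos,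
        norm_nonneg (χ.1 (x n - y n))]
  rw [integral_zero] at h1
  obtain ⟨n, hn⟩ := (h1.eventually_lt_const hε).exists
  refine ((h n).trans_le ?_).not_gt hn
  rw [ft, ft, ← integral_sub (integrable_e _ _) (integrable_e _ _)]
  exact norm_integral_le_integral_norm _

theorem corr_cont {P : Measure (K → Fin 5)} (hP : InvCol P) (i : Fin 5) :
    ∃ ψ : K → ℝ, (∀ z : K, z ≠ 0 → ψ z = P.real {ω | ω 0 = i ∧ ω z = i}) ∧
      ∀ ε : ℝ, 0 < ε → ∃ δ : ℝ, 0 < δ ∧ ∀ x y : K, ‖(x : ℂ) - y‖ < δ → |ψ x - ψ y| ≤ ε := by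
  obtain ⟨μ, _, hU, hμ⟩ := bochner_inv (fun z => (P.real {ω | ω 0 = i ∧ ω z = i} : ℝ))
      (@co_posDef P hP i) fun u z hu => by
    rw [← (hP.rot u hu).measureReal_preimage (co_meas i 0 z).nullMeasurableSet]
    simp only [preimage_ofPred_eq, mul_zero]
  have hR := rigid (μ.restrict Contᶜ) (fun u hu => by
    have := (hU u hu).restrict_preimage measurableSet_Cont.compl
    have h0 : u ≠ 0 := by rintro rfl; simp at hu
    have h1 : rot u ⁻¹' Contᶜ = Contᶜ := by
      ext χ; rw [mem_preimage, mem_compl_iff, mem_compl_iff, rot_mem_Cont_iff h0]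
    rwa [h1] at this)
    (by rw [Measure.restrict_apply measurableSet_Cont, inter_compl_self, measure_empty])
  refine ⟨fun z => (ft (μ.restrict Cont) z).re, fun z hz => ?_, fun ε hε => ?_⟩
  · have h1 : ft (μ.restrict Cont) z + ft (μ.restrict Contᶜ) z = ft μ z :=
      integral_add_compl measurableSet_Cont (integrable_e μ z)
    rw [hR z hz, add_zero, hμ] at h1
    simp only [h1, Complex.ofReal_re]
  · obtain ⟨δ, hδ, h⟩ := co_unif μ hε
    refine ⟨δ, hδ, fun x y hxy => le_trans ?_ (h x y hxy)⟩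
    rw [← Complex.sub_re]
    exact Complex.abs_re_le_norm _

end Crest.Agent.R40
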