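import Mathlib

/-!
# Row 40 (S0054): no proper five-colouring of the plane.  Basic definitions.

Overall route (see also the headers of the other files of `R40`).

* `K` = the countable field of algebraic complex numbers, `Ch G` = the compact group of characters
  `G → ℝ/ℤ` of a countable abelian group `G`.
* `Inv`     : a proper colouring gives a law `P` on proper colourings of `K` invariant under all
  translations and all rotations `z ↦ u z`, `u ∈ K`, `‖u‖ = 1`.
* `Bochner` : the correlation `φ z = P(ω 0 = i, ω z = i)` is the Fourier transform of a rotation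
  invariant measure on `Ch K`.
* `Frost*`, `Loc`, `Host`, `Code` : RIGIDITY: a rotation invariant measure on `Ch K` which does not
  charge the continuous characters has Fourier transform `0` off `0`.
* `Extract` : hence correlations are uniformly continuous off `0`, and local averages of the random
  colouring converge to a measurable a.e.-proper colouring of `ℂ`.
* `Meas*`, `Top*` : there is no measurable a.e.-proper five-colouring of `ℂ`.
-/

set_option autoImplicit false

open MeasureTheory Set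
open scoped ComplexConjugate

namespace Crest.Agent.R40

noncomputable section

/-! ### the field of algebraic numbers -/

/-- The field of algebraic complex numbers. -/
def KF : Subfield ℂ := (algebraicClosure ℚ ℂ).toSubfield

/-- The field of algebraic complex numbers as a type. -/
abbrev K : Type := ↥KF

theorem mem_KF {z : ℂ} : z ∈ KF ↔ IsAlgebraic ℚ z := mem_algebraicClosure_iff

instance : Countable K := by
  have h : (KF : Set ℂ).Countable := by
    have := Algebraic.countable ℚ ℂ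
    refine this.mono ?_
    intro z hz
    exact mem_KF.1 hz
  exact h.to_subtype

theorem mem_KF_of_sq {z : ℂ} (h : z ^ 2 ∈ KF) : z ∈ KF :=
  mem_KF.2 (IsAlgebraic.of_pow (by norm_num : 0 < 2) (mem_KF.1 h))

theorem I_mem_KF : Complex.I ∈ KF :=
  mem_KF_of_sq (by rw [Complex.I_sq]; exact neg_mem (one_mem _))

theorem conj_mem_KF {z : ℂ} (h : z ∈ KF) : conj z ∈ KF := by
  rw [mem_KF] at h ⊢
  exact h.algHom ((starRingEnd ℂ).toRatAlgHom)

theorem re_mem_KF {z : ℂ} (h : z ∈ KF) : ((z.re : ℝ) : ℂ) ∈ KF := by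
  have : ((z.re : ℝ) : ℂ) = (z + conj z) / 2 := by
    rw [Complex.add_conj]; push_cast; ring
  rw [this]
  exact div_mem (add_mem h (conj_mem_KF h)) (by exact_mod_cast natCast_mem KF 2)

theorem im_mem_KF {z : ℂ} (h : z ∈ KF) : ((z.im : ℝ) : ℂ) ∈ KF := by
  have : ((z.im : ℝ) : ℂ) = (z - conj z) / (2 * Complex.I) := by
    rw [Complex.sub_conj]; push_cast; field_simp
  rw [this]
  exact div_mem (sub_mem h (conj_mem_KF h))
    (mul_mem (by exact_mod_cast natCast_mem KF 2) I_mem_KF)

theorem norm_mem_KF {z : ℂ} (h : z ∈ KF) : ((‖z‖ : ℝ) : ℂ) ∈ KF := by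
  apply mem_KF_of_sq
  have : ((‖z‖ : ℝ) : ℂ) ^ 2 = z * conj z := by
    rw [Complex.mul_conj, Complex.normSq_eq_norm_sq]; push_cast; rfl
  rw [this]
  exact mul_mem h (conj_mem_KF h)

theorem sqrt_mem_KF {x : ℝ} (hx : 0 ≤ x) (h : (x : ℂ) ∈ KF) : ((Real.sqrt x : ℝ) : ℂ) ∈ KF := by
  apply mem_KF_of_sq
  rw [← Complex.ofReal_pow, Real.sq_sqrt hx]
  exact h

theorem ratCast_mem_KF (q : ℚ) : ((q : ℝ) : ℂ) ∈ KF := by
  have : ((q : ℝ) : ℂ) = (q : ℂ) := by simp
  rw [this]; exact SubfieldClass.ratCast_mem KF q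

/-- the imaginary unit in `K` -/
def iK : K := ⟨Complex.I, I_mem_KF⟩

@[simp] theorem coe_iK : (iK : ℂ) = Complex.I := rfl

/-! ### the exponential on `ℝ/ℤ` -/

/-- `e x = exp (2 π i x)` on `ℝ/ℤ`. -/
def e (x : UnitAddCircle) : ℂ := (AddCircle.toCircle x : ℂ)

theorem e_coe (t : ℝ) : e (t : UnitAddCircle) = Complex.exp (2 * Real.pi * t * Complex.I) := by
  simp [e, AddCircle.toCircle_apply_mk, Circle.coe_exp]

theorem e_add (x y : UnitAddCircle) : e (x + y) = e x * e y := by
  simp [e, AddCircle.toCircle_add]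

@[simp] theorem e_zero : e 0 = 1 := by simp [e]

@[simp] theorem norm_e (x : UnitAddCircle) : ‖e x‖ = 1 := by simp [e]

theorem e_ne_zero (x : UnitAddCircle) : e x ≠ 0 := by
  intro h; have := norm_e x; rw [h] at this; simp at this

theorem e_neg (x : UnitAddCircle) : e (-x) = conj (e x) := by
  simp only [e, AddCircle.toCircle_neg]
  rw [Circle.coe_inv_eq_conj]

theorem e_sub (x y : UnitAddCircle) : e (x - y) = e x * conj (e y) := by
  rw [sub_eq_add_neg, e_add, e_neg]

theorem e_nsmul (n : ℕ) (x : UnitAddCircle) : e (n • x) = e x ^ n := by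
  simp [e, AddCircle.toCircle_nsmul]

@[fun_prop] theorem continuous_e : Continuous e :=
  continuous_subtype_val.comp AddCircle.continuous_toCircle

theorem e_eq_one_iff {x : UnitAddCircle} : e x = 1 ↔ x = 0 := by
  constructor
  · intro h
    apply AddCircle.injective_toCircle (T := 1) one_ne_zero
    rw [AddCircle.toCircle_zero]
    exact Circle.ext h
  · rintro rfl; exact e_zero

/-- every point of `ℝ/ℤ` has a representative realising its norm -/
theorem exists_rep (x : UnitAddCircle) : ∃ t : ℝ, (t : UnitAddCircle) = x ∧ |t| = ‖x‖ := by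
  induction x using QuotientAddGroup.induction_on with
  | H s =>
    refine ⟨s - round s, ?_, (UnitAddCircle.norm_eq).symm⟩
    rw [AddCircle.coe_sub]
    have : ((round s : ℝ) : UnitAddCircle) = 0 := by
      rw [AddCircle.coe_eq_zero_iff]; exact ⟨round s, by simp⟩
    rw [this, sub_zero]

theorem norm_coe_le (t : ℝ) : ‖(t : UnitAddCircle)‖ ≤ |t| := by
  rw [UnitAddCircle.norm_eq]; simpa using round_le t 0

theorem norm_e_sub_one_le (x : UnitAddCircle) : ‖e x - 1‖ ≤ 2 * Real.pi * ‖x‖ := by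
  obtain ⟨t, rfl, ht⟩ := exists_rep x
  rw [e_coe, ← ht]
  have := @Real.norm_exp_I_mul_ofReal_sub_one_le (2 * Real.pi * t)
  rw [show 2 * (Real.pi : ℂ) * t * Complex.I = Complex.I * ((2 * Real.pi * t : ℝ) : ℂ) by
    push_cast; ring]
  refine this.trans (le_of_eq ?_)
  rw [Real.norm_eq_abs, abs_mul, abs_of_pos (by positivity : (0 : ℝ) < 2 * Real.pi)]

theorem le_norm_e_sub_one (x : UnitAddCircle) : 4 * ‖x‖ ≤ ‖e x - 1‖ := by
  obtain ⟨t, rfl, ht⟩ := exists_rep x
  have hle : ‖(t : UnitAddCircle)‖ ≤ 1 / 2 := by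
    simpa using AddCircle.norm_le_half_period (1 : ℝ) (x := (t : UnitAddCircle)) one_ne_zero
  rw [e_coe, ← ht]
  rw [← ht] at hle
  rw [show 2 * (Real.pi : ℂ) * t * Complex.I = Complex.I * ((2 * Real.pi * t : ℝ) : ℂ) by
    push_cast; ring, Complex.norm_exp_I_mul_ofReal_sub_one]
  have h1 : 2 * Real.pi * t / 2 = Real.pi * t := by ring
  rw [h1, norm_mul, Real.norm_eq_abs, Real.norm_eq_abs, abs_two]
  have hpi := Real.pi_pos
  have h2 : 2 / Real.pi * (Real.pi * |t|) ≤ Real.sin (Real.pi * |t|) :=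
    Real.mul_le_sin (by positivity) (by nlinarith)
  have h3 : 2 / Real.pi * (Real.pi * |t|) = 2 * |t| := by field_simp
  have h4 : Real.sin (Real.pi * |t|) ≤ |Real.sin (Real.pi * t)| := by
    rcases abs_cases t with ⟨h, _⟩ | ⟨h, _⟩
    · rw [h]; exact le_abs_self _
    · rw [h, mul_neg, Real.sin_neg]; exact neg_le_abs _
  linarith

/-! ### the character group -/

/-- additive maps `G → ℝ/ℤ`, as a closed subgroup of the product -/
def ChSub (G : Type) [AddCommGroup G] : AddSubgroup (G → UnitAddCircle) where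
  carrier := {f | ∀ x y, f (x + y) = f x + f y}
  add_mem' := by
    intro f g hf hg x y
    simp only [Pi.add_apply, hf x y, hg x y]; abel
  zero_mem' := by intro x y; simp
  neg_mem' := by
    intro f hf x y
    simp only [Pi.neg_apply, hf x y]; abel

/-- The compact group of characters of the discrete group `G`. `χ : Ch G` is applied as `χ.1 x`. -/
abbrev Ch (G : Type) [AddCommGroup G] : Type := ↥(ChSub G)

section Ch
variable {G H : Type} [AddCommGroup G] [AddCommGroup H]

theorem isClosed_ChSub : IsClosed (ChSub G : Set (G → UnitAddCircle)) := by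
  have : (ChSub G : Set (G → UnitAddCircle)) = ⋂ x, ⋂ y, {f | f (x + y) = f x + f y} := by
    ext f; simp only [mem_iInter]; rfl
  rw [this]
  exact isClosed_iInter fun x => isClosed_iInter fun y => isClosed_eq (by fun_prop) (by fun_prop)

instance : CompactSpace (Ch G) := isCompact_iff_compactSpace.1 isClosed_ChSub.isCompact

instance [Countable G] : PolishSpace (Ch G) := isClosed_ChSub.polishSpace

instance [Countable G] : BorelSpace (Ch G) := Subtype.borelSpace _

/-- a character as an additive monoid hom -/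
def Ch.hom (χ : Ch G) : G →+ UnitAddCircle := AddMonoidHom.mk' χ.1 χ.2

@[simp] theorem Ch.hom_apply (χ : Ch G) (x : G) : Ch.hom χ x = χ.1 x := rfl

/-- an additive monoid hom as a character -/
def Ch.ofHom (f : G →+ UnitAddCircle) : Ch G := ⟨f, fun x y => map_add f x y⟩

@[simp] theorem Ch.ofHom_apply (f : G →+ UnitAddCircle) (x : G) : (Ch.ofHom f).1 x = f x := rfl

theorem Ch.map_add (χ : Ch G) (x y : G) : χ.1 (x + y) = χ.1 x + χ.1 y := χ.2 x y
theorem Ch.map_zero (χ : Ch G) : χ.1 0 = 0 := (Ch.hom χ).map_zero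
theorem Ch.map_neg (χ : Ch G) (x : G) : χ.1 (-x) = -χ.1 x := (Ch.hom χ).map_neg x
theorem Ch.map_sub (χ : Ch G) (x y : G) : χ.1 (x - y) = χ.1 x - χ.1 y := (Ch.hom χ).map_sub x y
theorem Ch.map_nsmul (χ : Ch G) (n : ℕ) (x : G) : χ.1 (n • x) = n • χ.1 x :=
  (Ch.hom χ).map_nsmul n x
theorem Ch.map_zsmul (χ : Ch G) (n : ℤ) (x : G) : χ.1 (n • x) = n • χ.1 x :=
  (Ch.hom χ).map_zsmul n x
theorem Ch.map_sum {ι : Type*} (χ : Ch G) (s : Finset ι) (f : ι → G) :
    χ.1 (∑ i ∈ s, f i) = ∑ i ∈ s, χ.1 (f i) := _root_.map_sum (Ch.hom χ) f s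

@[simp] theorem Ch.add_apply (χ ψ : Ch G) (x : G) : (χ + ψ).1 x = χ.1 x + ψ.1 x := rfl
@[simp] theorem Ch.sub_apply (χ ψ : Ch G) (x : G) : (χ - ψ).1 x = χ.1 x - ψ.1 x := rfl
@[simp] theorem Ch.neg_apply (χ : Ch G) (x : G) : (-χ).1 x = -χ.1 x := rfl
@[simp] theorem Ch.zero_apply (x : G) : (0 : Ch G).1 x = 0 := rfl

theorem Ch.ext {χ ψ : Ch G} (h : ∀ x, χ.1 x = ψ.1 x) : χ = ψ := Subtype.ext (funext h)

@[fun_prop] theorem continuous_eval (x : G) : Continuous fun χ : Ch G => χ.1 x :=
  (continuous_apply x).comp continuous_subtype_val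

@[fun_prop] theorem measurable_eval (x : G) : Measurable fun χ : Ch G => χ.1 x :=
  (measurable_pi_apply x).comp measurable_subtype_coe

/-- pull-back of characters along a homomorphism -/
def pull (f : G →+ H) (χ : Ch H) : Ch G := Ch.ofHom ((Ch.hom χ).comp f)

@[simp] theorem pull_apply (f : G →+ H) (χ : Ch H) (x : G) : (pull f χ).1 x = χ.1 (f x) := rfl

theorem pull_add (f : G →+ H) (χ ψ : Ch H) : pull f (χ + ψ) = pull f χ + pull f ψ := rfl
theorem pull_sub (f : G →+ H) (χ ψ : Ch H) : pull f (χ - ψ) = pull f χ - pull f ψ := rfl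

@[fun_prop] theorem continuous_pull (f : G →+ H) : Continuous (pull f : Ch H → Ch G) :=
  continuous_induced_rng.2 (continuous_pi fun x => continuous_eval (f x))

@[fun_prop] theorem measurable_pull (f : G →+ H) : Measurable (pull f : Ch H → Ch G) :=
  Measurable.subtype_mk (measurable_pi_lambda _ fun x => measurable_eval (f x))

/-- Fourier transform of a measure on the dual group -/
def ft (μ : Measure (Ch G)) (z : G) : ℂ := ∫ χ, e (χ.1 z) ∂μ

theorem integrable_e (μ : Measure (Ch G)) [IsFiniteMeasure μ] (z : G) :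
    Integrable (fun χ : Ch G => e (χ.1 z)) μ :=
  (integrable_const (1 : ℝ)).mono'
    (continuous_e.measurable.comp (measurable_eval z)).aestronglyMeasurable
    (Filter.Eventually.of_forall fun _ => (norm_e _).le)

end Ch

/-! ### rotations and continuous characters of `K` -/

/-- `rot u χ = χ (u ·)` -/
def rot (u : K) : Ch K → Ch K := pull (AddMonoidHom.mulLeft u)

@[simp] theorem rot_apply (u : K) (χ : Ch K) (z : K) : (rot u χ).1 z = χ.1 (u * z) := rfl

@[fun_prop] theorem continuous_rot (u : K) : Continuous (rot u) := continuous_pull _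
@[fun_prop] theorem measurable_rot (u : K) : Measurable (rot u) := measurable_pull _

theorem rot_rot (u v : K) (χ : Ch K) : rot u (rot v χ) = rot (v * u) χ :=
  Ch.ext fun z => by simp [mul_assoc]

@[simp] theorem rot_one (χ : Ch K) : rot 1 χ = χ := Ch.ext fun z => by simp

/-- invariance under all rotations of `K` -/
def UInv (μ : Measure (Ch K)) : Prop :=
  ∀ u : K, ‖(u : ℂ)‖ = 1 → MeasurePreserving (rot u) μ μ

/-- the characters of `K` which are continuous for the topology induced by `ℂ` -/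
def Cont : Set (Ch K) :=
  {χ | ∀ ε : ℝ, 0 < ε → ∃ δ : ℝ, 0 < δ ∧ ∀ z : K, ‖(z : ℂ)‖ < δ → ‖χ.1 z‖ ≤ ε}

theorem Cont_eq : Cont = ⋂ n : ℕ, ⋃ m : ℕ, ⋂ z : K,
    {χ : Ch K | ‖(z : ℂ)‖ < 1 / ((m : ℝ) + 1) → ‖χ.1 z‖ ≤ 1 / ((n : ℝ) + 1)} := by
  ext χ
  simp only [Cont, mem_ofPred_eq, mem_iInter, mem_iUnion]
  constructor
  · intro h n
    obtain ⟨δ, hδ, h⟩ := h (1 / ((n : ℝ) + 1)) (by positivity)
    obtain ⟨m, hm⟩ := exists_nat_one_div_lt hδ
    exact ⟨m, fun z hz => h z (hz.trans hm)⟩
  · intro h ε hε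
    obtain ⟨n, hn⟩ := exists_nat_one_div_lt hε
    obtain ⟨m, hm⟩ := h n
    exact ⟨_, by positivity, fun z hz => (hm z hz).trans hn.le⟩

theorem measurableSet_Cont : MeasurableSet Cont := by
  rw [Cont_eq]
  refine MeasurableSet.iInter fun n => MeasurableSet.iUnion fun m => MeasurableSet.iInter fun z => ?_
  by_cases hz : ‖(z : ℂ)‖ < 1 / ((m : ℝ) + 1)
  · simp only [hz, true_imp_iff]
    exact measurableSet_le (measurable_eval z).norm measurable_const
  · simp only [hz, false_imp_iff]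
    exact MeasurableSet.univ

theorem rot_mem_Cont {χ : Ch K} (h : χ ∈ Cont) (u : K) : rot u χ ∈ Cont := by
  intro ε hε
  obtain ⟨δ, hδ, h⟩ := h ε hε
  refine ⟨δ / (‖(u : ℂ)‖ + 1), by positivity, fun z hz => h _ ?_⟩
  rw [lt_div_iff₀ (by positivity)] at hz
  push_cast
  rw [norm_mul]
  nlinarith [norm_nonneg (z : ℂ), norm_nonneg (u : ℂ)]

theorem rot_mem_Cont_iff {χ : Ch K} {u : K} (hu : u ≠ 0) : rot u χ ∈ Cont ↔ χ ∈ Cont := by
  refine ⟨fun h => ?_, fun h => rot_mem_Cont h u⟩
  have := rot_mem_Cont h u⁻¹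
  rwa [rot_rot, mul_inv_cancel₀ hu, rot_one] at this

/-- the continuous character `z ↦ Re (s z)` -/
def lin (s : ℂ) : Ch K :=
  ⟨fun z => (((s * z).re : ℝ) : UnitAddCircle), fun x y => by
    push_cast; rw [mul_add, Complex.add_re, AddCircle.coe_add]⟩

@[simp] theorem lin_apply (s : ℂ) (z : K) :
    (lin s).1 z = (((s * z).re : ℝ) : UnitAddCircle) := rfl

theorem norm_lin_le (s : ℂ) (z : K) : ‖(lin s).1 z‖ ≤ ‖s‖ * ‖(z : ℂ)‖ := by
  rw [lin_apply]
  refine (norm_coe_le _).trans ((Complex.abs_re_le_norm _).trans (norm_mul _ _).le)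

/-- characters separate the points of `K` -/
theorem exists_ch_ne_zero {z : K} (hz : z ≠ 0) : ∃ χ : Ch K, χ.1 z ≠ 0 := by
  have hz' : (z : ℂ) ≠ 0 := by exact_mod_cast hz
  refine ⟨lin ((2 * (z : ℂ))⁻¹), ?_⟩
  rw [lin_apply]
  have : ((2 * (z : ℂ))⁻¹ * z).re = 1 / 2 := by
    rw [show (2 * (z : ℂ))⁻¹ * z = ((1 / 2 : ℝ) : ℂ) by push_cast; field_simp, Complex.ofReal_re]
  rw [this, Ne, AddCircle.coe_eq_zero_iff]
  rintro ⟨n, hn⟩
  have h2 : ((2 * n : ℤ) : ℝ) = ((1 : ℤ) : ℝ) := by
    simp only [zsmul_eq_mul, mul_one] at hn; push_cast; rw [hn]; norm_num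
  have := Int.cast_injective h2
  omega

end

end Crest.Agent.R40
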