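import Crest.Agent.R40.Inv

/-!
# Row 40: extraction of a measurable a.e.-proper colouring of `ℂ`

Recipe.  Choose `ψ i`.  `E[1(ω x = i) 1(ω y = i)] = ψ i (y - x)` for `x ≠ y` (`hP.transl`), `|ψ i| ≤ 1`
(also at `0`, by continuity; or just carry the constant `1 + |ψ i 0|`).
For `k : ℕ` let `N = 4^k`-ish and `δ_k > 0` rational, such that `‖x - y‖ < 10 δ_k → |ψ i x - ψ i y| ≤ 1/N`
for all `i` (and `δ_k` decreasing).  Rounding `r k x = δ_k (⌊Re x/δ_k⌋ + i ⌊Im x/δ_k⌋) ∈ K` (`ratCast_mem_KF`,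
`iK`), `‖r k x - x‖ ≤ 2 δ_k`; `h k n = n δ_k / N ∈ K` (`n < N`, distinct).
`G i k (ω, x) = N⁻¹ ∑_{n<N} 1[ω (r k x + h k n) = i] ∈ [0,1]`, jointly measurable in `(ω, x)`
(factor through `(ω, ⌊·⌋, ⌊·⌋)`; `measurable_from_prod_countable_left/right`), `∑ i, G i k = 1`.
* for all `x`, `l ≥ k`: `|E[G k x * G l x] - ψ 0| ≤ C/N_k` (for fixed `n` at most one `m` with
  `r l x + h l m = r k x + h k n`), so `E[(G k x - G (k+1) x)²] ≤ 4C/N_k`, hence
  `E ∑_k |G (k+1) x - G k x| < ∞` and `G i k (ω, x)` converges for a.e. `ω` (for each fixed `x`).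
* for `‖x - y‖ = 1`: `E[G k x * G k y] → 0`: unit elements of `K` are dense in the circle
  (for `w ∈ K \ {0}` close to the unit vector `y - x` take `w/‖w‖`, `norm_mem_KF`), `ψ u = 0` for them
  (`hP.proper`), and the differences of sample points are nonzero for small `δ_k`.
* `A i ω = {x | ∃ᶠ k, 1/5 ≤ G i k (ω, x)}` is measurable and the `A i ω` cover `ℂ` (pigeonhole).
  For `‖x - y‖ = 1`, a.e. `ω`: not both `x, y ∈ A i ω` (both sequences converge, the limits are `≥ 1/5`,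
  but by dominated convergence the expectation of the product of the limits is `0`).
* Fubini (`Measure.ae_ae_comm` / `ae_prod_iff_ae_ae` for the measurable set
  `{(ω, p) | p.1 ∈ A i ω ∧ p.1 + exp (p.2 I) ∈ A i ω}`), then pick one `ω` (`Filter.Eventually.exists`).
-/

set_option autoImplicit false

open MeasureTheory Set Filter Topology
open scoped ComplexConjugate

namespace Crest.Agent.R40

namespace Ex

section abstr
variable {Ω : Type} [MeasurableSpace Ω] {P : Measure Ω}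

theorem ae_summable (g : ℕ → Ω → ℝ) (hg : ∀ k, Integrable (g k) P) (h0 : ∀ k ω, 0 ≤ g k ω)
    (b : ℕ → ℝ) (hb : Summable b) (hle : ∀ k, ∫ ω, g k ω ∂P ≤ b k) :
    ∀ᵐ ω ∂P, Summable fun k => g k ω := by
  have h1 : ∀ k, eLpNorm (g k) 1 P ≤ ENNReal.ofReal (b k) := fun k => by
    rw [eLpNorm_one_eq_lintegral_enorm, ← ofReal_integral_norm_eq_lintegral_enorm (hg k)]
    refine ENNReal.ofReal_le_ofReal (le_trans (le_of_eq ?_) (hle k))
    simp only [Real.norm_of_nonneg (h0 k _)]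
  have hb0 : ∀ k, 0 ≤ b k := fun k => (integral_nonneg (h0 k)).trans (hle k)
  have h2 := summable_norm_of_tsum_eLpNorm_ne_top (μ := P) le_rfl (fun k => (hg k).1)
    (ne_top_of_le_ne_top (by rw [← ENNReal.ofReal_tsum_of_nonneg hb0 hb]; exact ENNReal.ofReal_ne_top)
      (ENNReal.tsum_le_tsum h1))
  filter_upwards [h2] with ω hω using hω.of_norm

theorem lim_of_summable {F : ℕ → ℝ} (h : Summable fun k => 2 ^ k * (F k - F (k + 1)) ^ 2)
    (hF : ∃ᶠ k in atTop, 1 / 5 ≤ F k) : ∃ a, 1 / 5 ≤ a ∧ Tendsto F atTop (𝓝 a) := by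
  have hc : CauchySeq F := by
    refine cauchySeq_of_dist_le_of_summable _ (fun k => ?_) (h.add summable_geometric_two)
    rw [Real.dist_eq, Nat.succ_eq_add_one, ← sq_abs, one_div, inv_pow]
    have h2 : (0 : ℝ) < 2 ^ k := by positivity
    have h3 : (2 : ℝ) ^ k * (2 ^ k)⁻¹ = 1 := mul_inv_cancel₀ h2.ne'
    have h4 : (0 : ℝ) < (2 ^ k)⁻¹ := by positivity
    have h5 := abs_nonneg (F k - F (k + 1))
    generalize |F k - F (k + 1)| = d at *
    generalize ((2 : ℝ) ^ k)⁻¹ = s at *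
    generalize (2 : ℝ) ^ k = t at *
    have h6 : 0 ≤ t * (d - s) ^ 2 := by positivity
    have h7 : t * (d - s) ^ 2 = t * d ^ 2 - 2 * d * (t * s) + s * (t * s) := by ring
    rw [h3] at h7
    linarith
  obtain ⟨a, ha⟩ := cauchySeq_tendsto_of_complete hc
  exact ⟨a, ge_of_tendsto_of_frequently ha hF, ha⟩

theorem integrable_of_le [IsFiniteMeasure P] {f : Ω → ℝ} (hf : Measurable f) (h : ∀ ω, |f ω| ≤ 1) :
    Integrable f P :=
  (integrable_const (1 : ℝ)).mono' hf.aestronglyMeasurable (Eventually.of_forall h)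

theorem integrable_mul [IsFiniteMeasure P] {f g : Ω → ℝ} (hf : Measurable f) (hg : Measurable g)
    (h : ∀ ω, |f ω| ≤ 1) (h' : ∀ ω, |g ω| ≤ 1) : Integrable (fun ω => f ω * g ω) P :=
  integrable_of_le (hf.mul hg) fun ω => by
    rw [abs_mul]; exact mul_le_one₀ (h ω) (abs_nonneg _) (h' ω)

theorem sq_int_le [IsFiniteMeasure P] {f g : Ω → ℝ} (hf : Measurable f) (hg : Measurable g)
    (h : ∀ ω, |f ω| ≤ 1) (h' : ∀ ω, |g ω| ≤ 1) {c e : ℝ} (h1 : |∫ ω, f ω * f ω ∂P - c| ≤ e)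
    (h2 : |∫ ω, f ω * g ω ∂P - c| ≤ e) (h3 : |∫ ω, g ω * g ω ∂P - c| ≤ e) :
    Integrable (fun ω => (f ω - g ω) ^ 2) P ∧ ∫ ω, (f ω - g ω) ^ 2 ∂P ≤ 4 * e := by
  have e1 : (fun ω => (f ω - g ω) ^ 2) = fun ω => f ω * f ω - 2 * (f ω * g ω) + g ω * g ω := by
    funext ω; ring
  have i1 := integrable_mul (P := P) hf hf h h
  have i2 := (integrable_mul (P := P) hf hg h h').const_mul 2
  have i3 := integrable_mul (P := P) hg hg h' h'
  have i4 : Integrable (fun ω => f ω * f ω - 2 * (f ω * g ω)) P := i1.sub i2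
  rw [e1]
  refine ⟨i4.add i3, ?_⟩
  rw [integral_add i4 i3, integral_sub i1 i2, integral_const_mul]
  rw [abs_le] at h1 h2 h3
  linarith [h1.2, h2.1, h3.2]

theorem ae_not_both (F F' : ℕ → Ω → ℝ) (h0 : ∀ k ω, 0 ≤ F k ω * F' k ω) (C : ℝ)
    (h1 : ∀ k, Integrable (fun ω => (F k ω - F (k + 1) ω) ^ 2) P ∧
      ∫ ω, (F k ω - F (k + 1) ω) ^ 2 ∂P ≤ C / 4 ^ k)
    (h2 : ∀ k, Integrable (fun ω => (F' k ω - F' (k + 1) ω) ^ 2) P ∧
      ∫ ω, (F' k ω - F' (k + 1) ω) ^ 2 ∂P ≤ C / 4 ^ k)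
    (h3 : ∀ k, Integrable (fun ω => F k ω * F' k ω) P ∧ ∫ ω, F k ω * F' k ω ∂P ≤ C / 4 ^ k) :
    ∀ᵐ ω ∂P, ¬ ((∃ᶠ k in atTop, 1 / 5 ≤ F k ω) ∧ ∃ᶠ k in atTop, 1 / 5 ≤ F' k ω) := by
  have key : ∀ g : ℕ → Ω → ℝ, (∀ k ω, 0 ≤ g k ω) →
      (∀ k, Integrable (g k) P ∧ ∫ ω, g k ω ∂P ≤ C / 4 ^ k) →
      ∀ᵐ ω ∂P, Summable fun k => 2 ^ k * g k ω := by
    intro g hg0 hg
    refine ae_summable (fun k ω => 2 ^ k * g k ω) (fun k => (hg k).1.const_mul _)
      (fun k ω => mul_nonneg (by positivity) (hg0 k ω)) (fun k => C * (1 / 2) ^ k)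
      (summable_geometric_two.mul_left C) fun k => ?_
    rw [integral_const_mul]
    refine (mul_le_mul_of_nonneg_left (hg k).2 (by positivity)).trans_eq ?_
    rw [show (4 : ℝ) = 2 * 2 by norm_num, mul_pow, one_div, inv_pow]
    field_simp
  filter_upwards [key _ (fun _ _ => sq_nonneg _) h1, key _ (fun _ _ => sq_nonneg _) h2,
    key _ h0 h3] with ω a1 a2 a3
  rintro ⟨b1, b2⟩
  obtain ⟨a, ha, ha'⟩ := lim_of_summable a1 b1
  obtain ⟨b, hb, hb'⟩ := lim_of_summable a2 b2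
  have c1 := le_of_tendsto_of_tendsto' (ha'.mul hb') a3.tendsto_atTop_zero fun k =>
    le_mul_of_one_le_left (h0 k ω) (one_le_pow₀ one_le_two)
  nlinarith

end abstr

/-- indicator of `ω z = i` -/
def ι (i : Fin 5) (z : K) (ω : K → Fin 5) : ℝ := if ω z = i then 1 else 0

theorem measurable_ι (i : Fin 5) (z : K) : Measurable (ι i z) :=
  (measurable_of_countable fun c : Fin 5 => if c = i then (1 : ℝ) else 0).comp (measurable_pi_apply z)

theorem ι_nonneg (i : Fin 5) (z : K) (ω : K → Fin 5) : 0 ≤ ι i z ω := by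
  unfold ι; split_ifs <;> norm_num

theorem abs_ι_le (i : Fin 5) (z : K) (ω : K → Fin 5) : |ι i z ω| ≤ 1 := by
  unfold ι; split_ifs <;> norm_num

theorem measurableSet_pair (i : Fin 5) (x y : K) :
    MeasurableSet {ω : K → Fin 5 | ω x = i ∧ ω y = i} :=
  (measurableSet_eq_fun (measurable_pi_apply x) measurable_const).inter
    (measurableSet_eq_fun (measurable_pi_apply y) measurable_const)

variable {P : Measure (K → Fin 5)}

theorem int_ι_mul (hP : InvCol P) (i : Fin 5) (x y : K) :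
    ∫ ω, ι i x ω * ι i y ω ∂P = P.real {ω | ω 0 = i ∧ ω (y - x) = i} := by
  rw [← (hP.transl x).measureReal_preimage (measurableSet_pair i 0 (y - x)).nullMeasurableSet,
    ← integral_indicator_one ((hP.transl x).measurable (measurableSet_pair i 0 (y - x)))]
  congr 1
  funext ω
  simp only [ι, indicator, mem_preimage, mem_ofPred_eq, zero_add, sub_add_cancel, Pi.one_apply]
  by_cases h1 : ω x = i <;> by_cases h2 : ω y = i <;> simp [h1, h2]

/-- average of the indicators over the sample points `a 0, …, a (N-1)` -/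
noncomputable def av (i : Fin 5) (N : ℕ) (a : ℕ → K) (ω : K → Fin 5) : ℝ :=
  (∑ n ∈ Finset.range N, ι i (a n) ω) / N

theorem measurable_av (i : Fin 5) (N : ℕ) (a : ℕ → K) : Measurable (av i N a) :=
  (Finset.measurable_sum _ fun n _ => measurable_ι i (a n)).div_const _

theorem av_nonneg (i : Fin 5) (N : ℕ) (a : ℕ → K) (ω : K → Fin 5) : 0 ≤ av i N a ω :=
  div_nonneg (Finset.sum_nonneg fun _ _ => ι_nonneg _ _ _) (Nat.cast_nonneg _)

theorem abs_av_le (i : Fin 5) (N : ℕ) (a : ℕ → K) (ω : K → Fin 5) : |av i N a ω| ≤ 1 := by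
  rw [abs_of_nonneg (av_nonneg i N a ω)]
  refine div_le_one_of_le₀ ?_ (Nat.cast_nonneg _)
  refine (Finset.sum_le_sum fun n _ => (le_abs_self _).trans (abs_ι_le i (a n) ω)).trans_eq ?_
  simp

theorem sum_av {N : ℕ} (hN : 0 < N) (a : ℕ → K) (ω : K → Fin 5) : ∑ i, av i N a ω = 1 := by
  have : (N : ℝ) ≠ 0 := by positivity
  simp only [av, ← Finset.sum_div]
  rw [Finset.sum_comm, div_eq_one_iff_eq this]
  simp [ι]

theorem av_est (hP : InvCol P) (i : Fin 5) {ψ : K → ℝ}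
    (hψ : ∀ z : K, z ≠ 0 → ψ z = P.real {ω | ω 0 = i ∧ ω z = i}) {D : ℝ}
    (hD : |P.real {ω | ω 0 = i ∧ ω 0 = i} - ψ 0| ≤ D) {N M : ℕ} (hN : 0 < N) (hM : 0 < M)
    (a b : ℕ → K) (hb : Function.Injective b) {c ε : ℝ}
    (h : ∀ n < N, ∀ m < M, |ψ (b m - a n) - c| ≤ ε) :
    |∫ ω, av i N a ω * av i M b ω ∂P - c| ≤ ε + D / M := by
  classical
  have := hP.prob
  have hN' : (0 : ℝ) < N := by positivity
  have hM' : (0 : ℝ) < M := by positivity
  have hD0 : 0 ≤ D := (abs_nonneg _).trans hD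
  have hint : ∀ n m, Integrable (fun ω => ι i (a n) ω * ι i (b m) ω) P := fun n m =>
    integrable_mul (measurable_ι _ _) (measurable_ι _ _) (abs_ι_le _ _) (abs_ι_le _ _)
  have e1 : ∫ ω, av i N a ω * av i M b ω ∂P - c = (∑ n ∈ Finset.range N, ∑ m ∈ Finset.range M,
      (P.real {ω | ω 0 = i ∧ ω (b m - a n) = i} - c)) / (N * M) := by
    simp only [av, div_mul_div_comm, Finset.sum_mul_sum]
    rw [integral_div, integral_finsetSum _ fun n _ => integrable_finsetSum _ fun m _ => hint n m]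
    simp only [integral_finsetSum _ fun m _ => hint _ m, int_ι_mul hP, Finset.sum_sub_distrib,
      Finset.sum_const, Finset.card_range, nsmul_eq_mul]
    field_simp
  have e2 : ∀ n < N, ∑ m ∈ Finset.range M, |P.real {ω | ω 0 = i ∧ ω (b m - a n) = i} - c| ≤
      M * ε + D := by
    intro n hn
    have f1 : ∀ m ∈ Finset.range M, |P.real {ω | ω 0 = i ∧ ω (b m - a n) = i} - c| ≤
        ε + if b m = a n then D else 0 := by
      intro m hm
      have g1 := h n hn m (Finset.mem_range.1 hm)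
      split_ifs with h0
      · rw [h0, sub_self] at g1 ⊢
        linarith [abs_sub_le (P.real {ω | ω 0 = i ∧ ω 0 = i}) (ψ 0) c]
      · rw [← hψ _ (sub_ne_zero.2 h0)]; linarith
    refine (Finset.sum_le_sum f1).trans ?_
    rw [Finset.sum_add_distrib, Finset.sum_const, Finset.card_range, nsmul_eq_mul,
      ← Finset.sum_filter, Finset.sum_const, nsmul_eq_mul]
    refine add_le_add le_rfl (mul_le_of_le_one_left hD0 ?_)
    rw [Nat.cast_le_one]
    exact Finset.card_le_one.2 fun m hm m' hm' =>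
      hb ((Finset.mem_filter.1 hm).2.trans (Finset.mem_filter.1 hm').2.symm)
  rw [e1, abs_div, abs_of_pos (mul_pos hN' hM'), div_le_iff₀ (mul_pos hN' hM')]
  refine (Finset.abs_sum_le_sum_abs _ _).trans ((Finset.sum_le_sum fun n hn =>
    (Finset.abs_sum_le_sum_abs _ _).trans (e2 n (Finset.mem_range.1 hn))).trans_eq ?_)
  rw [Finset.sum_const, Finset.card_range, nsmul_eq_mul]
  field_simp

/-- the sample points -/
noncomputable def pt (δ : ℚ) (N : ℕ) (j : ℤ × ℤ) (n : ℕ) : K :=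
  (δ : K) * ((j.1 : K) + (j.2 : K) * iK + (n : K) / (N : K))

/-- the grid square containing `x` -/
noncomputable def idx (δ : ℚ) (x : ℂ) : ℤ × ℤ := (⌊x.re / δ⌋, ⌊x.im / δ⌋)

theorem measurable_idx (δ : ℚ) : Measurable (idx δ) :=
  (Complex.measurable_re.div_const _).floor.prodMk (Complex.measurable_im.div_const _).floor

theorem pt_injective {δ : ℚ} (hδ : 0 < δ) {N : ℕ} (hN : 0 < N) (j : ℤ × ℤ) :
    Function.Injective (pt δ N j) := by
  intro n m h
  have h1 : (δ : K) ≠ 0 := by exact_mod_cast hδ.ne'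
  have h2 : (N : K) ≠ 0 := by exact_mod_cast hN.ne'
  have h3 := add_left_cancel (mul_left_cancel₀ h1 h)
  rw [div_left_inj' h2] at h3
  exact_mod_cast h3

theorem floor_near {δ : ℝ} (hδ : 0 < δ) (t : ℝ) : |δ * ⌊t / δ⌋ - t| ≤ δ := by
  have h1 := Int.floor_le (t / δ)
  have h2 := Int.lt_floor_add_one (t / δ)
  rw [le_div_iff₀ hδ] at h1
  rw [div_lt_iff₀ hδ] at h2
  rw [abs_le]
  constructor <;> linarith

theorem norm_pt_sub {δ : ℚ} (hδ : 0 < δ) {N n : ℕ} (hn : n < N) (x : ℂ) :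
    ‖(pt δ N (idx δ x) n : ℂ) - x‖ ≤ 3 * δ := by
  have hδ' : (0 : ℝ) < δ := by exact_mod_cast hδ
  have hN : (0 : ℝ) < N := by exact_mod_cast (Nat.zero_le n).trans_lt hn
  have e1 : (pt δ N (idx δ x) n : ℂ) - x = (((δ : ℝ) * ⌊x.re / δ⌋ - x.re : ℝ) : ℂ) +
      (((δ : ℝ) * ⌊x.im / δ⌋ - x.im : ℝ) : ℂ) * Complex.I + (((δ : ℝ) * (n / N) : ℝ) : ℂ) := by
    conv_lhs => rw [← Complex.re_add_im x]
    simp only [pt, idx, Complex.re_add_im]
    push_cast
    rw [coe_iK]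
    conv_lhs => rw [← Complex.re_add_im x]
    simp only [Complex.re_add_im]
    linear_combination (Complex.re_add_im x)
  rw [e1]
  refine (norm_add₃_le).trans ?_
  rw [norm_mul, Complex.norm_I, mul_one, Complex.norm_real, Complex.norm_real, Complex.norm_real,
    Real.norm_eq_abs, Real.norm_eq_abs, Real.norm_eq_abs]
  have h3 : |(δ : ℝ) * (n / N)| ≤ δ := by
    rw [abs_of_nonneg (by positivity)]
    exact mul_le_of_le_one_right hδ'.le ((div_le_one hN).2 (by exact_mod_cast hn.le))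
  linarith [floor_near hδ' x.re, floor_near hδ' x.im]

theorem exists_unit {δ : ℚ} (hδ : 0 < δ) (hδ1 : (3 : ℝ) * δ < 1) {w : ℂ} (hw : ‖w‖ = 1) :
    ∃ u : K, ‖(u : ℂ)‖ = 1 ∧ ‖(u : ℂ) - w‖ ≤ 6 * δ := by
  obtain ⟨z, hz⟩ : ∃ z : K, ‖(z : ℂ) - w‖ ≤ 3 * δ := ⟨_, norm_pt_sub hδ one_pos w⟩
  have h1 : |‖(z : ℂ)‖ - 1| ≤ 3 * δ := by rw [← hw]; exact (abs_norm_sub_norm_le _ _).trans hz
  have h2 : 0 < ‖(z : ℂ)‖ := by linarith [(abs_le.1 h1).1]
  have h3 : ((‖(z : ℂ)‖ : ℝ) : ℂ) ≠ 0 := by exact_mod_cast h2.ne'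
  refine ⟨⟨(z : ℂ) / (‖(z : ℂ)‖ : ℝ), div_mem z.2 (norm_mem_KF z.2)⟩, ?_, ?_⟩
  · simp only [norm_div, Complex.norm_real, norm_norm]
    exact div_self h2.ne'
  · have h4 : ‖(z : ℂ) / (‖(z : ℂ)‖ : ℝ) - z‖ ≤ 3 * δ := by
      rw [show (z : ℂ) / (‖(z : ℂ)‖ : ℝ) - z = z / (‖(z : ℂ)‖ : ℝ) * ((1 - ‖(z : ℂ)‖ : ℝ) : ℂ) by
        push_cast; field_simp, norm_mul, norm_div, Complex.norm_real, Complex.norm_real, norm_norm,
        div_self h2.ne', one_mul, Real.norm_eq_abs, abs_sub_comm]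
      exact h1
    linarith [norm_sub_le_norm_sub_add_norm_sub ((z : ℂ) / (‖(z : ℂ)‖ : ℝ)) z w]

theorem measurable_av_idx (i : Fin 5) (δ : ℚ) (N : ℕ) :
    Measurable fun q : (K → Fin 5) × ℂ => av i N (pt δ N (idx δ q.2)) q.1 := by
  have key : ∀ (F : ℤ × ℤ → (K → Fin 5) → ℝ) (r : ℂ → ℤ × ℤ), (∀ j, Measurable (F j)) →
      Measurable r → Measurable fun q : (K → Fin 5) × ℂ => F (r q.2) q.1 := by
    intro F r hF hr
    have h1 : Measurable fun q : (K → Fin 5) × (ℤ × ℤ) => F q.2 q.1 :=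
      measurable_from_prod_countable_left hF
    exact h1.comp (measurable_fst.prodMk (hr.comp measurable_snd))
  exact key (fun j => av i N (pt δ N j)) (idx δ) (fun j => measurable_av i N _) (measurable_idx δ)

theorem finish {Ω : Type} [MeasurableSpace Ω] {P : Measure Ω} [IsProbabilityMeasure P]
    (G : Fin 5 → ℕ → ℂ → Ω → ℝ) (hG : ∀ i k, Measurable fun q : Ω × ℂ => G i k q.2 q.1)
    (hsum : ∀ k x ω, ∑ i, G i k x ω = 1)
    (h : ∀ i x y, ‖y - x‖ = 1 → ∀ᵐ ω ∂P,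
      ¬ ((∃ᶠ k in atTop, 1 / 5 ≤ G i k x ω) ∧ ∃ᶠ k in atTop, 1 / 5 ≤ G i k y ω)) :
    ∃ A : Fin 5 → Set ℂ, (∀ i, MeasurableSet (A i)) ∧ (∀ᵐ x : ℂ, ∃ i, x ∈ A i) ∧
      ∀ i, ∀ᵐ p : ℂ × ℝ, ¬ (p.1 ∈ A i ∧ p.1 + Complex.exp (p.2 * Complex.I) ∈ A i) := by
  let S : Fin 5 → Set (Ω × ℂ) := fun i => {q | ∃ᶠ k in atTop, 1 / 5 ≤ G i k q.2 q.1}
  have hS : ∀ i, MeasurableSet (S i) := by
    intro i
    have : S i = ⋂ n : ℕ, ⋃ k : ℕ, ⋃ _ : n ≤ k, {q | 1 / 5 ≤ G i k q.2 q.1} := by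
      ext q
      simp only [S, mem_ofPred_eq, frequently_atTop, mem_iInter, mem_iUnion, exists_prop]
    rw [this]
    exact MeasurableSet.iInter fun n => MeasurableSet.iUnion fun k => MeasurableSet.iUnion fun _ =>
      measurableSet_le measurable_const (hG i k)
  have hae : ∀ i, ∀ᵐ ω ∂P, ∀ᵐ p : ℂ × ℝ,
      ¬ ((ω, p.1) ∈ S i ∧ (ω, p.1 + Complex.exp (p.2 * Complex.I)) ∈ S i) := by
    intro i
    rw [Measure.ae_ae_comm]
    · exact Eventually.of_forall fun p =>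
        h i p.1 (p.1 + Complex.exp (p.2 * Complex.I))
          (by rw [add_sub_cancel_left, Complex.norm_exp_ofReal_mul_I])
    · have m1 : Measurable fun q : Ω × ℂ × ℝ => (q.1, q.2.1) := by fun_prop
      have m2 : Measurable fun q : Ω × ℂ × ℝ => (q.1, q.2.1 + Complex.exp (q.2.2 * Complex.I)) := by
        fun_prop
      exact ((m1 (hS i)).inter (m2 (hS i))).compl
  obtain ⟨ω, hω⟩ := (ae_all_iff.2 hae).exists
  refine ⟨fun i => {x | (ω, x) ∈ S i}, fun i => measurable_prodMk_left (hS i),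
    Eventually.of_forall fun x => ?_, hω⟩
  by_contra hc
  have h1 : ∀ i, ∀ᶠ k in atTop, ¬ 1 / 5 ≤ G i k x ω := fun i =>
    not_frequently.1 fun h => hc ⟨i, h⟩
  obtain ⟨k, hk⟩ := (eventually_all.2 h1).exists
  have h2 : ∑ i, G i k x ω < ∑ _i : Fin 5, (1 / 5 : ℝ) :=
    Finset.sum_lt_sum_of_nonempty Finset.univ_nonempty fun i _ => not_le.1 (hk i)
  rw [hsum] at h2
  norm_num at h2

end Ex

open Ex in
theorem extract {P : Measure (K → Fin 5)} (hP : InvCol P)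
    (hψ : ∀ i : Fin 5, ∃ ψ : K → ℝ, (∀ z : K, z ≠ 0 → ψ z = P.real {ω | ω 0 = i ∧ ω z = i}) ∧
      ∀ ε : ℝ, 0 < ε → ∃ δ : ℝ, 0 < δ ∧ ∀ x y : K, ‖(x : ℂ) - y‖ < δ → |ψ x - ψ y| ≤ ε) :
    ∃ A : Fin 5 → Set ℂ, (∀ i, MeasurableSet (A i)) ∧ (∀ᵐ x : ℂ, ∃ i, x ∈ A i) ∧
      ∀ i, ∀ᵐ p : ℂ × ℝ, ¬ (p.1 ∈ A i ∧ p.1 + Complex.exp (p.2 * Complex.I) ∈ A i) := by
  have := hP.prob
  choose ψ hψ hu using hψ
  choose η₀ hη₀ hη₀' using fun (i : Fin 5) (k : ℕ) => hu i (1 / 4 ^ k) (by positivity)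
  obtain ⟨η, hη, hη'⟩ : ∃ η : ℕ → ℝ, (∀ k, 0 < η k) ∧ ∀ i k, η k ≤ η₀ i k :=
    ⟨fun k => Finset.univ.inf' Finset.univ_nonempty (η₀ · k),
      fun k => (Finset.lt_inf'_iff _).2 fun i _ => hη₀ i k,
      fun i k => Finset.inf'_le (η₀ · k) (Finset.mem_univ i)⟩
  have hex : ∀ k, ∃ δ : ℚ, 0 < δ ∧ (20 : ℝ) * δ < η k ∧ (20 : ℝ) * δ < η (k - 1) ∧ (20 : ℝ) * δ < 1 := by
    intro k
    have h1 := hη k
    have h2 := hη (k - 1)
    obtain ⟨δ, h3, h4⟩ := exists_rat_btwn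
      (show (0 : ℝ) < min (η k) (min (η (k - 1)) 1) / 20 by positivity)
    rw [lt_div_iff₀ (by norm_num), lt_min_iff, lt_min_iff] at h4
    exact ⟨δ, by exact_mod_cast h3, by linarith [h4.1], by linarith [h4.2.1], by linarith [h4.2.2]⟩
  choose δ hδ hδ1 hδ2 hδ3 using hex
  have hδ' : ∀ k, (0 : ℝ) < δ k := fun k => by exact_mod_cast hδ k
  have hN : ∀ k : ℕ, 0 < 4 ^ k := fun k => by positivity
  let a : ℕ → ℂ → ℕ → K := fun k x => pt (δ k) (4 ^ k) (idx (δ k) x)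
  let G : Fin 5 → ℕ → ℂ → (K → Fin 5) → ℝ := fun i k x => av i (4 ^ k) (a k x)
  let D : Fin 5 → ℝ := fun i => |P.real {ω | ω 0 = i ∧ ω 0 = i} - ψ i 0|
  have hD : ∀ i, 0 ≤ D i := fun i => abs_nonneg _
  -- the basic estimate
  have est : ∀ i j k l (x y : ℂ) (u : K), j ≤ l → ‖(u : ℂ) - (y - x)‖ + 3 * δ k + 3 * δ l < η j →
      |∫ ω, G i k x ω * G i l y ω ∂P - ψ i u| ≤ (1 + D i) / 4 ^ j := by
    intro i j k l x y u hjl h
    refine (av_est hP i (hψ i) le_rfl (hN k) (hN l) (a k x) (a l y) (pt_injective (hδ l) (hN l) _)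
      (ε := 1 / 4 ^ j) fun n hn m hm => hη₀' i j _ _ (lt_of_lt_of_le ?_ (hη' i j))).trans ?_
    · have b1 := norm_pt_sub (hδ k) hn x
      have b2 := norm_pt_sub (hδ l) hm y
      refine lt_of_le_of_lt ?_ h
      rw [show (((a l y m - a k x n : K) : ℂ) - u) = ((a l y m : ℂ) - y) - ((a k x n : ℂ) - x) -
        (u - (y - x)) by push_cast; ring]
      refine (norm_sub_le _ _).trans ?_
      linarith [norm_sub_le ((a l y m : ℂ) - y) ((a k x n : ℂ) - x)]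
    · rw [add_div]
      refine add_le_add le_rfl ?_
      push_cast
      exact div_le_div_of_nonneg_left (hD i) (by positivity) (pow_le_pow_right₀ (by norm_num) hjl)
  have hsq : ∀ i x k, Integrable (fun ω => (G i k x ω - G i (k + 1) x ω) ^ 2) P ∧
      ∫ ω, (G i k x ω - G i (k + 1) x ω) ^ 2 ∂P ≤ 4 * (1 + D i) / 4 ^ k := by
    intro i x k
    have b1 := hδ1 k
    have b2 := hδ2 (k + 1)
    have b3 := hδ' k
    have b4 := hδ' (k + 1)
    rw [Nat.add_sub_cancel] at b2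
    rw [mul_div_assoc]
    have b0 : ‖((0 : K) : ℂ) - (x - x)‖ = 0 := by simp
    exact sq_int_le (measurable_av _ _ _) (measurable_av _ _ _) (abs_av_le _ _ _) (abs_av_le _ _ _)
      (est i k k k x x 0 le_rfl (by rw [b0]; linarith))
      (est i k k (k + 1) x x 0 (Nat.le_succ k) (by rw [b0]; linarith))
      (est i k (k + 1) (k + 1) x x 0 (Nat.le_succ k) (by rw [b0]; linarith))
  have hprod : ∀ i (x y : ℂ), ‖y - x‖ = 1 → ∀ k, Integrable (fun ω => G i k x ω * G i k y ω) P ∧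
      ∫ ω, G i k x ω * G i k y ω ∂P ≤ 4 * (1 + D i) / 4 ^ k := by
    intro i x y hxy k
    refine ⟨integrable_mul (measurable_av _ _ _) (measurable_av _ _ _) (abs_av_le _ _ _)
      (abs_av_le _ _ _), ?_⟩
    have b3 := hδ' k
    obtain ⟨u, hu1, hu2⟩ := exists_unit (hδ k) (by linarith [hδ3 k]) hxy
    have b1 := est i k k k x y u le_rfl (by linarith [hδ1 k])
    have b2 : ψ i u = 0 := by
      rw [hψ i u (by rintro rfl; simp at hu1), measureReal_def, hP.proper 0 u (by simpa using hu1)]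
      rfl
    rw [b2, sub_zero] at b1
    refine ((le_abs_self _).trans b1).trans ?_
    have := hD i
    gcongr
    linarith
  refine finish (P := P) G (fun i k => measurable_av_idx i (δ k) (4 ^ k))
    (fun k x ω => sum_av (hN k) _ ω) fun i x y hxy => ?_
  exact ae_not_both (fun k => G i k x) (fun k => G i k y)
    (fun k ω => mul_nonneg (av_nonneg _ _ _ _) (av_nonneg _ _ _ _)) _ (hsq i x) (hsq i y)
    (hprod i x y hxy)

end Crest.Agent.R40
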