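import Crest.Agent.R40.Defs

/-!
# Row 40: almost every character is discontinuous along every line

Recipe.  For `a : K` let `CL a = {χ | ∀ ε>0, ∃ δ>0, ∀ h : K, (h:ℂ).im = 0 → ‖h‖ < δ → ‖χ.1 (a*h)‖ ≤ ε}`
(measurable: same proof as `measurableSet_Cont`).
* `CL (t * a) = CL a` for real `t ≠ 0` in `K`; every `a ≠ 0` is `‖a‖ * u` with `‖u‖ = 1`
  (`norm_mem_KF`), and `CL u = rot u ⁻¹' CL 1`, so `μ (CL a) = μ (CL 1)`.
* if `D = Im (u * conj u') ≠ 0` then `CL u ∩ CL u' ⊆ Cont`: `z = α u + β u'` with the real numbers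
  `α = Im (z conj u')/D`, `β = - Im (z conj u)/D` in `K` (`im_mem_KF`, `conj_mem_KF`),
  `|α|,|β| ≤ C ‖z‖`.
* `u n = 1 + n i` (`n : ℕ`, no need to normalise) are pairwise independent, so the `CL (u n)` are
  pairwise a.e. disjoint with the same measure; finiteness of `μ` (`measure_iUnion₀` /
  `tsum_meas_le_meas_iUnion_of_disjoint₀`, `ENNReal.tsum_const_eq_top_of_ne_zero`) gives measure `0`.
* `K` is countable (`ae_all_iff`); `¬ LineDisc χ` means `χ ∈ CL a` for some `a ≠ 0`.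
-/

set_option autoImplicit false

open MeasureTheory Set Filter Topology
open scoped ComplexConjugate

namespace Crest.Agent.R40

/-- `χ` is discontinuous along every real line of `K` -/
def LineDisc (χ : Ch K) : Prop :=
  ∀ a : K, a ≠ 0 → ∃ ε : ℝ, 0 < ε ∧ ∀ δ : ℝ, 0 < δ →
    ∃ h : K, (h : ℂ).im = 0 ∧ ‖(h : ℂ)‖ < δ ∧ ε < ‖χ.1 (a * h)‖

/-- continuity along the line through `a` -/
def faCL (a : K) : Set (Ch K) :=
  {χ | ∀ ε : ℝ, 0 < ε → ∃ δ : ℝ, 0 < δ ∧ ∀ h : K, (h : ℂ).im = 0 → ‖(h : ℂ)‖ < δ →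
    ‖χ.1 (a * h)‖ ≤ ε}

theorem measurableSet_faCL (a : K) : MeasurableSet (faCL a) := by
  have : faCL a = ⋂ n : ℕ, ⋃ m : ℕ, ⋂ h : K, {χ : Ch K | (h : ℂ).im = 0 →
      ‖(h : ℂ)‖ < 1 / ((m : ℝ) + 1) → ‖χ.1 (a * h)‖ ≤ 1 / ((n : ℝ) + 1)} := by
    ext χ
    simp only [faCL, mem_ofPred_eq, mem_iInter, mem_iUnion]
    constructor
    · intro h n
      obtain ⟨δ, hδ, h⟩ := h (1 / ((n : ℝ) + 1)) (by positivity)
      obtain ⟨m, hm⟩ := exists_nat_one_div_lt hδ
      exact ⟨m, fun z h0 hz => h z h0 (hz.trans hm)⟩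
    · intro h ε hε
      obtain ⟨n, hn⟩ := exists_nat_one_div_lt hε
      obtain ⟨m, hm⟩ := h n
      exact ⟨_, by positivity, fun z h0 hz => (hm z h0 hz).trans hn.le⟩
  rw [this]
  refine MeasurableSet.iInter fun n => MeasurableSet.iUnion fun m =>
    MeasurableSet.iInter fun z => ?_
  exact Measurable.setOf (measurable_const.imp (measurable_const.imp
    (measurableSet_le (measurable_eval _).norm measurable_const).mem))

theorem faCL_subset (a : K) {t : K} (ht : (t : ℂ).im = 0) : faCL a ⊆ faCL (t * a) := by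
  intro χ h ε hε
  obtain ⟨δ, hδ, h⟩ := h ε hε
  refine ⟨δ / (‖(t : ℂ)‖ + 1), by positivity, fun z h0 hz => ?_⟩
  rw [show t * a * z = a * (t * z) by ring]
  refine h _ (by simp [ht, h0]) ?_
  rw [lt_div_iff₀ (by positivity)] at hz
  push_cast
  rw [norm_mul]
  nlinarith [norm_nonneg (z : ℂ), norm_nonneg (t : ℂ)]

theorem meas_faCL {μ : Measure (Ch K)} (hU : UInv μ) {a : K} (ha : a ≠ 0) :
    μ (faCL a) = μ (faCL 1) := by
  have ha' : (a : ℂ) ≠ 0 := by exact_mod_cast ha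
  let r : K := ⟨(‖(a : ℂ)‖ : ℝ), norm_mem_KF a.2⟩
  have hr : (r : ℂ) = (‖(a : ℂ)‖ : ℝ) := rfl
  have hr0 : r ≠ 0 := fun h => by
    have : (r : ℂ) = 0 := by exact_mod_cast h
    simp [hr, ha'] at this
  have h1 : faCL a = faCL (r⁻¹ * a) := by
    refine (faCL_subset a (by simp [hr])).antisymm ?_
    have := faCL_subset (r⁻¹ * a) (t := r) (by simp [hr])
    rwa [mul_inv_cancel_left₀ hr0] at this
  have h2 : faCL (r⁻¹ * a) = rot (r⁻¹ * a) ⁻¹' faCL 1 := by
    ext χ; simp [faCL]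
  rw [h1, h2]
  exact (hU _ (by simp [hr, ha'])).measure_preimage (measurableSet_faCL 1).nullMeasurableSet

theorem faCL_inter {n m : ℕ} (h : n ≠ m) :
    faCL (1 + n * iK) ∩ faCL (1 + m * iK) ⊆ Cont := by
  rintro χ ⟨h1, h2⟩ ε hε
  obtain ⟨δ₁, hδ₁, h1⟩ := h1 (ε / 2) (by positivity)
  obtain ⟨δ₂, hδ₂, h2⟩ := h2 (ε / 2) (by positivity)
  refine ⟨min (δ₁ / (m + 1)) (δ₂ / (n + 1)), by positivity, fun z hz => ?_⟩
  let x : K := ⟨((z : ℂ).re : ℝ), re_mem_KF z.2⟩
  let y : K := ⟨((z : ℂ).im : ℝ), im_mem_KF z.2⟩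
  have key : ∀ {n m : ℕ} {δ : ℝ}, n ≠ m → ‖(z : ℂ)‖ < δ / (m + 1) →
      (((y - m * x) / (n - m) : K) : ℂ).im = 0 ∧ ‖(((y - m * x) / (n - m) : K) : ℂ)‖ < δ := by
    intro n m δ h hz
    have e1 : (((y - m * x) / (n - m) : K) : ℂ) =
        ((((z : ℂ).im - m * (z : ℂ).re) / (n - m) : ℝ) : ℂ) := by
      push_cast; rfl
    rw [e1, Complex.ofReal_im, Complex.norm_real, Real.norm_eq_abs, abs_div]
    refine ⟨rfl, ?_⟩
    have a1 : (1 : ℝ) ≤ |(n : ℝ) - m| := by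
      have : (1 : ℤ) ≤ |(n : ℤ) - m| := Int.one_le_abs (by omega)
      exact_mod_cast this
    have a2 := abs_sub (z : ℂ).im (m * (z : ℂ).re)
    rw [abs_mul, Nat.abs_cast] at a2
    have a3 := mul_le_mul_of_nonneg_left (Complex.abs_re_le_norm z) (Nat.cast_nonneg (α := ℝ) m)
    rw [lt_div_iff₀ (by positivity)] at hz
    refine (div_le_self (abs_nonneg _) a1).trans_lt ?_
    linarith [Complex.abs_im_le_norm z]
  have k1 := key h (hz.trans_le (min_le_left _ _))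
  have k2 := key h.symm (hz.trans_le (min_le_right _ _))
  have hnm : (n : K) - m ≠ 0 := sub_ne_zero.2 (by exact_mod_cast h)
  have hmn : (m : K) - n ≠ 0 := sub_ne_zero.2 (by exact_mod_cast h.symm)
  have hz' : z = x + y * iK := Subtype.ext (Complex.re_add_im z).symm
  have e2 : z = (1 + n * iK) * ((y - m * x) / (n - m)) + (1 + m * iK) * ((y - n * x) / (m - n)) := by
    rw [← neg_sub (n : K) m]
    conv_lhs => rw [hz']
    field_simp
    ring
  rw [e2, χ.map_add]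
  linarith [norm_add_le (χ.1 ((1 + n * iK) * ((y - m * x) / (n - m))))
    (χ.1 ((1 + m * iK) * ((y - n * x) / (m - n)))), h1 _ k1.1 k1.2, h2 _ k2.1 k2.2]

theorem ae_lineDisc (μ : Measure (Ch K)) [IsFiniteMeasure μ] (hU : UInv μ) (h0 : μ Cont = 0) :
    ∀ᵐ χ ∂μ, LineDisc χ := by
  have hne : ∀ n : ℕ, (1 + n * iK : K) ≠ 0 := fun n h => by
    have := congrArg (fun z : K => (z : ℂ).re) h
    simp at this
  have h1 : μ (faCL 1) = 0 := by
    by_contra hc
    have := measure_iUnion₀ (μ := μ) (f := fun n : ℕ => faCL (1 + n * iK))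
      (fun n m h => measure_mono_null (faCL_inter h) h0)
      fun n => (measurableSet_faCL _).nullMeasurableSet
    simp only [meas_faCL hU (hne _), ENNReal.tsum_const_eq_top_of_ne_zero hc] at this
    exact measure_ne_top _ _ this
  refine ae_all_iff.2 fun a => ?_
  by_cases ha : a = 0
  · simp [ha]
  · refine (measure_eq_zero_iff_ae_notMem.1 ((meas_faCL hU ha).trans h1)).mono fun χ hχ _ => ?_
    simpa only [faCL, mem_ofPred_eq, not_forall, not_exists, not_and, not_le, exists_prop]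
      using hχ

end Crest.Agent.R40
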