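import Crest.Agent.R40.FrostA

/-!
# Row 40: local Følner averages on the real points of `K` and van der Corput

Recipe.  Let `f : ℕ → K` enumerate the real elements of `K` (countable), `ι n = Fin (n+1) → Fin (n+1)`,
`z n a = ∑ k, (a k : K) * f k`, `fr z = z - ⌊Re z⌋ ∈ [0,1)`, `v n a = fr (z n a)`,
`Av n G = (∑ a, G (v n a)) / card`.
* SHIFT: for `G : K → ℂ` with `‖G‖ ≤ 1`, `h = f k` and `k ≤ n`:
  `‖Av n (fun y => G (y + h)) - Av n G‖ ≤ 2 |h| + 4/(n+1)`.
  Split `a` into the coordinate `k` and the rest (`Equiv.piSplitAt` / `Fin.insertNthEquiv` /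
  `Finset.sum_fiberwise`); for fixed rest consider `y_j = z₀ + j h`, `j ≤ n+1`;
  `fr y_j + h = fr y_{j+1}` unless `⌊y_j⌋ ≠ ⌊y_{j+1}⌋`; the integer sequence `⌊y_j⌋` is monotone (or
  antitone), so the number of such `j ≤ n` is at most `|⌊y_{n+1}⌋ - ⌊y_0⌋| ≤ (n+1)|h| + 1`
  (bound each indicator by `|⌊y_{j+1}⌋ - ⌊y_j⌋|` and telescope); finally
  `∑_{j ≤ n} G (fr y_{j+1}) - ∑_{j ≤ n} G (fr y_j)` telescopes (norm `≤ 2`).
  Consequence: for every real `h ∈ K`, eventually `‖Av n G(·+h) - Av n G‖ ≤ 2|h| + η` uniformly in `G`.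
* induction on `d = natDegree p ≥ 1` (statement for all `p`).
  `d = 1`: `p = a X + b`, `G y = e (χ (a y + b))`, `G (y+h) = e(χ(a h)) G y`, so
  `‖Av‖ * 4ε ≤ ‖Av‖ ‖e(χ(a h)) - 1‖ ≤ 2|h| + η` (`le_norm_e_sub_one`) with `|h|` arbitrarily small.
  `d ≥ 2`: fix `H`, `δ`, `h_i = i * δ'` (`i < H`, `δ'` a small positive rational).
  `Av G = Av (fun y => (1/H) ∑ i, G (y + h_i)) + O(Hδ')`, Cauchy-Schwarz:
  `‖Av F‖² ≤ Av ‖F‖² = H⁻² ∑_{i,i'} Av e(χ(p(y+h_i) - p(y+h_i')))`; for `i ≠ i'` the polynomial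
  `p.comp (X + C h_i) - p.comp (X + C h_i')` (or `taylor`) has degree exactly `d - 1 ≥ 1`
  (char 0; coefficient `d * lead * (h_i - h_i')`; alternatively: its degree is `< d`, and if it were
  constant then its derivative would vanish, so `p'` would be periodic, hence constant), so
  `limsup ‖Av G‖ ≤ O(Hδ') + H^{-1/2}`.
-/

set_option autoImplicit false

open MeasureTheory Set Filter Topology
open scoped ComplexConjugate

namespace Crest.Agent.R40

theorem fb_floor_sum (x h : ℝ) (N : ℕ) :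
    ∑ j ∈ Finset.range N, |((⌊x + (j + 1 : ℕ) * h⌋ : ℤ) : ℝ) - ⌊x + j * h⌋| ≤ N * |h| + 1 := by
  have tel := Finset.sum_range_sub (fun j : ℕ => ((⌊x + j * h⌋ : ℤ) : ℝ)) N
  have a1 := Int.floor_le (x + N * h)
  have a2 := Int.lt_floor_add_one (x + N * h)
  have a3 := Int.floor_le (x + (0 : ℕ) * h)
  have a4 := Int.lt_floor_add_one (x + (0 : ℕ) * h)
  simp only [Nat.cast_zero, zero_mul] at a3 a4 tel
  rcases le_total 0 h with hh | hh
  · rw [Finset.sum_congr rfl fun j _ => abs_of_nonneg (sub_nonneg.2 (Int.cast_le.2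
      (Int.floor_mono (by push_cast; linarith)))), tel, abs_of_nonneg hh]
    linarith
  · rw [Finset.sum_congr rfl fun j _ => abs_of_nonpos (sub_nonpos.2 (Int.cast_le.2
      (Int.floor_mono (by push_cast; linarith)))), Finset.sum_neg_distrib, tel, abs_of_nonpos hh]
    linarith

/-- fractional part -/
noncomputable def fbFr (z : K) : K := z - (⌊(z : ℂ).re⌋ : ℤ)

theorem fb_shift1 (G : K → ℂ) (hG : ∀ y, ‖G y‖ ≤ 1) (z h : K) (hh : (h : ℂ).im = 0) (N : ℕ) :
    ‖∑ j ∈ Finset.range N, (G (fbFr (z + j * h) + h) - G (fbFr (z + j * h)))‖ ≤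
      2 * (N * ‖(h : ℂ)‖) + 4 := by
  have h2 : ∀ y y', ‖G y - G y'‖ ≤ 2 := fun y y' => by linarith [norm_sub_le (G y) (G y'), hG y, hG y']
  have tel := Finset.sum_range_sub (fun j : ℕ => G (fbFr (z + j * h))) N
  have hre : ∀ j : ℕ, ((z + j * h : K) : ℂ).re = (z : ℂ).re + j * (h : ℂ).re := fun j => by simp
  have h3 : ∀ j : ℕ, ‖G (fbFr (z + j * h) + h) - G (fbFr (z + (j + 1 : ℕ) * h))‖ ≤
      2 * |((⌊(z : ℂ).re + (j + 1 : ℕ) * (h : ℂ).re⌋ : ℤ) : ℝ) - ⌊(z : ℂ).re + j * (h : ℂ).re⌋| := by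
    intro j
    by_cases hj : ⌊(z : ℂ).re + (j + 1 : ℕ) * (h : ℂ).re⌋ = ⌊(z : ℂ).re + j * (h : ℂ).re⌋
    · have : fbFr (z + j * h) + h = fbFr (z + (j + 1 : ℕ) * h) := by
        rw [fbFr, fbFr, hre, hre, hj]; push_cast; ring
      rw [this, sub_self, norm_zero]; positivity
    · have : (1 : ℝ) ≤ |((⌊(z : ℂ).re + (j + 1 : ℕ) * (h : ℂ).re⌋ : ℤ) : ℝ) -
          ⌊(z : ℂ).re + j * (h : ℂ).re⌋| := by
        exact_mod_cast Int.one_le_abs (sub_ne_zero.2 hj)
      linarith [h2 (fbFr (z + j * h) + h) (fbFr (z + (j + 1 : ℕ) * h))]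
  have h4 := (norm_sum_le (Finset.range N) _).trans (Finset.sum_le_sum fun j _ => h3 j)
  rw [← Finset.mul_sum] at h4
  have h5 := fb_floor_sum (z : ℂ).re (h : ℂ).re N
  have h6 := mul_le_mul_of_nonneg_left (Complex.abs_re_le_norm h) (Nat.cast_nonneg (α := ℝ) N)
  rw [← Finset.sum_congr rfl fun (j : ℕ) _ => sub_add_sub_cancel (G (fbFr (z + j * h) + h))
    (G (fbFr (z + (j + 1 : ℕ) * h))) (G (fbFr (z + j * h))), Finset.sum_add_distrib, tel]
  linarith [norm_add_le (∑ j ∈ Finset.range N, (G (fbFr (z + j * h) + h) -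
    G (fbFr (z + (j + 1 : ℕ) * h)))) (G (fbFr (z + N * h)) - G (fbFr (z + (0 : ℕ) * h))),
    h2 (fbFr (z + N * h)) (fbFr (z + (0 : ℕ) * h))]

/-- the sample points -/
noncomputable def fbV (f : ℕ → K) (n : ℕ) (a : Fin (n + 1) → Fin (n + 1)) : K :=
  fbFr (∑ k, ((a k : ℕ) : K) * f k)

/-- the averages -/
noncomputable def fbAv (f : ℕ → K) (n : ℕ) (G : K → ℂ) : ℂ :=
  (∑ a, G (fbV f n a)) / ((n + 1 : ℂ) ^ (n + 1))

theorem fb_shift (f : ℕ → K) (n : ℕ) (k : Fin (n + 1)) (hh : (f k : ℂ).im = 0) (G : K → ℂ)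
    (hG : ∀ y, ‖G y‖ ≤ 1) :
    ‖fbAv f n (fun y => G (y + f k)) - fbAv f n G‖ ≤ 2 * ‖(f k : ℂ)‖ + 4 / (n + 1) := by
  rw [fbAv, fbAv, ← sub_div, ← Finset.sum_sub_distrib,
    ← (Fin.insertNthEquiv (fun _ => Fin (n + 1)) k).sum_comp, Fintype.sum_prod_type_right,
    norm_div, norm_pow, show ‖(n + 1 : ℂ)‖ = (n + 1 : ℝ) by exact_mod_cast Complex.norm_natCast (n + 1),
    div_le_iff₀ (by positivity)]
  refine (norm_sum_le _ _).trans ((Finset.sum_le_card_nsmul _ _
    (2 * ((n + 1 : ℕ) * ‖(f k : ℂ)‖) + 4) fun b _ => ?_).trans (le_of_eq ?_))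
  · refine le_trans (le_of_eq (congrArg _ ?_))
      (fb_shift1 G hG (∑ l : Fin n, ((b l : ℕ) : K) * f (k.succAbove l)) (f k) hh (n + 1))
    rw [Finset.sum_range]
    refine Finset.sum_congr rfl fun j _ => ?_
    simp [fbV, Fin.sum_univ_succAbove _ k, add_comm]
  · simp only [Finset.card_univ, Fintype.card_fun, Fintype.card_fin, nsmul_eq_mul]
    push_cast
    field_simp
    ring

theorem fb_shift_ev {f : ℕ → K} (hf : range f = {h : K | (h : ℂ).im = 0}) {h : K}
    (hh : (h : ℂ).im = 0) {η : ℝ} (hη : 0 < η) : ∀ᶠ n in atTop, ∀ G : K → ℂ, (∀ y, ‖G y‖ ≤ 1) →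
      ‖fbAv f n (fun y => G (y + h)) - fbAv f n G‖ ≤ 2 * ‖(h : ℂ)‖ + η := by
  obtain ⟨k, rfl⟩ : h ∈ range f := hf ▸ hh
  have h1 : Tendsto (fun n : ℕ => 4 / ((n : ℝ) + 1)) atTop (𝓝 0) := by
    simpa [div_eq_mul_inv] using tendsto_one_div_add_atTop_nhds_zero_nat.const_mul (4 : ℝ)
  filter_upwards [eventually_ge_atTop k, h1.eventually_le_const hη] with n hn h2 G hG
  exact (fb_shift f n ⟨k, by omega⟩ hh G hG).trans (add_le_add le_rfl h2)

theorem fb_vdc {ι κ : Type} [Fintype ι] [Fintype κ] (g : ι → κ → ℂ) :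
    ‖∑ i, ∑ a, g a i‖ ^ 2 ≤ Fintype.card ι * ∑ i, ∑ j, ‖∑ a, g a i * conj (g a j)‖ := by
  rw [Finset.sum_comm]
  refine (pow_le_pow_left₀ (norm_nonneg _) (norm_sum_le _ _) 2).trans
    (sq_sum_le_card_mul_sum_sq.trans (mul_le_mul_of_nonneg_left ?_ (Nat.cast_nonneg _)))
  have h : ((∑ a, ‖∑ i, g a i‖ ^ 2 : ℝ) : ℂ) = ∑ i, ∑ j, ∑ a, g a i * conj (g a j) := by
    push_cast
    simp only [← Complex.mul_conj', map_sum, Finset.sum_mul_sum]
    rw [Finset.sum_comm]
    exact Finset.sum_congr rfl fun i _ => Finset.sum_comm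
  refine (le_abs_self _).trans ?_
  rw [← Real.norm_eq_abs, ← Complex.norm_real, h]
  exact (norm_sum_le _ _).trans (Finset.sum_le_sum fun i _ => norm_sum_le _ _)

theorem fb_vdc_av (f : ℕ → K) (n : ℕ) {κ : Type} [Fintype κ] (G : κ → K → ℂ) :
    ‖∑ i, fbAv f n (G i)‖ ^ 2 ≤ ∑ i, ∑ j, ‖fbAv f n fun y => G i y * conj (G j y)‖ := by
  have h := fb_vdc fun a i => G i (fbV f n a)
  have hn : ‖(n + 1 : ℂ) ^ (n + 1)‖ = (n + 1 : ℝ) ^ (n + 1) := by
    rw [norm_pow]; exact_mod_cast congrArg (· ^ (n + 1)) (Complex.norm_natCast (n + 1))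
  simp only [fbAv, ← Finset.sum_div, norm_div, hn, div_pow]
  simp only [Fintype.card_fun, Fintype.card_fin] at h
  push_cast at h
  rw [div_le_div_iff₀ (by positivity) (by positivity)]
  nlinarith [mul_le_mul_of_nonneg_right h (show (0 : ℝ) ≤ (n + 1 : ℝ) ^ (n + 1) by positivity)]

theorem fb_deg {p : Polynomial K} (hp : 2 ≤ p.natDegree) {h h' : K} (hne : h ≠ h') :
    0 < (Polynomial.taylor h p - Polynomial.taylor h' p).natDegree ∧
      (Polynomial.taylor h p - Polynomial.taylor h' p).natDegree < p.natDegree := by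
  have hp0 : p ≠ 0 := by rintro rfl; simp at hp
  obtain ⟨d, hd⟩ : ∃ d, p.natDegree = d + 1 := ⟨p.natDegree - 1, by omega⟩
  have h1 : (Polynomial.taylor h p - Polynomial.taylor h' p).coeff d ≠ 0 := by
    have e1 := Polynomial.eq_X_add_C_of_natDegree_le_one
      ((Polynomial.natDegree_hasseDeriv_le p d).trans (by omega))
    rw [Polynomial.coeff_sub, Polynomial.taylor_coeff, Polynomial.taylor_coeff, e1]
    simp only [Polynomial.eval_add, Polynomial.eval_mul, Polynomial.eval_C, Polynomial.eval_X,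
      add_sub_add_right_eq_sub, ← mul_sub, Polynomial.hasseDeriv_coeff]
    refine mul_ne_zero (mul_ne_zero (by exact_mod_cast (Nat.choose_pos (by omega)).ne') ?_)
      (sub_ne_zero.2 hne)
    rw [add_comm, ← hd]
    exact Polynomial.leadingCoeff_ne_zero.2 hp0
  refine ⟨lt_of_lt_of_le (by omega) (Polynomial.le_natDegree_of_ne_zero h1), ?_⟩
  refine (Polynomial.natDegree_lt_iff_degree_lt (fun h0 => h1 (by simp [h0]))).2 ?_
  rw [← Polynomial.degree_eq_natDegree hp0, ← Polynomial.degree_taylor p h]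
  exact Polynomial.degree_sub_lt_left (by simp) (by simpa using hp0) (by simp)

theorem fb_main {f : ℕ → K} (hf : range f = {h : K | (h : ℂ).im = 0}) {χ : Ch K} (hχ : LineDisc χ)
    (d : ℕ) : ∀ p : Polynomial K, 0 < p.natDegree → p.natDegree ≤ d → ∀ η : ℝ, 0 < η →
      ∀ᶠ n in atTop, ‖fbAv f n fun y => e (χ.1 (p.eval y))‖ ≤ η := by
  induction d with
  | zero => intro p h1 h2; omega
  | succ d ih =>
    intro p h1 h2 η hη
    by_cases hp : p.natDegree ≤ 1
    · have ha : p.coeff 1 ≠ 0 := by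
        rw [show 1 = p.natDegree by omega]
        exact Polynomial.leadingCoeff_ne_zero.2 (by rintro rfl; simp at h1)
      obtain ⟨ε, hε, hχ⟩ := hχ _ ha
      obtain ⟨h, hh, hδ, hh'⟩ := hχ (η * ε) (by positivity)
      filter_upwards [fb_shift_ev hf hh (η := 2 * (η * ε)) (by positivity)] with n hn
      have h3 := hn (fun y => e (χ.1 (p.eval y))) fun y => (norm_e _).le
      have h4 : (fbAv f n fun y => e (χ.1 (p.eval (y + h)))) =
          e (χ.1 (p.coeff 1 * h)) * fbAv f n fun y => e (χ.1 (p.eval y)) := by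
        rw [fbAv, fbAv, ← mul_div_assoc, Finset.mul_sum]
        refine congrArg (· / _) (Finset.sum_congr rfl fun a _ => ?_)
        rw [← e_add, ← χ.map_add]
        conv_lhs => rw [Polynomial.eq_X_add_C_of_natDegree_le_one hp]
        conv_rhs => enter [1, 2, 2]; rw [Polynomial.eq_X_add_C_of_natDegree_le_one hp]
        simp only [Polynomial.eval_add, Polynomial.eval_mul, Polynomial.eval_C, Polynomial.eval_X]
        congr 2; ring
      rw [h4, ← sub_one_mul, norm_mul] at h3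
      have h5 := mul_le_mul_of_nonneg_right ((by linarith : 4 * ε ≤ _).trans
        (le_norm_e_sub_one (χ.1 (p.coeff 1 * h)))) (norm_nonneg (fbAv f n fun y => e (χ.1 (p.eval y))))
      nlinarith
    · obtain ⟨H, hH⟩ := exists_nat_gt (8 / η ^ 2)
      have hH0 : (0 : ℝ) < H := lt_trans (by positivity) hH
      obtain ⟨q, hq0, hq⟩ := exists_rat_btwn (show 0 < η / (8 * H) by positivity)
      let s : Fin H → K := fun i => ((i : ℕ) : K) * ⟨((q : ℝ) : ℂ), ratCast_mem_KF q⟩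
      have hs : ∀ i, (s i : ℂ) = (((i : ℕ) * (q : ℝ) : ℝ) : ℂ) := fun i => by simp [s]
      have hs1 : ∀ i, ‖(s i : ℂ)‖ ≤ η / 8 := fun i => by
        rw [hs, Complex.norm_real, Real.norm_of_nonneg (by positivity)]
        rw [lt_div_iff₀ (by positivity)] at hq
        have : ((i : ℕ) : ℝ) ≤ H := by exact_mod_cast i.2.le
        nlinarith
      have hs2 : ∀ i j, i ≠ j → s i ≠ s j := fun i j hij h => by
        have := congrArg (fun z : K => (z : ℂ)) h
        simp only [hs, Complex.ofReal_inj, mul_eq_mul_right_iff, hq0.ne', or_false,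
          Nat.cast_inj] at this
        exact hij (Fin.ext this)
      have e1 : ∀ᶠ n in atTop, ∀ i, ‖(fbAv f n fun y => e (χ.1 (p.eval (y + s i)))) -
          fbAv f n fun y => e (χ.1 (p.eval y))‖ ≤ η / 2 := by
        refine eventually_all.2 fun i => ?_
        filter_upwards [fb_shift_ev hf (h := s i) (by rw [hs, Complex.ofReal_im])
          (η := η / 4) (by positivity)] with n hn
        linarith [hn (fun y => e (χ.1 (p.eval y))) fun y => (norm_e _).le, hs1 i]
      have e2 : ∀ᶠ n in atTop, ∀ i j, ‖fbAv f n fun y => e (χ.1 (p.eval (y + s i))) *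
          conj (e (χ.1 (p.eval (y + s j))))‖ ≤ (if i = j then 1 else 0) + η ^ 2 / 8 := by
        refine eventually_all.2 fun i => eventually_all.2 fun j => ?_
        split_ifs with hij
        · refine Eventually.of_forall fun n => ?_
          simp only [hij, Complex.mul_conj', norm_e, fbAv, Finset.sum_const, Finset.card_univ,
            Fintype.card_fun, Fintype.card_fin, nsmul_eq_mul]
          push_cast
          rw [one_pow, mul_one, div_self (pow_ne_zero _ (by exact_mod_cast n.succ_ne_zero)),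
            norm_one]
          exact le_add_of_nonneg_right (by positivity)
        · have := fb_deg (p := p) (by omega) (hs2 i j hij)
          simpa only [Polynomial.eval_sub, Polynomial.taylor_eval, χ.map_sub, e_sub, zero_add]
            using ih _ this.1 (by omega) (η ^ 2 / 8) (by positivity)
      filter_upwards [e1, e2] with n e1 e2
      have h3 := (fb_vdc_av f n fun i y => e (χ.1 (p.eval (y + s i)))).trans
        (Finset.sum_le_sum fun i _ => Finset.sum_le_sum fun j _ => e2 i j)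
      simp only [Finset.sum_add_distrib, Finset.sum_ite_eq, Finset.mem_univ, if_true,
        Finset.sum_const, Finset.card_univ, Fintype.card_fin, nsmul_eq_mul, mul_one] at h3
      have h4 : ‖∑ i, fbAv f n fun y => e (χ.1 (p.eval (y + s i)))‖ ≤ H * (η / 2) := by
        refine (sq_le_sq₀ (norm_nonneg _) (by positivity)).1 (h3.trans ?_)
        rw [div_lt_iff₀ (by positivity)] at hH
        nlinarith
      have h5 := (norm_sum_le _ _).trans (Finset.sum_le_card_nsmul Finset.univ _ _ fun i _ => e1 i)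
      rw [Finset.sum_sub_distrib, Finset.sum_const, Finset.card_univ, Fintype.card_fin,
        nsmul_eq_mul, nsmul_eq_mul] at h5
      have h6 := norm_sub_norm_le ((H : ℂ) * fbAv f n fun y => e (χ.1 (p.eval y)))
        (∑ i, fbAv f n fun y => e (χ.1 (p.eval (y + s i))))
      rw [norm_sub_rev, norm_mul, Complex.norm_natCast] at h6
      nlinarith

theorem exists_folner : ∃ v : (n : ℕ) → (Fin (n + 1) → Fin (n + 1)) → K,
    (∀ n a, (v n a : ℂ).im = 0 ∧ 0 ≤ (v n a : ℂ).re ∧ (v n a : ℂ).re < 1) ∧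
    ∀ χ : Ch K, LineDisc χ → ∀ p : Polynomial K, 0 < p.natDegree →
      Tendsto (fun n : ℕ => (∑ a, e (χ.1 (p.eval (v n a)))) / ((n + 1 : ℂ) ^ (n + 1)))
        atTop (𝓝 0) := by
  obtain ⟨f, hf⟩ := (Set.to_countable {h : K | (h : ℂ).im = 0}).exists_eq_range ⟨0, by simp⟩
  refine ⟨fbV f, fun n a => ?_, fun χ hχ p hp => ?_⟩
  · have h : ∀ k, (f k : ℂ).im = 0 := fun k => (hf.ge ⟨k, rfl⟩ :)
    refine ⟨by simp [fbV, fbFr, h], ?_, ?_⟩ <;> rw [fbV, fbFr] <;>
      generalize (∑ k, ((a k : ℕ) : K) * f k) = z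
    · simpa using Int.fract_nonneg (z : ℂ).re
    · simpa using Int.fract_lt_one (z : ℂ).re
  · exact tendsto_zero_iff_norm_tendsto_zero.2 (tendsto_order.2 ⟨fun a ha =>
      Eventually.of_forall fun n => ha.trans_le (norm_nonneg _), fun η hη =>
      (fb_main hf.symm hχ _ p hp le_rfl (η / 2) (by positivity)).mono fun n hn =>
        hn.trans_lt (by linarith)⟩)

end Crest.Agent.R40
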