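import Crest.Agent.R40.Loc

/-!
# Row 40: Host's argument on the dual of `O`

`Lop` is the transfer operator of the five-to-one map `Sh`.  With the Hahn set `B` of
`∑ₖ (· + tk k)_* m - (3/2) m`, `∫ g (3/2)^{visits to B} ≤ ∫ Lop^[n] g`; Parseval for the averages of
the `e (x (w a))` shows that with positive probability `B` is never visited.
-/

set_option autoImplicit false

open MeasureTheory Set Filter Topology
open scoped ComplexConjugate ENNReal NNReal

namespace Crest.Agent.R40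

noncomputable section

/-- transfer operator -/
def Lop {A : Type} [AddCommMonoid A] (g : Ch O → A) (y : Ch O) : A :=
  ∑ k : ZMod 5, g (Function.surjInv Sh_surjective y + tk k)

theorem Lop_Sh {A : Type} [AddCommMonoid A] (g : Ch O → A) (x : Ch O) :
    Lop g (Sh x) = ∑ k : ZMod 5, g (x + tk k) := by
  obtain ⟨l, hl⟩ := exists_tk_of_Sh_eq (Function.surjInv_eq Sh_surjective (Sh x))
  unfold Lop
  rw [hl, ← Equiv.sum_comp (Equiv.addLeft l) (fun k => g (x + tk k))]
  refine Finset.sum_congr rfl fun k _ => ?_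
  simp [tk_add, add_assoc]

theorem measurable_Lop {g : Ch O → ℝ≥0∞} (hg : Measurable g) : Measurable (Lop g) := by
  rw [← measurable_Sh.measurable_comp_iff_of_surjective Sh_surjective]
  have : Lop g ∘ Sh = fun x => ∑ k : ZMod 5, g (x + tk k) := funext fun x => Lop_Sh g x
  rw [this]
  exact Finset.measurable_sum _ fun k _ => hg.comp (measurable_add_const _)

theorem Lop_iter_map {A B : Type} [AddCommMonoid A] [AddCommMonoid B] (φ : A →+ B) (n : ℕ) :
    ∀ g : Ch O → A, Lop^[n] (fun x => φ (g x)) = fun y => φ (Lop^[n] g y) := by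
  induction n with
  | zero => intro g; rfl
  | succ n ih =>
    intro g
    rw [Function.iterate_succ_apply, Function.iterate_succ_apply, ← ih]
    congr 1
    funext y
    simp [Lop, map_sum]

theorem Lop_iter_sum {A ι : Type} [AddCommMonoid A] (s : Finset ι) (n : ℕ) :
    ∀ g : ι → Ch O → A, Lop^[n] (fun x => ∑ i ∈ s, g i x) = fun y => ∑ i ∈ s, Lop^[n] (g i) y := by
  induction n with
  | zero => intro g; rfl
  | succ n ih =>
    intro g
    simp only [Function.iterate_succ_apply]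
    rw [← ih]
    congr 1
    funext y
    simp only [Lop]
    exact Finset.sum_comm

theorem Lop_iter_zero (n : ℕ) : Lop^[n] (fun _ => (0 : ℂ)) = fun _ => 0 := by
  induction n with
  | zero => rfl
  | succ n ih =>
    rw [Function.iterate_succ_apply]
    have : Lop (fun _ => (0 : ℂ)) = fun _ => 0 := by funext y; simp [Lop]
    rw [this, ih]

theorem sum_e_tk (z : O) : ∑ k : ZMod 5, e ((tk k).1 z) = if rO z = 0 then 5 else 0 := by
  have := AddChar.sum_mulShift (rO z) (ZMod.isPrimitive_stdAddChar 5)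
  rw [ZMod.card] at this
  split_ifs at this ⊢ <;> exact_mod_cast this

theorem Lop_e_mul (z : O) : Lop (fun x => e (x.1 (vO * z))) = fun y => 5 * e (y.1 z) := by
  funext y
  unfold Lop
  simp only [Ch.add_apply, e_add]
  rw [← Finset.mul_sum, sum_e_tk, if_pos (by simp [rO_vO]), ← Sh_apply,
    Function.surjInv_eq Sh_surjective, mul_comm]

theorem Lop_e_of_ne {z : O} (hz : rO z ≠ 0) : Lop (fun x => e (x.1 z)) = fun _ => 0 := by
  funext y
  unfold Lop
  simp only [Ch.add_apply, e_add]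
  rw [← Finset.mul_sum, sum_e_tk, if_neg hz, mul_zero]

theorem Lop_iter_mul (c : ℂ) (n : ℕ) (g : Ch O → ℂ) :
    Lop^[n] (fun x => c * g x) = fun y => c * Lop^[n] g y :=
  Lop_iter_map (AddMonoidHom.mulLeft c) n g

theorem Lop_iter_e_of_not_dvd (n : ℕ) : ∀ z : O, ¬ vO ^ n ∣ z →
    Lop^[n] (fun x => e (x.1 z)) = fun _ => 0 := by
  induction n with
  | zero => intro z hz; simp at hz
  | succ n ih =>
    intro z hz
    rw [Function.iterate_succ_apply]
    by_cases h : rO z = 0
    · obtain ⟨z', rfl⟩ := rO_eq_zero_iff.1 h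
      rw [Lop_e_mul, Lop_iter_mul, ih z' (fun h' => hz (by
        rw [pow_succ']; exact mul_dvd_mul_left _ h'))]
      simp
    · rw [Lop_e_of_ne h, Lop_iter_zero]

theorem Lop_iter_e_zero (n : ℕ) : Lop^[n] (fun x => e (x.1 0)) = fun _ => 5 ^ n := by
  induction n with
  | zero => funext y; simp [Ch.map_zero]
  | succ n ih =>
    rw [Function.iterate_succ_apply]
    have := Lop_e_mul 0
    rw [mul_zero] at this
    rw [this, Lop_iter_mul, ih]
    funext y; ring

/-- the averaged exponential -/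
def Fa (n : ℕ) (x : Ch O) : ℂ := ((5 : ℂ) ^ n)⁻¹ * ∑ a ∈ Finset.range (5 ^ n), e (x.1 (wO a))

theorem continuous_Fa (n : ℕ) : Continuous (Fa n) := by unfold Fa; fun_prop

theorem norm_Fa_le (n : ℕ) (x : Ch O) : ‖Fa n x‖ ≤ 1 := by
  unfold Fa
  rw [norm_mul, norm_inv, norm_pow]
  have := norm_sum_le (Finset.range (5 ^ n)) fun a => e (x.1 (wO a))
  simp only [norm_e, Finset.sum_const, Finset.card_range, nsmul_eq_mul, mul_one] at this
  push_cast at this
  rw [show ‖(5 : ℂ)‖ = 5 by simp, inv_mul_le_iff₀ (by positivity), mul_one]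
  exact this

theorem parseval (n : ℕ) (y : Ch O) :
    Lop^[n + 1] (fun x => ((‖Fa n x‖₊ ^ 2 : ℝ≥0) : ℝ≥0∞)) y = 5 := by
  have h1 := congrFun (Lop_iter_map ENNReal.ofNNRealHom.toAddMonoidHom (n + 1)
    (fun x => ‖Fa n x‖₊ ^ 2)) y
  have h2 := congrFun (Lop_iter_map (Complex.ofRealHom.comp NNReal.toRealHom).toAddMonoidHom (n + 1)
    (fun x => ‖Fa n x‖₊ ^ 2)) y
  have h3 : (fun x => (Complex.ofRealHom.comp NNReal.toRealHom).toAddMonoidHom (‖Fa n x‖₊ ^ 2)) =
      fun x => (((5 : ℂ) ^ n)⁻¹ * ((5 : ℂ) ^ n)⁻¹) * ∑ a ∈ Finset.range (5 ^ n),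
        ∑ b ∈ Finset.range (5 ^ n), e (x.1 (wO a - wO b)) := by
    funext x
    have : (Complex.ofRealHom.comp NNReal.toRealHom).toAddMonoidHom (‖Fa n x‖₊ ^ 2) =
        Fa n x * conj (Fa n x) := by
      rw [Complex.mul_conj, Complex.normSq_eq_norm_sq]; simp
    rw [this]
    simp only [Fa, map_mul, map_sum, map_inv₀, map_pow, Ch.map_sub, e_sub]
    rw [← Finset.sum_mul_sum, show conj (5 : ℂ) = 5 from Complex.conj_ofNat 5]
    ring
  rw [h3, Lop_iter_mul, Lop_iter_sum] at h2
  simp only [Lop_iter_sum] at h2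
  have h4 : ∀ a ∈ Finset.range (5 ^ n), ∑ b ∈ Finset.range (5 ^ n),
      Lop^[n + 1] (fun x => e (x.1 (wO a - wO b))) y = 5 ^ (n + 1) := by
    intro a ha
    rw [Finset.sum_eq_single a]
    · rw [sub_self, Lop_iter_e_zero]
    · intro b hb hba
      rw [Lop_iter_e_of_not_dvd]
      intro h
      exact hba (wO_inj (Finset.mem_range.1 ha) (Finset.mem_range.1 hb) h).symm
    · intro h; exact absurd ha h
  rw [Finset.sum_congr rfl h4] at h2
  simp only [Finset.sum_const, Finset.card_range, nsmul_eq_mul] at h2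
  have h5 : Lop^[n + 1] (fun x => ‖Fa n x‖₊ ^ 2) y = 5 := by
    have : ((Lop^[n + 1] (fun x => ‖Fa n x‖₊ ^ 2) y : ℝ≥0) : ℂ) = ((5 : ℝ≥0) : ℂ) := by
      refine h2.symm.trans ?_
      push_cast
      field_simp
      ring
    exact_mod_cast this
  refine h1.trans ?_
  rw [h5]; rfl

section Hahn
variable (m : Measure (Ch O))

/-- the sum of the five translates of `m` -/
def nu : Measure (Ch O) := ∑ k : ZMod 5, m.map (· + tk k)

instance [IsFiniteMeasure m] : IsFiniteMeasure (nu m) := by unfold nu; infer_instance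

theorem lintegral_nu {g : Ch O → ℝ≥0∞} (hg : Measurable g) :
    ∫⁻ x, g x ∂nu m = ∫⁻ x, ∑ k : ZMod 5, g (x + tk k) ∂m := by
  unfold nu
  rw [lintegral_finsetSum_measure, lintegral_finsetSum]
  · exact Finset.sum_congr rfl fun k _ => lintegral_map hg (measurable_add_const _)
  · exact fun k _ => hg.comp (measurable_add_const _)

theorem nu_apply {t : Set (Ch O)} (ht : MeasurableSet t) :
    nu m t = ∑ k : ZMod 5, m ((· + tk k) ⁻¹' t) := by
  unfold nu
  rw [Measure.finsetSum_apply]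
  exact Finset.sum_congr rfl fun k _ => Measure.map_apply (measurable_add_const _) ht

theorem le_nu {t : Set (Ch O)} (ht : MeasurableSet t) : m t ≤ nu m t := by
  rw [nu_apply m ht]
  have := Finset.single_le_sum (f := fun k : ZMod 5 => m ((· + tk k) ⁻¹' t))
    (fun _ _ => zero_le) (Finset.mem_univ 0)
  simpa using this

theorem le_nu' {t : Set (Ch O)} (ht : MeasurableSet t) {l : ZMod 5} (hl : l ≠ 0) :
    m t + m ((· + tk l) ⁻¹' t) ≤ nu m t := by
  rw [nu_apply m ht]
  have := Finset.sum_le_sum_of_subset (f := fun k : ZMod 5 => m ((· + tk k) ⁻¹' t))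
    (Finset.subset_univ {0, l})
  rw [Finset.sum_pair hl.symm] at this
  simpa using this

variable {m}

open Classical in
/-- the weight -/
def Wt (B : Set (Ch O)) (x : Ch O) : ℝ≥0∞ := if x ∈ B then 3 / 2 else 1

theorem measurable_Wt {B : Set (Ch O)} (hB : MeasurableSet B) : Measurable (Wt B) :=
  Measurable.ite hB measurable_const measurable_const

theorem one_le_Wt (B : Set (Ch O)) (x : Ch O) : 1 ≤ Wt B x := by
  unfold Wt
  split_ifs
  · rw [ENNReal.le_div_iff_mul_le (by simp) (by simp)]; norm_num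
  · exact le_rfl

theorem one_step {B : Set (Ch O)} (hB : MeasurableSet B)
    (h : ∀ t, MeasurableSet t → t ⊆ B → ((3 / 2 : ℝ≥0∞) • m) t ≤ nu m t)
    {g : Ch O → ℝ≥0∞} (hg : Measurable g) :
    ∫⁻ x, g x * Wt B x ∂m ≤ ∫⁻ x, ∑ k : ZMod 5, g (x + tk k) ∂m := by
  rw [← lintegral_nu m hg, ← lintegral_add_compl _ hB, ← lintegral_add_compl g hB]
  apply add_le_add
  · have h1 : ((3 / 2 : ℝ≥0∞) • m).restrict B ≤ (nu m).restrict B := by
      refine Measure.le_iff.2 fun t ht => ?_
      rw [Measure.restrict_apply ht, Measure.restrict_apply ht]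
      exact h _ (ht.inter hB) inter_subset_right
    refine le_trans (le_of_eq ?_) (lintegral_mono' h1 le_rfl)
    rw [Measure.restrict_smul, lintegral_smul_measure, smul_eq_mul, ← lintegral_const_mul _ hg]
    refine setLIntegral_congr_fun hB fun x hx => ?_
    simp only [Wt, if_pos hx, mul_comm]
  · have h1 : m.restrict Bᶜ ≤ (nu m).restrict Bᶜ :=
      Measure.restrict_mono le_rfl (Measure.le_iff.2 fun t ht => le_nu m ht)
    refine le_trans (le_of_eq ?_) (lintegral_mono' h1 le_rfl)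
    refine setLIntegral_congr_fun hB.compl fun x hx => ?_
    simp only [Wt, if_neg hx, mul_one]

/-- the cumulated weight -/
def Wn (B : Set (Ch O)) (n : ℕ) (x : Ch O) : ℝ≥0∞ := ∏ j ∈ Finset.range n, Wt B (Sh^[j] x)

theorem measurable_Wn {B : Set (Ch O)} (hB : MeasurableSet B) (n : ℕ) : Measurable (Wn B n) :=
  Finset.measurable_prod _ fun j _ => (measurable_Wt hB).comp (measurable_Sh.iterate j)

theorem many_steps (hS : MeasurePreserving Sh m m) {B : Set (Ch O)} (hB : MeasurableSet B)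
    (h : ∀ t, MeasurableSet t → t ⊆ B → ((3 / 2 : ℝ≥0∞) • m) t ≤ nu m t) (n : ℕ) :
    ∀ {g : Ch O → ℝ≥0∞}, Measurable g →
      ∫⁻ x, g x * Wn B n x ∂m ≤ ∫⁻ y, Lop^[n] g y ∂m := by
  induction n with
  | zero => intro g _; simp [Wn]
  | succ n ih =>
    intro g hg
    rw [Function.iterate_succ_apply]
    refine le_trans ?_ (ih (measurable_Lop hg))
    rw [← hS.lintegral_comp (f := fun x => Lop g x * Wn B n x)
      ((measurable_Lop hg).mul (measurable_Wn hB n))]
    have hg' : Measurable fun x => g x * Wn B n (Sh x) :=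
      hg.mul ((measurable_Wn hB n).comp measurable_Sh)
    refine le_trans (le_of_eq ?_) ((one_step hB h hg').trans (le_of_eq ?_))
    · refine lintegral_congr fun x => ?_
      simp only [Wn, Finset.prod_range_succ', Function.iterate_succ_apply, Function.iterate_zero,
        id, mul_assoc]
    · refine lintegral_congr fun x => ?_
      simp only [Sh_add_tk, Lop_Sh, Finset.sum_mul]

theorem Wn_mono (B : Set (Ch O)) (x : Ch O) : Monotone fun n => Wn B n x := by
  refine monotone_nat_of_le_succ fun n => ?_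
  simp only [Wn, Finset.prod_range_succ]
  exact le_mul_of_one_le_right' (one_le_Wt _ _)

theorem Wn_unbounded {B : Set (Ch O)} {x : Ch O} (hx : ∃ᶠ n in atTop, Sh^[n] x ∈ B) (r : ℕ) :
    ∃ n, (3 / 2 : ℝ≥0∞) ^ r ≤ Wn B n x := by
  induction r with
  | zero => exact ⟨0, by simp [Wn]⟩
  | succ r ih =>
    obtain ⟨n, hn⟩ := ih
    obtain ⟨j, hj, hjB⟩ := frequently_atTop.1 hx n
    refine ⟨j + 1, ?_⟩
    have : Wn B (j + 1) x = Wn B j x * (3 / 2) := by
      simp only [Wn, Finset.prod_range_succ, Wt, if_pos hjB]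
    rw [this, pow_succ]
    exact mul_le_mul_left (hn.trans (Wn_mono B x hj)) _

end Hahn

theorem host (m : Measure (Ch O)) [IsProbabilityMeasure m] (hS : MeasurePreserving Sh m m)
    (c : ℂ) (hc : c ≠ 0) (hw : ∀ a : ℕ, ft m (wO a) = c) :
    ∃ Y L : Set (Ch O), MeasurableSet Y ∧ MeasurableSet L ∧ m Y ≠ 0 ∧ MapsTo Sh Y Y ∧
      m (Y \ L) = 0 ∧ ∀ x ∈ L, ∀ k : ZMod 5, k ≠ 0 → x + tk k ∉ L := by
  have h32 : (3 / 2 : ℝ≥0∞) ≠ ∞ := ENNReal.div_ne_top (by simp) (by simp)
  have : IsFiniteMeasure ((3 / 2 : ℝ≥0∞) • m) := Measure.smul_finite m h32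
  obtain ⟨B, hB, h1, h2⟩ := hahn_decomposition (nu m) ((3 / 2 : ℝ≥0∞) • m)
  have hYm : MeasurableSet (⋂ j : ℕ, Sh^[j] ⁻¹' Bᶜ) :=
    MeasurableSet.iInter fun j => measurable_Sh.iterate j hB.compl
  have hE : ∀ k : ZMod 5, MeasurableSet ((· + tk k) ⁻¹' Bᶜ) :=
    fun k => measurable_add_const _ hB.compl
  refine ⟨⋂ j : ℕ, Sh^[j] ⁻¹' Bᶜ, Bᶜ \ ⋃ k : {k : ZMod 5 // k ≠ 0}, (· + tk k) ⁻¹' Bᶜ, hYm,
    hB.compl.diff (MeasurableSet.iUnion fun k => hE k), ?_, ?_, ?_, ?_⟩
  · intro hY
    -- a.e. point visits `B` infinitely often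
    have hae : ∀ᵐ x ∂m, ∃ᶠ n in atTop, Sh^[n] x ∈ B := by
      filter_upwards [hS.conservative.ae_forall_image_mem_imp_frequently_image_mem
        hB.nullMeasurableSet, measure_eq_zero_iff_ae_notMem.1 hY] with x hx hx'
      simp only [mem_iInter, mem_preimage, mem_compl_iff, not_forall, not_not] at hx'
      obtain ⟨j, hj⟩ := hx'
      exact hx j hj
    have hc' : 0 < ‖c‖ := norm_pos_iff.2 hc
    set ε : ℝ := ‖c‖ / 4 with hε
    have hε0 : 0 < ε := by positivity
    obtain ⟨r, hr⟩ := pow_unbounded_of_one_lt (5 / ε ^ 2) (by norm_num : (1 : ℝ) < 3 / 2)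
    set R : ℝ := (3 / 2) ^ r with hR
    have hR0 : 0 < R := by positivity
    have hRR : (3 / 2 : ℝ≥0∞) ^ r = ENNReal.ofReal R := by
      rw [hR, ENNReal.ofReal_pow (by norm_num), ENNReal.ofReal_div_of_pos (by norm_num)]; simp
    let D : ℕ → Set (Ch O) := fun n => {x | Wn B n x < ENNReal.ofReal R}
    have hD : ∀ n, MeasurableSet (D n) := fun n =>
      measurableSet_lt (measurable_Wn hB n) measurable_const
    have hDt : Tendsto (fun n => m (D n)) atTop (𝓝 0) := by
      have h0 : m (⋂ n, D n) = 0 := by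
        rw [measure_eq_zero_iff_ae_notMem]
        filter_upwards [hae] with x hx
        obtain ⟨n, hn⟩ := Wn_unbounded hx r
        simp only [mem_iInter, not_forall]
        exact ⟨n, not_lt.2 (hRR ▸ hn)⟩
      rw [← h0]
      refine tendsto_measure_iInter_atTop (fun n => (hD n).nullMeasurableSet) ?_
        ⟨0, measure_ne_top _ _⟩
      intro a b hab x hx
      exact lt_of_le_of_lt (Wn_mono B x hab) hx
    obtain ⟨n, hn⟩ := ((ENNReal.tendsto_nhds_zero.1 hDt (ENNReal.ofReal ε)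
      (ENNReal.ofReal_pos.2 hε0)).and (eventually_ge_atTop 1)).exists
    obtain ⟨n, rfl⟩ : ∃ n', n = n' + 1 := ⟨n - 1, by omega⟩
    have hint : ∫ x, Fa n x ∂m = c := by
      unfold Fa
      rw [integral_const_mul, integral_finsetSum _ fun a _ => integrable_e m _]
      have : ∀ a ∈ Finset.range (5 ^ n), ∫ x : Ch O, e (x.1 (wO a)) ∂m = c := fun a _ => hw a
      rw [Finset.sum_congr rfl this]
      simp only [Finset.sum_const, Finset.card_range, nsmul_eq_mul]
      push_cast; field_simp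
    have hgm : Measurable fun x => ((‖Fa n x‖₊ ^ 2 : ℝ≥0) : ℝ≥0∞) :=
      ((continuous_Fa n).nnnorm.pow 2).measurable.coe_nnreal_ennreal
    have hP : ∫⁻ x, ((‖Fa n x‖₊ ^ 2 : ℝ≥0) : ℝ≥0∞) * Wn B (n + 1) x ∂m ≤ 5 := by
      refine (many_steps hS hB h1 (n + 1) hgm).trans (le_of_eq ?_)
      simp only [parseval]; simp
    have hpt : ∀ x, ‖Fa n x‖ₑ ≤ ENNReal.ofReal ε + ENNReal.ofReal (1 / (ε * R)) *
        (((‖Fa n x‖₊ ^ 2 : ℝ≥0) : ℝ≥0∞) * Wn B (n + 1) x) + (D (n + 1)).indicator 1 x := by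
      intro x
      by_cases hx : x ∈ D (n + 1)
      · rw [indicator_of_mem hx]
        refine le_trans ?_ le_add_self
        rw [← ofReal_norm, Pi.one_apply, ← ENNReal.ofReal_one]
        exact ENNReal.ofReal_le_ofReal (norm_Fa_le n x)
      · refine le_trans ?_ le_self_add
        have hx' : ENNReal.ofReal R ≤ Wn B (n + 1) x := not_lt.1 hx
        refine le_trans ?_ (add_le_add_right (mul_le_mul_right (mul_le_mul_right hx' _) _) _)
        rw [← ofReal_norm, ENNReal.coe_nnreal_eq,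
          ← ENNReal.ofReal_mul (by positivity), ← ENNReal.ofReal_mul (by positivity),
          ← ENNReal.ofReal_add hε0.le (by positivity)]
        apply ENNReal.ofReal_le_ofReal
        push_cast
        have : 1 / (ε * R) * (‖Fa n x‖ ^ 2 * R) = ‖Fa n x‖ ^ 2 / ε := by field_simp
        rw [this, ← sub_le_iff_le_add', le_div_iff₀ hε0]
        nlinarith [sq_nonneg (‖Fa n x‖ - ε), sq_nonneg ε, norm_nonneg (Fa n x)]
    have hfin : ENNReal.ofReal ‖c‖ ≤ ENNReal.ofReal (ε + 1 / (ε * R) * 5 + ε) := by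
      rw [ofReal_norm, ← hint]
      refine (enorm_integral_le_lintegral_enorm _).trans ((lintegral_mono hpt).trans ?_)
      rw [lintegral_add_right _ (measurable_one.indicator (hD _)), lintegral_add_left
        measurable_const, lintegral_const_mul' _ _ ENNReal.ofReal_ne_top,
        lintegral_indicator_one (hD _), lintegral_const, measure_univ, mul_one,
        ENNReal.ofReal_add (by positivity) hε0.le, ENNReal.ofReal_add hε0.le (by positivity),
        ENNReal.ofReal_mul (by positivity)]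
      refine add_le_add (add_le_add le_rfl (mul_le_mul_right ?_ _)) hn.1
      simpa using hP
    rw [ENNReal.ofReal_le_ofReal_iff (by positivity)] at hfin
    have : 1 / (ε * R) * 5 < ε := by
      rw [div_lt_iff₀ (by positivity)] at hr
      rw [div_mul_eq_mul_div, div_lt_iff₀ (by positivity)]
      nlinarith
    linarith
  · intro x hx
    simp only [mem_iInter, mem_preimage] at hx ⊢
    intro j
    rw [← Function.iterate_succ_apply]; exact hx _
  · have hz : ∀ k : ZMod 5, k ≠ 0 → m (Bᶜ ∩ (· + tk k) ⁻¹' Bᶜ) = 0 := by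
      have key : ∀ k : ZMod 5, k ≠ 0 → m (Bᶜ ∩ (· + tk k) ⁻¹' Bᶜ) + m (Bᶜ ∩ (· + tk (-k)) ⁻¹' Bᶜ)
          ≤ 3 / 2 * m (Bᶜ ∩ (· + tk k) ⁻¹' Bᶜ) := by
        intro k hk
        have h3 := (le_nu' m (hB.compl.inter (hE k)) (neg_ne_zero.2 hk)).trans
          (h2 _ (hB.compl.inter (hE k)) inter_subset_left)
        rw [Measure.smul_apply, smul_eq_mul] at h3
        have h4 : Bᶜ ∩ (· + tk (-k)) ⁻¹' Bᶜ = (· + tk (-k)) ⁻¹' (Bᶜ ∩ (· + tk k) ⁻¹' Bᶜ) := by
          ext x
          simp [tk_neg, and_comm]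
        rw [h4]; exact h3
      intro k hk
      have a1 := key k hk
      have a2 := key (-k) (neg_ne_zero.2 hk)
      rw [neg_neg] at a2
      have b1 := ENNReal.toReal_mono (ENNReal.mul_ne_top h32 (measure_ne_top _ _)) a1
      have b2 := ENNReal.toReal_mono (ENNReal.mul_ne_top h32 (measure_ne_top _ _)) a2
      rw [ENNReal.toReal_add (measure_ne_top _ _) (measure_ne_top _ _), ENNReal.toReal_mul,
        ENNReal.toReal_div] at b1 b2
      rw [show (3 : ℝ≥0∞).toReal / (2 : ℝ≥0∞).toReal = 3 / 2 by norm_num] at b1 b2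
      have c1 := ENNReal.toReal_nonneg (a := m (Bᶜ ∩ (· + tk k) ⁻¹' Bᶜ))
      have c2 := ENNReal.toReal_nonneg (a := m (Bᶜ ∩ (· + tk (-k)) ⁻¹' Bᶜ))
      have : (m (Bᶜ ∩ (· + tk k) ⁻¹' Bᶜ)).toReal = 0 := by linarith
      exact ((ENNReal.toReal_eq_zero_iff _).1 this).resolve_right (measure_ne_top _ _)
    refine measure_mono_null (t := ⋃ k : {k : ZMod 5 // k ≠ 0}, Bᶜ ∩ (· + tk k) ⁻¹' Bᶜ) ?_
      (measure_iUnion_null fun k => hz k k.2)
    rintro x ⟨hx, hx'⟩
    have hxB : x ∈ Bᶜ := by simpa using mem_iInter.1 hx 0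
    rw [Set.mem_sdiff, not_and, not_not] at hx'
    obtain ⟨k, hk⟩ := mem_iUnion.1 (hx' hxB)
    exact mem_iUnion.2 ⟨k, hxB, hk⟩
  · rintro x ⟨_, hx⟩ k hk ⟨hk', _⟩
    exact hx (mem_iUnion.2 ⟨⟨k, hk⟩, hk'⟩)

end

end Crest.Agent.R40
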