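import Crest.Agent.R40.Defs

/-!
# Row 40: Markov-Kakutani for measures, invariant random colourings

`exists_fixed`.  `ProbabilityMeasure X` is compact (Mathlib, `Prokhorov.lean`); conditions
`∫ g dμ = c` are closed (`ProbabilityMeasure.tendsto_iff_forall_integral_tendsto`,
`continuous_integral_boundedContinuousFunction`, for complex `g` take real and imaginary parts or use
the `RCLike` versions).
* ONE MAP (Krylov-Bogolyubov): for a family of linear conditions stable under `T`, take `μ` in it,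
  the Cesàro means `μ_N = (N+1)⁻¹ • ∑_{k ≤ N} μ.map T^[k]` satisfy the conditions, a cluster point `ν`
  satisfies them too and `∫ f ∘ T dν = ∫ f dν` for bounded continuous real `f` (telescoping,
  `≤ 2‖f‖/(N+1)`), so `ν.map T = ν` (`ext_of_forall_integral_eq_of_IsFiniteMeasure`).
* finitely many maps: induction, invariance under `T i` is itself a family of linear conditions
  (`f - f ∘ T i`, constant `0`), stable under `T j` by commutation.
* all maps: finite intersection property (`IsCompact.nonempty_iInter_of_directed_nonempty_...` or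
  `CompactSpace.iInter_nonempty`).

`exists_inv`.  `X = K → Fin 5` (discrete topology on `Fin 5`, product; compact metrisable, Borel =
product σ-algebra as `K` is countable).  First apply `exists_fixed` to the translations with the
conditions `∫ 1[ω x = i ∧ ω y = i] = 0` (`‖x - y‖ = 1`; `Measure.dirac c` satisfies them); then to the
rotations (index type `{u : K // ‖u‖ = 1}`) with these conditions plus `∫ (f ∘ τ_a - f) = 0`
(`f : C(X, ℂ)`); stability: `τ_a ∘ ρ_u = ρ_u ∘ τ_{u a}` where `τ_a ω z = ω (z + a)`,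
`ρ_u ω z = ω (u z)`.
-/

set_option autoImplicit false

open MeasureTheory Set Filter Topology
open scoped ComplexConjugate

namespace Crest.Agent.R40

section Fixed

variable {X : Type} [TopologicalSpace X] [CompactSpace X]
  [TopologicalSpace.MetrizableSpace X] [MeasurableSpace X] [BorelSpace X]

omit [TopologicalSpace.MetrizableSpace X] in
theorem inv_integrable (f : C(X, ℂ)) (μ : Measure X) [IsFiniteMeasure μ] : Integrable f μ :=
  (BoundedContinuousFunction.mkOfCompact f).integrable μ

omit [TopologicalSpace.MetrizableSpace X] in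
theorem inv_cont (f : C(X, ℂ)) :
    Continuous fun μ : ProbabilityMeasure X => ∫ x, f x ∂(μ : Measure X) :=
  continuous_iff_continuousAt.2 fun _ =>
    (ProbabilityMeasure.tendsto_iff_forall_integral_rclike_tendsto ℂ).1 tendsto_id
      (BoundedContinuousFunction.mkOfCompact f)

omit [CompactSpace X] [TopologicalSpace.MetrizableSpace X] in
theorem inv_map (T : C(X, X)) (f : C(X, ℂ)) (μ : Measure X) :
    ∫ x, f x ∂(μ.map T) = ∫ x, f (T x) ∂μ :=
  integral_map T.continuous.measurable.aemeasurable f.continuous.measurable.aestronglyMeasurable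

theorem inv_one {J : Type} (T : C(X, X)) (g : J → C(X, ℂ)) (c : J → ℂ)
    (hne : ∃ μ : Measure X, IsProbabilityMeasure μ ∧ ∀ j, ∫ x, g j x ∂μ = c j)
    (hmap : ∀ μ : Measure X, IsProbabilityMeasure μ → (∀ j, ∫ x, g j x ∂μ = c j) →
      ∀ j, ∫ x, g j (T x) ∂μ = c j) :
    ∃ μ : Measure X, IsProbabilityMeasure μ ∧ (∀ j, ∫ x, g j x ∂μ = c j) ∧
      ∀ f : C(X, ℂ), ∫ x, f (T x) ∂μ = ∫ x, f x ∂μ := by
  obtain ⟨μ₀, h₀, hc₀⟩ := hne
  let m : ℕ → Measure X := fun n => Nat.rec μ₀ (fun _ ν => ν.map T) n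
  have hs : ∀ n, m (n + 1) = (m n).map T := fun _ => rfl
  have hm : ∀ n, IsProbabilityMeasure (m n) ∧ ∀ j, ∫ x, g j x ∂(m n) = c j := fun n => by
    induction n with
    | zero => exact ⟨h₀, hc₀⟩
    | succ n ih =>
      have := ih.1
      rw [hs]
      exact ⟨Measure.isProbabilityMeasure_map T.continuous.measurable.aemeasurable,
        fun j => by rw [inv_map, hmap _ ih.1 ih.2]⟩
  have hp : ∀ n, IsProbabilityMeasure (m n) := fun n => (hm n).1
  let A : ℕ → ProbabilityMeasure X := fun N =>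
    ⟨((N + 1 : ℕ) : ENNReal)⁻¹ • ∑ k ∈ Finset.range (N + 1), m k, ⟨by
      rw [Measure.smul_apply, Measure.finsetSum_apply]
      simp only [measure_univ, Finset.sum_const, Finset.card_range, nsmul_eq_mul, mul_one,
        smul_eq_mul]
      exact ENNReal.inv_mul_cancel (by simp) (by simp)⟩⟩
  have hA : ∀ (N : ℕ) (f : C(X, ℂ)), ∫ x, f x ∂(A N : Measure X) =
      ((N + 1 : ℕ) : ℂ)⁻¹ * ∑ k ∈ Finset.range (N + 1), ∫ x, f x ∂(m k) := fun N f => by
    change ∫ x, f x ∂(((N + 1 : ℕ) : ENNReal)⁻¹ • ∑ k ∈ Finset.range (N + 1), m k) = _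
    rw [integral_smul_measure, integral_finsetSum_measure fun k _ => inv_integrable f (m k),
      ENNReal.toReal_inv, ENNReal.toReal_natCast, Complex.real_smul]
    push_cast; rfl
  obtain ⟨ν, -, hν⟩ := isCompact_univ.ultrafilter_le_nhds ((Ultrafilter.of atTop).map A) (by simp)
  have hν' : Tendsto A (Ultrafilter.of atTop : Ultrafilter ℕ) (𝓝 ν) := hν
  have hlim : ∀ f : C(X, ℂ), Tendsto (fun N => ∫ x, f x ∂(A N : Measure X))
      (Ultrafilter.of atTop : Ultrafilter ℕ) (𝓝 (∫ x, f x ∂(ν : Measure X))) := fun f =>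
    ((inv_cont f).tendsto ν).comp hν'
  refine ⟨ν, inferInstance, fun j => ?_, fun f => ?_⟩
  · refine tendsto_nhds_unique (hlim (g j)) (tendsto_const_nhds.congr fun N => ?_)
    rw [hA]
    simp only [(hm _).2 j, Finset.sum_const, Finset.card_range, nsmul_eq_mul]
    rw [← mul_assoc, inv_mul_cancel₀ (Nat.cast_ne_zero.2 (Nat.succ_ne_zero N)), one_mul]
  · have h1 := (hlim (f.comp T)).sub (hlim f)
    have h2 : Tendsto (fun N : ℕ => ∫ x, (f.comp T) x ∂(A N : Measure X) -
        ∫ x, f x ∂(A N : Measure X)) atTop (𝓝 0) := by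
      have hb : ∀ k, ‖∫ x, f x ∂(m k)‖ ≤ ‖f‖ := fun k => by
        simpa using norm_integral_le_of_norm_le_const (μ := m k) (f := f) (C := ‖f‖)
          (Eventually.of_forall f.norm_coe_le_norm)
      refine squeeze_zero_norm (fun N => ?_)
        ((tendsto_const_div_atTop_nhds_zero_nat (2 * ‖f‖)).comp (tendsto_add_atTop_nat 1))
      have h3 : ∀ k, ∫ x, (f.comp T) x ∂(m k) = ∫ x, f x ∂(m (k + 1)) := fun k => by
        rw [hs, inv_map]; rfl
      rw [hA, hA, ← mul_sub, ← Finset.sum_sub_distrib]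
      simp only [h3]
      rw [Finset.sum_range_sub (fun k => ∫ x, f x ∂(m k)), norm_mul, norm_inv, Complex.norm_natCast,
        Function.comp_apply, div_eq_inv_mul]
      gcongr
      exact (norm_sub_le _ _).trans (by linarith [hb (N + 1), hb 0])
    exact sub_eq_zero.1 (tendsto_nhds_unique h1 (h2.mono_left (Ultrafilter.of_le _)))

omit [CompactSpace X] in
theorem inv_mp {T : C(X, X)} {μ : Measure X} [IsFiniteMeasure μ]
    (h : ∀ f : C(X, ℂ), ∫ x, f (T x) ∂μ = ∫ x, f x ∂μ) : MeasurePreserving T μ μ := by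
  refine ⟨T.continuous.measurable, ext_of_forall_integral_eq_of_IsFiniteMeasure fun f => ?_⟩
  have h1 := h ⟨fun x => (f x : ℂ), Complex.continuous_ofReal.comp f.continuous⟩
  simp only [ContinuousMap.coe_mk, integral_complex_ofReal, Complex.ofReal_inj] at h1
  rw [integral_map T.continuous.measurable.aemeasurable
    f.continuous.measurable.aestronglyMeasurable, h1]

end Fixed

theorem exists_fixed {X : Type} [TopologicalSpace X] [CompactSpace X]
    [TopologicalSpace.MetrizableSpace X] [MeasurableSpace X] [BorelSpace X] {ι J : Type}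
    (T : ι → C(X, X)) (hcomm : ∀ i j x, T i (T j x) = T j (T i x))
    (g : J → C(X, ℂ)) (c : J → ℂ)
    (hne : ∃ μ : Measure X, IsProbabilityMeasure μ ∧ ∀ j, ∫ x, g j x ∂μ = c j)
    (hmap : ∀ μ : Measure X, IsProbabilityMeasure μ → (∀ j, ∫ x, g j x ∂μ = c j) →
      ∀ i j, ∫ x, g j (T i x) ∂μ = c j) :
    ∃ μ : Measure X, IsProbabilityMeasure μ ∧ (∀ j, ∫ x, g j x ∂μ = c j) ∧
      ∀ i, MeasurePreserving (T i) μ μ := by
  classical
  have hfin : ∀ S : Finset ι, ∃ μ : Measure X, IsProbabilityMeasure μ ∧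
      (∀ j, ∫ x, g j x ∂μ = c j) ∧
      ∀ i ∈ S, ∀ f : C(X, ℂ), ∫ x, f (T i x) ∂μ = ∫ x, f x ∂μ := fun S => by
    induction S using Finset.induction_on with
    | empty =>
      obtain ⟨μ, h1, h2⟩ := hne
      exact ⟨μ, h1, h2, fun i hi => absurd hi (Finset.notMem_empty i)⟩
    | insert a S ha ih =>
      have key : ∀ (μ : Measure X) [IsProbabilityMeasure μ] (i : ι) (f : C(X, ℂ)),
          ∫ x, (f.comp (T i) - f) x ∂μ = ∫ x, f (T i x) ∂μ - ∫ x, f x ∂μ := fun μ _ i f =>
        integral_sub (inv_integrable (f.comp (T i)) μ) (inv_integrable f μ)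
      obtain ⟨μ, h1, h2, h3⟩ := inv_one (J := J ⊕ (S × C(X, ℂ))) (T a)
        (Sum.elim g fun p => p.2.comp (T p.1) - p.2) (Sum.elim c fun _ => 0)
        (by
          obtain ⟨μ, h1, h2, h3⟩ := ih
          refine ⟨μ, h1, ?_⟩
          rintro (j | ⟨i, f⟩)
          · exact h2 j
          · exact (key μ i f).trans (sub_eq_zero.2 (h3 i i.2 f)))
        (by
          rintro μ h1 h2 (j | ⟨i, f⟩)
          · exact hmap μ h1 (fun j => h2 (Sum.inl j)) a j
          · refine Eq.trans ?_ (h2 (Sum.inr (i, f.comp (T a))))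
            refine integral_congr_ae (Eventually.of_forall fun x => ?_)
            simp [hcomm i a x])
      refine ⟨μ, h1, fun j => h2 (Sum.inl j), fun i hi f => ?_⟩
      rcases Finset.mem_insert.1 hi with rfl | hi
      · exact h3 f
      · exact sub_eq_zero.1 ((key μ i f).symm.trans (h2 (Sum.inr (⟨i, hi⟩, f))))
  have hC : IsClosed {μ : ProbabilityMeasure X | ∀ j, ∫ x, g j x ∂(μ : Measure X) = c j} := by
    simp only [Set.ofPred_forall]
    exact isClosed_iInter fun j => isClosed_eq (inv_cont (g j)) continuous_const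
  obtain ⟨μ, h1, h2⟩ := hC.isCompact.inter_iInter_nonempty
    (fun i => {μ : ProbabilityMeasure X | ∀ f : C(X, ℂ),
      ∫ x, f (T i x) ∂(μ : Measure X) = ∫ x, f x ∂(μ : Measure X)})
    (fun i => by
      simp only [Set.ofPred_forall]
      exact isClosed_iInter fun f => isClosed_eq (inv_cont (f.comp (T i))) (inv_cont f))
    (fun S => by
      obtain ⟨μ, h1, h2, h3⟩ := hfin S
      exact ⟨⟨μ, h1⟩, h2, mem_iInter₂.2 h3⟩)
  exact ⟨μ, inferInstance, h1, fun i => inv_mp (mem_iInter.1 h2 i)⟩

/-- an invariant random proper five-colouring of `K` -/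
structure InvCol (P : Measure (K → Fin 5)) : Prop where
  prob : IsProbabilityMeasure P
  transl : ∀ a : K, MeasurePreserving (fun (ω : K → Fin 5) (z : K) => ω (z + a)) P P
  rot : ∀ u : K, ‖(u : ℂ)‖ = 1 → MeasurePreserving (fun (ω : K → Fin 5) (z : K) => ω (u * z)) P P
  proper : ∀ x y : K, ‖(x : ℂ) - y‖ = 1 → ∀ i, P {ω | ω x = i ∧ ω y = i} = 0

/-- translation of colourings -/
noncomputable def invT (a : K) : C(K → Fin 5, K → Fin 5) := ⟨fun ω z => ω (z + a), by fun_prop⟩

/-- rotation of colourings -/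
noncomputable def invR (u : K) : C(K → Fin 5, K → Fin 5) := ⟨fun ω z => ω (u * z), by fun_prop⟩

/-- indicator of the pair `(i, i)` -/
noncomputable def invJ (i : Fin 5) (p : Fin 5 × Fin 5) : ℂ := if p.1 = i ∧ p.2 = i then 1 else 0

/-- indicator of a monochromatic pair -/
noncomputable def invI (x y : K) (i : Fin 5) : C(K → Fin 5, ℂ) :=
  ⟨fun ω => invJ i (ω x, ω y), by
    have : Continuous (invJ i) := continuous_of_discreteTopology
    fun_prop⟩

theorem invI_apply (x y : K) (i : Fin 5) (ω : K → Fin 5) : invI x y i ω = invJ i (ω x, ω y) := rfl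

theorem invI_integral (x y : K) (i : Fin 5) (P : Measure (K → Fin 5)) :
    ∫ ω, invI x y i ω ∂P = (P.real {ω | ω x = i ∧ ω y = i} : ℂ) := by
  have h1 : ∀ z : K, MeasurableSet {ω : K → Fin 5 | ω z = i} := fun z =>
    measurableSet_eq_fun (measurable_pi_apply z) measurable_const
  have hm : MeasurableSet {ω : K → Fin 5 | ω x = i ∧ ω y = i} := (h1 x).inter (h1 y)
  have : (invI x y i : (K → Fin 5) → ℂ) =
      {ω : K → Fin 5 | ω x = i ∧ ω y = i}.indicator fun _ => (1 : ℂ) := by
    funext ω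
    simp [invI_apply, invJ, Set.indicator_apply]
  rw [this, integral_indicator_const _ hm, Complex.real_smul, mul_one]

theorem exists_inv (c : K → Fin 5) (hc : ∀ x y : K, ‖(x : ℂ) - y‖ = 1 → c x ≠ c y) :
    ∃ P, InvCol P := by
  obtain ⟨P₁, p1, p2, p3⟩ := exists_fixed (X := K → Fin 5) invT
    (fun a b ω => by funext z; simp only [invT, ContinuousMap.coe_mk, add_right_comm])
    (J := {p : K × K // ‖(p.1 : ℂ) - p.2‖ = 1} × Fin 5) (fun j => invI j.1.1.1 j.1.1.2 j.2)
    (fun _ => 0)
    ⟨Measure.dirac c, inferInstance, fun j => by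
      rw [integral_dirac, invI_apply, invJ, if_neg]
      exact fun h => hc _ _ j.1.2 (h.1.trans h.2.symm)⟩
    (fun μ _ h a j => by
      have := h (⟨(j.1.1.1 + a, j.1.1.2 + a), by
        push_cast; rw [add_sub_add_right_eq_sub]; exact j.1.2⟩, j.2)
      simpa only [invI_apply, invT, ContinuousMap.coe_mk] using this)
  have key : ∀ (μ : Measure (K → Fin 5)) [IsProbabilityMeasure μ] (a : K) (f : C(K → Fin 5, ℂ)),
      ∫ x, (f.comp (invT a) - f) x ∂μ = ∫ x, f (invT a x) ∂μ - ∫ x, f x ∂μ := fun μ _ a f =>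
    integral_sub (inv_integrable (f.comp (invT a)) μ) (inv_integrable f μ)
  obtain ⟨P, q1, q2, q3⟩ := exists_fixed (X := K → Fin 5) (ι := {u : K // ‖(u : ℂ)‖ = 1})
    (fun u => invR u.1)
    (fun a b ω => by funext z; simp only [invR, ContinuousMap.coe_mk, mul_left_comm])
    (J := ({p : K × K // ‖(p.1 : ℂ) - p.2‖ = 1} × Fin 5) ⊕ (K × C(K → Fin 5, ℂ)))
    (Sum.elim (fun j => invI j.1.1.1 j.1.1.2 j.2) fun p => p.2.comp (invT p.1) - p.2)
    (fun _ => 0)
    ⟨P₁, p1, by
      rintro (j | ⟨a, f⟩)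
      · exact p2 j
      · refine (key P₁ a f).trans (sub_eq_zero.2 ?_)
        rw [← inv_map, (p3 a).map_eq]⟩
    (by
      rintro μ _ h u (j | ⟨a, f⟩)
      · have := h (Sum.inl (⟨(u.1 * j.1.1.1, u.1 * j.1.1.2), by
          push_cast; rw [← mul_sub, norm_mul, u.2, j.1.2, one_mul]⟩, j.2))
        simpa only [Sum.elim_inl, invI_apply, invR, ContinuousMap.coe_mk] using this
      · refine Eq.trans ?_ (h (Sum.inr (u.1 * a, f.comp (invR u.1))))
        refine integral_congr_ae (Eventually.of_forall fun ω => ?_)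
        have : invT a (invR u.1 ω) = invR u.1 (invT (u.1 * a) ω) := by
          funext z; simp only [invT, invR, ContinuousMap.coe_mk, mul_add]
        simp [this])
  refine ⟨P, q1, fun a => inv_mp (T := invT a) fun f =>
    sub_eq_zero.1 ((key P a f).symm.trans (q2 (Sum.inr (a, f)))), fun u hu => q3 ⟨u, hu⟩,
    fun x y h i => ?_⟩
  have h1 := (invI_integral x y i P).symm.trans (q2 (Sum.inl (⟨(x, y), h⟩, i)))
  exact (measureReal_eq_zero_iff (measure_ne_top _ _)).1 (by exact_mod_cast h1)

end Crest.Agent.R40
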