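import Crest.Agent.R40.Defs

/-!
# Row 40: the ring `O` = Gaussian integers localised at the prime `2 - i`
-/

set_option autoImplicit false

open MeasureTheory Set
open scoped ComplexConjugate

namespace Crest.Agent.R40

noncomputable section

instance fact5 : Fact (Nat.Prime 5) := ⟨by norm_num⟩

theorem four_ne_zero' : (4 : ZMod 5) ≠ 0 := by decide
theorem two_ne_zero5 : (2 : ZMod 5) ≠ 0 := by decide

/-- `2 + i` -/
def pp : GaussianInt := ⟨2, 1⟩
/-- `2 - i` -/
def pb : GaussianInt := ⟨2, -1⟩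

/-- reduction modulo `2 - i` -/
def r0 : GaussianInt →+* ZMod 5 := Zsqrtd.lift ⟨2, by decide⟩

theorem r0_apply (a : GaussianInt) : r0 a = (a.re : ZMod 5) + a.im * 2 := rfl

theorem r0_pb : r0 pb = 0 := by rw [r0_apply]; decide
theorem r0_pp : r0 pp = 4 := by rw [r0_apply]; decide
theorem pp_mul_pb : pp * pb = 5 := by decide

theorem pb_dvd_of_r0 {a : GaussianInt} (h : r0 a = 0) : pb ∣ a := by
  rw [r0_apply] at h
  have h5 : (5 : ℤ) ∣ a.re + a.im * 2 := by
    have : ((a.re + a.im * 2 : ℤ) : ZMod 5) = 0 := by push_cast; exact h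
    exact (ZMod.intCast_zmod_eq_zero_iff_dvd _ 5).1 this
  obtain ⟨k, hk⟩ := h5
  refine ⟨⟨2 * k - a.im, k⟩, ?_⟩
  ext
  · simp [pb, Zsqrtd.re_mul]; linarith
  · simp [pb, Zsqrtd.im_mul]

/-- Gaussian integers in `K` -/
def gK : GaussianInt →+* K :=
  Zsqrtd.lift ⟨iK, by apply Subtype.ext; push_cast; simp⟩

theorem coe_gK (a : GaussianInt) : (gK a : ℂ) = GaussianInt.toComplex a := by
  rw [GaussianInt.toComplex_def]
  simp [gK, Zsqrtd.lift_apply_apply]

theorem gK_injective : Function.Injective gK := by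
  intro a b h
  apply GaussianInt.toComplex_injective
  rw [← coe_gK, ← coe_gK, h]

theorem gK_ne_zero {a : GaussianInt} (h : a ≠ 0) : gK a ≠ 0 := by
  intro h'; exact h (gK_injective (h'.trans (map_zero gK).symm))

theorem ne_zero_of_r0 {a : GaussianInt} (h : r0 a ≠ 0) : a ≠ 0 := by
  rintro rfl; exact h (map_zero _)

theorem normSq_gK (a : GaussianInt) : ‖(gK a : ℂ)‖ ^ 2 = (a.re : ℝ) ^ 2 + (a.im : ℝ) ^ 2 := by
  rw [coe_gK, ← Complex.normSq_eq_norm_sq, Complex.normSq_apply]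
  simp only [GaussianInt.toComplex_def]
  simp; ring

theorem norm_gK_pb : ‖(gK pb : ℂ)‖ = Real.sqrt 5 := by
  rw [← Real.sqrt_sq (norm_nonneg (gK pb : ℂ)), normSq_gK]; norm_num [pb]

theorem norm_gK_pp : ‖(gK pp : ℂ)‖ = Real.sqrt 5 := by
  rw [← Real.sqrt_sq (norm_nonneg (gK pp : ℂ)), normSq_gK]; norm_num [pp]

/-- the Gaussian integers prime to `2 - i` -/
def M0 : Submonoid GaussianInt where
  carrier := {d | r0 d ≠ 0}
  mul_mem' := by
    intro a b ha hb
    show r0 (a * b) ≠ 0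
    rw [map_mul]; exact mul_ne_zero ha hb
  one_mem' := by show r0 1 ≠ 0; rw [map_one]; decide

theorem M0_le : M0 ≤ nonZeroDivisors GaussianInt := fun _ h =>
  mem_nonZeroDivisors_of_ne_zero (ne_zero_of_r0 h)

/-- the localisation -/
abbrev O : Type := Localization M0

instance : IsDomain O := IsLocalization.isDomain_localization M0_le

instance : Countable GaussianInt :=
  Function.Injective.countable (f := fun a : GaussianInt => (a.re, a.im))
    (fun a b h => by ext <;> simp_all)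

instance : Countable O :=
  Function.Surjective.countable (f := fun p : GaussianInt × M0 => IsLocalization.mk' O p.1 p.2)
    (fun z => by
      obtain ⟨⟨a, d⟩, h⟩ := IsLocalization.mk'_surjective M0 z
      exact ⟨(a, d), h⟩)

/-- Gaussian integers in `O` -/
def gO : GaussianInt →+* O := algebraMap GaussianInt O

theorem gO_injective : Function.Injective gO := IsLocalization.injective O M0_le

/-- `O → K` -/
def jO : O →+* K :=
  IsLocalization.lift (M := M0) (g := gK) fun d => (gK_ne_zero (ne_zero_of_r0 d.2)).isUnit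

@[simp] theorem jO_gO (a : GaussianInt) : jO (gO a) = gK a := IsLocalization.lift_eq _ a

/-- the residue map `O → 𝔽₅` -/
def rO : O →+* ZMod 5 :=
  IsLocalization.lift (M := M0) (g := r0) fun d =>
    Ne.isUnit d.2

@[simp] theorem rO_gO (a : GaussianInt) : rO (gO a) = r0 a := IsLocalization.lift_eq _ a

theorem exists_frac (z : O) : ∃ a d : GaussianInt, r0 d ≠ 0 ∧ z * gO d = gO a := by
  obtain ⟨⟨a, d⟩, h⟩ := IsLocalization.surj M0 z
  exact ⟨a, d, d.2, h⟩

theorem exists_common_den (Z : Finset O) :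
    ∃ d : GaussianInt, r0 d ≠ 0 ∧ ∀ z ∈ Z, ∃ a : GaussianInt, z * gO d = gO a := by
  obtain ⟨d, hd⟩ := IsLocalization.exist_integer_multiples_of_finset M0 Z
  refine ⟨d, d.2, fun z hz => ?_⟩
  obtain ⟨a, ha⟩ := hd z hz
  refine ⟨a, ?_⟩
  rw [Algebra.smul_def] at ha
  rw [mul_comm]; exact ha.symm

theorem isUnit_gO {d : GaussianInt} (hd : r0 d ≠ 0) : IsUnit (gO d) :=
  IsLocalization.map_units O (⟨d, hd⟩ : M0)

/-- `v = (2 - i)/(2 + i)`, a uniformiser of `O` of complex absolute value one -/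
def vO : O := IsLocalization.mk' O pb (⟨pp, by show r0 pp ≠ 0; rw [r0_pp]; decide⟩ : M0)

theorem vO_mul : vO * gO pp = gO pb := IsLocalization.mk'_spec O _ _

theorem jO_vO : jO vO = gK pb / gK pp := by
  have := congrArg jO vO_mul
  rw [map_mul, jO_gO, jO_gO] at this
  rw [eq_div_iff (gK_ne_zero (by decide)), this]

theorem norm_jO_vO : ‖(jO vO : ℂ)‖ = 1 := by
  rw [jO_vO]; push_cast
  rw [norm_div, norm_gK_pb, norm_gK_pp, div_self (by positivity)]

theorem vO_ne_zero : vO ≠ 0 := by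
  intro h
  have := norm_jO_vO
  rw [h] at this; simp at this

theorem rO_vO : rO vO = 0 := by
  have := congrArg rO vO_mul
  rw [map_mul, rO_gO, rO_gO, r0_pb, r0_pp] at this
  exact (mul_eq_zero.1 this).resolve_right four_ne_zero'

theorem rO_eq_zero_iff {z : O} : rO z = 0 ↔ ∃ z', z = vO * z' := by
  constructor
  · intro h
    obtain ⟨a, d, hd, hz⟩ := exists_frac z
    have := congrArg rO hz
    rw [map_mul, h, zero_mul, rO_gO] at this
    obtain ⟨b, rfl⟩ := pb_dvd_of_r0 this.symm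
    obtain ⟨d', hd'⟩ := (isUnit_gO hd).exists_right_inv
    refine ⟨gO pp * gO b * d', ?_⟩
    calc z = z * gO d * d' := by rw [mul_assoc, hd', mul_one]
      _ = vO * gO pp * gO b * d' := by rw [hz, map_mul, vO_mul]
      _ = _ := by ring
  · rintro ⟨z', rfl⟩; rw [map_mul, rO_vO, zero_mul]

/-- `w a = (1 + 5 a i)/(1 - 5 a i)` -/
def wO (a : ℕ) : O :=
  IsLocalization.mk' O (⟨1, 5 * a⟩ : GaussianInt) (⟨⟨1, -(5 * a)⟩, by
    show r0 _ ≠ 0
    rw [r0_apply]; push_cast
    rw [show (5 : ZMod 5) = 0 from rfl]; simp⟩ : M0)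

theorem wO_mul (a : ℕ) : wO a * gO ⟨1, -(5 * a)⟩ = gO ⟨1, 5 * a⟩ := IsLocalization.mk'_spec O _ _

theorem r0_den (a : ℕ) : r0 ⟨1, -(5 * a)⟩ = 1 := by
  rw [r0_apply]; push_cast
  rw [show (5 : ZMod 5) = 0 from rfl]; simp

theorem norm_jO_wO (a : ℕ) : ‖(jO (wO a) : ℂ)‖ = 1 := by
  have h := congrArg jO (wO_mul a)
  rw [map_mul, jO_gO, jO_gO] at h
  have h1 : ‖(jO (wO a) : ℂ)‖ ^ 2 * ‖(gK ⟨1, -(5 * a)⟩ : ℂ)‖ ^ 2 = ‖(gK ⟨1, 5 * a⟩ : ℂ)‖ ^ 2 := by
    rw [← mul_pow, ← norm_mul, ← h]; push_cast; rfl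
  rw [normSq_gK, normSq_gK] at h1
  push_cast at h1
  have hpos : (0 : ℝ) < 1 ^ 2 + (5 * (a : ℝ)) ^ 2 := by positivity
  have h2 : ‖(jO (wO a) : ℂ)‖ ^ 2 = 1 := by
    apply mul_right_cancel₀ hpos.ne'
    rw [one_mul]; rw [neg_sq] at h1; exact h1
  nlinarith [norm_nonneg (jO (wO a) : ℂ)]

/-- an integer times a unit which is divisible by `v ^ n` is divisible by `5 ^ n` -/
theorem five_pow_dvd (n : ℕ) : ∀ (m : ℤ) (y : O), rO y ≠ 0 → vO ^ n ∣ (m : O) * y →
    (5 : ℤ) ^ n ∣ m := by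
  induction n with
  | zero => intro m y _ _; simp
  | succ n ih =>
    intro m y hy ⟨z, hz⟩
    have h0 : rO ((m : O) * y) = 0 := by
      rw [hz, pow_succ']; simp [rO_vO]
    rw [map_mul, map_intCast] at h0
    have h5 : (5 : ℤ) ∣ m :=
      (ZMod.intCast_zmod_eq_zero_iff_dvd _ 5).1 ((mul_eq_zero.1 h0).resolve_right hy)
    obtain ⟨k, rfl⟩ := h5
    have h55 : (5 : O) = vO * (gO pp * gO pp) := by
      rw [← mul_assoc, vO_mul, ← map_mul, mul_comm pb, pp_mul_pb, map_ofNat]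
    have : vO ^ n * z = (k : O) * (gO pp * gO pp * y) := by
      apply mul_left_cancel₀ vO_ne_zero
      rw [← mul_assoc, ← pow_succ', ← hz]; push_cast; rw [h55]; ring
    have hk := ih k (gO pp * gO pp * y) (by
      rw [map_mul, map_mul, rO_gO, r0_pp]
      exact mul_ne_zero (mul_ne_zero four_ne_zero' four_ne_zero') hy) ⟨z, this.symm⟩
    rw [pow_succ']
    exact mul_dvd_mul_left _ hk

/-- the `w a`, `a < 5 ^ n`, are distinct modulo `v ^ (n + 1)` -/
theorem wO_inj {n a b : ℕ} (ha : a < 5 ^ n) (hb : b < 5 ^ n) (h : vO ^ (n + 1) ∣ wO a - wO b) :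
    a = b := by
  have key : (wO a - wO b) * (gO ⟨1, -(5 * a)⟩ * gO ⟨1, -(5 * b)⟩) =
      ((5 * ((a : ℤ) - b) : ℤ) : O) * gO ⟨0, 2⟩ := by
    have : (wO a - wO b) * (gO ⟨1, -(5 * a)⟩ * gO ⟨1, -(5 * b)⟩) =
        wO a * gO ⟨1, -(5 * a)⟩ * gO ⟨1, -(5 * b)⟩ - wO b * gO ⟨1, -(5 * b)⟩ * gO ⟨1, -(5 * a)⟩ := by
      ring
    rw [this, wO_mul, wO_mul, ← map_mul, ← map_mul, ← map_sub, ← map_intCast gO, ← map_mul]
    congr 1
    ext
    · simp [Zsqrtd.re_mul]; ring
    · simp [Zsqrtd.im_mul]; ring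
  have h1 := five_pow_dvd (n + 1) (5 * ((a : ℤ) - b)) (gO ⟨0, 2⟩) (by
    rw [rO_gO, r0_apply]; decide) (key ▸ h.mul_right _)
  rw [pow_succ'] at h1
  have h2 : (5 : ℤ) ^ n ∣ (a : ℤ) - b := (mul_dvd_mul_iff_left (by norm_num)).1 h1
  have h3 : (a : ℤ) - b = 0 := by
    apply Int.eq_zero_of_abs_lt_dvd h2
    have ha' : (a : ℤ) < 5 ^ n := by exact_mod_cast ha
    have hb' : (b : ℤ) < 5 ^ n := by exact_mod_cast hb
    rw [abs_lt]; constructor <;> omega
  omega

/-! ### characters of `O` -/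

/-- the five characters of `O` which are trivial on `v O` -/
def tk (k : ZMod 5) : Ch O :=
  ⟨fun z => ZMod.toAddCircle (k * rO z), fun x y => by simp only [map_add, mul_add]⟩

@[simp] theorem tk_apply (k : ZMod 5) (z : O) : (tk k).1 z = ZMod.toAddCircle (k * rO z) := rfl

@[simp] theorem tk_zero : tk 0 = 0 := Ch.ext fun z => by simp
theorem tk_add (k l : ZMod 5) : tk (k + l) = tk k + tk l := Ch.ext fun z => by simp [add_mul]
theorem tk_neg (k : ZMod 5) : tk (-k) = -tk k := Ch.ext fun z => by simp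

/-- five-torsion points of the circle -/
theorem exists_toAddCircle {x : UnitAddCircle} (h : (5 : ℕ) • x = 0) :
    ∃ k : ZMod 5, x = ZMod.toAddCircle k := by
  induction x using QuotientAddGroup.induction_on with
  | H t =>
    rw [← AddCircle.coe_nsmul, AddCircle.coe_eq_zero_iff] at h
    obtain ⟨n, hn⟩ := h
    refine ⟨(n : ZMod 5), ?_⟩
    rw [ZMod.toAddCircle_intCast]
    congr 1
    simp only [zsmul_eq_mul, mul_one, nsmul_eq_mul] at hn
    rw [hn]; push_cast; ring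

theorem le_norm_toAddCircle {k : ZMod 5} (hk : k ≠ 0) : 1 / 5 ≤ ‖ZMod.toAddCircle k‖ := by
  have h : ∀ n : ℤ, ¬ (5 : ℤ) ∣ n → (1 : ℝ) / 5 ≤ ‖(((n : ℝ) / 5 : ℝ) : UnitAddCircle)‖ := by
    intro n hn
    rw [UnitAddCircle.norm_eq]
    set m := round ((n : ℝ) / 5)
    have h1 : n - 5 * m ≠ 0 := fun h => hn ⟨m, by omega⟩
    have h2 : (1 : ℝ) ≤ |((n - 5 * m : ℤ) : ℝ)| := by
      rw [← Int.cast_abs]; exact_mod_cast Int.one_le_abs h1
    have : (n : ℝ) / 5 - m = ((n - 5 * m : ℤ) : ℝ) / 5 := by push_cast; ring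
    rw [this, abs_div, abs_of_pos (by norm_num : (0 : ℝ) < 5)]
    linarith
  obtain ⟨n, rfl⟩ := ZMod.intCast_surjective k
  rw [ZMod.toAddCircle_intCast]
  exact h n fun hd => hk ((ZMod.intCast_zmod_eq_zero_iff_dvd _ 5).2 hd)

/-- an additive map on the Gaussian integers killing `(2 - i) ℤ[i]` factors through `r0` -/
theorem exists_eq_r0 (y : GaussianInt →+ UnitAddCircle) (h : ∀ a, y (pb * a) = 0) :
    ∃ k : ZMod 5, ∀ a, y a = ZMod.toAddCircle (k * r0 a) := by
  have h5 : (5 : ℕ) • y 1 = 0 := by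
    rw [← map_nsmul, ← h pp, mul_comm, pp_mul_pb]; congr 1
  obtain ⟨k, hk⟩ := exists_toAddCircle h5
  refine ⟨k, fun a => ?_⟩
  obtain ⟨n, hn⟩ := ZMod.intCast_surjective (r0 a)
  obtain ⟨b, hb⟩ := pb_dvd_of_r0 (a := a - n) (by rw [map_sub, map_intCast, hn, sub_self])
  have : a = n • (1 : GaussianInt) + pb * b := by rw [← hb]; simp
  rw [← hn]
  conv_lhs => rw [this, map_add, h, add_zero, map_zsmul, hk, ← map_zsmul]
  congr 1; simp [mul_comm]

/-- the shift `x ↦ x (v ·)` -/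
def Sh : Ch O → Ch O := pull (AddMonoidHom.mulLeft vO)

@[simp] theorem Sh_apply (x : Ch O) (z : O) : (Sh x).1 z = x.1 (vO * z) := rfl

@[fun_prop] theorem continuous_Sh : Continuous Sh := continuous_pull _
@[fun_prop] theorem measurable_Sh : Measurable Sh := measurable_pull _

theorem Sh_add_tk (x : Ch O) (k : ZMod 5) : Sh (x + tk k) = Sh x :=
  Ch.ext fun z => by simp [rO_vO]

theorem exists_tk_of_Sh_eq {x x' : Ch O} (h : Sh x = Sh x') : ∃ k, x = x' + tk k := by
  have hv : ∀ z, (x - x').1 (vO * z) = 0 := fun z => by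
    have := congrArg (fun y : Ch O => y.1 z) h
    simp only [Sh_apply] at this
    rw [Ch.sub_apply, this, sub_self]
  obtain ⟨k, hk⟩ := exists_eq_r0 ((Ch.hom (x - x')).comp gO.toAddMonoidHom) (fun a => by
    show (x - x').1 (gO (pb * a)) = 0
    rw [map_mul, ← vO_mul, mul_assoc]; exact hv _)
  refine ⟨k, Ch.ext fun z => ?_⟩
  obtain ⟨n, hn⟩ := ZMod.intCast_surjective (rO z)
  obtain ⟨z', hz'⟩ := rO_eq_zero_iff.1 (show rO (z - n) = 0 by
    rw [map_sub, map_intCast, hn, sub_self])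
  have h1 : (x - x').1 z = ZMod.toAddCircle (k * rO z) := by
    have : z = gO n + vO * z' := by rw [← hz', map_intCast]; ring
    have h2 := hk n
    rw [map_intCast r0, hn] at h2
    rw [← h2]
    conv_lhs => rw [this, Ch.map_add, hv, add_zero]
    rfl
  rw [Ch.add_apply, tk_apply, ← h1, Ch.sub_apply]; abel

theorem Sh_surjective : Function.Surjective Sh := by
  intro y
  have hB : Module.Baer ℤ UnitAddCircle := Module.Baer.of_divisible _
  obtain ⟨h, hh⟩ := hB.extension_property_addMonoidHom (AddMonoidHom.mulLeft vO)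
    (fun a b hab => mul_left_cancel₀ vO_ne_zero hab) (Ch.hom y)
  exact ⟨Ch.ofHom h, Ch.ext fun z => DFunLike.congr_fun hh z⟩

/-- restriction of characters from `K` to `O` -/
def res : Ch K → Ch O := pull jO.toAddMonoidHom

@[simp] theorem res_apply (χ : Ch K) (z : O) : (res χ).1 z = χ.1 (jO z) := rfl

@[fun_prop] theorem continuous_res : Continuous res := continuous_pull _
@[fun_prop] theorem measurable_res : Measurable res := measurable_pull _

theorem Sh_res (χ : Ch K) : Sh (res χ) = res (rot (jO vO) χ) := Ch.ext fun z => by simp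

end

end Crest.Agent.R40
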