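import Crest.Agent.R40.Corr
import Crest.Agent.R40.Extract

/-!
# Row 40: from an arbitrary proper colouring to a measurable a.e.-proper colouring
-/

set_option autoImplicit false

open MeasureTheory Set Filter Topology

namespace Crest.Agent.R40

theorem exists_meas (c : EuclideanSpace ℝ (Fin 2) → Fin 5)
    (hc : ∀ x y, dist x y = 1 → c x ≠ c y) :
    ∃ A : Fin 5 → Set ℂ, (∀ i, MeasurableSet (A i)) ∧ (∀ᵐ x : ℂ, ∃ i, x ∈ A i) ∧
      ∀ i, ∀ᵐ p : ℂ × ℝ, ¬ (p.1 ∈ A i ∧ p.1 + Complex.exp (p.2 * Complex.I) ∈ A i) := by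
  obtain ⟨P, hP⟩ := exists_inv (fun z : K => c (Complex.orthonormalBasisOneI.repr (z : ℂ)))
    (fun x y h => hc _ _ (by rw [LinearIsometryEquiv.dist_map, dist_eq_norm, h]))
  exact extract hP (corr_cont hP)

end Crest.Agent.R40
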