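import Crest.Agent.R40.TDefs

/-!
# R40/TGeom: circle geometry  (task)

Work with squared norms in coordinates (`Complex.sq_norm`, `Complex.normSq_apply`), e.g.
`‖z + cis φ - a‖² = 1 - 2 r cos (φ - α) + r²` if `a - z = r cis α` (`α = arg (a - z)`).
* `exists_arg_near`: `φ = t + arg (u * cis (-t))`, `‖cis s - cis t‖ = 2 |sin ((s - t)/2)| ≥ (2/π)|s - t|`
  for `|s - t| ≤ π` (`Real.mul_le_sin`).
* `exists_lune_near`: on `w φ = x₁ + (q - p) cis φ`, `φ ∈ {0, ±φ₀}`, not all three points are at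
  unit distance from `x₂` (add the `±φ₀` equations); move such a point radially a little towards /
  away from `x₁`.
* `arc_window`: `x_i - y = r_i cis α_i` with `|α₁ - α₂|` small, `γ_i = arccos (r_i / 2)`;
  `‖y + cis θ - x_i‖ < 1 ↔ cos (θ - α_i) > r_i / 2`.  If `α₁ + γ₁ ≠ α₂ + γ₂` use the midpoint between
  them, else `α₁ - γ₁ ≠ α₂ - γ₂` (otherwise `x₁ = x₂`).
* `mid_lune`: `h = (b - a)/2 = |h| cis (β + π/2)`; need `sin (t - β) > |h| / 2`.
* `annulus_lune`: `w - v = u z`, `d = t(± κ'/2 + I)`, `κ' = min κ 1`, `t` small;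
  `‖z ∓ d‖² = ‖z‖² + ‖d‖² ∓ 2 t (± κ'/2 z.re + z.im)` and for one of the signs
  `|± κ'/2 z.re + z.im| = κ'/2 |z.re| + |z.im| ≥ κ'/4`.
* `cone_hit`: `s ↦ ‖cis s - w‖² - 1 = ‖w‖² - 2 (w.re cos s + w.im sin s)` has opposite signs at `± s₀`.
-/

set_option autoImplicit false
open Set Metric

namespace Crest.Agent.R40

theorem tg_nsq (z : ℂ) : ‖z‖ ^ 2 = z.re ^ 2 + z.im ^ 2 := by
  rw [Complex.sq_norm, Complex.normSq_apply]; ring

theorem tg_lt_one {z : ℂ} (h : z.re ^ 2 + z.im ^ 2 < 1) : ‖z‖ < 1 := by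
  rw [← tg_nsq] at h
  nlinarith [norm_nonneg z]

theorem tg_one_lt {z : ℂ} (h : 1 < z.re ^ 2 + z.im ^ 2) : 1 < ‖z‖ := by
  rw [← tg_nsq] at h
  nlinarith [norm_nonneg z]

theorem tg_eq_one {z : ℂ} : ‖z‖ = 1 ↔ z.re ^ 2 + z.im ^ 2 = 1 := by
  rw [← tg_nsq]
  exact ⟨fun h => by rw [h]; norm_num, fun h => by nlinarith [norm_nonneg z]⟩

theorem tg_cis_sub (s θ : ℝ) : ‖cis (θ + s) - cis θ‖ = ‖cis s - 1‖ := by
  rw [cis_add, show cis θ * cis s - cis θ = cis θ * (cis s - 1) by ring, norm_mul, norm_cis, one_mul]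

theorem tg_cis_sub_one (s : ℝ) : ‖cis s - 1‖ = 2 * |Real.sin (s / 2)| := by
  rw [cis, mul_comm, Complex.norm_exp_I_mul_ofReal_sub_one]
  simp

theorem tg_polar (z : ℂ) : z = (‖z‖ : ℂ) * cis z.arg := (Complex.norm_mul_exp_arg_mul_I z).symm

theorem tg_cis_zero : cis 0 = 1 := by simp [cis]

theorem norm_cis_sub_le (s t : ℝ) : ‖cis s - cis t‖ ≤ |s - t| := by
  have := tg_cis_sub (s - t) t
  rw [add_sub_cancel] at this
  rw [this, cis, mul_comm]
  exact Real.norm_exp_I_mul_ofReal_sub_one_le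

theorem hexagon (θ : ℝ) : cis θ + cis (θ + 2 * Real.pi / 3) = cis (θ + Real.pi / 3) := by
  have h : (1 : ℂ) + cis (2 * Real.pi / 3) = cis (Real.pi / 3) := by
    rw [show 2 * Real.pi / 3 = Real.pi - Real.pi / 3 by ring]
    apply Complex.ext
    · rw [Complex.add_re, cis_re, cis_re, Real.cos_pi_sub, Real.cos_pi_div_three, Complex.one_re]
      norm_num
    · rw [Complex.add_im, cis_im, cis_im, Real.sin_pi_sub, Complex.one_im, zero_add]
  rw [cis_add, cis_add, ← h]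
  ring

theorem tg_chord_sq (s : ℝ) : (cis s - 1).re ^ 2 + (cis s - 1).im ^ 2 = 2 - 2 * Real.cos s := by
  simp only [Complex.sub_re, Complex.sub_im, cis_re, cis_im, Complex.one_re, Complex.one_im]
  nlinarith [Real.sin_sq_add_cos_sq s]

theorem norm_hexagon (θ : ℝ) : ‖cis (θ + Real.pi / 3) - cis θ‖ = 1 := by
  rw [tg_cis_sub, tg_eq_one, tg_chord_sq, Real.cos_pi_div_three]
  norm_num

theorem cis_add_int (θ : ℝ) (n : ℤ) : cis (θ + 2 * Real.pi * n) = cis θ := by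
  rw [mul_comm (2 * Real.pi)]
  apply Complex.ext
  · rw [cis_re, cis_re, Real.cos_add_int_mul_two_pi]
  · rw [cis_im, cis_im, Real.sin_add_int_mul_two_pi]

/-- chords shorter / longer than the side of the hexagon -/
theorem chord_lt {s : ℝ} (h0 : 0 ≤ s) (h : s < Real.pi / 3) (θ : ℝ) :
    ‖cis (θ + s) - cis θ‖ < 1 := by
  rw [tg_cis_sub]
  refine tg_lt_one ?_
  have := Real.cos_lt_cos_of_nonneg_of_le_pi h0 (by linarith [Real.pi_pos]) h
  rw [Real.cos_pi_div_three] at this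
  rw [tg_chord_sq]
  linarith

theorem chord_gt {s : ℝ} (h0 : Real.pi / 3 < s) (h : s ≤ Real.pi) (θ : ℝ) :
    1 < ‖cis (θ + s) - cis θ‖ := by
  rw [tg_cis_sub]
  refine tg_one_lt ?_
  have := Real.cos_lt_cos_of_nonneg_of_le_pi (by linarith [Real.pi_pos]) h h0
  rw [Real.cos_pi_div_three] at this
  rw [tg_chord_sq]
  linarith

theorem exists_arg_near {u : ℂ} {t ε : ℝ} (hu : ‖u‖ = 1) (h : ‖u - cis t‖ ≤ ε) :
    ∃ φ, u = cis φ ∧ |φ - t| ≤ 2 * ε := by
  set z := u * cis (-t) with hz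
  have h1 : ‖z‖ = 1 := by rw [hz, norm_mul, hu, norm_cis, one_mul]
  have h2 : z = cis z.arg := by
    have := tg_polar z
    rwa [h1, Complex.ofReal_one, one_mul] at this
  have h3 : u = cis (t + z.arg) := by
    rw [cis_add, ← h2, hz, mul_left_comm, ← cis_add, add_neg_cancel, tg_cis_zero, mul_one]
  refine ⟨t + z.arg, h3, ?_⟩
  rw [h3, tg_cis_sub, tg_cis_sub_one] at h
  rw [add_sub_cancel_left]
  have h4 := Complex.abs_arg_le_pi z
  have h5 : |z.arg / 2| = |z.arg| / 2 := by rw [abs_div, abs_two]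
  have h6 := Real.mul_abs_le_abs_sin (x := z.arg / 2) (by rw [h5]; linarith)
  have h7 : 1 / 2 ≤ 2 / Real.pi := by
    rw [div_le_div_iff₀ two_pos Real.pi_pos]; linarith [Real.pi_le_four]
  rw [h5] at h6
  nlinarith [abs_nonneg z.arg]

theorem isOpen_lune (a b : ℂ) : IsOpen {w | Lune a b w} := by
  have h1 : ∀ c : ℂ, IsOpen {w : ℂ | ‖w - c‖ < 1} := fun c =>
    isOpen_lt (by fun_prop) continuous_const
  have h2 : ∀ c : ℂ, IsOpen {w : ℂ | 1 < ‖w - c‖} := fun c =>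
    isOpen_lt continuous_const (by fun_prop)
  exact ((h1 a).inter (h2 b)).union ((h1 b).inter (h2 a))

theorem Lune.near {a b w v : ℂ} {ε : ℝ} (h : Lune a b w) (ha : a ∈ ball v ε) (hb : b ∈ ball v ε) :
    |‖w - v‖ - 1| < ε := by
  rw [mem_ball, dist_eq_norm] at ha hb
  have key : ∀ c : ℂ, ‖w - v‖ ≤ ‖w - c‖ + ‖c - v‖ ∧ ‖w - c‖ ≤ ‖w - v‖ + ‖c - v‖ := fun c =>
    ⟨norm_sub_le_norm_sub_add_norm_sub w c v, by
      rw [norm_sub_rev c v]; exact norm_sub_le_norm_sub_add_norm_sub w v c⟩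
  rw [abs_lt]
  rcases h with h | h <;> constructor <;> linarith [h.1, h.2, key a, (key a).1, (key a).2,
    (key b).1, (key b).2]

/-- radial perturbation -/
theorem tg_radial {a b w : ℂ} (ha : ‖w - a‖ = 1) (hb : ‖w - b‖ ≠ 1) {ρ : ℝ} (hρ : 0 < ρ) :
    ∃ w', ‖w' - w‖ < ρ ∧ Lune a b w' := by
  have key : ∀ t : ℝ, ‖w + t * (w - a) - w‖ = |t| ∧ ‖w + t * (w - a) - a‖ = |1 + t| ∧
      |‖w + t * (w - a) - b‖ - ‖w - b‖| ≤ |t| := fun t => by
    have e1 : ‖(t : ℂ) * (w - a)‖ = |t| := by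
      rw [norm_mul, ha, mul_one, Complex.norm_real, Real.norm_eq_abs]
    refine ⟨by rw [add_sub_cancel_left, e1], ?_, ?_⟩
    · rw [show w + t * (w - a) - a = ((1 + t : ℝ) : ℂ) * (w - a) by push_cast; ring, norm_mul, ha,
        mul_one, Complex.norm_real, Real.norm_eq_abs]
    · refine (abs_norm_sub_norm_le _ _).trans (le_of_eq ?_)
      rw [← e1]; congr 1; ring
  rcases lt_or_gt_of_ne hb with h | h
  · set t := min (ρ / 2) ((1 - ‖w - b‖) / 2) with ht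
    have t0 : 0 < t := lt_min (by linarith) (by linarith)
    have t1 : t ≤ ρ / 2 := min_le_left _ _
    have t2 : t ≤ (1 - ‖w - b‖) / 2 := min_le_right _ _
    obtain ⟨e1, e2, e3⟩ := key t
    rw [abs_of_pos t0] at e1 e3
    rw [abs_of_pos (by linarith)] at e2
    exact ⟨_, by rw [e1]; linarith, Or.inr ⟨by linarith [(abs_le.1 e3).2], by linarith⟩⟩
  · set t := min (min (ρ / 2) 1) ((‖w - b‖ - 1) / 2) with ht
    have t0 : 0 < t := lt_min (lt_min (by linarith) one_pos) (by linarith)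
    have t1 : t ≤ ρ / 2 := (min_le_left _ _).trans (min_le_left _ _)
    have t1' : t ≤ 1 := (min_le_left _ _).trans (min_le_right _ _)
    have t2 : t ≤ (‖w - b‖ - 1) / 2 := min_le_right _ _
    obtain ⟨e1, e2, e3⟩ := key (-t)
    rw [abs_neg, abs_of_pos t0] at e1 e3
    rw [abs_of_nonneg (by linarith)] at e2
    exact ⟨_, by rw [e1]; linarith, Or.inl ⟨by linarith, by linarith [(abs_le.1 e3).1]⟩⟩

theorem tg_three {d : ℂ} {φ : ℝ} (hφ : Real.cos φ < 1) (h0 : ‖d + cis 0‖ = 1) (h1 : ‖d + cis φ‖ = 1)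
    (h2 : ‖d + cis (-φ)‖ = 1) : d = 0 := by
  rw [tg_eq_one] at h0 h1 h2
  simp only [Complex.add_re, Complex.add_im, cis_re, cis_im, Real.cos_zero, Real.sin_zero,
    Real.cos_neg, Real.sin_neg] at h0 h1 h2
  have h3 := Real.sin_sq_add_cos_sq φ
  have h4 : d.re * (1 - Real.cos φ) = 0 := by nlinarith
  have h5 : d.re = 0 := (mul_eq_zero.1 h4).resolve_right (by linarith)
  rw [h5] at h0
  exact Complex.ext h5 (by simpa using (show d.im ^ 2 = 0 by nlinarith))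

theorem exists_lune_near {p q : ℂ} (h : ‖p - q‖ = 1) {ρ : ℝ} (hρ : 0 < ρ) :
    ∃ ε > 0, ∀ x₁ ∈ ball p ε, ∀ x₂ ∈ ball p ε, x₁ ≠ x₂ → ∃ w ∈ ball q ρ, Lune x₁ x₂ w := by
  refine ⟨ρ / 3, by linarith, fun x₁ h₁ x₂ _ hne => ?_⟩
  rw [mem_ball, dist_eq_norm] at h₁
  set u := q - p with hu
  have hu1 : ‖u‖ = 1 := by rw [hu, norm_sub_rev, h]
  have hu0 : u ≠ 0 := fun e => by simp [e] at hu1
  set φ := min (ρ / 3) 1 with hφ
  have φ0 : 0 < φ := lt_min (by linarith) one_pos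
  have φ1 : φ ≤ ρ / 3 := min_le_left _ _
  have φ2 : φ ≤ 1 := min_le_right _ _
  have hc : Real.cos φ < 1 := by
    have := Real.cos_lt_cos_of_nonneg_of_le_pi le_rfl (by linarith [Real.pi_gt_three]) φ0
    rwa [Real.cos_zero] at this
  obtain ⟨s, hs, hs'⟩ : ∃ s : ℝ, |s| ≤ ρ / 3 ∧ ‖(x₁ - x₂) / u + cis s‖ ≠ 1 := by
    by_contra hc'
    push Not at hc'
    have := tg_three hc (hc' 0 (by rw [abs_zero]; linarith)) (hc' φ (by rwa [abs_of_pos φ0]))
      (hc' (-φ) (by rwa [abs_neg, abs_of_pos φ0]))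
    rw [div_eq_zero_iff, sub_eq_zero] at this
    exact this.elim hne hu0
  obtain ⟨w, h1, h2⟩ := tg_radial (a := x₁) (b := x₂) (w := x₁ + u * cis s)
    (by rw [add_sub_cancel_left, norm_mul, hu1, norm_cis, one_mul])
    (by
      rw [show x₁ + u * cis s - x₂ = u * ((x₁ - x₂) / u + cis s) by field_simp; ring, norm_mul, hu1,
        one_mul]
      exact hs') (show 0 < ρ / 3 by linarith)
  refine ⟨w, ?_, h2⟩
  rw [mem_ball, dist_eq_norm, show w - q = (w - (x₁ + u * cis s)) + (x₁ - p) + u * (cis s - cis 0) by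
    rw [tg_cis_zero, hu]; ring]
  have h3 : ‖u * (cis s - cis 0)‖ ≤ ρ / 3 := by
    rw [norm_mul, hu1, one_mul]
    refine (norm_cis_sub_le s 0).trans ?_
    rwa [sub_zero]
  linarith [norm_add₃_le (a := w - (x₁ + u * cis s)) (b := x₁ - p) (c := u * (cis s - cis 0))]

theorem tg_arc_side {r : ℝ} (r0 : 0 < r) (r2 : r < 2) {e : ℂ} {σ : ℝ} (hσ : σ = 1 ∨ σ = -1)
    (h : ‖cis (σ * Real.arccos (r / 2)) - e‖ ≠ 1) : ∃ t, Lune (r : ℂ) e (cis t) := by
  set γ := Real.arccos (r / 2) with hγ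
  have hc : Real.cos γ = r / 2 := Real.cos_arccos (by linarith) (by linarith)
  have γ0 : 0 < γ := Real.arccos_pos.2 (by linarith)
  have γ1 : γ < Real.pi := Real.arccos_lt_pi.2 (by linarith)
  have hg : Continuous fun t : ℝ => ‖cis (σ * t) - e‖ := by fun_prop
  have key : ∀ t : ℝ, (cis (σ * t) - r).re ^ 2 + (cis (σ * t) - r).im ^ 2 =
      1 - 2 * r * Real.cos t + r ^ 2 := fun t => by
    have e1 : Real.cos (σ * t) = Real.cos t := by rcases hσ with rfl | rfl <;> simp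
    simp only [Complex.sub_re, Complex.sub_im, cis_re, cis_im, Complex.ofReal_re, Complex.ofReal_im]
    rw [← e1]
    nlinarith [Real.sin_sq_add_cos_sq (σ * t)]
  rcases lt_or_gt_of_ne h with h1 | h1
  · have h2 := (hg.continuousAt (x := γ)).eventually (gt_mem_nhds h1)
    obtain ⟨t, h3, h4⟩ := ((h2.filter_mono nhdsWithin_le_nhds).and (Ioo_mem_nhdsGT γ1)).exists
    refine ⟨σ * t, Or.inr ⟨h3, tg_one_lt ?_⟩⟩
    have := Real.cos_lt_cos_of_nonneg_of_le_pi γ0.le h4.2.le h4.1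
    rw [key]
    nlinarith
  · have h2 := (hg.continuousAt (x := γ)).eventually (lt_mem_nhds h1)
    obtain ⟨t, h3, h4⟩ := ((h2.filter_mono nhdsWithin_le_nhds).and (Ioo_mem_nhdsLT γ0)).exists
    refine ⟨σ * t, Or.inl ⟨tg_lt_one ?_, h3⟩⟩
    have := Real.cos_lt_cos_of_nonneg_of_le_pi h4.1.le γ1.le h4.2
    rw [key]
    nlinarith

theorem tg_arc {r : ℝ} (r0 : 0 < r) (r2 : r < 2) {e : ℂ} (he : e ≠ 0) (he' : e ≠ r) :
    ∃ t, Lune (r : ℂ) e (cis t) := by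
  by_cases h1 : ‖cis (1 * Real.arccos (r / 2)) - e‖ = 1
  swap
  · exact tg_arc_side r0 r2 (Or.inl rfl) h1
  by_cases h2 : ‖cis (-1 * Real.arccos (r / 2)) - e‖ = 1
  swap
  · exact tg_arc_side r0 r2 (Or.inr rfl) h2
  exfalso
  set γ := Real.arccos (r / 2) with hγ
  have hc : Real.cos γ = r / 2 := Real.cos_arccos (by linarith) (by linarith)
  have hs : 0 < Real.sin γ := Real.sin_pos_of_pos_of_lt_pi (Real.arccos_pos.2 (by linarith))
    (Real.arccos_lt_pi.2 (by linarith))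
  rw [tg_eq_one] at h1 h2
  simp only [Complex.sub_re, Complex.sub_im, cis_re, cis_im, one_mul, neg_mul, Real.cos_neg,
    Real.sin_neg] at h1 h2
  have h3 := Real.sin_sq_add_cos_sq γ
  have h4 : e.im * Real.sin γ = 0 := by nlinarith
  have h5 : e.im = 0 := (mul_eq_zero.1 h4).resolve_right hs.ne'
  rw [h5] at h1
  have h6 : e.re * (e.re - r) = 0 := by
    have : r = 2 * Real.cos γ := by linarith
    rw [this]; nlinarith
  rcases mul_eq_zero.1 h6 with h7 | h7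
  · exact he (Complex.ext h7 h5)
  · exact he' (Complex.ext (by rw [Complex.ofReal_re]; linarith) h5)

theorem arc_window {y x₁ x₂ : ℂ} (h₁ : |‖x₁ - y‖ - 1| ≤ 1 / 100) (h₂ : |‖x₂ - y‖ - 1| ≤ 1 / 100)
    (hd : ‖x₁ - x₂‖ ≤ 1 / 100) (hne : x₁ ≠ x₂) : ∃ θ : ℝ, Lune x₁ x₂ (y + cis θ) := by
  have _ := hd
  set α := (x₁ - y).arg with hα
  have hc : cis α ≠ 0 := fun e => by simpa [e] using norm_cis α
  have e1 := tg_polar (x₁ - y)
  rw [← hα] at e1
  obtain ⟨t, ht⟩ := tg_arc (r := ‖x₁ - y‖) (by linarith [(abs_le.1 h₁).1])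
    (by linarith [(abs_le.1 h₁).2]) (e := (x₂ - y) / cis α)
    (by
      refine div_ne_zero (fun e => ?_) hc
      rw [e, norm_zero] at h₂
      norm_num at h₂)
    (by
      intro e
      rw [div_eq_iff hc, ← e1] at e
      exact hne (sub_left_injective e).symm)
  refine ⟨α + t, ?_⟩
  have f1 : ‖y + cis (α + t) - x₁‖ = ‖cis t - (‖x₁ - y‖ : ℂ)‖ := by
    rw [show y + cis (α + t) - x₁ = cis α * (cis t - (‖x₁ - y‖ : ℂ)) by
      rw [cis_add]; linear_combination -e1, norm_mul, norm_cis, one_mul]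
  have f2 : ‖y + cis (α + t) - x₂‖ = ‖cis t - (x₂ - y) / cis α‖ := by
    rw [show y + cis (α + t) - x₂ = cis α * (cis t - (x₂ - y) / cis α) by
      rw [cis_add]; field_simp; ring, norm_mul, norm_cis, one_mul]
  unfold Lune at ht ⊢
  rwa [f1, f2]

theorem tg_lune_of_ip {z d : ℂ}
    (h : |‖z‖ ^ 2 - 1| + ‖d‖ ^ 2 < 2 * |z.re * d.re + z.im * d.im|) :
    (‖z - d‖ < 1 ∧ 1 < ‖z + d‖) ∨ (‖z + d‖ < 1 ∧ 1 < ‖z - d‖) := by
  have h1 := le_abs_self (‖z‖ ^ 2 - 1)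
  have h2 := neg_abs_le (‖z‖ ^ 2 - 1)
  have h3 := sq_nonneg ‖d‖
  generalize |‖z‖ ^ 2 - 1| = A at h h1 h2
  rw [tg_nsq] at h1 h2 h3 h
  rcases abs_cases (z.re * d.re + z.im * d.im) with ⟨e, -⟩ | ⟨e, -⟩ <;> rw [e] at h
  · exact Or.inl ⟨tg_lt_one (by simp only [Complex.sub_re, Complex.sub_im]; nlinarith),
      tg_one_lt (by simp only [Complex.add_re, Complex.add_im]; nlinarith)⟩
  · exact Or.inr ⟨tg_lt_one (by simp only [Complex.add_re, Complex.add_im]; nlinarith),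
      tg_one_lt (by simp only [Complex.sub_re, Complex.sub_im]; nlinarith)⟩

/-- the circle about the midpoint of `a, b` runs inside the lune for almost `π` radians -/
theorem mid_lune {a b : ℂ} (hne : a ≠ b) {η : ℝ} (hd : ‖a - b‖ ≤ η) (hη : η ≤ 1 / 10) :
    ∃ β : ℝ, ∀ t ∈ Icc (β + η) (β + Real.pi - η), Lune a b ((a + b) / 2 + cis t) := by
  set d := (a - b) / 2 with hdd
  have d1 : ‖d‖ = ‖a - b‖ / 2 := by rw [hdd, norm_div, Complex.norm_two]
  have d0 : 0 < ‖a - b‖ := norm_pos_iff.2 (sub_ne_zero.2 hne)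
  refine ⟨d.arg - Real.pi / 2, fun t ht => ?_⟩
  have e1 : (a + b) / 2 + cis t - a = cis t - d := by rw [hdd]; ring
  have e2 : (a + b) / 2 + cis t - b = cis t + d := by rw [hdd]; ring
  unfold Lune
  rw [e1, e2]
  refine tg_lune_of_ip ?_
  have e3 : (cis t).re * d.re + (cis t).im * d.im =
      ‖d‖ * Real.sin (t - (d.arg - Real.pi / 2)) := by
    rw [show t - (d.arg - Real.pi / 2) = t - d.arg + Real.pi / 2 by ring, Real.sin_add_pi_div_two,
      Real.cos_sub, cis_re, cis_im, mul_add, mul_left_comm, mul_left_comm ‖d‖,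
      Complex.norm_mul_cos_arg, Complex.norm_mul_sin_arg]
  have h7 : 1 / 2 ≤ 2 / Real.pi := by
    rw [div_le_div_iff₀ two_pos Real.pi_pos]; linarith [Real.pi_le_four]
  have e4 : η / 2 ≤ Real.sin (t - (d.arg - Real.pi / 2)) := by
    obtain ⟨t1, t2⟩ := ht
    generalize hs : t - (d.arg - Real.pi / 2) = s
    have s1 : η ≤ s := by linarith
    have s2 : η ≤ Real.pi - s := by linarith
    rcases le_total s (Real.pi / 2) with h | h
    · have := Real.mul_le_sin (x := s) (by linarith) h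
      nlinarith
    · have := Real.mul_le_sin (x := Real.pi - s) (by linarith) (by linarith)
      rw [Real.sin_pi_sub] at this
      nlinarith
  rw [e3, norm_cis, one_pow, sub_self, abs_zero, zero_add,
    abs_of_nonneg (mul_nonneg (norm_nonneg _) (by linarith))]
  nlinarith

/-- the lunes of two segments of a double cone cover a thin annulus -/
theorem annulus_lune {u : ℂ} (hu : ‖u‖ = 1) {κ r : ℝ} (hκ : 0 < κ) (hr : 0 < r) (v : ℂ) :
    ∃ d₁ d₂ : ℂ, ‖d₁‖ < r ∧ ‖d₂‖ < r ∧ |d₁.re| < κ * |d₁.im| ∧ |d₂.re| < κ * |d₂.im| ∧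
      ∃ δ > (0 : ℝ), ∀ w : ℂ, |‖w - v‖ - 1| < δ →
        Lune (v + u * d₁) (v - u * d₁) w ∨ Lune (v + u * d₂) (v - u * d₂) w := by
  obtain ⟨k, k0, k1, k2⟩ : ∃ k : ℝ, 0 < k ∧ k ≤ κ ∧ k ≤ 1 :=
    ⟨min κ 1, lt_min hκ one_pos, min_le_left _ _, min_le_right _ _⟩
  obtain ⟨t, t0, t1, t2⟩ : ∃ t : ℝ, 0 < t ∧ t ≤ r / 2 ∧ t ≤ k / 100 :=
    ⟨min (r / 2) (k / 100), lt_min (by linarith) (by linarith), min_le_left _ _, min_le_right _ _⟩
  have hu0 : u ≠ 0 := fun e => by simp [e] at hu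
  have tk : 0 < t * k := mul_pos t0 k0
  have n1 : ∀ d : ℂ, d.re ^ 2 = (t * k / 2) ^ 2 → d.im = t → ‖d‖ ^ 2 ≤ 2 * t ^ 2 := fun d h1 h2 => by
    rw [tg_nsq, h1, h2]
    have : k ^ 2 ≤ 1 := pow_le_one₀ k0.le k2
    nlinarith [sq_nonneg t]
  have n2 : ∀ d : ℂ, ‖d‖ ^ 2 ≤ 2 * t ^ 2 → ‖d‖ < r := fun d h =>
    lt_of_pow_lt_pow_left₀ 2 hr.le (by nlinarith)
  have m1 := n1 ⟨t * k / 2, t⟩ rfl rfl
  have m2 := n1 ⟨-(t * k / 2), t⟩ (by simp) rfl
  refine ⟨⟨t * k / 2, t⟩, ⟨-(t * k / 2), t⟩, n2 _ m1, n2 _ m2, ?_, ?_, t * k / 100, by linarith,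
    fun w hw => ?_⟩
  · dsimp only
    rw [abs_of_pos t0, abs_of_pos (by linarith)]
    nlinarith
  · dsimp only
    rw [abs_neg, abs_of_pos t0, abs_of_pos (by linarith)]
    nlinarith
  set z := (w - v) / u with hz
  have z1 : ‖z‖ = ‖w - v‖ := by rw [hz, norm_div, hu, div_one]
  rw [← z1] at hw
  have key : ∀ d : ℂ, ‖d‖ ^ 2 ≤ 2 * t ^ 2 → t * k / 4 ≤ |z.re * d.re + z.im * d.im| →
      Lune (v + u * d) (v - u * d) w := fun d h1 h2 => by
    have e1 : ‖w - (v + u * d)‖ = ‖z - d‖ := by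
      rw [show w - (v + u * d) = u * (z - d) by rw [hz]; field_simp; ring, norm_mul, hu, one_mul]
    have e2 : ‖w - (v - u * d)‖ = ‖z + d‖ := by
      rw [show w - (v - u * d) = u * (z + d) by rw [hz]; field_simp; ring, norm_mul, hu, one_mul]
    unfold Lune
    rw [e1, e2]
    refine tg_lune_of_ip ?_
    have e3 : |‖z‖ ^ 2 - 1| ≤ 3 * (t * k / 100) := by
      have : t * k ≤ 1 := by nlinarith
      rw [show ‖z‖ ^ 2 - 1 = (‖z‖ - 1) * (‖z‖ + 1) by ring, abs_mul,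
        abs_of_nonneg (show 0 ≤ ‖z‖ + 1 by positivity)]
      nlinarith [abs_nonneg (‖z‖ - 1), (abs_lt.1 hw).2, norm_nonneg z]
    nlinarith
  have z2 : 1 / 2 ≤ |z.re| + |z.im| := by
    have : t * k ≤ 1 := by nlinarith
    linarith [Complex.norm_le_abs_re_add_abs_im z, (abs_lt.1 hw).1]
  have z3 : t * k / 4 ≤ t * k / 2 * |z.re| + t * |z.im| := by
    have : t * k / 2 * |z.im| ≤ t * |z.im| :=
      mul_le_mul_of_nonneg_right (by nlinarith) (abs_nonneg _)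
    nlinarith
  rcases le_total 0 z.re with h1 | h1 <;> rcases le_total 0 z.im with h2 | h2
  · rw [abs_of_nonneg h1, abs_of_nonneg h2] at z3
    exact Or.inl (key _ m1 (le_trans (by dsimp only; linarith) (le_abs_self _)))
  · rw [abs_of_nonneg h1, abs_of_nonpos h2] at z3
    exact Or.inr (key _ m2 (le_trans (by dsimp only; linarith) (neg_le_abs _)))
  · rw [abs_of_nonpos h1, abs_of_nonneg h2] at z3
    exact Or.inr (key _ m2 (le_trans (by dsimp only; linarith) (le_abs_self _)))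
  · rw [abs_of_nonpos h1, abs_of_nonpos h2] at z3
    exact Or.inl (key _ m1 (le_trans (by dsimp only; linarith) (neg_le_abs _)))

/-- unit circles about points of a thin double cone meet a given arc -/
theorem cone_hit {s₀ : ℝ} (h : 0 < s₀) :
    ∃ κ > (0 : ℝ), ∃ r > (0 : ℝ), ∀ w : ℂ, ‖w‖ < r → |w.re| < κ * |w.im| →
      ∃ s ∈ Ioo (-s₀) s₀, ‖cis s - w‖ = 1 := by
  obtain ⟨s₁, s0, s1, s2⟩ : ∃ s₁ : ℝ, 0 < s₁ ∧ s₁ < s₀ ∧ s₁ ≤ 1 :=
    ⟨min (s₀ / 2) 1, lt_min (by linarith) one_pos, (min_le_left _ _).trans_lt (by linarith),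
      min_le_right _ _⟩
  have hs : 0 < Real.sin s₁ := Real.sin_pos_of_pos_of_lt_pi s0 (by linarith [Real.pi_gt_three])
  have hs1 := Real.sin_le_one s₁
  refine ⟨Real.sin s₁ / 4, by linarith, Real.sin s₁ / 4, by linarith, fun w hw hc => ?_⟩
  set f : ℝ → ℝ := fun s => w.re ^ 2 + w.im ^ 2 - 2 * (w.re * Real.cos s + w.im * Real.sin s)
    with hf
  have hfc : Continuous f := by rw [hf]; fun_prop
  have i0 := abs_nonneg w.im
  have i1 : |w.im| ≤ Real.sin s₁ / 4 := (Complex.abs_im_le_norm w).trans hw.le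
  have i2 : w.re ^ 2 + w.im ^ 2 ≤ Real.sin s₁ / 2 * |w.im| := by
    rw [← sq_abs w.re, ← sq_abs w.im]
    have : |w.re| ≤ |w.im| := by nlinarith
    nlinarith [abs_nonneg w.re]
  have i3 : |w.re * Real.cos s₁| ≤ Real.sin s₁ / 4 * |w.im| := by
    rw [abs_mul]
    nlinarith [Real.abs_cos_le_one s₁, abs_nonneg w.re]
  obtain ⟨i4, i5⟩ := abs_le.1 i3
  have i6 : 0 ≤ w.re ^ 2 + w.im ^ 2 := by positivity
  have : (0 : ℝ) ∈ uIcc (f (-s₁)) (f s₁) := by
    simp only [hf, Real.cos_neg, Real.sin_neg]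
    rcases abs_cases w.im with ⟨e, e'⟩ | ⟨e, e'⟩ <;> rw [e] at i2 i4 i5
    · exact mem_uIcc_of_ge (by nlinarith) (by nlinarith)
    · exact mem_uIcc_of_le (by nlinarith) (by nlinarith)
  obtain ⟨s, h1, h2⟩ := intermediate_value_uIcc hfc.continuousOn this
  rw [uIcc_of_le (by linarith)] at h1
  refine ⟨s, ⟨by linarith [h1.1], by linarith [h1.2]⟩, tg_eq_one.2 ?_⟩
  simp only [hf] at h2
  simp only [Complex.sub_re, Complex.sub_im, cis_re, cis_im]
  nlinarith [Real.sin_sq_add_cos_sq s]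

end Crest.Agent.R40
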