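import Crest.Agent.R40.TCross
import Crest.Agent.R40.TGeom

/-!
# R40/TBasic: first properties of a configuration  (task)

* `exists_cfg`: `V i = U i \ closure (⋃ j < i, U j)` are open, pairwise disjoint, with dense union;
  `F i = closure (V i)`.  `V i ⊆ {x | only colour i} ⊆ interior (F i)`.  No unit pair `x ∈ F i`,
  `y ∈ interior (F i)`: move `x` to `x' ∈ V i`, `y' = y + (x' - x) ∈ interior (F i)`, move `y'` to
  `y'' ∈ V i` with `x' + (y'' - y') ∈ V i`.
* `sep_disj`: if `i ∈ e ∩ I w`, take `u ∈ U i` near `w` with the same strict inequalities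
  (`exists_U_near`); `IsPreconnected.intermediate_value` for `‖u - ·‖` on `K` contradicts `unit'`.
* `cont_diam`: `sep_disj` with `w = a`.
* `sub_cont`: `x ∈ K` with `card (I x)` minimal on `K`, so `I = I x` on `K` near `x` (`I_usc`); `bump`.
* `contact_of_path` (PL): `U₁ = ⋃_{a ∈ P} U a`, `U₂ = ⋃_{b ∉ P} U b`; the preconnected set `γ` is
  covered by the two closures and meets both, so it contains a point of both
  (`isPreconnected_closed_iff`); `sep_cont`, `sub_cont`; a point of `closure U₁` has a colour in `P`.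
* `Γ_of_two`: `contact_of_path` with `γ = {p}`, `V` a small ball where `I ⊆ {a,b}`, `P = {a}`.
* `not_sub_Γ`: `I ⊆ I y` on a ball round `y`, `exists_lune_near`, `lune_disj`, `I_nonempty`.
* `not_sub_of_unit`: card 1: `unit'`; card 2: `Γ_of_two`, `not_sub_Γ`.
* `two_col_arc` (TC): each point of the arc has a partner at `± π/3` on the arc; `not_sub_of_unit`
  forces all colour sets to be singletons; the arc is preconnected and covered by the disjoint open
  sets `U i`, so it has one colour, but contains a unit pair.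
* `td_M3`: `t ⊆ M3` preconnected non-trivial; `K = closure t ⊆ M3`; `bump` + `sub_cont` give a
  continuum `L` of type `I x`, card `≥ 3`, of diameter `≤ 1/10`; `mid_lune`, `lune_disj`,
  `two_col_arc` with `B = (I x)ᶜ`.
-/

set_option autoImplicit false
open Set Metric

namespace Crest.Agent.R40

theorem exists_cfg (U : Fin 5 → Set ℂ) (ho : ∀ i, IsOpen (U i)) (hd : Dense (⋃ i, U i))
    (hu : ∀ i, ∀ x ∈ U i, ∀ y ∈ U i, dist x y ≠ 1) : Nonempty Cfg := by
  let V : Fin 5 → Set ℂ := fun i => U i \ closure (⋃ j ∈ Iio i, U j)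
  have hVo : ∀ i, IsOpen (V i) := fun i => (ho i).sdiff isClosed_closure
  have hVd : ∀ i j x, x ∈ V i → x ∈ V j → j = i := fun i j x hi hj => by
    rcases lt_trichotomy i j with h | h | h
    · exact absurd (subset_closure (mem_iUnion₂.2 ⟨i, h, hi.1⟩)) hj.2
    · exact h.symm
    · exact absurd (subset_closure (mem_iUnion₂.2 ⟨j, h, hj.1⟩)) hi.2
  have hcov : ∀ x, ∃ i, x ∈ closure (V i) := fun x => by
    rw [← mem_iUnion, ← closure_iUnion_of_finite, _root_.mem_closure_iff]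
    intro W hW hx
    obtain ⟨y, hyW, hy⟩ := hd.inter_open_nonempty W hW ⟨x, hx⟩
    obtain ⟨i, hi⟩ := mem_iUnion.1 hy
    obtain ⟨j, ⟨z, hzW, hz⟩, hmin⟩ := wellFounded_lt.has_min {j | (W ∩ U j).Nonempty} ⟨i, y, hyW, hi⟩
    refine ⟨z, hzW, mem_iUnion.2 ⟨j, hz, fun hc => ?_⟩⟩
    obtain ⟨u, huW, hu⟩ := _root_.mem_closure_iff.1 hc W hW hzW
    obtain ⟨l, hl, hu⟩ := mem_iUnion₂.1 hu
    exact hmin l ⟨u, huW, hu⟩ hl
  refine ⟨⟨fun i => closure (V i), fun i => isClosed_closure, hcov,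
    fun i => closure_mono fun x hx j hj => ?_, fun i x y hx hy h => ?_⟩⟩
  · obtain ⟨z, h1, h2⟩ := _root_.mem_closure_iff.1 hj _ (hVo i) hx
    exact hVd _ _ _ h1 h2
  · have hW : IsOpen (⋂ j ∈ {j | j ≠ i}, (closure (V j))ᶜ) :=
      (toFinite _).isOpen_biInter fun j _ => isClosed_closure.isOpen_compl
    obtain ⟨x', h1, h2⟩ := _root_.mem_closure_iff.1 hx _
      (hW.preimage (continuous_add_const (y - x)))
      (by simpa only [mem_preimage, add_sub_cancel] using mem_iInter₂.2 fun j hj hc => hj (hy j hc))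
    have h3 : x' + (y - x) ∈ closure (V i) := by
      obtain ⟨j, hj⟩ := hcov (x' + (y - x))
      by_cases e : j = i
      · exact e ▸ hj
      · exact absurd hj (mem_iInter₂.1 h1 j e)
    obtain ⟨y', h4, h5⟩ := _root_.mem_closure_iff.1 h3 _
      ((hVo i).preimage (continuous_add_const (x - y)))
      (by rw [mem_preimage, show x' + (y - x) + (x - y) = x' by ring]; exact h2)
    exact hu i _ h4.1 _ h5.1 (by rw [dist_eq_norm, add_sub_cancel_left, h])

namespace Cfg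
variable {C : Cfg}

theorem sep_disj {e : Finset (Fin 5)} {K : Set ℂ} (hK : C.Cont e K) {a b w : ℂ} (ha : a ∈ K)
    (hb : b ∈ K) (h1 : ‖w - a‖ < 1) (h2 : 1 < ‖w - b‖) : Disjoint (C.I w) e := by
  refine Finset.disjoint_left.2 fun i hi hie => ?_
  have ho : IsOpen ({u : ℂ | ‖a - u‖ < 1} ∩ {u : ℂ | 1 < ‖b - u‖}) :=
    (isOpen_lt (by fun_prop) continuous_const).inter (isOpen_lt continuous_const (by fun_prop))
  obtain ⟨u, ⟨u1, u2⟩, hu⟩ := _root_.mem_closure_iff.1 (F_sub_closure (mem_I.1 hi)) _ ho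
    ⟨by rwa [norm_sub_rev] at h1, by rwa [norm_sub_rev] at h2⟩
  obtain ⟨z, hz, e⟩ := hK.2.1.intermediate_value ha hb (f := fun z => ‖z - u‖) (by fun_prop)
    ⟨le_of_lt u1, le_of_lt u2⟩
  exact unit' (mem_I.1 (hK.2.2 z hz hie)) hu e

theorem lune_disj {e : Finset (Fin 5)} {K : Set ℂ} (hK : C.Cont e K) {a b w : ℂ} (ha : a ∈ K)
    (hb : b ∈ K) (h : Lune a b w) : Disjoint (C.I w) e := by
  rcases h with h | h
  · exact sep_disj hK ha hb h.1 h.2
  · exact sep_disj hK hb ha h.1 h.2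

theorem cont_diam {i : Fin 5} {K : Set ℂ} (hK : C.Cont {i} K) {a b : ℂ} (ha : a ∈ K)
    (hb : b ∈ K) : ‖a - b‖ ≤ 1 := by
  by_contra h
  exact Finset.disjoint_left.1 (sep_disj hK ha hb (by simp) (not_le.1 h))
    (hK.2.2 a ha (Finset.mem_singleton_self i)) (Finset.mem_singleton_self i)

theorem sub_cont {K : Set ℂ} (hK : IsClosed K) (hc : IsPreconnected K) (hn : K.Nontrivial) :
    ∃ x ∈ K, ∀ ε > (0 : ℝ), ∃ L ⊆ K ∩ ball x ε, C.Cont (C.I x) L ∧ L.Nontrivial := by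
  obtain ⟨x, hx, hmin⟩ := (InvImage.wf (fun x => (C.I x).card) wellFounded_lt).has_min K hn.nonempty
  refine ⟨x, hx, fun ε hε => ?_⟩
  obtain ⟨δ, hδ, hI⟩ := I_usc (C := C) x
  obtain ⟨y, hy, hyx⟩ := hn.exists_ne x
  obtain ⟨L, hL, h1, h2, h3, z, hz, hzx⟩ := bump hK hc hx hy hyx (lt_min hε hδ)
  refine ⟨L, hL.trans (inter_subset_inter_right _ (ball_subset_ball (min_le_left _ _))),
    ⟨h1, h2, fun w hw => ?_⟩, z, hz, x, h3, hzx⟩
  exact (Finset.eq_of_subset_of_card_le (hI w (ball_subset_ball (min_le_right _ _) (hL hw).2))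
    (not_lt.1 (hmin w (hL hw).1))).ge

theorem contact_of_path {V γ : Set ℂ} (hV : IsOpen V) (hγ : IsPreconnected γ) (hs : γ ⊆ V)
    {x y : ℂ} (hx : x ∈ γ) (hy : y ∈ γ) {i j : Fin 5} (hi : i ∈ C.I x) (hj : j ∈ C.I y)
    {P : Finset (Fin 5)} (hiP : i ∈ P) (hjP : j ∉ P) :
    ∃ a ∈ P, ∃ b ∉ P, C.Contact V a b := by
  have hin : ∀ (Q : Finset (Fin 5)) (z : ℂ), z ∈ closure (⋃ a ∈ Q, C.U a) ↔ ∃ a ∈ Q, a ∈ C.I z :=
    fun Q z => by
      rw [Q.closure_biUnion, mem_iUnion₂]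
      exact ⟨fun ⟨a, ha, h⟩ => ⟨a, ha, mem_I.2 (closure_minimal (fun _ => U_sub_F) (C.closed a) h)⟩,
        fun ⟨a, ha, h⟩ => ⟨a, ha, F_sub_closure (mem_I.1 h)⟩⟩
  have hcov : ∀ z, z ∈ closure (⋃ a ∈ P, C.U a) ∪ closure (⋃ a ∈ Pᶜ, C.U a) := fun z => by
    obtain ⟨a, ha⟩ := I_nonempty (C := C) z
    by_cases h : a ∈ P
    · exact Or.inl ((hin _ _).2 ⟨a, h, ha⟩)
    · exact Or.inr ((hin _ _).2 ⟨a, Finset.mem_compl.2 h, ha⟩)
  obtain ⟨z, hz, z1, z2⟩ := isPreconnected_closed_iff.1 hγ _ _ isClosed_closure isClosed_closure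
    (fun z _ => hcov z) ⟨x, hx, (hin _ _).2 ⟨i, hiP, hi⟩⟩
    ⟨y, hy, (hin _ _).2 ⟨j, Finset.mem_compl.2 hjP, hj⟩⟩
  obtain ⟨K, k1, k2, k3, k4⟩ := sep_cont hV (isOpen_biUnion fun a _ => isOpen_U a)
    (isOpen_biUnion fun a _ => isOpen_U a) (disjoint_left.2 fun u h1 h2 => by
      obtain ⟨a, ha, h1⟩ := mem_iUnion₂.1 h1
      obtain ⟨b, hb, h2⟩ := mem_iUnion₂.1 h2
      exact Finset.mem_compl.1 hb (U_unique h1 h2 ▸ ha))
    (fun u _ => by rw [closure_union]; exact hcov u) (hs hz) z1 z2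
  obtain ⟨w, hw, hL⟩ := sub_cont (C := C) k1.isClosed k2 k3
  obtain ⟨L, l1, l2, l3⟩ := hL 1 one_pos
  obtain ⟨a, ha, haw⟩ := (hin _ _).1 (k4 hw).2.1
  obtain ⟨b, hb, hbw⟩ := (hin _ _).1 (k4 hw).2.2
  exact ⟨a, ha, b, Finset.mem_compl.1 hb, L, ⟨l2.1, l2.2.1, fun u hu =>
    (Finset.insert_subset haw (Finset.singleton_subset_iff.2 hbw)).trans (l2.2.2 u hu)⟩, l3,
    fun u hu => (k4 (l1 hu).1).1⟩

theorem Γ_of_two {p : ℂ} {a b : Fin 5} (hab : a ≠ b) (hp : C.I p = {a, b}) : C.Γ p a b := by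
  refine ⟨hab, fun ε hε => ?_⟩
  obtain ⟨δ, hδ, hI⟩ := I_usc (C := C) p
  obtain ⟨a', ha', b', hb', h⟩ := contact_of_path (C := C) (V := ball p (min ε δ)) isOpen_ball
    isPreconnected_singleton (singleton_subset_iff.2 (mem_ball_self (lt_min hε hδ))) rfl rfl
    (i := a) (j := b) (by simp [hp]) (by simp [hp]) (P := {a}) (by simp) (by simpa using hab.symm)
  rw [Finset.mem_singleton] at ha' hb'
  subst ha'
  have e : b' = b := by
    obtain ⟨K, h1, ⟨z, hz, -⟩, h3⟩ := h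
    have := hI z (ball_subset_ball (min_le_right _ _) (h3 hz)) (h1.2.2 z hz
      (Finset.mem_insert_of_mem (Finset.mem_singleton_self b')))
    simpa [hp, hb'] using this
  exact (e ▸ h).mono (ball_subset_ball (min_le_left _ _))

theorem not_sub_Γ {v y : ℂ} {a b : Fin 5} (h : C.Γ v a b) (hy : ‖y - v‖ = 1) :
    ¬ C.I y ⊆ {a, b} := by
  intro hs
  obtain ⟨δ, hδ, hI⟩ := I_usc (C := C) y
  obtain ⟨ε, hε, hl⟩ := exists_lune_near (p := v) (q := y) (by rwa [norm_sub_rev]) hδ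
  obtain ⟨K, h1, ⟨x₁, m₁, x₂, m₂, hne⟩, h3⟩ := h.2 ε hε
  obtain ⟨w, hw, hL⟩ := hl x₁ (h3 m₁) x₂ (h3 m₂) hne
  obtain ⟨i, hi⟩ := I_nonempty (C := C) w
  exact Finset.disjoint_left.1 (lune_disj h1 m₁ m₂ hL) hi (hs (hI w hw hi))

theorem not_sub_of_unit {p q : ℂ} (hp : (C.I p).card ≤ 2) (h : ‖p - q‖ = 1) :
    ¬ C.I q ⊆ C.I p := by
  intro hs
  rw [norm_sub_rev] at h
  have h0 := (I_nonempty (C := C) p).card_pos
  by_cases h1 : (C.I p).card = 1
  · obtain ⟨i, hi⟩ := Finset.card_eq_one.1 h1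
    obtain ⟨j, hj⟩ := I_nonempty (C := C) q
    have e : j = i := by simpa [hi] using hs hj
    exact unit' (mem_I.1 (e ▸ hj)) hi h
  · obtain ⟨a, b, hab, e⟩ := Finset.card_eq_two.1 (show (C.I p).card = 2 by omega)
    exact not_sub_Γ (Γ_of_two hab e) h (e ▸ hs)

theorem two_col_arc {B : Finset (Fin 5)} (hB : B.card ≤ 2) {q : ℂ} {α : ℝ}
    (h : ∀ t ∈ Icc α (α + 2 * Real.pi / 3), C.I (q + cis t) ⊆ B) : False := by
  have hπ := Real.pi_pos
  have hd : ∀ t, ‖q + cis (t + Real.pi / 3) - (q + cis t)‖ = 1 := fun t => by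
    rw [add_sub_add_left_eq_sub, norm_hexagon]
  have h1 : ∀ t ∈ Icc α (α + 2 * Real.pi / 3), ∃ i, q + cis t ∈ C.U i := fun t ht => by
    obtain ⟨t', ht', e⟩ : ∃ t' ∈ Icc α (α + 2 * Real.pi / 3), ‖q + cis t - (q + cis t')‖ = 1 := by
      rcases le_total t (α + Real.pi / 3) with h' | h'
      · exact ⟨t + Real.pi / 3, ⟨by linarith [ht.1], by linarith⟩, by rw [norm_sub_rev, hd]⟩
      · exact ⟨t - Real.pi / 3, ⟨by linarith, by linarith [ht.2]⟩, by
          simpa only [sub_add_cancel] using hd (t - Real.pi / 3)⟩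
    have c1 := Finset.card_le_card (h t ht)
    have c2 := (I_nonempty (C := C) (q + cis t)).card_pos
    refine mem_UU.2 (by_contra fun hc => not_sub_of_unit (c1.trans hB) e ?_)
    rw [Finset.eq_of_subset_of_card_le (h t ht) (by omega)]
    exact h t' ht'
  obtain ⟨i, hi⟩ := h1 α ⟨le_rfl, by linarith⟩
  have hc : IsPreconnected ((fun t => q + cis t) '' Icc α (α + 2 * Real.pi / 3)) :=
    isPreconnected_Icc.image _ (by fun_prop)
  have h2 := hc.subset_left_of_subset_union (isOpen_U (C := C) i)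
    (isOpen_biUnion (s := {j | j ≠ i}) fun j _ => isOpen_U (C := C) j)
    (disjoint_left.2 fun u u1 u2 => by
      obtain ⟨j, hj, u2⟩ := mem_iUnion₂.1 u2
      exact hj (U_unique u2 u1))
    (by
      rintro _ ⟨t, ht, rfl⟩
      obtain ⟨j, hj⟩ := h1 t ht
      by_cases e : j = i
      · exact Or.inl (e ▸ hj)
      · exact Or.inr (mem_biUnion e hj))
    ⟨q + cis α, mem_image_of_mem (fun t => q + cis t) (show α ∈ Icc α (α + 2 * Real.pi / 3) from
      ⟨le_rfl, by linarith⟩), hi⟩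
  exact unit' (U_sub_F (h2 (mem_image_of_mem (fun t => q + cis t)
    (show α + Real.pi / 3 ∈ Icc α (α + 2 * Real.pi / 3) from ⟨by linarith, by linarith⟩)))) hi (hd α)

theorem td_M3 : IsTotallyDisconnected C.M3 := by
  intro t ht hc
  by_contra hn
  obtain ⟨x, hx, hL⟩ := sub_cont (C := C) isClosed_closure hc.closure
    ((not_subsingleton_iff.1 hn).mono subset_closure)
  have h3 : 3 ≤ (C.I x).card := closure_minimal ht isClosed_M3 hx
  obtain ⟨L, l1, l2, a, ha, b, hb, hab⟩ := hL (1 / 20) (by norm_num)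
  obtain ⟨β, hβ⟩ := mid_lune hab (η := 1 / 10) (by
    rw [← dist_eq_norm]
    linarith [dist_triangle_right a b x, mem_ball.1 (l1 ha).2, mem_ball.1 (l1 hb).2]) le_rfl
  refine two_col_arc (C := C) (B := (C.I x)ᶜ) (by rw [Finset.card_compl, Fintype.card_fin]; omega)
    (q := (a + b) / 2) (α := β + 1 / 10) fun s hs i hi => Finset.mem_compl.2 ?_
  exact Finset.disjoint_left.1
    (lune_disj l2 ha hb (hβ s ⟨hs.1, by linarith [hs.2, Real.pi_gt_three]⟩)) hi

end Cfg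

end Crest.Agent.R40
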