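import Crest.Agent.R40.TDefs

/-!
# R40/TComb: finite combinatorics on five colours  (done, helper28)

Reduce to Boolean data and `decide` (encode a symmetric graph by its 10 edge bits, or argue by hand).
* `forest_pot`: for one edge `i j` of a graph without cycles there is `H` with
  `H a + H b = 1` exactly for `{a,b} = {i,j}` among edges (`H` = indicator of the component of `i`
  after deleting the edge; finite check over the `2^10` graphs); sum over the edges with `ω = 1`.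
* `ca_comb`: the `τ r` are non-edges.  5-cycle: disjointness graph of the five non-edges is a 5-cycle;
  4-cycle `abcd`, fifth colour `e`: non-edges `ac, bd, ae, be, ce, de` form a double star.  First
  move the cycle to `0,1,2,3,(4)` by a permutation, or `decide` on `τ : Fin 6 → (6 non-edges)`.
* `c4_comb`: by hand (see below) or `decide` after relabelling to `0,1,2,3,4`.  The hypothesis `hc`
  says that in the three colours outside the edge `x y`, some colour of `τ` is joined in `G` to some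
  colour of `τ'` (directly or through the third colour).  Cases (up to symmetry): `τ = {a,c}`,
  `τ' = {b,d}`; `τ = {a,c}`, `e ∈ τ'`; `τ = {b,d}`, `e ∈ τ'`.
-/

set_option autoImplicit false

namespace Crest.Agent.R40

theorem tc_pigeon {a b c d e : Fin 5} (h : [a, b, c, d, e].Nodup) (f : Fin 5) :
    f = a ∨ f = b ∨ f = c ∨ f = d ∨ f = e := by
  revert a b c d e f
  decide +kernel

theorem tc_leaf {G : Fin 5 → Fin 5 → Prop} (hi : ∀ a, ¬ G a a)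
    (h3 : ¬ Tri G) (h4 : ¬ Cyc4 G) (h5 : ¬ Cyc5 G) {S : Finset (Fin 5)} (hS : S.Nonempty) :
    ∃ v ∈ S, ∀ x ∈ S, ∀ y ∈ S, G v x → G v y → x = y := by
  by_contra hcon
  push Not at hcon
  have hne : ∀ {x y : Fin 5}, G x y → x ≠ y := fun {x y} h hxy => hi x (hxy ▸ h)
  have step : ∀ v ∈ S, ∀ u, ∃ w ∈ S, G v w ∧ w ≠ u := by
    intro v hv u
    obtain ⟨x, hx, y, hy, h1, h2, h3⟩ := hcon v hv
    by_cases hxu : x = u
    · exact ⟨y, hy, h2, fun h => h3 (hxu.trans h.symm)⟩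
    · exact ⟨x, hx, h1, hxu⟩
  obtain ⟨v0, m0⟩ := hS
  obtain ⟨v1, m1, g01, -⟩ := step v0 m0 v0
  obtain ⟨v2, m2, g12, n20⟩ := step v1 m1 v0
  obtain ⟨v3, m3, g23, n31⟩ := step v2 m2 v1
  by_cases n30 : v3 = v0
  · exact h3 ⟨v0, v1, v2, g01, g12, n30 ▸ g23⟩
  obtain ⟨v4, m4, g34, n42⟩ := step v3 m3 v2
  by_cases n41 : v4 = v1
  · exact h3 ⟨v1, v2, v3, g12, g23, n41 ▸ g34⟩
  by_cases n40 : v4 = v0
  · exact h4 ⟨v0, v1, v2, v3, Ne.symm n20, Ne.symm n31, g01, g12, g23, n40 ▸ g34⟩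
  obtain ⟨v5, m5, g45, n53⟩ := step v4 m4 v3
  have hnd : [v0, v1, v2, v3, v4].Nodup := by
    have a1 := hne g01
    have a2 := hne g12
    have a3 := hne g23
    have a4 := hne g34
    simp only [List.nodup_cons, List.mem_cons, List.not_mem_nil, or_false, not_or,
      not_false_eq_true, List.nodup_nil, and_true]
    exact ⟨⟨a1, Ne.symm n20, Ne.symm n30, Ne.symm n40⟩, ⟨a2, Ne.symm n31, Ne.symm n41⟩,
      ⟨a3, Ne.symm n42⟩, a4⟩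
  rcases tc_pigeon hnd v5 with h | h | h | h | h
  · exact h5 ⟨v0, v1, v2, v3, v4, Ne.symm n20, Ne.symm n30, Ne.symm n31, Ne.symm n41,
      Ne.symm n42, g01, g12, g23, g34, h ▸ g45⟩
  · exact h4 ⟨v1, v2, v3, v4, Ne.symm n31, Ne.symm n42, g12, g23, g34, h ▸ g45⟩
  · exact h3 ⟨v2, v3, v4, g23, g34, h ▸ g45⟩
  · exact n53 h
  · exact hne g45 h.symm

theorem forest_pot {G : Fin 5 → Fin 5 → Prop} (hs : ∀ a b, G a b → G b a) (hi : ∀ a, ¬ G a a)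
    (h3 : ¬ Tri G) (h4 : ¬ Cyc4 G) (h5 : ¬ Cyc5 G) (ω : Fin 5 → Fin 5 → ZMod 2)
    (hω : ∀ a b, ω a b = ω b a) : ∃ H : Fin 5 → ZMod 2, ∀ a b, G a b → H a + H b = ω a b := by
  classical
  have key : ∀ S : Finset (Fin 5), ∃ H : Fin 5 → ZMod 2,
      ∀ a ∈ S, ∀ b ∈ S, G a b → H a + H b = ω a b := by
    intro S
    induction S using Finset.strongInduction with
    | H S ih =>
      rcases S.eq_empty_or_nonempty with rfl | hS
      · exact ⟨0, by simp⟩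
      obtain ⟨v, hv, huniq⟩ := tc_leaf hi h3 h4 h5 hS
      obtain ⟨H, hH⟩ := ih (S.erase v) (Finset.erase_ssubset hv)
      have hne : ∀ {x y : Fin 5}, G x y → x ≠ y := fun {x y} h hxy => hi x (hxy ▸ h)
      obtain ⟨t, ht⟩ : ∃ t : ZMod 2, ∀ x ∈ S, G v x → t + H x = ω v x := by
        by_cases hx : ∃ x ∈ S, G v x
        · obtain ⟨x, hxS, hx⟩ := hx
          refine ⟨ω v x - H x, fun y hy hvy => ?_⟩
          rw [huniq y hy x hxS hvy hx]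
          ring
        · exact ⟨0, fun x hxS h => absurd ⟨x, hxS, h⟩ hx⟩
      refine ⟨Function.update H v t, fun a ha b hb hab => ?_⟩
      by_cases hav : a = v
      · subst hav
        rw [Function.update_self, Function.update_of_ne (hne hab).symm]
        exact ht b hb hab
      by_cases hbv : b = v
      · subst hbv
        rw [Function.update_self, Function.update_of_ne hav, add_comm, hω]
        exact ht a ha (hs _ _ hab)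
      rw [Function.update_of_ne hav, Function.update_of_ne hbv]
      exact hH a (Finset.mem_erase.2 ⟨hav, ha⟩) b (Finset.mem_erase.2 ⟨hbv, hb⟩) hab
  obtain ⟨H, hH⟩ := key Finset.univ
  exact ⟨H, fun a b => hH a (Finset.mem_univ _) b (Finset.mem_univ _)⟩

theorem cyc_avoid {G : Fin 5 → Fin 5 → Prop} (hi : ∀ a, ¬ G a a) (h : Cyc4 G ∨ Cyc5 G)
    (c : Fin 5) : ∃ a b, G a b ∧ c ≠ a ∧ c ≠ b := by
  have hne : ∀ {x y : Fin 5}, G x y → x ≠ y := fun {x y} h hxy => hi x (hxy ▸ h)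
  obtain ⟨p, q, r, s, h1, h2, h3, h4, g1, g2⟩ : ∃ p q r s : Fin 5,
      p ≠ r ∧ p ≠ s ∧ q ≠ r ∧ q ≠ s ∧ G p q ∧ G r s := by
    rcases h with ⟨p, q, r, s, h1, h2, g1, g2, g3, g4⟩ |
      ⟨p, q, r, s, t, h1, h2, h3, h4, h5, g1, g2, g3, g4, g5⟩
    · exact ⟨p, q, r, s, h1, (hne g4).symm, hne g2, h2, g1, g3⟩
    · exact ⟨p, q, r, s, h1, h2, hne g2, h3, g1, g3⟩
  by_cases hp : c = p
  · exact ⟨r, s, g2, hp ▸ h1, hp ▸ h2⟩
  by_cases hq : c = q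
  · exact ⟨r, s, g2, hq ▸ h3, hq ▸ h4⟩
  exact ⟨p, q, g1, hp, hq⟩

theorem exists_fifth {a b c d : Fin 5} (h : [a, b, c, d].Nodup) : ∃ e, [a, b, c, d, e].Nodup := by
  revert a b c d
  decide +kernel

theorem tc_perm {a b c d e : Fin 5} (h : [a, b, c, d, e].Nodup) :
    ∃ σ : Equiv.Perm (Fin 5), σ 0 = a ∧ σ 1 = b ∧ σ 2 = c ∧ σ 3 = d ∧ σ 4 = e := by
  have hsurj : Function.Surjective (![a, b, c, d, e] : Fin 5 → Fin 5) := by
    intro f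
    rcases tc_pigeon h f with rfl | rfl | rfl | rfl | rfl
    · exact ⟨0, rfl⟩
    · exact ⟨1, rfl⟩
    · exact ⟨2, rfl⟩
    · exact ⟨3, rfl⟩
    · exact ⟨4, rfl⟩
  have hb : Function.Bijective (![a, b, c, d, e] : Fin 5 → Fin 5) :=
    (Finite.surjective_iff_bijective).1 hsurj
  exact ⟨Equiv.ofBijective _ hb, rfl, rfl, rfl, rfl, rfl⟩

theorem tc_pair_map (σ : Equiv.Perm (Fin 5)) (x y : Fin 5) :
    ({σ x, σ y} : Finset (Fin 5)) = ({x, y} : Finset (Fin 5)).map σ.toEmbedding := by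
  simp [Finset.map_insert]

theorem tc_surj (σ : Equiv.Perm (Fin 5)) (τ : Finset (Fin 5)) :
    ∃ τ' : Finset (Fin 5), τ = τ'.map σ.toEmbedding :=
  ⟨τ.map σ.symm.toEmbedding, by ext x; simp⟩

theorem tc_non5 : ∀ τ : Finset (Fin 5), τ.card = 2 → ¬ τ ⊆ {0, 1} → ¬ τ ⊆ {1, 2} →
    ¬ τ ⊆ {2, 3} → ¬ τ ⊆ {3, 4} → ¬ τ ⊆ {4, 0} →
    τ ∈ [({0, 2} : Finset (Fin 5)), {1, 3}, {2, 4}, {0, 3}, {1, 4}] := by
  decide +kernel

theorem tc_non4 : ∀ τ : Finset (Fin 5), τ.card = 2 → ¬ τ ⊆ {0, 1} → ¬ τ ⊆ {1, 2} →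
    ¬ τ ⊆ {2, 3} → ¬ τ ⊆ {3, 0} →
    τ ∈ [({0, 2} : Finset (Fin 5)), {1, 3}, {0, 4}, {1, 4}, {2, 4}, {3, 4}] := by
  decide +kernel

theorem tc_walk5 : ∀ t0 ∈ [({0, 2} : Finset (Fin 5)), {1, 3}, {2, 4}, {0, 3}, {1, 4}],
    ∀ t1 ∈ [({0, 2} : Finset (Fin 5)), {1, 3}, {2, 4}, {0, 3}, {1, 4}], Disjoint t0 t1 →
    ∀ t2 ∈ [({0, 2} : Finset (Fin 5)), {1, 3}, {2, 4}, {0, 3}, {1, 4}], Disjoint t1 t2 →
    ∀ t3 ∈ [({0, 2} : Finset (Fin 5)), {1, 3}, {2, 4}, {0, 3}, {1, 4}], Disjoint t2 t3 →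
    ∀ t4 ∈ [({0, 2} : Finset (Fin 5)), {1, 3}, {2, 4}, {0, 3}, {1, 4}], Disjoint t3 t4 →
    ∀ t5 ∈ [({0, 2} : Finset (Fin 5)), {1, 3}, {2, 4}, {0, 3}, {1, 4}], Disjoint t4 t5 →
    Disjoint t5 t0 → Disjoint t0 t3 ∨ Disjoint t1 t4 := by
  decide +kernel

theorem tc_walk4 : ∀ t0 ∈ [({0, 2} : Finset (Fin 5)), {1, 3}, {0, 4}, {1, 4}, {2, 4}, {3, 4}],
    ∀ t1 ∈ [({0, 2} : Finset (Fin 5)), {1, 3}, {0, 4}, {1, 4}, {2, 4}, {3, 4}], Disjoint t0 t1 →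
    ∀ t2 ∈ [({0, 2} : Finset (Fin 5)), {1, 3}, {0, 4}, {1, 4}, {2, 4}, {3, 4}], Disjoint t1 t2 →
    ∀ t3 ∈ [({0, 2} : Finset (Fin 5)), {1, 3}, {0, 4}, {1, 4}, {2, 4}, {3, 4}], Disjoint t2 t3 →
    ∀ t4 ∈ [({0, 2} : Finset (Fin 5)), {1, 3}, {0, 4}, {1, 4}, {2, 4}, {3, 4}], Disjoint t3 t4 →
    Disjoint t0 t3 ∨ Disjoint t1 t4 := by
  decide +kernel

theorem ca_comb {G : Fin 5 → Fin 5 → Prop} (hi : ∀ a, ¬ G a a) (h : Cyc4 G ∨ Cyc5 G)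
    (τ : ℕ → Finset (Fin 5)) (hc : ∀ r, (τ r).card = 2) (hd : ∀ r, Disjoint (τ r) (τ (r + 1)))
    (hp : τ 6 = τ 0) (hG : ∀ r a b, G a b → ¬ τ r ⊆ {a, b}) :
    ∃ r, Disjoint (τ r) (τ (r + 3)) := by
  have hne : ∀ {x y : Fin 5}, G x y → x ≠ y := fun {x y} h hxy => hi x (hxy ▸ h)
  have fin : ∀ (σ : Equiv.Perm (Fin 5)) (ρ : ℕ → Finset (Fin 5)),
      (∀ r, τ r = (ρ r).map σ.toEmbedding) → Disjoint (ρ 0) (ρ 3) ∨ Disjoint (ρ 1) (ρ 4) →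
      ∃ r, Disjoint (τ r) (τ (r + 3)) := by
    intro σ ρ hρ h
    rcases h with h | h
    · exact ⟨0, by rw [hρ, hρ]; exact (Finset.disjoint_map _).2 h⟩
    · exact ⟨1, by rw [hρ, hρ]; exact (Finset.disjoint_map _).2 h⟩
  have tr : ∀ (σ : Equiv.Perm (Fin 5)), ∃ ρ : ℕ → Finset (Fin 5),
      (∀ r, τ r = (ρ r).map σ.toEmbedding) ∧ (∀ r, (ρ r).card = 2) ∧
      (∀ r, Disjoint (ρ r) (ρ (r + 1))) ∧ Disjoint (ρ 5) (ρ 0) ∧
      ∀ r x y, G (σ x) (σ y) → ¬ ρ r ⊆ {x, y} := by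
    intro σ
    choose ρ hρ using fun r => tc_surj σ (τ r)
    refine ⟨ρ, hρ, fun r => ?_, fun r => ?_, ?_, fun r x y hxy hsub => ?_⟩
    · rw [← hc r, hρ, Finset.card_map]
    · have := hd r
      rw [hρ, hρ] at this
      exact (Finset.disjoint_map _).1 this
    · have := hd 5
      rw [show (5 + 1 : ℕ) = 6 from rfl, hp, hρ, hρ] at this
      exact (Finset.disjoint_map _).1 this
    · apply hG r _ _ hxy
      rw [hρ, tc_pair_map]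
      exact Finset.map_subset_map.2 hsub
  rcases h with ⟨p, q, r, s, h1, h2, g1, g2, g3, g4⟩ |
    ⟨p, q, r, s, t, h1, h2, h3, h4, h5, g1, g2, g3, g4, g5⟩
  · have hnd : [p, q, r, s].Nodup := by
      simp only [List.nodup_cons, List.mem_cons, List.not_mem_nil, or_false, not_or,
        not_false_eq_true, List.nodup_nil, and_true]
      exact ⟨⟨hne g1, h1, (hne g4).symm⟩, ⟨hne g2, h2⟩, hne g3⟩
    obtain ⟨e, he⟩ := exists_fifth hnd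
    obtain ⟨σ, rfl, rfl, rfl, rfl, rfl⟩ := tc_perm he
    obtain ⟨ρ, hρ, k1, k2, k3, k4⟩ := tr σ
    have hm := fun r => tc_non4 (ρ r) (k1 r) (k4 r _ _ g1) (k4 r _ _ g2) (k4 r _ _ g3)
      (k4 r _ _ g4)
    exact fin σ ρ hρ (tc_walk4 _ (hm 0) _ (hm 1) (k2 0) _ (hm 2) (k2 1) _ (hm 3) (k2 2) _
      (hm 4) (k2 3))
  · have hnd : [p, q, r, s, t].Nodup := by
      simp only [List.nodup_cons, List.mem_cons, List.not_mem_nil, or_false, not_or,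
        not_false_eq_true, List.nodup_nil, and_true]
      exact ⟨⟨hne g1, h1, h2, (hne g5).symm⟩, ⟨hne g2, h3, h4⟩, ⟨hne g3, h5⟩, hne g4⟩
    obtain ⟨σ, rfl, rfl, rfl, rfl, rfl⟩ := tc_perm hnd
    obtain ⟨ρ, hρ, k1, k2, k3, k4⟩ := tr σ
    have hm := fun r => tc_non5 (ρ r) (k1 r) (k4 r _ _ g1) (k4 r _ _ g2) (k4 r _ _ g3)
      (k4 r _ _ g4) (k4 r _ _ g5)
    exact fin σ ρ hρ (tc_walk5 _ (hm 0) _ (hm 1) (k2 0) _ (hm 2) (k2 1) _ (hm 3) (k2 2) _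
      (hm 4) (k2 3) _ (hm 5) (k2 4) k3)


/-- the symbol of an admissible colour set for the 4-cycle `a b c d` with fifth colour `e` -/
def sym (a e : Fin 5) (τ : Finset (Fin 5)) : Fin 3 := if e ∈ τ then 2 else if a ∈ τ then 0 else 1

/-- admissible colour sets: contain `e`, or are one of the diagonals -/
def Adm (a b c d e : Fin 5) (τ : Finset (Fin 5)) : Prop :=
  τ.card ≤ 2 ∧ (e ∈ τ ∨ τ = {a, c} ∨ τ = {b, d})

theorem tc_adm0 : ∀ τ : Finset (Fin 5), τ ≠ ∅ → τ.card ≤ 2 → ¬ τ ⊆ {0, 1} → ¬ τ ⊆ {1, 2} →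
    ¬ τ ⊆ {2, 3} → ¬ τ ⊆ {3, 0} → (4 ∈ τ ∨ τ = {0, 2} ∨ τ = {1, 3}) := by
  decide +kernel

theorem adm_of {a b c d e : Fin 5} (h : [a, b, c, d, e].Nodup) {τ : Finset (Fin 5)}
    (hne : τ.Nonempty) (h2 : τ.card ≤ 2) (hab : ¬ τ ⊆ {a, b}) (hbc : ¬ τ ⊆ {b, c})
    (hcd : ¬ τ ⊆ {c, d}) (hda : ¬ τ ⊆ {d, a}) : Adm a b c d e τ := by
  obtain ⟨σ, rfl, rfl, rfl, rfl, rfl⟩ := tc_perm h
  obtain ⟨ρ, rfl⟩ := tc_surj σ τ
  refine ⟨h2, ?_⟩
  rw [tc_pair_map, Finset.map_subset_map] at hab hbc hcd hda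
  rw [Finset.card_map] at h2
  have := tc_adm0 ρ (Finset.map_nonempty.1 hne).ne_empty h2 hab hbc hcd hda
  rw [tc_pair_map, tc_pair_map]
  rcases this with h | rfl | rfl
  · exact Or.inl (Finset.mem_map_of_mem σ.toEmbedding h)
  · exact Or.inr (Or.inl rfl)
  · exact Or.inr (Or.inr rfl)

theorem sym_ne {a b c d e : Fin 5} (h : [a, b, c, d, e].Nodup) {τ τ' : Finset (Fin 5)}
    (h1 : Adm a b c d e τ) (h2 : Adm a b c d e τ') (hd : Disjoint τ τ') :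
    sym a e τ ≠ sym a e τ' := by
  simp only [List.nodup_cons, List.mem_cons, List.not_mem_nil, or_false, not_or,
    not_false_eq_true, List.nodup_nil, and_true] at h
  obtain ⟨⟨ab, ac, ad, ae⟩, ⟨bc, bd, be⟩, ⟨cd, ce⟩, de⟩ := h
  have s0 : sym a e {a, c} = 0 := by simp [sym, Ne.symm ae, Ne.symm ce]
  have s1 : sym a e {b, d} = 1 := by simp [sym, Ne.symm be, Ne.symm de, ab, ad]
  have s2 : ∀ ρ : Finset (Fin 5), e ∈ ρ → sym a e ρ = 2 := fun ρ h => by simp [sym, h]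
  rcases h1.2 with k1 | rfl | rfl <;> rcases h2.2 with k2 | rfl | rfl
  · exact absurd k2 (Finset.disjoint_left.1 hd k1)
  · rw [s2 _ k1, s0]; decide
  · rw [s2 _ k1, s1]; decide
  · rw [s2 _ k2, s0]; decide
  · exact absurd (by simp) (Finset.disjoint_left.1 hd (show a ∈ ({a, c} : Finset (Fin 5)) by simp))
  · rw [s0, s1]; decide
  · rw [s2 _ k2, s1]; decide
  · rw [s0, s1]; decide
  · exact absurd (by simp) (Finset.disjoint_left.1 hd (show b ∈ ({b, d} : Finset (Fin 5)) by simp))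

/-- a symmetric loopless graph on `Fin 5` from its ten edge bits -/
def tcG (b01 b02 b03 b04 b12 b13 b14 b23 b24 b34 : Bool) (i j : Fin 5) : Bool :=
  match i.val, j.val with
  | 0, 1 => b01 | 1, 0 => b01 | 0, 2 => b02 | 2, 0 => b02 | 0, 3 => b03 | 3, 0 => b03
  | 0, 4 => b04 | 4, 0 => b04 | 1, 2 => b12 | 2, 1 => b12 | 1, 3 => b13 | 3, 1 => b13
  | 1, 4 => b14 | 4, 1 => b14 | 2, 3 => b23 | 3, 2 => b23 | 2, 4 => b24 | 4, 2 => b24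
  | 3, 4 => b34 | 4, 3 => b34 | _, _ => false

theorem tc_bits {G : Fin 5 → Fin 5 → Prop} (hs : ∀ x y, G x y → G y x) (hi : ∀ x, ¬ G x x) :
    ∃ b01 b02 b03 b04 b12 b13 b14 b23 b24 b34 : Bool,
      ∀ i j, G i j ↔ tcG b01 b02 b03 b04 b12 b13 b14 b23 b24 b34 i j = true := by
  classical
  have hc : ∀ x y, G x y ↔ G y x := fun x y => ⟨hs x y, hs y x⟩
  refine ⟨decide (G 0 1), decide (G 0 2), decide (G 0 3), decide (G 0 4), decide (G 1 2),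
    decide (G 1 3), decide (G 1 4), decide (G 2 3), decide (G 2 4), decide (G 3 4), fun i j => ?_⟩
  fin_cases i <;> fin_cases j <;> simp [tcG, hi] <;> exact hc _ _

/-- the possible admissible sets as ordered pairs -/
def tcL : List (Fin 5 × Fin 5) := [(0, 2), (1, 3), (4, 0), (4, 1), (4, 2), (4, 3), (4, 4)]

theorem tc_admL : ∀ τ : Finset (Fin 5), τ.card ≤ 2 → (4 ∈ τ ∨ τ = {0, 2} ∨ τ = {1, 3}) →
    ∃ p ∈ tcL, τ = {p.1, p.2} := by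
  decide +kernel

set_option synthInstance.maxSize 100000 in
set_option synthInstance.maxHeartbeats 400000 in
set_option maxRecDepth 100000 in
theorem tc_key : ∀ b01 b02 b03 b04 b12 b13 b14 b23 b24 b34 : Bool,
    ∀ g : Fin 5 → Fin 5 → Bool, g = tcG b01 b02 b03 b04 b12 b13 b14 b23 b24 b34 →
    (∃ a b, g a b = true ∧ ∃ c, g b c = true ∧ g c a = true) ∨
    ∀ p ∈ tcL, (p.1 ≠ p.2 → g p.1 p.2 = true) → ∀ q ∈ tcL, p.1 ≠ q.1 →
      (q.1 ≠ q.2 → g q.1 q.2 = true) →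
      (∀ z ∈ [((0 : Fin 5), (1 : Fin 5)), (1, 2), (2, 3), (3, 0)],
        ∃ i ∈ [p.1, p.2], i ≠ z.1 ∧ i ≠ z.2 ∧ ∃ j ∈ [q.1, q.2], j ≠ z.1 ∧ j ≠ z.2 ∧
          (i = j ∨ g i j = true ∨ ∃ k, k ≠ z.1 ∧ k ≠ z.2 ∧ g i k = true ∧ g k j = true)) →
      (∀ x, x = p.1 ∨ x = p.2 ∨ x = q.1 ∨ x = q.2 ∨ ∃ y, g x y = true) ∧
      ((∃ a b, g a b = true ∧ ∃ c, a ≠ c ∧ g b c = true ∧
          ∃ d, b ≠ d ∧ g c d = true ∧ g d a = true) ∨
        (∃ a b, g a b = true ∧ ∃ c, a ≠ c ∧ g b c = true ∧ ∃ d, a ≠ d ∧ b ≠ d ∧ g c d = true ∧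
          ∃ e, b ≠ e ∧ c ≠ e ∧ g d e = true ∧ g e a = true)) := by
  intro b01 b02 b03 b04 b12 b13 b14 b23 b24 b34 g hg
  subst hg
  revert b01 b02 b03 b04 b12 b13 b14 b23 b24 b34
  decide +kernel


theorem tc_join {G : Fin 5 → Fin 5 → Prop} {x y i j : Fin 5} (hxy : x ≠ y)
    (hix : i ≠ x) (hiy : i ≠ y) (hjx : j ≠ x) (hjy : j ≠ y)
    (h : ∀ P : Finset (Fin 5), i ∈ P → j ∉ P →
        ∃ p ∈ P, ∃ q ∉ P, p ≠ x ∧ p ≠ y ∧ q ≠ x ∧ q ≠ y ∧ G p q) :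
    i = j ∨ G i j ∨ ∃ k, k ≠ x ∧ k ≠ y ∧ G i k ∧ G k j := by
  by_cases hij : i = j
  · exact Or.inl hij
  right
  obtain ⟨p, hp, k, hk, -, -, hkx, hky, hG⟩ := h {i} (by simp) (by simpa using Ne.symm hij)
  rw [Finset.mem_singleton] at hp hk
  subst hp
  by_cases hkj : k = j
  · exact Or.inl (hkj ▸ hG)
  obtain ⟨r, hr, q, hq, -, -, hqx, hqy, hG'⟩ := h {p, k} (by simp)
    (by simp only [Finset.mem_insert, Finset.mem_singleton, not_or]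
        exact ⟨Ne.symm hij, Ne.symm hkj⟩)
  simp only [Finset.mem_insert, Finset.mem_singleton, not_or] at hr hq
  have hnd : [x, y, p, j, k].Nodup := by
    simp only [List.nodup_cons, List.mem_cons, List.not_mem_nil, or_false, not_or,
      not_false_eq_true, List.nodup_nil, and_true]
    exact ⟨⟨hxy, Ne.symm hix, Ne.symm hjx, Ne.symm hkx⟩, ⟨Ne.symm hiy, Ne.symm hjy, Ne.symm hky⟩,
      ⟨hij, Ne.symm hk⟩, Ne.symm hkj⟩
  have hqj : q = j := by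
    rcases tc_pigeon hnd q with h | h | h | h | h
    · exact absurd h hqx
    · exact absurd h hqy
    · exact absurd h hq.1
    · exact h
    · exact absurd h hq.2
  subst hqj
  rcases hr with rfl | rfl
  · exact Or.inl hG'
  · exact Or.inr ⟨r, hkx, hky, hG, hG'⟩

theorem tc_c4 {G : Fin 5 → Fin 5 → Prop}
    (hs : ∀ x y, G x y → G y x) (hi : ∀ x, ¬ G x x) {τ τ' : Finset (Fin 5)}
    (h1 : Adm 0 1 2 3 4 τ) (h2 : Adm 0 1 2 3 4 τ') (hne : sym 0 4 τ ≠ sym 0 4 τ')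
    (hG : ∀ x ∈ τ, ∀ y ∈ τ, x ≠ y → G x y) (hG' : ∀ x ∈ τ', ∀ y ∈ τ', x ≠ y → G x y)
    (hc : ∀ z ∈ [((0 : Fin 5), (1 : Fin 5)), (1, 2), (2, 3), (3, 0)],
      ∃ i ∈ τ, ∃ j ∈ τ', i ≠ z.1 ∧ i ≠ z.2 ∧ j ≠ z.1 ∧ j ≠ z.2 ∧
        (i = j ∨ G i j ∨ ∃ k, k ≠ z.1 ∧ k ≠ z.2 ∧ G i k ∧ G k j)) :
    Tri G ∨ ((∀ x, x ∈ τ ∨ x ∈ τ' ∨ ∃ y, G x y) ∧ (Cyc4 G ∨ Cyc5 G)) := by
  obtain ⟨b01, b02, b03, b04, b12, b13, b14, b23, b24, b34, hb⟩ := tc_bits hs hi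
  obtain ⟨p, hp, rfl⟩ := tc_admL τ h1.1 h1.2
  obtain ⟨q, hq, rfl⟩ := tc_admL τ' h2.1 h2.2
  have hpq : p.1 ≠ q.1 := by
    have : ∀ p ∈ tcL, ∀ q ∈ tcL, sym 0 4 {p.1, p.2} ≠ sym 0 4 {q.1, q.2} → p.1 ≠ q.1 := by
      decide +kernel
    exact this p hp q hq hne
  have key := tc_key b01 b02 b03 b04 b12 b13 b14 b23 b24 b34 _ rfl
  simp only [← hb] at key
  rcases key with ⟨a, b, g1, c, g2, g3⟩ | key
  · exact Or.inl ⟨a, b, c, g1, g2, g3⟩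
  right
  obtain ⟨k1, k2⟩ := key p hp (hG _ (by simp) _ (by simp)) q hq hpq
    (hG' _ (by simp) _ (by simp)) (by
      intro z hz
      obtain ⟨i, hi, j, hj, a1, a2, a3, a4, a5⟩ := hc z hz
      exact ⟨i, by simpa using hi, a1, a2, j, by simpa using hj, a3, a4, a5⟩)
  refine ⟨fun x => ?_, ?_⟩
  · rcases k1 x with rfl | rfl | rfl | rfl | h
    · exact Or.inl (by simp)
    · exact Or.inl (by simp)
    · exact Or.inr (Or.inl (by simp))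
    · exact Or.inr (Or.inl (by simp))
    · exact Or.inr (Or.inr h)
  · rcases k2 with ⟨a, b, g1, c, n1, g2, d, n2, g3, g4⟩ |
      ⟨a, b, g1, c, n1, g2, d, n2, n3, g3, e, n4, n5, g4, g5⟩
    · exact Or.inl ⟨a, b, c, d, n1, n2, g1, g2, g3, g4⟩
    · exact Or.inr ⟨a, b, c, d, e, n1, n2, n3, n4, n5, g1, g2, g3, g4, g5⟩

theorem c4_comb {a b c d e : Fin 5} (h : [a, b, c, d, e].Nodup) {G : Fin 5 → Fin 5 → Prop}
    (hs : ∀ x y, G x y → G y x) (hi : ∀ x, ¬ G x x) {S τ τ' : Finset (Fin 5)}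
    (hS : ∀ x y, G x y → x ∈ S) (hτS : τ ⊆ S) (hτS' : τ' ⊆ S)
    (h1 : Adm a b c d e τ) (h2 : Adm a b c d e τ') (hne : sym a e τ ≠ sym a e τ')
    (hG : ∀ x ∈ τ, ∀ y ∈ τ, x ≠ y → G x y) (hG' : ∀ x ∈ τ', ∀ y ∈ τ', x ≠ y → G x y)
    (hc : ∀ x y, (x, y) ∈ [(a, b), (b, c), (c, d), (d, a)] →
      ∃ i ∈ τ, ∃ j ∈ τ', i ≠ x ∧ i ≠ y ∧ j ≠ x ∧ j ≠ y ∧ ∀ P : Finset (Fin 5), i ∈ P → j ∉ P →
        ∃ p ∈ P, ∃ q ∉ P, p ≠ x ∧ p ≠ y ∧ q ≠ x ∧ q ≠ y ∧ G p q) :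
    Tri G ∨ (S = Finset.univ ∧ (Cyc4 G ∨ Cyc5 G)) := by
  obtain ⟨σ, rfl, rfl, rfl, rfl, rfl⟩ := tc_perm h
  obtain ⟨ρ, rfl⟩ := tc_surj σ τ
  obtain ⟨ρ', rfl⟩ := tc_surj σ τ'
  have mem : ∀ (ρ : Finset (Fin 5)) (x : Fin 5), σ x ∈ ρ.map σ.toEmbedding ↔ x ∈ ρ := by
    intro ρ x; simp
  have adm : ∀ ρ : Finset (Fin 5), Adm (σ 0) (σ 1) (σ 2) (σ 3) (σ 4) (ρ.map σ.toEmbedding) →
      Adm 0 1 2 3 4 ρ := by
    intro ρ h
    obtain ⟨k1, k2⟩ := h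
    rw [Finset.card_map] at k1
    rw [tc_pair_map, tc_pair_map, mem, Finset.map_inj, Finset.map_inj] at k2
    exact ⟨k1, k2⟩
  have sy : ∀ ρ : Finset (Fin 5), sym (σ 0) (σ 4) (ρ.map σ.toEmbedding) = sym 0 4 ρ := by
    intro ρ; simp only [sym, mem]
  rw [sy, sy] at hne
  have ne : ∀ {x y : Fin 5}, x ≠ y → σ x ≠ σ y := fun h h' => h (σ.injective h')
  have key := tc_c4 (G := fun x y => G (σ x) (σ y)) (fun x y => hs _ _) (fun x => hi _)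
    (adm ρ h1) (adm ρ' h2) hne
    (fun x hx y hy hxy => hG _ ((mem _ _).2 hx) _ ((mem _ _).2 hy) (ne hxy))
    (fun x hx y hy hxy => hG' _ ((mem _ _).2 hx) _ ((mem _ _).2 hy) (ne hxy))
    (by
      intro z hz
      have hz12 : z.1 ≠ z.2 := by
        revert z; decide
      have hz' : (σ z.1, σ z.2) ∈ [(σ 0, σ 1), (σ 1, σ 2), (σ 2, σ 3), (σ 3, σ 0)] := by
        simp only [List.mem_cons, List.not_mem_nil, or_false] at hz ⊢
        rcases hz with rfl | rfl | rfl | rfl <;> simp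
      obtain ⟨i, hi, j, hj, a1, a2, a3, a4, a5⟩ := hc _ _ hz'
      have a6 := tc_join (ne hz12) a1 a2 a3 a4 a5
      obtain ⟨i, rfl⟩ := σ.surjective i
      obtain ⟨j, rfl⟩ := σ.surjective j
      refine ⟨i, (mem _ _).1 hi, j, (mem _ _).1 hj, fun h => a1 (by rw [h]),
        fun h => a2 (by rw [h]), fun h => a3 (by rw [h]), fun h => a4 (by rw [h]), ?_⟩
      rcases a6 with h | h | ⟨k, b1, b2, b3, b4⟩
      · exact Or.inl (σ.injective h)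
      · exact Or.inr (Or.inl h)
      · obtain ⟨k, rfl⟩ := σ.surjective k
        exact Or.inr (Or.inr ⟨k, fun h => b1 (by rw [h]), fun h => b2 (by rw [h]), b3, b4⟩))
  rcases key with ⟨x, y, z, g1, g2, g3⟩ | ⟨k1, k2⟩
  · exact Or.inl ⟨_, _, _, g1, g2, g3⟩
  refine Or.inr ⟨?_, ?_⟩
  · refine Finset.eq_univ_iff_forall.2 fun x => ?_
    obtain ⟨x, rfl⟩ := σ.surjective x
    rcases k1 x with h | h | ⟨y, h⟩
    · exact hτS ((mem _ _).2 h)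
    · exact hτS' ((mem _ _).2 h)
    · exact hS _ _ h
  · rcases k2 with ⟨p, q, r, s, n1, n2, g1, g2, g3, g4⟩ |
      ⟨p, q, r, s, t, n1, n2, n3, n4, n5, g1, g2, g3, g4, g5⟩
    · exact Or.inl ⟨_, _, _, _, ne n1, ne n2, g1, g2, g3, g4⟩
    · exact Or.inr ⟨_, _, _, _, _, ne n1, ne n2, ne n3, ne n4, ne n5, g1, g2, g3, g4, g5⟩

end Crest.Agent.R40
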