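import Crest.Agent.R40.TLift
import Crest.Agent.R40.TBasic
import Crest.Agent.R40.TComb

/-!
# R40/TEss: some contact graph has a cycle  (task)

Suppose no `Γ v` has a cycle.  `Q = Icc 0 10 ×ℂ Icc 0 10`, `X i = F i ∩ Q` (compact).
Continua in `F i` have diameter `≤ 1` (`cont_diam`), so `cut_wire` splits
`X i = A i ⊔ X' i` (`A i` misses `{2 ≤ im}`, `X' i` misses `{im ≤ 0}`) and `X' i = B i ⊔ D i`
(`B i` misses `{6 ≤ re}`, `D i` misses `{re ≤ 4}`).  `GA = ⋃ A i`, `GB`, `GD` are closed.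
`σ x u = if x ∈ GA ∧ x ∈ GB ∧ u ∈ GA then 1 else 0 : ZMod 2`, `U = UU`, `M = M3` (`td_M3`).
Local lifts on `V = Ioo 0 10 ×ℂ Ioo 0 10`: near `y ∈ V` each colour `i` meets only one of the three
disjoint compact sets `A i, B i, D i` (label `lab i`; ball in `V`, inside the ball of `Γ_ball y`);
`forest_pot` for `ω i j = 1` iff `{lab i, lab j} = {A, B}` gives `H`; `ℓ u = H (colour of u)`.  At
`x ∉ M3` with `I x = {i, j}`, `Γ_of_two` + `Γ_ball` give `Γ y i j`.  `lift_rect` gives a lift `ℓ`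
on `V`.  By `lc_convex`, `ℓ` is constant on `UU` in the bottom strip `(0,10) × (0,ε)` (misses
`GB ∪ GD`, compactness), the right strip `(8,10) × (0,10)` (misses `GB`), the top strip
`(0,10) × (8,10)` (misses `GA`), while `ℓ + 1_{GA}` is constant on the left strip `(0,2) × (0,10)`
(misses `GD`).  Compare points of `UU` in the four corners: `ℓ u₁ + 1 = ℓ u₂ = ℓ u₄ = ℓ u₃ = ℓ u₁`.
-/

set_option autoImplicit false
open Set Metric

namespace Crest.Agent.R40.Cfg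

open Filter Topology

theorem ess_convex (a b c d : ℝ) : Convex ℝ (Ioo a b ×ℂ Ioo c d) :=
  ((convex_Ioo a b).linear_preimage Complex.reLm).inter
    ((convex_Ioo c d).linear_preimage Complex.imLm)

/-- the splitting of the colour classes inside the square -/
theorem ess_split (C : Cfg) : ∃ P : Fin 3 → Fin 5 → Set ℂ, (∀ l i, IsCompact (P l i)) ∧
    (∀ i l l' x, x ∈ P l i → x ∈ P l' i → l = l') ∧ (∀ l i, P l i ⊆ C.F i) ∧
    (∀ i, ∀ x ∈ C.F i, x ∈ Ioo (0 : ℝ) 10 ×ℂ Ioo (0 : ℝ) 10 → ∃ l, x ∈ P l i) ∧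
    (∀ i, ∀ x ∈ P 0 i, x.im < 2) ∧ (∀ i, ∀ x ∈ P 1 i, x.re < 6) ∧ (∀ i, ∀ x ∈ P 2 i, 4 < x.re) ∧
    ∀ l, l ≠ 0 → ∀ i, ∀ x ∈ P l i, 0 < x.im := by
  have hQ : IsCompact (Icc (0 : ℝ) 10 ×ℂ Icc (0 : ℝ) 10) := isCompact_Icc.reProdIm isCompact_Icc
  have diam : ∀ i, ∀ K ⊆ C.F i, IsCompact K → IsPreconnected K → ∀ a ∈ K, ∀ b ∈ K,
      ‖a - b‖ ≤ 1 := fun i K hK h1 h2 a ha b hb =>
    cont_diam (C := C) (i := i) ⟨h1, h2, fun x hx => by simpa using hK hx⟩ ha hb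
  have s1 : ∀ i, ∃ XA XB : Set ℂ, IsCompact XA ∧ IsCompact XB ∧ Disjoint XA XB ∧
      XA ∪ XB = C.F i ∩ (Icc (0 : ℝ) 10 ×ℂ Icc (0 : ℝ) 10) ∧
      Disjoint XA {z : ℂ | 2 ≤ z.im} ∧ Disjoint XB {z : ℂ | z.im ≤ 0} := fun i => by
    refine cut_wire (hQ.inter_left (C.closed i)) (isClosed_le Complex.continuous_im continuous_const)
      (isClosed_le continuous_const Complex.continuous_im) ?_
    rintro K hK h1 h2 ⟨a, ha, ha'⟩ ⟨b, hb, hb'⟩
    have := diam i K (hK.trans inter_subset_left) h1 h2 b hb a ha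
    have h3 := (le_abs_self _).trans (Complex.abs_im_le_norm (b - a))
    simp only [Complex.sub_im, mem_setOf_eq] at h3 ha' hb'
    linarith
  choose A X' hA hX' hAX hU hA2 hX0 using s1
  have hXF : ∀ i, X' i ⊆ C.F i := fun i x hx =>
    ((hU i).subset (Or.inr hx)).1
  have s2 : ∀ i, ∃ XA XB : Set ℂ, IsCompact XA ∧ IsCompact XB ∧ Disjoint XA XB ∧
      XA ∪ XB = X' i ∧ Disjoint XA {z : ℂ | 6 ≤ z.re} ∧ Disjoint XB {z : ℂ | z.re ≤ 4} := fun i => by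
    refine cut_wire (hX' i) (isClosed_le Complex.continuous_re continuous_const)
      (isClosed_le continuous_const Complex.continuous_re) ?_
    rintro K hK h1 h2 ⟨a, ha, ha'⟩ ⟨b, hb, hb'⟩
    have := diam i K (hK.trans (hXF i)) h1 h2 b hb a ha
    have h3 := (le_abs_self _).trans (Complex.abs_re_le_norm (b - a))
    simp only [Complex.sub_re, mem_setOf_eq] at h3 ha' hb'
    linarith
  choose B D hB hD hBD hU' hB6 hD4 using s2
  have hBX : ∀ i, B i ⊆ X' i := fun i x hx => (hU' i).subset (Or.inl hx)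
  have hDX : ∀ i, D i ⊆ X' i := fun i x hx => (hU' i).subset (Or.inr hx)
  refine ⟨![A, B, D], fun l i => ?_, fun i l l' x hx hx' => ?_, fun l i => ?_,
    fun i x hx hV => ?_, fun i x hx => ?_, fun i x hx => ?_, fun i x hx => ?_,
    fun l hl i x hx => ?_⟩
  · fin_cases l
    exacts [hA i, hB i, hD i]
  · have e1 : x ∈ A i → x ∈ B i → False := fun h h' => disjoint_left.1 (hAX i) h (hBX i h')
    have e2 : x ∈ A i → x ∈ D i → False := fun h h' => disjoint_left.1 (hAX i) h (hDX i h')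
    have e3 : x ∈ B i → x ∈ D i → False := fun h h' => disjoint_left.1 (hBD i) h h'
    fin_cases l <;> fin_cases l'
    exacts [rfl, (e1 hx hx').elim, (e2 hx hx').elim, (e1 hx' hx).elim, rfl, (e3 hx hx').elim,
      (e2 hx' hx).elim, (e3 hx' hx).elim, rfl]
  · fin_cases l
    exacts [fun x hx => ((hU i).subset (Or.inl hx)).1, (hBX i).trans (hXF i), (hDX i).trans (hXF i)]
  · rcases (hU i).symm.subset ⟨hx, Ioo_subset_Icc_self hV.1, Ioo_subset_Icc_self hV.2⟩ with h | h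
    · exact ⟨0, h⟩
    · rcases (hU' i).symm.subset h with h | h
      · exact ⟨1, h⟩
      · exact ⟨2, h⟩
  · exact not_le.1 (disjoint_left.1 (hA2 i) hx)
  · exact not_le.1 (disjoint_left.1 (hB6 i) hx)
  · exact not_le.1 (disjoint_left.1 (hD4 i) hx)
  · fin_cases l
    · exact absurd rfl hl
    · exact not_le.1 (disjoint_left.1 (hX0 i) (hBX i hx))
    · exact not_le.1 (disjoint_left.1 (hX0 i) (hDX i hx))

open Classical in
/-- the germ used for the obstruction -/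
noncomputable def essσ (P : Fin 3 → Fin 5 → Set ℂ) (x u : ℂ) : ZMod 2 :=
  if x ∈ (⋃ i, P 0 i) ∧ x ∈ (⋃ i, P 1 i) ∧ u ∈ ⋃ i, P 0 i then 1 else 0

theorem ess_key : ∀ (l l' : Fin 3) (h h' : ZMod 2),
    h + h' = (if (l = 0 ∧ l' = 1) ∨ (l = 1 ∧ l' = 0) then 1 else 0) →
    h' = (if (l = 0 ∨ l' = 0) ∧ (l = 1 ∨ l' = 1) ∧ l' = 0 then 1 else 0) +
      (h - if (l = 0 ∨ l' = 0) ∧ (l = 1 ∨ l' = 1) ∧ l = 0 then 1 else 0) := by
  decide

theorem ess_local (C : Cfg) (P : Fin 3 → Fin 5 → Set ℂ) (hPc : ∀ l i, IsCompact (P l i))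
    (hPd : ∀ i l l' x, x ∈ P l i → x ∈ P l' i → l = l') (hPF : ∀ l i, P l i ⊆ C.F i)
    (hPcov : ∀ i, ∀ x ∈ C.F i, x ∈ Ioo (0 : ℝ) 10 ×ℂ Ioo (0 : ℝ) 10 → ∃ l, x ∈ P l i)
    {y : ℂ} (hy : y ∈ Ioo (0 : ℝ) 10 ×ℂ Ioo (0 : ℝ) 10) (h3 : ¬ Tri (C.Γ y))
    (h4 : ¬ Cyc4 (C.Γ y)) (h5 : ¬ Cyc5 (C.Γ y)) :
    ∃ ε > 0, ∃ ℓ, IsLift C.UU C.M3 (essσ P) (ball y ε) ℓ := by
  classical
  have hlab : ∀ i, ∃ l, ∀ᶠ u in 𝓝 y, u ∈ C.F i → u ∈ P l i := by
    intro i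
    by_cases hi : y ∈ C.F i
    · obtain ⟨l, hl⟩ := hPcov i y hi hy
      refine ⟨l, ?_⟩
      have : ∀ᶠ u in 𝓝 y, ∀ l', l' ≠ l → u ∉ P l' i := by
        rw [eventually_all]
        intro l'
        by_cases hl' : l' = l
        · exact Eventually.of_forall fun u h => absurd hl' h
        · filter_upwards [(hPc l' i).isClosed.isOpen_compl.mem_nhds
            (fun h => hl' (hPd i l' l y h hl))] with u hu _ using hu
      filter_upwards [this, (isOpen_Ioo.reProdIm isOpen_Ioo).mem_nhds hy] with u hu hV hF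
      obtain ⟨l', hl'⟩ := hPcov i u hF hV
      by_cases e : l' = l
      · exact e ▸ hl'
      · exact absurd hl' (hu l' e)
    · refine ⟨0, ?_⟩
      filter_upwards [(C.closed i).isOpen_compl.mem_nhds hi] with u hu hF using absurd hF hu
  choose lab hlab using hlab
  obtain ⟨ε₁, hε₁, hl⟩ := Metric.eventually_nhds_iff_ball.1 (eventually_all.2 hlab)
  obtain ⟨ε₂, hε₂, -, hΓ⟩ := Γ_ball (C := C) y
  obtain ⟨H, hH⟩ := forest_pot (G := C.Γ y) (fun a b h => h.symm) (fun a h => h.1 rfl) h3 h4 h5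
    (fun a b => if (lab a = 0 ∧ lab b = 1) ∨ (lab a = 1 ∧ lab b = 0) then 1 else 0)
    (fun a b => if_congr (by tauto) rfl rfl)
  choose col hcol using C.cover
  refine ⟨min ε₁ ε₂, lt_min hε₁ hε₂, fun u => H (col u), fun x hx hM => ?_⟩
  have hG : ∀ u ∈ ball y (min ε₁ ε₂), ∀ l, u ∈ (⋃ i, P l i) ↔ ∃ i ∈ C.I u, lab i = l := by
    intro u hu l
    have hu' := hl u (ball_subset_ball (min_le_left _ _) hu)
    rw [mem_iUnion]
    constructor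
    · rintro ⟨i, hi⟩
      exact ⟨i, mem_I.2 (hPF l i hi), hPd i _ _ u (hu' i (hPF l i hi)) hi⟩
    · rintro ⟨i, hi, rfl⟩
      exact ⟨i, hu' i (mem_I.1 hi)⟩
  obtain ⟨δ₁, hδ₁, hI⟩ := I_usc (C := C) x
  obtain ⟨δ₂, hδ₂, hsub⟩ := Metric.isOpen_iff.1 isOpen_ball x hx
  obtain ⟨i, hi⟩ := I_nonempty (C := C) x
  refine ⟨min δ₁ δ₂, lt_min hδ₁ hδ₂,
    H i - (if x ∈ (⋃ i, P 0 i) ∧ x ∈ (⋃ i, P 1 i) ∧ lab i = 0 then 1 else 0), fun u hu hux => ?_⟩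
  obtain ⟨j, hj⟩ := hu
  have hcj : col u = j := mem_U.1 hj _ (hcol u)
  have hIu : C.I u = {j} := hj
  have hjx : j ∈ C.I x := hI u (ball_subset_ball (min_le_left _ _) hux) (by rw [hIu]; simp)
  have hu0 : u ∈ (⋃ i, P 0 i) ↔ lab j = 0 := by
    rw [hG u (hsub (ball_subset_ball (min_le_right _ _) hux)), hIu]; simp
  show H (col u) = _
  rw [hcj, essσ]
  simp only [hu0]
  by_cases hij : i = j
  · subst hij; ring
  · have hIx : C.I x = {i, j} := by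
      refine (Finset.eq_of_subset_of_card_le (by
        intro k hk
        rcases Finset.mem_insert.1 hk with rfl | hk
        · exact hi
        · rw [Finset.mem_singleton.1 hk]; exact hjx) ?_).symm
      rw [Finset.card_pair hij]
      have : ¬ 3 ≤ (C.I x).card := hM
      omega
    have hΓy : C.Γ y i j := hΓ i j hij (((Γ_of_two hij hIx).2 δ₂ hδ₂).mono
      (hsub.trans (ball_subset_ball (min_le_right _ _))))
    have e0 : ∀ l, x ∈ (⋃ i, P l i) ↔ lab i = l ∨ lab j = l := fun l => by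
      rw [hG x hx, hIx]; simp
    simp only [e0]
    convert ess_key (lab i) (lab j) (H i) (H j) (hH i j hΓy)

theorem exists_cycle (C : Cfg) : ∃ v, Tri (C.Γ v) ∨ Cyc4 (C.Γ v) ∨ Cyc5 (C.Γ v) := by
  by_contra hcon
  push Not at hcon
  obtain ⟨P, hPc, hPd, hPF, hPcov, hA, hB, hD, hBD⟩ := ess_split C
  have hGc : ∀ l, IsCompact (⋃ i, P l i) := fun l => isCompact_iUnion (hPc l)
  obtain ⟨ℓ, hℓ⟩ := lift_rect (U := C.UU) (M := C.M3) (σ := essσ P) (a := 0) (b := 10) (c := 0)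
    (d := 10) (fun x _ => dense_UU x) td_M3 disjoint_UU_M3
    (fun y hy => ess_local C P hPc hPd hPF hPcov hy (hcon y).1 (hcon y).2.1 (hcon y).2.2)
  -- a function `ℓ + τ` with `σ x + τ` locally constant is constant on a rectangle
  have const : ∀ (a b c d : ℝ) (τ : ℂ → ZMod 2), 0 ≤ a → b ≤ 10 → 0 ≤ c → d ≤ 10 →
      (∀ x ∈ Ioo a b ×ℂ Ioo c d, ∃ k, ∀ᶠ u in 𝓝 x, essσ P x u + τ u = k) →
      ∀ u ∈ C.UU, ∀ v ∈ C.UU, u ∈ Ioo a b ×ℂ Ioo c d → v ∈ Ioo a b ×ℂ Ioo c d →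
        ℓ u + τ u = ℓ v + τ v := by
    intro a b c d τ ha hb hc hd h
    refine lc_convex (isOpen_Ioo.reProdIm isOpen_Ioo) (ess_convex a b c d) (fun x _ => dense_UU x)
      td_M3 disjoint_UU_M3 (fun u => ℓ u + τ u) fun x hx hM => ?_
    obtain ⟨ε, hε, k, hk⟩ := hℓ x
      ⟨Ioo_subset_Ioo ha hb hx.1, Ioo_subset_Ioo hc hd hx.2⟩ hM
    obtain ⟨k', hk'⟩ := h x hx
    obtain ⟨δ, hδ, hk'⟩ := Metric.eventually_nhds_iff_ball.1 hk'
    refine ⟨min ε δ, lt_min hε hδ, fun u hu v hv hu' hv' => ?_⟩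
    have e1 := hk u hu (ball_subset_ball (min_le_left _ _) hu')
    have e2 := hk v hv (ball_subset_ball (min_le_left _ _) hv')
    have e3 := hk' u (ball_subset_ball (min_le_right _ _) hu')
    have e4 := hk' v (ball_subset_ball (min_le_right _ _) hv')
    show ℓ u + τ u = ℓ v + τ v
    linear_combination e1 - e2 + e3 - e4
  have const0 : ∀ a b c d : ℝ, 0 ≤ a → b ≤ 10 → 0 ≤ c → d ≤ 10 →
      (∀ x ∈ Ioo a b ×ℂ Ioo c d, x ∉ (⋃ i, P 0 i) ∨ x ∉ ⋃ i, P 1 i) →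
      ∀ u ∈ C.UU, ∀ v ∈ C.UU, u ∈ Ioo a b ×ℂ Ioo c d → v ∈ Ioo a b ×ℂ Ioo c d → ℓ u = ℓ v := by
    intro a b c d ha hb hc hd h u hu v hv hu' hv'
    have := const a b c d (fun _ => 0) ha hb hc hd (fun x hx => ⟨0, Eventually.of_forall fun u => by
      rw [essσ, if_neg (by have := h x hx; tauto), add_zero]⟩) u hu v hv hu' hv'
    simpa using this
  obtain ⟨ε₀, hε₀, hbot⟩ := ((hGc 1).union (hGc 2)).exists_forall_le' (f := Complex.im) (a := 0)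
    Complex.continuous_im.continuousOn (by
      rintro z (hz | hz) <;> obtain ⟨i, hi⟩ := mem_iUnion.1 hz
      · exact hBD 1 (by decide) i z hi
      · exact hBD 2 (by decide) i z hi)
  obtain ⟨ε, hε, hε1, hεε⟩ : ∃ ε : ℝ, 0 < ε ∧ ε ≤ 1 ∧ ε ≤ ε₀ :=
    ⟨min 1 ε₀, lt_min one_pos hε₀, min_le_left _ _, min_le_right _ _⟩
  have memA : ∀ u ∈ Ioo (0 : ℝ) 10 ×ℂ Ioo (0 : ℝ) 10, u ∉ (⋃ i, P 1 i) → u ∉ (⋃ i, P 2 i) →
      u ∈ ⋃ i, P 0 i := by
    intro u hu h1 h2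
    obtain ⟨i, hi⟩ := C.cover u
    obtain ⟨l, hl⟩ := hPcov i u hi hu
    fin_cases l
    · exact mem_iUnion.2 ⟨i, hl⟩
    · exact absurd (mem_iUnion.2 ⟨i, hl⟩) h1
    · exact absurd (mem_iUnion.2 ⟨i, hl⟩) h2
  have nA : ∀ u : ℂ, 2 ≤ u.im → u ∉ ⋃ i, P 0 i := fun u hu h => by
    obtain ⟨i, hi⟩ := mem_iUnion.1 h
    linarith [hA i u hi]
  have nB : ∀ u : ℂ, 6 ≤ u.re → u ∉ ⋃ i, P 1 i := fun u hu h => by
    obtain ⟨i, hi⟩ := mem_iUnion.1 h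
    linarith [hB i u hi]
  have nD : ∀ u : ℂ, u.re ≤ 4 → u ∉ ⋃ i, P 2 i := fun u hu h => by
    obtain ⟨i, hi⟩ := mem_iUnion.1 h
    linarith [hD i u hi]
  have nBD : ∀ u : ℂ, u.im < ε → u ∉ (⋃ i, P 1 i) ∧ u ∉ ⋃ i, P 2 i := fun u hu =>
    ⟨fun h => by linarith [hbot u (Or.inl h)], fun h => by linarith [hbot u (Or.inr h)]⟩
  have pick : ∀ a b c d : ℝ, a < b → c < d → ∃ u ∈ C.UU, u ∈ Ioo a b ×ℂ Ioo c d :=
    fun a b c d hab hcd => dense_UU.exists_mem_open (isOpen_Ioo.reProdIm isOpen_Ioo)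
      (Complex.reProdIm_nonempty.2 ⟨nonempty_Ioo.2 hab, nonempty_Ioo.2 hcd⟩)
  obtain ⟨u₁, hu₁, ⟨a1, b1⟩, ⟨c1, d1⟩⟩ := pick 0 2 0 ε (by norm_num) hε
  obtain ⟨u₂, hu₂, ⟨a2, b2⟩, ⟨c2, d2⟩⟩ := pick 0 2 8 10 (by norm_num) (by norm_num)
  obtain ⟨u₃, hu₃, ⟨a3, b3⟩, ⟨c3, d3⟩⟩ := pick 8 10 0 ε (by norm_num) hε
  obtain ⟨u₄, hu₄, ⟨a4, b4⟩, ⟨c4, d4⟩⟩ := pick 8 10 8 10 (by norm_num) (by norm_num)
  have bottom : ℓ u₁ = ℓ u₃ := const0 0 10 0 ε le_rfl le_rfl le_rfl (by linarith)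
    (fun x hx => Or.inr (nBD x hx.2.2).1) u₁ hu₁ u₃ hu₃
    ⟨⟨a1, by linarith⟩, c1, d1⟩ ⟨⟨by linarith, b3⟩, c3, d3⟩
  have right : ℓ u₃ = ℓ u₄ := const0 8 10 0 10 (by norm_num) le_rfl le_rfl le_rfl
    (fun x hx => Or.inr (nB x (by linarith [hx.1.1]))) u₃ hu₃ u₄ hu₄
    ⟨⟨a3, b3⟩, c3, by linarith⟩ ⟨⟨a4, b4⟩, by linarith, d4⟩
  have top : ℓ u₄ = ℓ u₂ := const0 0 10 8 10 le_rfl le_rfl (by norm_num) le_rfl
    (fun x hx => Or.inl (nA x (by linarith [hx.2.1]))) u₄ hu₄ u₂ hu₂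
    ⟨⟨by linarith, b4⟩, c4, d4⟩ ⟨⟨a2, by linarith⟩, c2, d2⟩
  classical
  have left := const 0 2 0 10 (fun u => if u ∈ ⋃ i, P 0 i then 1 else 0) le_rfl (by norm_num)
    le_rfl le_rfl (fun x hx => by
      by_cases h0 : x ∈ ⋃ i, P 0 i
      · by_cases h1 : x ∈ ⋃ i, P 1 i
        · refine ⟨0, Eventually.of_forall fun u => ?_⟩
          by_cases hu : u ∈ ⋃ i, P 0 i
          · rw [essσ, if_pos ⟨h0, h1, hu⟩, if_pos hu]; rfl
          · rw [essσ, if_neg (fun h => hu h.2.2), if_neg hu]; rfl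
        · refine ⟨1, ?_⟩
          filter_upwards [(hGc 1).isClosed.isOpen_compl.mem_nhds h1,
            (isOpen_Ioo.reProdIm isOpen_Ioo).mem_nhds hx] with u hu1 hu2
          rw [essσ, if_neg (fun h => h1 h.2.1), if_pos (memA u
            ⟨⟨hu2.1.1, by linarith [hu2.1.2]⟩, hu2.2⟩ hu1 (nD u (by linarith [hu2.1.2]))), zero_add]
      · refine ⟨0, ?_⟩
        filter_upwards [(hGc 0).isClosed.isOpen_compl.mem_nhds h0] with u hu
        rw [essσ, if_neg (fun h => h0 h.1), if_neg hu, zero_add])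
    u₁ hu₁ u₂ hu₂ ⟨⟨a1, b1⟩, c1, by linarith⟩ ⟨⟨a2, b2⟩, by linarith, d2⟩
  rw [if_pos (memA u₁ ⟨⟨a1, by linarith⟩, c1, by linarith⟩ (nBD u₁ d1).1 (nBD u₁ d1).2),
    if_neg (nA u₂ (by linarith)), bottom, right, top] at left
  exact absurd (add_left_cancel left) (by decide)

end Crest.Agent.R40.Cfg
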