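import Crest.Agent.R40.TFour
import Crest.Agent.R40.TEss

/-!
# R40/TTop: no five open unit-distance-free sets have dense union  (owner helper65)
-/

set_option autoImplicit false
open Set Metric

namespace Crest.Agent.R40

theorem Cfg.false (C : Cfg) : False := by
  obtain ⟨v, h | h | h⟩ := C.exists_cycle
  · exact Cfg.no_tri h
  · exact Cfg.no_four h
  · refine Cfg.no_five (v := v) ?_ (Or.inr h)
    obtain ⟨a, b, c, d, e, h1, h2, h3, h4, h5, g1, g2, g3, g4, g5⟩ := h
    have hcard : ({a, b, c, d, e} : Finset (Fin 5)) = Finset.univ := by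
      have := g1.1; have := g2.1; have := g3.1; have := g4.1; have := g5.1
      apply Finset.eq_univ_of_card
      rw [Finset.card_insert_of_notMem (by simp; tauto), Finset.card_insert_of_notMem (by simp; tauto),
        Finset.card_insert_of_notMem (by simp; tauto), Finset.card_pair (by tauto)]
      simp
    refine Finset.eq_univ_of_forall fun i => ?_
    have hi : i ∈ ({a, b, c, d, e} : Finset (Fin 5)) := hcard ▸ Finset.mem_univ i
    simp only [Finset.mem_insert, Finset.mem_singleton] at hi
    rcases hi with rfl | rfl | rfl | rfl | rfl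
    exacts [g1.mem, g2.mem, g3.mem, g4.mem, g5.mem]

theorem no_open_five (U : Fin 5 → Set ℂ) (ho : ∀ i, IsOpen (U i)) (hd : Dense (⋃ i, U i))
    (hu : ∀ i, ∀ x ∈ U i, ∀ y ∈ U i, dist x y ≠ 1) : False :=
  (exists_cfg U ho hd hu).elim Cfg.false

end Crest.Agent.R40
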