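import Crest.Agent.R40.MeasB
import Crest.Agent.R40.TTop

/-!
# R40/Meas: no measurable five-colouring  (task)

`P V i` = `A i` has positive measure in every non-empty open `W ⊆ V`; `G i = ⋃ {V open | P V i}`;
`U i = interior {y ∈ G i | ∀ x, dist x y = 1 → x ∉ G i}` is open without unit pairs; `no_open_five`
needs `⋃ U i` dense.  Otherwise an open ball `B₀` misses all `U i`.  Shrink it (induction over a
`Finset (Fin 5)`) to a ball `B₁` in which each colour is null or satisfies `P B₁ i`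
(`s` = the latter colours).  Shrink again (induction over `s`): a ball `B ⊆ B₁` is not inside
`{…}` (else it would lie in `U j`), so there are `y ∈ B`, `x ∈ G j` at distance one, `W ∋ x` open with
`P W j`, and a smaller ball about `y` all of whose points `p` have `p + (x - y) ∈ W`
(`x - y = cis (arg (x - y))`).  On the final ball `ball y r` let `χ p = max 0 (r - ‖p - y‖)`;
induction over `s` with `GoodC.mul`, `goodC_circ`, `circ_step` gives `0 < ∫ χ ∏_{j ∈ s} circ (A j)`,
but the integrand vanishes a.e. (`circ_ae_zero`).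
-/

set_option autoImplicit false
open Set Metric MeasureTheory Filter Topology

namespace Crest.Agent.R40

/-- `A` has positive measure in every non-empty open subset of `V` -/
def MPos (A V : Set ℂ) : Prop := ∀ W ⊆ V, IsOpen W → W.Nonempty → volume (A ∩ W) ≠ 0

theorem MPos.mono {A V V' : Set ℂ} (h : MPos A V) (hV : V' ⊆ V) : MPos A V' :=
  fun W hW => h W (hW.trans hV)

/-- the open set of points near which `A` is everywhere of positive measure -/
def MCore (A : Set ℂ) : Set ℂ := {x | ∃ V, IsOpen V ∧ x ∈ V ∧ MPos A V}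

theorem meas_shrink1 (A : Fin 5 → Set ℂ) {O : Set ℂ} (ho : IsOpen O) (hne : O.Nonempty)
    (t : Finset (Fin 5)) : ∃ O₁ ⊆ O, IsOpen O₁ ∧ O₁.Nonempty ∧
      ∀ i ∈ t, volume (A i ∩ O₁) = 0 ∨ MPos (A i) O₁ := by
  induction t using Finset.induction_on with
  | empty => exact ⟨O, Subset.rfl, ho, hne, by simp⟩
  | insert j t _ ih =>
    obtain ⟨O₁, h1, h2, h3, h4⟩ := ih
    by_cases hP : MPos (A j) O₁
    · refine ⟨O₁, h1, h2, h3, fun i hi => ?_⟩
      rcases Finset.mem_insert.1 hi with rfl | hi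
      · exact Or.inr hP
      · exact h4 i hi
    · unfold MPos at hP
      push Not at hP
      obtain ⟨W, w1, w2, w3, w4⟩ := hP
      refine ⟨W, w1.trans h1, w2, w3, fun i hi => ?_⟩
      rcases Finset.mem_insert.1 hi with rfl | hi
      · exact Or.inl w4
      · exact (h4 i hi).imp (fun h => measure_mono_null (inter_subset_inter_right _ w1) h)
          fun h => h.mono w1

theorem meas_shrink2 (A : Fin 5 → Set ℂ) {O : Set ℂ} (ho : IsOpen O) (hne : O.Nonempty)
    (hU : ∀ i, Disjoint O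
      (interior {y | y ∈ MCore (A i) ∧ ∀ x, dist x y = 1 → x ∉ MCore (A i)}))
    (t : Finset (Fin 5)) : ∃ O₂ ⊆ O, IsOpen O₂ ∧ O₂.Nonempty ∧ ∀ j ∈ t, MPos (A j) O →
      ∃ W, IsOpen W ∧ MPos (A j) W ∧ ∀ p ∈ O₂, ∃ θ, p + cis θ ∈ W := by
  induction t using Finset.induction_on with
  | empty => exact ⟨O, Subset.rfl, ho, hne, by simp⟩
  | insert j t _ ih =>
    obtain ⟨O₂, h1, h2, h3, h4⟩ := ih
    by_cases hP : MPos (A j) O
    · have hns : ¬ O₂ ⊆ {y | y ∈ MCore (A j) ∧ ∀ x, dist x y = 1 → x ∉ MCore (A j)} := fun hs => by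
        obtain ⟨y, hy⟩ := h3
        exact (hU j).notMem_of_mem_left (h1 hy) (interior_maximal hs h2 hy)
      obtain ⟨y, hy, hy'⟩ := not_subset.1 hns
      have hyc : y ∈ MCore (A j) := ⟨O, ho, h1 hy, hP⟩
      simp only [mem_ofPred_eq, hyc, true_and, not_forall, not_not] at hy'
      obtain ⟨x, hxy, W, w1, w2, w3⟩ := hy'
      have hc : x - y = cis (Complex.arg (x - y)) := by
        have := Complex.norm_mul_exp_arg_mul_I (x - y)
        rw [← dist_eq_norm, hxy] at this
        simpa [cis] using this.symm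
      refine ⟨O₂ ∩ (fun p => p + (x - y)) ⁻¹' W, inter_subset_left.trans h1,
        h2.inter (w1.preimage (by fun_prop)), ⟨y, hy, by simpa using w2⟩, fun i hi hPi => ?_⟩
      rcases Finset.mem_insert.1 hi with rfl | hi
      · exact ⟨W, w1, w3, fun p hp => ⟨_, hc ▸ hp.2⟩⟩
      · obtain ⟨W', a1, a2, a3⟩ := h4 i hi hPi
        exact ⟨W', a1, a2, fun p hp => a3 p hp.1⟩
    · refine ⟨O₂, h1, h2, h3, fun i hi hPi => ?_⟩
      rcases Finset.mem_insert.1 hi with rfl | hi
      · exact absurd hPi hP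
      · exact h4 i hi hPi

theorem no_meas_five (A : Fin 5 → Set ℂ) (hm : ∀ i, MeasurableSet (A i))
    (hc : ∀ᵐ x : ℂ, ∃ i, x ∈ A i)
    (hu : ∀ i, ∀ᵐ p : ℂ × ℝ, ¬ (p.1 ∈ A i ∧ p.1 + Complex.exp (p.2 * Complex.I) ∈ A i)) :
    False := by
  classical
  refine no_open_five
    (fun i => interior {y | y ∈ MCore (A i) ∧ ∀ x, dist x y = 1 → x ∉ MCore (A i)})
    (fun _ => isOpen_interior) (dense_iff_inter_open.2 fun O ho hne => ?_)
    fun i x hx y hy hxy => (interior_subset hy).2 x hxy (interior_subset hx).1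
  by_contra hcon
  have hU : ∀ i, Disjoint O
      (interior {y | y ∈ MCore (A i) ∧ ∀ x, dist x y = 1 → x ∉ MCore (A i)}) := fun i =>
    disjoint_left.2 fun z h1 h2 => hcon ⟨z, h1, mem_iUnion.2 ⟨i, h2⟩⟩
  obtain ⟨O₁, a1, a2, a3, a4⟩ := meas_shrink1 A ho hne Finset.univ
  obtain ⟨O₂, b1, b2, ⟨y, hy⟩, b4⟩ :=
    meas_shrink2 A a2 a3 (fun i => (hU i).mono_left a1) Finset.univ
  obtain ⟨r, hr, hball⟩ := Metric.isOpen_iff.1 b2 y hy
  let χ : ℂ → ℝ := fun p => max 0 (r - dist p y)
  have hχc : Continuous χ := by fun_prop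
  have hχ0 : ∀ x, x ∉ ball y r → χ x = 0 := fun x hx =>
    max_eq_left (sub_nonpos.2 (not_lt.1 hx))
  have hχG : GoodC χ := goodC_cont hχc (M := r) fun x =>
    ⟨le_max_left _ _, max_le hr.le (sub_le_self _ dist_nonneg)⟩
  have hχp : 0 < ∫ x, χ x := by
    refine hχc.integral_pos_of_hasCompactSupport_nonneg_nonzero (x := y)
      (HasCompactSupport.intro (isCompact_closedBall y r) fun x hx =>
        hχ0 x fun h => hx (ball_subset_closedBall h)) (fun x => le_max_left _ _) ?_
    simp only [χ, dist_self, sub_zero, max_eq_right hr.le]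
    exact hr.ne'
  have key : ∀ t : Finset (Fin 5), (∀ j ∈ t, MPos (A j) O₁) →
      GoodC (fun x => χ x * ∏ j ∈ t, circ (A j) x) ∧ 0 < ∫ x, χ x * ∏ j ∈ t, circ (A j) x := by
    intro t
    induction t using Finset.induction_on with
    | empty => intro _; simpa using ⟨hχG, hχp⟩
    | insert j t hj ih =>
      intro ht
      obtain ⟨c1, c2⟩ := ih fun i hi => ht i (Finset.mem_insert_of_mem hi)
      obtain ⟨W, w1, w2, w3⟩ := b4 j (Finset.mem_univ j) (ht j (Finset.mem_insert_self _ _))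
      have e : (fun x => χ x * ∏ i ∈ insert j t, circ (A i) x) =
          fun x => (χ x * ∏ i ∈ t, circ (A i) x) * circ (A j) x := by
        funext x; rw [Finset.prod_insert hj]; ring
      rw [e]
      exact ⟨c1.mul (goodC_circ (hm j)), circ_step c1 (fun x hx => by rw [hχ0 x hx, zero_mul]) c2
        w1 (fun p hp => w3 p (hball hp)) (hm j) w2⟩
  have hpos := (key (Finset.univ.filter fun j => MPos (A j) O₁)
    fun j hj => (Finset.mem_filter.1 hj).2).2
  refine hpos.ne' (integral_eq_zero_of_ae ?_)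
  have d1 : ∀ᵐ x : ℂ, ∀ i, x ∈ A i → circ (A i) x = 0 :=
    ae_all_iff.2 fun i => circ_ae_zero (hm i) (hu i)
  have d2 : ∀ᵐ x : ℂ, ∀ i, ¬ MPos (A i) O₁ → x ∉ A i ∩ O₁ := by
    refine ae_all_iff.2 fun i => ?_
    rcases a4 i (Finset.mem_univ i) with h | h
    · filter_upwards [measure_eq_zero_iff_ae_notMem.1 h] with x hx _ using hx
    · exact Eventually.of_forall fun x hx => absurd h hx
  filter_upwards [hc, d1, d2] with x ⟨i, hi⟩ h1 h2
  by_cases hx : x ∈ ball y r
  · have hP : MPos (A i) O₁ := by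
      by_contra hP
      exact h2 i hP ⟨hi, b1 (hball hx)⟩
    rw [Finset.prod_eq_zero (Finset.mem_filter.2 ⟨Finset.mem_univ i, hP⟩) (h1 i hi), mul_zero]
    rfl
  · rw [hχ0 x hx, zero_mul]
    rfl

end Crest.Agent.R40
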