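import Crest.Agent.R40.TDefs

/-!
# R40/MeasA: the difference of two circle measures is absolutely continuous  (task)

* `null_pull`: replace `N` by a measurable null superset.  `f (θ, φ) = (cos φ - cos θ, sin φ - sin θ)`
  on `ℝ × ℝ` (`Complex.volume_preserving_equiv_real_prod`) has `det f' = ± sin (φ - θ)`; the set
  `sin (φ - θ) = 0` is null (countably many lines / Fubini).  Near a point with `det ≠ 0`, `f` is
  injective (`HasStrictFDerivAt.toOpenPartialHomeomorph` / `…eventually_left_inverse`), and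
  `lintegral_abs_det_fderiv_eq_addHaar_image` on `s = nbhd ∩ f⁻¹ N ∩ {det ≠ 0}` gives `s` null;
  `measure_null_of_locally_null`.
* `transl`: `ν` = image of Lebesgue measure on the square under `(θ, φ) ↦ cis φ - cis θ` is finite,
  `≪ volume`, carried by `closedBall 0 2`.  With `A' = A ∩ ball z₀ 4`, for `‖z - z₀‖ < 1` the
  integral is `≤ ν (((z + ·)⁻¹' A') ∆ ((z₀ + ·)⁻¹' A'))`; the Lebesgue measure of this set tends to `0`
  (`tendsto_measure_symmDiff_preimage_nhds_zero`), and `tendsto_setLIntegral_zero` for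
  `ν.rnDeriv volume` finishes.
-/

set_option autoImplicit false
open Set Metric MeasureTheory Filter Topology

namespace Crest.Agent.R40

private theorem measA_local {E : Type*} [NormedAddCommGroup E] [NormedSpace ℝ E]
    [FiniteDimensional ℝ E] [MeasurableSpace E] [BorelSpace E] (μ : Measure E)
    [μ.IsAddHaarMeasure] {f : E → E} (hf : ContDiff ℝ 1 f) {N : Set E} (hN : μ N = 0) :
    μ {x | f x ∈ N ∧ Function.Injective (fderiv ℝ f x)} = 0 := by
  have : CompleteSpace E := FiniteDimensional.complete ℝ E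
  refine measure_null_of_locally_null _ fun a ha => ?_
  set e : E ≃L[ℝ] E :=
    (LinearEquiv.ofInjectiveEndo (fderiv ℝ f a : E →ₗ[ℝ] E) ha.2).toContinuousLinearEquiv with he
  have hd : HasFDerivAt f (e : E →L[ℝ] E) a := by
    have : (e : E →L[ℝ] E) = fderiv ℝ f a := by ext; rfl
    rw [this]
    exact (hf.differentiable one_ne_zero a).hasFDerivAt
  have hc : ContDiffAt ℝ 1 f a := hf.contDiffAt
  set g := hc.localInverse hd one_ne_zero with hg
  have h1 : ContDiffAt ℝ 1 g (f a) := hc.to_localInverse hd one_ne_zero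
  have h2 : ∀ᶠ y in 𝓝 (f a), DifferentiableAt ℝ g y :=
    (h1.eventually (by simp)).mono fun y hy => hy.differentiableAt one_ne_zero
  have h3 : ∀ᶠ x in 𝓝 a, g (f x) = x :=
    (hc.hasStrictFDerivAt' hd one_ne_zero).eventually_left_inverse
  have h4 : ∀ᶠ x in 𝓝 a, DifferentiableAt ℝ g (f x) := hf.continuous.continuousAt.eventually h2
  refine ⟨g '' (N ∩ {y | DifferentiableAt ℝ g y}), ?_, ?_⟩
  · filter_upwards [self_mem_nhdsWithin, mem_nhdsWithin_of_mem_nhds h3,
      mem_nhdsWithin_of_mem_nhds h4] with x hx hx3 hx4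
    exact ⟨f x, ⟨hx.1, hx4⟩, hx3⟩
  · exact addHaar_image_eq_zero_of_differentiableOn_of_addHaar_eq_zero μ
      (fun y hy => hy.2.differentiableWithinAt) (measure_mono_null inter_subset_left hN)

private theorem measA_sin_null : volume {p : ℝ × ℝ | Real.sin (p.2 - p.1) = 0} = 0 := by
  have hm : MeasurableSet {p : ℝ × ℝ | Real.sin (p.2 - p.1) = 0} :=
    (isClosed_eq (by fun_prop) continuous_const).measurableSet
  rw [Measure.volume_eq_prod, Measure.measure_prod_null hm]
  refine Eventually.of_forall fun x => ?_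
  refine Set.Countable.measure_zero ?_ _
  refine (countable_range fun n : ℤ => x + n * Real.pi).mono fun y hy => ?_
  obtain ⟨n, hn⟩ := Real.sin_eq_zero_iff.1 hy
  exact ⟨n, by simp only [hn]; ring⟩

theorem null_pull {N : Set ℂ} (hN : volume N = 0) :
    volume {p : ℝ × ℝ | cis p.2 - cis p.1 ∈ N} = 0 := by
  set N' : Set (ℝ × ℝ) := Complex.measurableEquivRealProd.symm ⁻¹' N with hN'
  have h0 : volume N' = 0 :=
    Complex.volume_preserving_equiv_real_prod.symm.quasiMeasurePreserving.preimage_null hN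
  set f : ℝ × ℝ → ℝ × ℝ :=
    fun p => (Real.cos p.2 - Real.cos p.1, Real.sin p.2 - Real.sin p.1) with hf
  have hc : ContDiff ℝ 1 f := by rw [hf]; fun_prop
  have h1 := measA_local volume hc h0
  refine measure_mono_null (fun p hp => ?_) (measure_union_null h1 measA_sin_null)
  by_cases hs : Real.sin (p.2 - p.1) = 0
  · exact Or.inr hs
  refine Or.inl ⟨?_, ?_⟩
  · have : Complex.measurableEquivRealProd.symm (f p) = cis p.2 - cis p.1 := by
      apply Complex.ext <;> simp [hf]
    change Complex.measurableEquivRealProd.symm (f p) ∈ N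
    rw [this]
    exact hp
  · have d1 := ((Real.hasDerivAt_cos p.2).comp_hasFDerivAt p
      (hasFDerivAt_snd (𝕜 := ℝ) (p := p))).sub
      ((Real.hasDerivAt_cos p.1).comp_hasFDerivAt p (hasFDerivAt_fst (𝕜 := ℝ) (p := p)))
    have d2 := ((Real.hasDerivAt_sin p.2).comp_hasFDerivAt p
      (hasFDerivAt_snd (𝕜 := ℝ) (p := p))).sub
      ((Real.hasDerivAt_sin p.1).comp_hasFDerivAt p (hasFDerivAt_fst (𝕜 := ℝ) (p := p)))
    have d3 : HasFDerivAt f _ p := d1.prodMk d2
    rw [d3.fderiv]
    refine (injective_iff_map_eq_zero _).2 fun w hw => ?_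
    simp only [ContinuousLinearMap.prod_apply, sub_apply, smul_apply, ContinuousLinearMap.coe_snd',
      ContinuousLinearMap.coe_fst', smul_eq_mul, Prod.mk_eq_zero] at hw
    obtain ⟨e1, e2⟩ := hw
    have a1 : Real.sin (p.2 - p.1) * w.1 = 0 := by
      rw [Real.sin_sub]
      linear_combination (-Real.cos p.2) * e1 - Real.sin p.2 * e2
    have a2 : Real.sin (p.2 - p.1) * w.2 = 0 := by
      rw [Real.sin_sub]
      linear_combination (-Real.cos p.1) * e1 - Real.sin p.1 * e2
    exact Prod.ext ((mul_eq_zero.1 a1).resolve_left hs) ((mul_eq_zero.1 a2).resolve_left hs)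

theorem transl {A : Set ℂ} (hA : MeasurableSet A) (z₀ : ℂ) :
    Tendsto (fun z : ℂ => volume {p : ℝ × ℝ | p ∈ Ioc 0 (2 * Real.pi) ×ˢ Ioc 0 (2 * Real.pi) ∧
      ¬ (z + (cis p.2 - cis p.1) ∈ A ↔ z₀ + (cis p.2 - cis p.1) ∈ A)}) (𝓝 z₀) (𝓝 0) := by
  set Q : Set (ℝ × ℝ) := Ioc 0 (2 * Real.pi) ×ˢ Ioc 0 (2 * Real.pi) with hQ
  have hQm : MeasurableSet Q := measurableSet_Ioc.prod measurableSet_Ioc
  have hQf : volume Q ≠ ⊤ := by
    rw [hQ, Measure.volume_eq_prod, Measure.prod_prod, Real.volume_Ioc]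
    exact ENNReal.mul_ne_top ENNReal.ofReal_ne_top ENNReal.ofReal_ne_top
  set F : ℝ × ℝ → ℂ := fun p => cis p.2 - cis p.1 with hF
  have hFm : Measurable F := (by rw [hF]; fun_prop : Continuous F).measurable
  have : IsFiniteMeasure (volume.restrict Q) := isFiniteMeasure_restrict.2 hQf
  set ν : Measure ℂ := (volume.restrict Q).map F with hν
  have hac : ν ≪ volume := by
    refine Measure.AbsolutelyContinuous.mk fun s hs h0 => ?_
    rw [hν, Measure.map_apply hFm hs]
    exact le_antisymm ((Measure.restrict_le_self _).trans (null_pull h0).le) zero_le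
  set A' : Set ℂ := A ∩ ball z₀ 4 with hA'
  have hA'm : MeasurableSet A' := hA.inter measurableSet_ball
  have hA'f : volume A' ≠ ⊤ :=
    ne_top_of_le_ne_top measure_ball_lt_top.ne (measure_mono inter_subset_right)
  set T : C(ℂ, C(ℂ, ℂ)) := ContinuousMap.curry ⟨fun p : ℂ × ℂ => p.1 + p.2, continuous_add⟩ with hT
  have hTp : ∀ z, MeasurePreserving (T z) volume volume := fun z =>
    measurePreserving_add_left volume z
  have h1 := tendsto_measure_symmDiff_preimage_nhds_zero (T.continuous.tendsto z₀)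
    (Eventually.of_forall hTp) (hTp z₀) hA'm.nullMeasurableSet hA'f
  have h2 := tendsto_setLIntegral_zero (μ := volume) (f := ν.rnDeriv volume)
    (Measure.lintegral_rnDeriv_lt_top ν volume).ne
    (s := fun z => symmDiff (T z ⁻¹' A') (T z₀ ⁻¹' A')) h1
  simp only [Measure.setLIntegral_rnDeriv hac] at h2
  refine tendsto_of_tendsto_of_tendsto_of_le_of_le' tendsto_const_nhds h2
    (Eventually.of_forall fun _ => zero_le) ?_
  filter_upwards [ball_mem_nhds z₀ one_pos] with z hz
  have hD : MeasurableSet (symmDiff (T z ⁻¹' A') (T z₀ ⁻¹' A')) :=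
    ((hTp z).measurable hA'm).symmDiff ((hTp z₀).measurable hA'm)
  rw [hν, Measure.map_apply hFm hD, Measure.restrict_apply' hQm]
  refine measure_mono fun p hp => ⟨?_, hp.1⟩
  have hn : ‖F p‖ ≤ 2 := by
    have := norm_sub_le (cis p.2) (cis p.1)
    rw [norm_cis, norm_cis] at this
    rw [hF]; linarith
  have b1 : z + F p ∈ ball z₀ 4 := by
    rw [mem_ball, dist_eq_norm] at hz ⊢
    have : z + F p - z₀ = (z - z₀) + F p := by ring
    rw [this]
    linarith [norm_add_le (z - z₀) (F p)]
  have b2 : z₀ + F p ∈ ball z₀ 4 := by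
    rw [mem_ball, dist_eq_norm, add_sub_cancel_left]
    linarith
  have h3 : ¬ (z + F p ∈ A ↔ z₀ + F p ∈ A) := hp.2
  change (z + F p ∈ A' ∧ ¬ z₀ + F p ∈ A') ∨ (z₀ + F p ∈ A' ∧ ¬ z + F p ∈ A')
  simp only [hA', mem_inter_iff, b1, b2, and_true]
  tauto

end Crest.Agent.R40
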