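import Crest.Agent.R40.MeasA

/-!
# R40/MeasB: circle averages  (task)

* `goodC_circ`: measurability by `Measurable.lintegral_prod_right` / `StronglyMeasurable.integral_prod_right`;
  `0 ≤ circ ≤ 2π`; `∫_θ |circ A (z - cis θ) - circ A (z₀ - cis θ)| ≤ ∫_θ ∫_φ |1_A - 1_A|` = measure of
  the set in `transl` (Fubini).
* `goodC_cont`: dominated convergence.  `GoodC.mul`: `|G H - G' H'| ≤ M |G - G'| + M |H - H'|`.
* `circ_step`: `Λ z = ∫_θ G (z - cis θ)` is continuous (`|Λ z - Λ z₀| ≤ ∫ |…|`), and for every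
  measurable `A`: `∫ 1_A Λ = ∫ G · circ A` (Fubini, translation invariance; everything is bounded with
  bounded support).  With `A = W`: `circ W p > 0` on `B` (the set of `θ ∈ Ioc 0 2π` with
  `p + cis θ ∈ W` contains an interval, by periodicity and openness), so `∫ G · circ W > 0`
  (`integral_pos_iff_support_of_nonneg`), so `W' = W ∩ {Λ > 0}` is open and non-empty, `A ∩ W'` has
  positive measure, `∫ 1_A Λ > 0`.
* `circ_ae_zero`: `Measure.ae_ae_of_ae_prod`.
-/

set_option autoImplicit false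
open Set Metric MeasureTheory Filter Topology

namespace Crest.Agent.R40

/-- length of the part of the unit circle about `p` inside `A` -/
noncomputable def circ (A : Set ℂ) (p : ℂ) : ℝ :=
  ∫ θ in Ioc 0 (2 * Real.pi), A.indicator (fun _ => (1 : ℝ)) (p + cis θ)

/-- bounded non-negative functions whose restrictions to unit circles vary continuously in `L¹` -/
def GoodC (G : ℂ → ℝ) : Prop :=
  Measurable G ∧ (∃ M, ∀ x, 0 ≤ G x ∧ G x ≤ M) ∧
    ∀ z₀, Tendsto (fun z : ℂ => ∫ θ in Ioc 0 (2 * Real.pi), |G (z - cis θ) - G (z₀ - cis θ)|)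
      (𝓝 z₀) (𝓝 0)

theorem intInt_le {f : ℝ → ℝ} (hf : Measurable f) {M : ℝ} (hM : ∀ x, |f x| ≤ M) :
    IntegrableOn f (Ioc 0 (2 * Real.pi)) :=
  Measure.integrableOn_of_bounded (M := M) measure_Ioc_lt_top.ne hf.aestronglyMeasurable
    (Eventually.of_forall hM)

theorem measurable_circ {A : Set ℂ} (hA : MeasurableSet A) : Measurable (circ A) := by
  have : StronglyMeasurable (Function.uncurry fun (p : ℂ) (θ : ℝ) =>
      A.indicator (fun _ => (1 : ℝ)) (p + cis θ)) :=
    ((measurable_const.indicator hA).comp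
      (by fun_prop : Continuous fun q : ℂ × ℝ => q.1 + cis q.2).measurable).stronglyMeasurable
  exact (this.integral_prod_right (ν := volume.restrict (Ioc 0 (2 * Real.pi)))).measurable

theorem ind_bounds (A : Set ℂ) (z : ℂ) :
    0 ≤ A.indicator (fun _ => (1 : ℝ)) z ∧ A.indicator (fun _ => (1 : ℝ)) z ≤ 1 := by
  by_cases h : z ∈ A <;> simp [h]

theorem circ_nonneg (A : Set ℂ) (p : ℂ) : 0 ≤ circ A p :=
  integral_nonneg fun _ => (ind_bounds A _).1

theorem circ_le (A : Set ℂ) (p : ℂ) : circ A p ≤ 2 * Real.pi := by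
  have := norm_setIntegral_le_of_norm_le_const (μ := volume) (s := Ioc 0 (2 * Real.pi)) (C := 1)
    (f := fun θ => A.indicator (fun _ => (1 : ℝ)) (p + cis θ)) measure_Ioc_lt_top
    (fun θ _ => by rw [Real.norm_eq_abs, abs_of_nonneg (ind_bounds A _).1]; exact (ind_bounds A _).2)
  rw [Real.volume_real_Ioc_of_le (by positivity), one_mul, sub_zero] at this
  exact (le_abs_self _).trans this

theorem goodC_circ {A : Set ℂ} (hA : MeasurableSet A) : GoodC (circ A) := by
  refine ⟨measurable_circ hA, ⟨2 * Real.pi, fun x => ⟨circ_nonneg A x, circ_le A x⟩⟩, fun z₀ => ?_⟩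
  have ht := (ENNReal.tendsto_toReal ENNReal.zero_ne_top).comp (transl hA z₀)
  rw [ENNReal.toReal_zero] at ht
  refine squeeze_zero (fun z => integral_nonneg fun _ => abs_nonneg _) (fun z => ?_) ht
  set μ := (volume : Measure ℝ).restrict (Ioc 0 (2 * Real.pi)) with hμ
  let E : Set (ℝ × ℝ) := {p | ¬ (z + (cis p.2 - cis p.1) ∈ A ↔ z₀ + (cis p.2 - cis p.1) ∈ A)}
  have hE : MeasurableSet E := by
    have h1 : ∀ w : ℂ, MeasurableSet {p : ℝ × ℝ | w + (cis p.2 - cis p.1) ∈ A} := fun w =>
      (by fun_prop : Continuous fun p : ℝ × ℝ => w + (cis p.2 - cis p.1)).measurable hA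
    exact ((h1 z).iff (h1 z₀)).compl
  have hint : Integrable (E.indicator fun _ => (1 : ℝ)) (μ.prod μ) :=
    (integrable_const _).indicator hE
  have e1 : ∫ θ, ∫ φ, E.indicator (fun _ => (1 : ℝ)) (θ, φ) ∂μ ∂μ = (μ.prod μ).real E := by
    rw [← integral_prod _ hint, integral_indicator hE]; simp
  have e2 : (μ.prod μ) E = volume {p : ℝ × ℝ | p ∈ Ioc 0 (2 * Real.pi) ×ˢ Ioc 0 (2 * Real.pi) ∧
      ¬ (z + (cis p.2 - cis p.1) ∈ A ↔ z₀ + (cis p.2 - cis p.1) ∈ A)} := by
    rw [hμ, Measure.prod_restrict, Measure.restrict_apply hE, ← Measure.volume_eq_prod, inter_comm]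
    rfl
  simp only [Function.comp]
  rw [← e2, ← Measure.real, ← e1]
  refine integral_mono_of_nonneg (Eventually.of_forall fun _ => abs_nonneg _)
    hint.integral_prod_left (Eventually.of_forall fun θ => ?_)
  have hi : ∀ w : ℂ, Integrable (fun φ => A.indicator (fun _ => (1 : ℝ)) (w + cis φ)) μ := fun w =>
    intInt_le (M := 1) ((measurable_const.indicator hA).comp
      (by fun_prop : Continuous fun φ : ℝ => w + cis φ).measurable) fun φ => by
      rw [abs_of_nonneg (ind_bounds A _).1]; exact (ind_bounds A _).2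
  simp only [circ]
  rw [← integral_sub (hi _) (hi _)]
  refine (abs_integral_le_integral_abs).trans (le_of_eq (integral_congr_ae
    (Eventually.of_forall fun φ => ?_)))
  have a1 : z - cis θ + cis φ = z + (cis φ - cis θ) := by ring
  have a2 : z₀ - cis θ + cis φ = z₀ + (cis φ - cis θ) := by ring
  simp only [a1, a2]
  by_cases h1 : z + (cis φ - cis θ) ∈ A <;> by_cases h2 : z₀ + (cis φ - cis θ) ∈ A <;>
    simp [E, h1, h2]

theorem goodC_cont {G : ℂ → ℝ} (hG : Continuous G) {M : ℝ} (hM : ∀ x, 0 ≤ G x ∧ G x ≤ M) :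
    GoodC G := by
  refine ⟨hG.measurable, ⟨M, hM⟩, fun z₀ => ?_⟩
  have : Continuous fun z : ℂ => ∫ θ in Ioc 0 (2 * Real.pi), |G (z - cis θ) - G (z₀ - cis θ)| := by
    refine continuous_of_dominated (bound := fun _ => M) (fun z => Continuous.aestronglyMeasurable
      (by fun_prop)) (fun z => Eventually.of_forall fun θ => ?_) (integrable_const _)
      (Eventually.of_forall fun θ => by fun_prop)
    rw [Real.norm_eq_abs, abs_abs, abs_le]
    constructor <;> linarith [hM (z - cis θ), hM (z₀ - cis θ)]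
  simpa using this.tendsto z₀

theorem GoodC.intDiff {G : ℂ → ℝ} (hG : GoodC G) (z z₀ : ℂ) :
    IntegrableOn (fun θ => |G (z - cis θ) - G (z₀ - cis θ)|) (Ioc 0 (2 * Real.pi)) := by
  obtain ⟨hm, ⟨M, hM⟩, -⟩ := hG
  refine intInt_le (M := M) (Measurable.abs ((hm.comp (by fun_prop : Continuous fun θ : ℝ =>
    z - cis θ).measurable).sub (hm.comp (by fun_prop : Continuous fun θ : ℝ =>
    z₀ - cis θ).measurable))) fun θ => ?_
  rw [abs_abs, abs_le]
  constructor <;> linarith [hM (z - cis θ), hM (z₀ - cis θ)]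

theorem GoodC.mul {G H : ℂ → ℝ} (hG : GoodC G) (hH : GoodC H) : GoodC (fun x => G x * H x) := by
  obtain ⟨M, hM⟩ := hG.2.1
  obtain ⟨N, hN⟩ := hH.2.1
  refine ⟨hG.1.mul hH.1, ⟨M * N, fun x => ⟨mul_nonneg (hM x).1 (hN x).1,
    mul_le_mul (hM x).2 (hN x).2 (hN x).1 ((hM x).1.trans (hM x).2)⟩⟩, fun z₀ => ?_⟩
  have ht := ((hG.2.2 z₀).const_mul N).add ((hH.2.2 z₀).const_mul M)
  simp only [mul_zero, add_zero] at ht
  refine squeeze_zero (fun z => integral_nonneg fun _ => abs_nonneg _) (fun z => ?_) ht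
  rw [← integral_const_mul, ← integral_const_mul,
    ← integral_add ((hG.intDiff z z₀).const_mul _) ((hH.intDiff z z₀).const_mul _)]
  refine integral_mono_of_nonneg (Eventually.of_forall fun _ => abs_nonneg _)
    (((hG.intDiff z z₀).const_mul _).add ((hH.intDiff z z₀).const_mul _))
    (Eventually.of_forall fun θ => ?_)
  simp only
  set a := G (z - cis θ)
  set a' := G (z₀ - cis θ) with ha'
  set b := H (z - cis θ) with hb
  set b' := H (z₀ - cis θ)
  have : a * b - a' * b' = b * (a - a') + a' * (b - b') := by ring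
  rw [this]
  refine (abs_add_le _ _).trans (add_le_add ?_ ?_)
  · rw [abs_mul, abs_of_nonneg (hN _).1]
    exact mul_le_mul_of_nonneg_right (hN _).2 (abs_nonneg _)
  · rw [abs_mul, abs_of_nonneg (hM _).1]
    exact mul_le_mul_of_nonneg_right (hM _).2 (abs_nonneg _)

theorem circ_pos {W : Set ℂ} (hW : IsOpen W) {p : ℂ} {θ : ℝ} (h : p + cis θ ∈ W) :
    0 < circ W p := by
  have hpi := Real.two_pi_pos
  have hper : Function.Periodic cis (2 * Real.pi) := cis_add_two_pi
  have ho : IsOpen {t : ℝ | p + cis t ∈ W} := hW.preimage (by fun_prop)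
  have h1 : toIocMod hpi 0 θ ∈ {t : ℝ | p + cis t ∈ W} := by
    rw [mem_ofPred_eq, toIocMod, hper.sub_zsmul_eq]; exact h
  have h2 : toIocMod hpi 0 θ ∈ closure (Ioo 0 (2 * Real.pi)) := by
    rw [closure_Ioo hpi.ne]
    simpa using Ioc_subset_Icc_self (toIocMod_mem_Ioc hpi 0 θ)
  have h3 := (ho.inter isOpen_Ioo).measure_pos volume (mem_closure_iff.1 h2 _ ho h1)
  have : circ W p = volume.real ({t : ℝ | p + cis t ∈ W} ∩ Ioc 0 (2 * Real.pi)) := by
    rw [circ, ← measureReal_restrict_apply ho.measurableSet, ← integral_indicator_one ho.measurableSet]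
    rfl
  rw [this]
  refine ENNReal.toReal_pos (h3.trans_le (measure_mono (inter_subset_inter_right _
    Ioo_subset_Ioc_self))).ne' ((measure_mono inter_subset_right).trans_lt measure_Ioc_lt_top).ne

theorem circ_step {G : ℂ → ℝ} (hG : GoodC G) {y : ℂ} {r : ℝ} (hs : ∀ x, x ∉ ball y r → G x = 0)
    (hpos : 0 < ∫ x, G x) {W A : Set ℂ} (hW : IsOpen W)
    (hBW : ∀ p ∈ ball y r, ∃ θ, p + cis θ ∈ W) (hA : MeasurableSet A)
    (hAW : ∀ W' ⊆ W, IsOpen W' → W'.Nonempty → volume (A ∩ W') ≠ 0) :
    0 < ∫ x, G x * circ A x := by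
  obtain ⟨M, hM⟩ := hG.2.1
  set μ := (volume : Measure ℝ).restrict (Ioc 0 (2 * Real.pi)) with hμ
  have hGi : Integrable G := by
    rw [← integrableOn_iff_integrable_of_support_subset (s := ball y r)
      (fun x hx => by by_contra h; exact hx (hs x h))]
    exact Measure.integrableOn_of_bounded (M := M) measure_ball_lt_top.ne hG.1.aestronglyMeasurable
      (Eventually.of_forall fun x => by rw [Real.norm_eq_abs, abs_of_nonneg (hM x).1]; exact (hM x).2)
  let Λ : ℂ → ℝ := fun z => ∫ θ, G (z - cis θ) ∂μ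
  have hΛi : ∀ z, Integrable (fun θ => G (z - cis θ)) μ := fun z =>
    intInt_le (M := M) (hG.1.comp (by fun_prop : Continuous fun θ : ℝ => z - cis θ).measurable)
      fun θ => by rw [abs_of_nonneg (hM _).1]; exact (hM _).2
  have hΛc : Continuous Λ := by
    refine continuous_iff_continuousAt.2 fun z₀ => ?_
    rw [ContinuousAt, tendsto_iff_dist_tendsto_zero]
    refine squeeze_zero (fun _ => dist_nonneg) (fun z => ?_) (hG.2.2 z₀)
    rw [Real.dist_eq, ← integral_sub (hΛi z) (hΛi z₀)]
    exact abs_integral_le_integral_abs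
  have hΛ0 : ∀ z, 0 ≤ Λ z := fun z => integral_nonneg fun _ => (hM _).1
  have key : ∀ B : Set ℂ, MeasurableSet B →
      Integrable (fun z => B.indicator (fun _ => (1 : ℝ)) z * Λ z) ∧
      Integrable (fun x => G x * circ B x) ∧
      ∫ z, B.indicator (fun _ => (1 : ℝ)) z * Λ z = ∫ x, G x * circ B x := by
    intro B hB
    have hb : ∀ z, ‖B.indicator (fun _ => (1 : ℝ)) z‖ ≤ 1 := fun z => by
      rw [Real.norm_eq_abs, abs_of_nonneg (ind_bounds B _).1]; exact (ind_bounds B _).2
    have i2 : Integrable (fun p : ℝ × ℂ => G p.2 * B.indicator (fun _ => (1 : ℝ)) (p.2 + cis p.1))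
        (μ.prod volume) := by
      refine Integrable.mul_bdd (c := 1) (hGi.comp_snd μ) ((measurable_const.indicator hB).comp
        (by fun_prop : Continuous fun q : ℝ × ℂ => q.2 + cis q.1).measurable).aestronglyMeasurable
        (Eventually.of_forall fun p => hb _)
    have hsh : MeasurePreserving (fun p : ℝ × ℂ => (p.1, p.2 - cis p.1)) (μ.prod volume)
        (μ.prod volume) :=
      (MeasurePreserving.id μ).skew_product (g := fun θ z => z - cis θ)
        (by fun_prop : Continuous fun q : ℝ × ℂ => q.2 - cis q.1).measurable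
        (Eventually.of_forall fun θ => (measurePreserving_sub_right volume (cis θ)).map_eq)
    have i1 : Integrable (fun p : ℝ × ℂ => B.indicator (fun _ => (1 : ℝ)) p.2 * G (p.2 - cis p.1))
        (μ.prod volume) := by
      have := hsh.integrable_comp_of_integrable i2
      refine this.congr (Eventually.of_forall fun p => ?_)
      simp [mul_comm]
    refine ⟨?_, ?_, ?_⟩
    · simpa only [integral_const_mul] using i1.integral_prod_right
    · simpa only [integral_const_mul, circ, hμ] using i2.integral_prod_right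
    · calc ∫ z, B.indicator (fun _ => (1 : ℝ)) z * Λ z
          = ∫ z, ∫ θ, B.indicator (fun _ => (1 : ℝ)) z * G (z - cis θ) ∂μ := by
            simp only [integral_const_mul, Λ]
        _ = ∫ θ, (∫ z, B.indicator (fun _ => (1 : ℝ)) z * G (z - cis θ)) ∂μ :=
            (integral_integral_swap i1).symm
        _ = ∫ θ, (∫ x, G x * B.indicator (fun _ => (1 : ℝ)) (x + cis θ)) ∂μ := by
            refine integral_congr_ae (Eventually.of_forall fun θ => ?_)
            simp only
            rw [← integral_add_right_eq_self _ (cis θ)]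
            simp [mul_comm]
        _ = ∫ x, ∫ θ, G x * B.indicator (fun _ => (1 : ℝ)) (x + cis θ) ∂μ :=
            integral_integral_swap i2
        _ = _ := by simp only [integral_const_mul, circ, hμ]
  obtain ⟨-, w2, w3⟩ := key W hW.measurableSet
  have h1 : 0 < ∫ x, G x * circ W x := by
    rw [integral_pos_iff_support_of_nonneg (fun x => mul_nonneg (hM x).1 (circ_nonneg _ _)) w2]
    refine ((integral_pos_iff_support_of_nonneg (fun x => (hM x).1) hGi).1 hpos).trans_le
      (measure_mono fun x hx => ?_)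
    have hx' : x ∈ ball y r := by by_contra h; exact hx (hs x h)
    obtain ⟨θ, hθ⟩ := hBW x hx'
    exact mul_ne_zero hx (circ_pos hW hθ).ne'
  have hne : (W ∩ {z | 0 < Λ z}).Nonempty := by
    by_contra h
    rw [← w3, integral_eq_zero_of_ae (Eventually.of_forall fun z => ?_)] at h1
    · exact lt_irrefl _ h1
    · by_cases hz : z ∈ W
      · have : Λ z = 0 := le_antisymm (not_lt.1 fun h' => h ⟨z, hz, h'⟩) (hΛ0 z)
        simp [this]
      · simp [hz]
  obtain ⟨a1, -, a3⟩ := key A hA
  rw [← a3, integral_pos_iff_support_of_nonneg (fun x => mul_nonneg (ind_bounds A x).1 (hΛ0 x)) a1]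
  refine (pos_iff_ne_zero.2 (hAW _ inter_subset_left (hW.inter (isOpen_lt continuous_const hΛc))
    hne)).trans_le (measure_mono fun z hz => ?_)
  have : Λ z ≠ 0 := ne_of_gt hz.2.2
  simp [hz.1, this]

theorem circ_ae_zero {A : Set ℂ} (_hA : MeasurableSet A)
    (hu : ∀ᵐ p : ℂ × ℝ, ¬ (p.1 ∈ A ∧ p.1 + Complex.exp (p.2 * Complex.I) ∈ A)) :
    ∀ᵐ x : ℂ, x ∈ A → circ A x = 0 := by
  filter_upwards [Measure.ae_ae_of_ae_prod (μ := volume) (ν := volume) hu] with x hx hxA
  refine integral_eq_zero_of_ae (ae_restrict_of_ae ?_)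
  filter_upwards [hx] with θ hθ
  exact indicator_of_notMem (fun h => hθ ⟨hxA, h⟩) _

end Crest.Agent.R40
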