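import Crest.Agent.R40.TDefs

/-!
# R40/TCut: cut-wire theorem and boundary bumping  (task)

* `cut_wire`: work in the compact Hausdorff space `↥X`.  For `a ∈ X ∩ A` the connected component
  of `a` in `↥X` is compact, preconnected (image under `Subtype.val`), so misses `B`;
  `connectedComponent_eq_iInter_isClopen` + compactness of `X ∩ B` give a clopen `W a ∋ a` missing
  `B` (finite intersection, `IsCompact.elim_finite_subfamily_closed`); finitely many `W a` cover the
  compact `X ∩ A`; `XA` = their union, `XB` = complement.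
* `bump`: shrink `ε` below `dist x y`.  `X = K ∩ closedBall x ε` is compact.  If no continuum in `X`
  meets `{x}` and `sphere x ε`, `cut_wire` gives `XA ∋ x` missing the sphere; `XA` and
  `XB ∪ (K \ ball x ε)` are disjoint closed sets covering `K`, both non-empty
  (`isPreconnected_closed_iff` / `IsPreconnected.subset_or_subset`-style contradiction).
-/

set_option autoImplicit false
open Set Metric

namespace Crest.Agent.R40

theorem cut_wire {X A B : Set ℂ} (hX : IsCompact X) (hA : IsClosed A) (hB : IsClosed B)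
    (h : ∀ K ⊆ X, IsCompact K → IsPreconnected K → (K ∩ A).Nonempty → (K ∩ B).Nonempty → False) :
    ∃ XA XB : Set ℂ, IsCompact XA ∧ IsCompact XB ∧ Disjoint XA XB ∧ XA ∪ XB = X ∧
      Disjoint XA B ∧ Disjoint XB A := by
  classical
  have : CompactSpace X := isCompact_iff_compactSpace.1 hX
  have key : ∀ a : X, (a : ℂ) ∈ A →
      ∃ W : Set X, IsClopen W ∧ a ∈ W ∧ ∀ z ∈ W, (z : ℂ) ∉ B := by
    intro a ha
    have hcc : ∀ z ∈ connectedComponent a, (z : ℂ) ∉ B := by
      intro z hz hzB
      refine h (Subtype.val '' connectedComponent a) ?_ ?_ ?_ ?_ ?_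
      · rintro _ ⟨w, -, rfl⟩; exact w.2
      · exact (isClosed_connectedComponent.isCompact).image continuous_subtype_val
      · exact isPreconnected_connectedComponent.image _ continuous_subtype_val.continuousOn
      · exact ⟨a, ⟨a, mem_connectedComponent, rfl⟩, ha⟩
      · exact ⟨z, ⟨z, hz, rfl⟩, hzB⟩
    have hB' : IsCompact ((Subtype.val : X → ℂ) ⁻¹' B) :=
      (hB.preimage continuous_subtype_val).isCompact
    have hd : Disjoint ((Subtype.val : X → ℂ) ⁻¹' B)
        (⋂ s : {s : Set X // IsClopen s ∧ a ∈ s}, (s : Set X)) := by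
      rw [← connectedComponent_eq_iInter_isClopen, Set.disjoint_left]
      intro z hz hz'
      exact hcc z hz' hz
    obtain ⟨t, ht⟩ := hB'.elim_finite_subfamily_closed
      (fun s : {s : Set X // IsClopen s ∧ a ∈ s} => (s : Set X)) (fun s => s.2.1.isClosed)
      (Set.disjoint_iff_inter_eq_empty.1 hd)
    refine ⟨⋂ s ∈ t, (s : Set X), isClopen_biInter_finset fun s _ => s.2.1, ?_, ?_⟩
    · exact mem_iInter₂.2 fun s _ => s.2.2
    · intro z hz hzB
      exact Set.disjoint_left.1 (Set.disjoint_iff_inter_eq_empty.2 ht) hzB hz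
  choose! W hW using key
  have hA' : IsCompact ((Subtype.val : X → ℂ) ⁻¹' A) :=
    (hA.preimage continuous_subtype_val).isCompact
  obtain ⟨t, htA, ht⟩ := hA'.elim_nhds_subcover W
    (fun a ha => (hW a ha).1.isOpen.mem_nhds (hW a ha).2.1)
  have hclo : IsClopen (⋃ a ∈ t, W a) :=
    isClopen_biUnion_finset fun a ha => (hW a (htA a ha)).1
  refine ⟨Subtype.val '' (⋃ a ∈ t, W a), Subtype.val '' (⋃ a ∈ t, W a)ᶜ,
    hclo.isClosed.isCompact.image continuous_subtype_val,
    hclo.compl.isClosed.isCompact.image continuous_subtype_val, ?_, ?_, ?_, ?_⟩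
  · exact (Set.disjoint_image_iff Subtype.val_injective).2 disjoint_compl_right
  · rw [← image_union, union_compl_self, image_univ, Subtype.range_coe]
  · rw [Set.disjoint_left]
    rintro _ ⟨z, hz, rfl⟩ hzB
    obtain ⟨a, ha, hza⟩ := mem_iUnion₂.1 hz
    exact (hW a (htA a ha)).2.2 z hza hzB
  · rw [Set.disjoint_left]
    rintro _ ⟨z, hz, rfl⟩ hzA
    exact hz (ht hzA)

/-- boundary bumping -/
theorem bump {K : Set ℂ} (hK : IsClosed K) (hc : IsPreconnected K) {x y : ℂ} (hx : x ∈ K)
    (hy : y ∈ K) (hxy : y ≠ x) {ε : ℝ} (hε : 0 < ε) :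
    ∃ L ⊆ K ∩ ball x ε, IsCompact L ∧ IsPreconnected L ∧ x ∈ L ∧ ∃ z ∈ L, z ≠ x := by
  have hd : 0 < dist y x := dist_pos.2 hxy
  set r : ℝ := min ε (dist y x) / 2 with hr
  have hm : 0 < min ε (dist y x) := lt_min hε hd
  have hr0 : 0 < r := by positivity
  have hrε : r < ε := by
    have := min_le_left ε (dist y x); linarith
  have hry : r < dist y x := by
    have := min_le_right ε (dist y x); linarith
  have hX : IsCompact (K ∩ closedBall x r) := (isCompact_closedBall x r).inter_left hK
  by_contra hcon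
  have h0 : ∀ L ⊆ K ∩ closedBall x r, IsCompact L → IsPreconnected L →
      (L ∩ {x}).Nonempty → (L ∩ sphere x r).Nonempty → False := by
    intro L hL hLc hLp hLx hLs
    apply hcon
    obtain ⟨x', hx'L, hx'⟩ := hLx
    rw [mem_singleton_iff] at hx'
    subst hx'
    obtain ⟨z, hzL, hz⟩ := hLs
    refine ⟨L, fun w hw => ⟨(hL hw).1, closedBall_subset_ball hrε (hL hw).2⟩, hLc, hLp, hx'L,
      z, hzL, ?_⟩
    rintro rfl
    simp only [mem_sphere, dist_self] at hz
    linarith
  obtain ⟨XA, XB, hXA, hXB, hdis, hun, hAs, hBx⟩ :=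
    cut_wire hX isClosed_singleton isClosed_sphere h0
  have hxA : x ∈ XA := by
    have : x ∈ XA ∪ XB := by rw [hun]; exact ⟨hx, mem_closedBall_self hr0.le⟩
    exact this.resolve_right fun hb => Set.disjoint_left.1 hBx hb rfl
  have hAsub : XA ⊆ K ∩ closedBall x r := hun ▸ subset_union_left
  have hAball : XA ⊆ ball x r := by
    intro w hw
    have h1 : dist w x ≤ r := (hAsub hw).2
    have h2 : dist w x ≠ r := fun e => Set.disjoint_left.1 hAs hw e
    exact lt_of_le_of_ne h1 h2
  have hcl : IsClosed (XB ∪ (ball x r)ᶜ) := hXB.isClosed.union isOpen_ball.isClosed_compl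
  have hcov : K ⊆ XA ∪ (XB ∪ (ball x r)ᶜ) := by
    intro w hw
    by_cases hb : w ∈ ball x r
    · have : w ∈ XA ∪ XB := by rw [hun]; exact ⟨hw, ball_subset_closedBall hb⟩
      rcases this with h1 | h1
      · exact Or.inl h1
      · exact Or.inr (Or.inl h1)
    · exact Or.inr (Or.inr hb)
  have hyn : y ∈ XB ∪ (ball x r)ᶜ := Or.inr fun hb => by
    have : dist y x < r := hb
    linarith
  obtain ⟨w, -, hwA, hwB⟩ := isPreconnected_closed_iff.1 hc XA _ hXA.isClosed hcl hcov
    ⟨x, hx, hxA⟩ ⟨y, hy, hyn⟩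
  rcases hwB with h1 | h1
  · exact Set.disjoint_left.1 hdis hwA h1
  · exact h1 (hAball hwA)

end Crest.Agent.R40
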