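import Mathlib

/-!
# Row 40, topological half: definitions (FROZEN, owner helper65)

Goal of the `T*` files: there are no five open unit-distance-free subsets of `ℂ` with dense union
(`TTop.no_open_five`).  A `Cfg` is the normalised form: closed sets `F i` covering `ℂ`,
`I x` = colours at `x`, `U i` = points whose only colour is `i` (open, `F i = closure (U i)`),
no unit distance between `F i` and `U i`.
-/

set_option autoImplicit false
open Set Metric

namespace Crest.Agent.R40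

/-- `e^{iθ}` -/
noncomputable def cis (θ : ℝ) : ℂ := Complex.exp (θ * Complex.I)

@[simp] theorem norm_cis (θ : ℝ) : ‖cis θ‖ = 1 := Complex.norm_exp_ofReal_mul_I θ
@[simp] theorem cis_re (θ : ℝ) : (cis θ).re = Real.cos θ := Complex.exp_ofReal_mul_I_re θ
@[simp] theorem cis_im (θ : ℝ) : (cis θ).im = Real.sin θ := Complex.exp_ofReal_mul_I_im θ
theorem cis_add (θ φ : ℝ) : cis (θ + φ) = cis θ * cis φ := by
  simp [cis, add_mul, Complex.exp_add]
theorem cis_add_pi (θ : ℝ) : cis (θ + Real.pi) = - cis θ := by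
  apply Complex.ext <;> simp
theorem cis_add_two_pi (θ : ℝ) : cis (θ + 2 * Real.pi) = cis θ := by
  apply Complex.ext <;> simp
@[fun_prop] theorem continuous_cis : Continuous cis := by
  unfold cis; fun_prop

/-- `w` strictly separates `a` and `b` by its unit circle. -/
def Lune (a b w : ℂ) : Prop := (‖w - a‖ < 1 ∧ 1 < ‖w - b‖) ∨ (‖w - b‖ < 1 ∧ 1 < ‖w - a‖)

/-- normalised closed colouring -/
structure Cfg where
  F : Fin 5 → Set ℂ
  closed : ∀ i, IsClosed (F i)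
  cover : ∀ x, ∃ i, x ∈ F i
  reg : ∀ i, F i ⊆ closure {x | ∀ j, x ∈ F j → j = i}
  unit : ∀ i x y, x ∈ F i → (∀ j, y ∈ F j → j = i) → ‖x - y‖ ≠ 1

namespace Cfg
variable (C : Cfg)

open Classical in
/-- colours at `x` -/
noncomputable def I (x : ℂ) : Finset (Fin 5) := Finset.univ.filter (fun i => x ∈ C.F i)
/-- points of the single colour `i` -/
def U (i : Fin 5) : Set ℂ := {x | C.I x = {i}}
/-- points of a single colour -/
def UU : Set ℂ := {x | ∃ i, x ∈ C.U i}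
/-- points with at least three colours -/
def M3 : Set ℂ := {x | 3 ≤ (C.I x).card}
/-- a continuum all of whose points carry the colours in `e` -/
def Cont (e : Finset (Fin 5)) (K : Set ℂ) : Prop :=
  IsCompact K ∧ IsPreconnected K ∧ ∀ x ∈ K, e ⊆ C.I x
/-- colours `i`, `j` touch along a non-degenerate continuum inside `V` -/
def Contact (V : Set ℂ) (i j : Fin 5) : Prop := ∃ K, C.Cont {i, j} K ∧ K.Nontrivial ∧ K ⊆ V
/-- the contact graph at `v` -/
def Γ (v : ℂ) (i j : Fin 5) : Prop := i ≠ j ∧ ∀ ε > (0 : ℝ), C.Contact (ball v ε) i j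
/-- the colour set is constant along the unit circle about `v` near the angle `θ` -/
def Gen (v : ℂ) (θ : ℝ) : Prop :=
  ∃ ε > (0 : ℝ), ∀ t ∈ Ioo (θ - ε) (θ + ε), C.I (v + cis t) = C.I (v + cis θ)

variable {C}

@[simp] theorem mem_I {x : ℂ} {i : Fin 5} : i ∈ C.I x ↔ x ∈ C.F i := by simp [I]

theorem I_nonempty (x : ℂ) : (C.I x).Nonempty := by
  obtain ⟨i, hi⟩ := C.cover x; exact ⟨i, mem_I.2 hi⟩

theorem mem_U {x : ℂ} {i : Fin 5} : x ∈ C.U i ↔ ∀ j, x ∈ C.F j → j = i := by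
  constructor
  · intro h j hj
    have : j ∈ C.I x := mem_I.2 hj
    rw [show C.I x = {i} from h] at this
    simpa using this
  · intro h
    obtain ⟨j, hj⟩ := C.cover x
    have hji := h j hj
    subst hji
    show C.I x = {j}
    ext l; simp only [mem_I, Finset.mem_singleton]
    exact ⟨h l, fun hl => hl ▸ hj⟩

theorem U_sub_F {x : ℂ} {i : Fin 5} (h : x ∈ C.U i) : x ∈ C.F i := by
  have : i ∈ C.I x := by rw [show C.I x = {i} from h]; simp
  exact mem_I.1 this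

theorem U_unique {x : ℂ} {i j : Fin 5} (h : x ∈ C.U i) (h' : x ∈ C.U j) : i = j :=
  mem_U.1 h' i (U_sub_F h)

theorem mem_UU {x : ℂ} : x ∈ C.UU ↔ (C.I x).card = 1 := by
  simp [UU, U, Finset.card_eq_one]

/-- upper semicontinuity of `I` -/
theorem I_usc (x : ℂ) : ∃ ε > 0, ∀ y ∈ ball x ε, C.I y ⊆ C.I x := by
  have ho : IsOpen (⋂ i ∈ (C.I x)ᶜ, (C.F i)ᶜ) :=
    isOpen_biInter_finset fun i _ => (C.closed i).isOpen_compl
  have hx : x ∈ ⋂ i ∈ (C.I x)ᶜ, (C.F i)ᶜ := by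
    simp only [mem_iInter, Finset.mem_compl, mem_I]; exact fun i hi => hi
  obtain ⟨ε, hε, h⟩ := Metric.isOpen_iff.1 ho x hx
  refine ⟨ε, hε, fun y hy i hi => ?_⟩
  by_contra hc
  have := h hy
  simp only [mem_iInter, Finset.mem_compl] at this
  exact this i hc (mem_I.1 hi)

theorem isOpen_U (i : Fin 5) : IsOpen (C.U i) := by
  refine Metric.isOpen_iff.2 fun x hx => ?_
  obtain ⟨ε, hε, h⟩ := I_usc (C := C) x
  refine ⟨ε, hε, fun y hy => ?_⟩
  have h1 := h y hy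
  rw [show C.I x = {i} from hx] at h1
  exact (Finset.subset_singleton_iff.1 h1).resolve_left (I_nonempty y).ne_empty

theorem isOpen_UU : IsOpen C.UU := by
  have : C.UU = ⋃ i, C.U i := by ext x; simp [UU]
  rw [this]; exact isOpen_iUnion isOpen_U

theorem F_sub_closure {i : Fin 5} {x : ℂ} (h : x ∈ C.F i) : x ∈ closure (C.U i) := by
  have := C.reg i h
  rwa [show {x | ∀ j, x ∈ C.F j → j = i} = C.U i from by ext y; simp [mem_U]] at this

theorem exists_U_near {i : Fin 5} {x : ℂ} (h : x ∈ C.F i) {ε : ℝ} (hε : 0 < ε) :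
    ∃ u ∈ C.U i, u ∈ ball x ε := by
  obtain ⟨u, hu, hd⟩ := Metric.mem_closure_iff.1 (F_sub_closure h) ε hε
  exact ⟨u, hu, by rwa [mem_ball, dist_comm]⟩

theorem dense_UU : Dense C.UU := by
  intro x
  obtain ⟨i, hi⟩ := C.cover x
  exact closure_mono (show C.U i ⊆ C.UU from fun y hy => ⟨i, hy⟩) (F_sub_closure hi)

theorem unit' {i : Fin 5} {x y : ℂ} (hx : x ∈ C.F i) (hy : y ∈ C.U i) : ‖x - y‖ ≠ 1 :=
  C.unit i x y hx (mem_U.1 hy)

theorem isClosed_M3 : IsClosed C.M3 := by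
  rw [← isOpen_compl_iff]
  refine Metric.isOpen_iff.2 fun x hx => ?_
  obtain ⟨ε, hε, h⟩ := I_usc (C := C) x
  refine ⟨ε, hε, fun y hy hy3 => hx ?_⟩
  exact le_trans hy3 (Finset.card_le_card (h y hy))

theorem disjoint_UU_M3 : Disjoint C.UU C.M3 := by
  rw [Set.disjoint_left]
  intro x hx h3
  have h1 := mem_UU.1 hx
  have : 3 ≤ (C.I x).card := h3
  omega

theorem isClosed_type (e : Finset (Fin 5)) : IsClosed {x | e ⊆ C.I x} := by
  have : {x | e ⊆ C.I x} = ⋂ i ∈ e, C.F i := by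
    ext x; simp only [mem_iInter]
    exact ⟨fun h i hi => mem_I.1 (h hi), fun h i hi => mem_I.2 (h i hi)⟩
  rw [this]; exact isClosed_biInter fun i _ => C.closed i

end Cfg

/-- `ℓ` (only its values on `U` matter) differs near every point `x ∈ V \ M` from the germ
`σ x` by a constant. -/
def IsLift {A : Type} [AddCommGroup A] (U M : Set ℂ) (σ : ℂ → ℂ → A) (V : Set ℂ) (ℓ : ℂ → A) :
    Prop :=
  ∀ x ∈ V, x ∉ M → ∃ ε > 0, ∃ c, ∀ u ∈ U, u ∈ ball x ε → ℓ u = σ x u + c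

theorem IsLift.mono {A : Type} [AddCommGroup A] {U M : Set ℂ} {σ : ℂ → ℂ → A} {V W : Set ℂ}
    {ℓ : ℂ → A} (h : IsLift U M σ V ℓ) (hW : W ⊆ V) : IsLift U M σ W ℓ :=
  fun x hx hM => h x (hW hx) hM

/-- a triangle in a graph on the colours -/
def Tri (G : Fin 5 → Fin 5 → Prop) : Prop := ∃ a b c, G a b ∧ G b c ∧ G c a
/-- a 4-cycle -/
def Cyc4 (G : Fin 5 → Fin 5 → Prop) : Prop :=
  ∃ a b c d, a ≠ c ∧ b ≠ d ∧ G a b ∧ G b c ∧ G c d ∧ G d a
/-- a 5-cycle -/
def Cyc5 (G : Fin 5 → Fin 5 → Prop) : Prop :=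
  ∃ a b c d e, a ≠ c ∧ a ≠ d ∧ b ≠ d ∧ b ≠ e ∧ c ≠ e ∧ G a b ∧ G b c ∧ G c d ∧ G d e ∧ G e a

namespace Cfg
variable {C : Cfg}

theorem Contact.mono {V W : Set ℂ} {i j : Fin 5} (h : C.Contact V i j) (hVW : V ⊆ W) :
    C.Contact W i j := by
  obtain ⟨K, h1, h2, h3⟩ := h
  exact ⟨K, h1, h2, h3.trans hVW⟩

theorem Contact.symm {V : Set ℂ} {i j : Fin 5} (h : C.Contact V i j) : C.Contact V j i := by
  obtain ⟨K, h1, h2, h3⟩ := h
  exact ⟨K, by rwa [Finset.pair_comm], h2, h3⟩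

theorem Γ.symm {v : ℂ} {i j : Fin 5} (h : C.Γ v i j) : C.Γ v j i :=
  ⟨h.1.symm, fun ε hε => (h.2 ε hε).symm⟩

theorem Γ.mem {v : ℂ} {i j : Fin 5} (h : C.Γ v i j) : i ∈ C.I v := by
  rw [mem_I, ← (C.closed i).closure_eq, Metric.mem_closure_iff]
  intro ε hε
  obtain ⟨K, h1, ⟨x, hx, -⟩, h3⟩ := h.2 ε hε
  refine ⟨x, mem_I.1 (h1.2.2 x hx (by simp)), ?_⟩
  rw [dist_comm]; exact h3 hx

/-- a ball in which all colours occur at `v` and all contacts are edges of `Γ v` -/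
theorem Γ_ball (v : ℂ) : ∃ ε > (0 : ℝ), (∀ x ∈ ball v ε, C.I x ⊆ C.I v) ∧
    ∀ i j, i ≠ j → C.Contact (ball v ε) i j → C.Γ v i j := by
  obtain ⟨ε₀, h₀, hI⟩ := I_usc (C := C) v
  have key : ∀ p : Fin 5 × Fin 5, ∃ ε > (0 : ℝ),
      p.1 ≠ p.2 → C.Contact (ball v ε) p.1 p.2 → C.Γ v p.1 p.2 := by
    rintro ⟨i, j⟩
    by_cases h : ∀ ε > (0 : ℝ), C.Contact (ball v ε) i j
    · exact ⟨1, one_pos, fun hij _ => ⟨hij, h⟩⟩
    · push Not at h
      obtain ⟨ε, hε, hn⟩ := h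
      exact ⟨ε, hε, fun _ hc => absurd hc hn⟩
  choose f hf hf' using key
  obtain ⟨p, -, hp⟩ := Finset.exists_min_image Finset.univ f Finset.univ_nonempty
  refine ⟨min ε₀ (f p), lt_min h₀ (hf p), fun x hx => hI x (ball_subset_ball (min_le_left _ _) hx),
    fun i j hij hc => hf' (i, j) hij (hc.mono (ball_subset_ball ?_))⟩
  exact (min_le_right _ _).trans (hp (i, j) (Finset.mem_univ _))

end Cfg

end Crest.Agent.R40
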