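import Crest.Agent.R40.TBasic

/-!
# R40/TPinch: curves near the unit circle about `v` that miss two colours  (task)

* `three_curve`: for `‖p - v‖ ≤ δ ≤ 1/10` let `f p t = s + √(1 - ‖p - v‖² + s²)`,
  `s = (p - v).re cos t + (p - v).im sin t` (continuous, within `δ` of `1`).  For `ρ ≥ 1/2`:
  `‖v + ρ cis t - p‖² - 1 = ρ² - 2ρs + ‖p - v‖² - 1`, so `‖v + ρ cis t - p‖ < 1 ↔ ρ < f p t` and
  `1 < … ↔ f p t < ρ`.  `γ t = v + ((min + max)/2) cis t` over the three points.  If `min = max` then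
  `γ t` is at unit distance from the three distinct points; there is at most one such point `z`
  (two distinct such points `z, z'` are at unit distance from at most two points: subtracting the
  equations puts `p_i` on a line, which meets a circle in `≤ 2` points); `ζ` = its argument seen
  from `v`, in `[-π, π]` (any number if there is none).
* `pinch`: `K n ⊆ ball v (1/(10(n+1)))` from `Γ`; a non-trivial preconnected set has three points;
  `ζ n ∈ Icc (-π) π`, convergent subsequence (`IsCompact.tendsto_subseq`); for a closed arc missing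
  `ζ + 2πℤ`, also `ζ n + 2πℤ` misses it for large `n` in the subsequence; `sep_disj`.
-/

set_option autoImplicit false
open Set Metric

namespace Crest.Agent.R40

/-- distance from the origin to the unit circle about `w` in the direction `t` -/
private noncomputable def TP_f (w : ℂ) (t : ℝ) : ℝ :=
  (w.re * Real.cos t + w.im * Real.sin t) +
    √(1 - ‖w‖ ^ 2 + (w.re * Real.cos t + w.im * Real.sin t) ^ 2)

private theorem TP_cont (w : ℂ) : Continuous (TP_f w) := by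
  unfold TP_f; fun_prop

private theorem TP_sq (w : ℂ) (t ρ : ℝ) :
    ‖(ρ : ℂ) * cis t - w‖ ^ 2 - 1 =
      ρ ^ 2 - 2 * ρ * (w.re * Real.cos t + w.im * Real.sin t) + ‖w‖ ^ 2 - 1 := by
  rw [Complex.sq_norm, Complex.sq_norm, Complex.normSq_apply, Complex.normSq_apply]
  simp only [Complex.sub_re, Complex.sub_im, Complex.mul_re, Complex.mul_im, Complex.ofReal_re,
    Complex.ofReal_im, cis_re, cis_im]
  nlinarith [Real.sin_sq_add_cos_sq t]

private theorem TP_key {w : ℂ} (hw : ‖w‖ ≤ 1 / 10) (t : ℝ) :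
    0 < TP_f w t ∧ ∀ ρ : ℝ, 0 ≤ ρ → ∃ c > (0 : ℝ),
      ‖(ρ : ℂ) * cis t - w‖ ^ 2 - 1 = (ρ - TP_f w t) * c := by
  set s := w.re * Real.cos t + w.im * Real.sin t with hs
  have h0 : 0 ≤ ‖w‖ := norm_nonneg w
  have h1 : s ^ 2 < 1 - ‖w‖ ^ 2 + s ^ 2 := by nlinarith
  have h2 : 0 ≤ 1 - ‖w‖ ^ 2 + s ^ 2 := by nlinarith [sq_nonneg s]
  have h3 : |s| < √(1 - ‖w‖ ^ 2 + s ^ 2) := Real.lt_sqrt_of_sq_lt (by rwa [sq_abs])
  have h4 := Real.sq_sqrt h2
  have h5 := abs_lt.1 h3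
  refine ⟨by unfold TP_f; rw [← hs]; linarith, fun ρ hρ =>
    ⟨ρ - s + √(1 - ‖w‖ ^ 2 + s ^ 2), by linarith, ?_⟩⟩
  rw [TP_sq]
  unfold TP_f
  rw [← hs]
  nlinarith

private theorem TP_lt {w : ℂ} (hw : ‖w‖ ≤ 1 / 10) {t ρ : ℝ} (hρ : 0 ≤ ρ) (h : ρ < TP_f w t) :
    ‖(ρ : ℂ) * cis t - w‖ < 1 := by
  obtain ⟨c, hc, e⟩ := (TP_key hw t).2 ρ hρ
  have : (ρ - TP_f w t) * c < 0 := mul_neg_of_neg_of_pos (by linarith) hc
  nlinarith [norm_nonneg ((ρ : ℂ) * cis t - w)]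

private theorem TP_gt {w : ℂ} (hw : ‖w‖ ≤ 1 / 10) {t ρ : ℝ} (hρ : 0 ≤ ρ) (h : TP_f w t < ρ) :
    1 < ‖(ρ : ℂ) * cis t - w‖ := by
  obtain ⟨c, hc, e⟩ := (TP_key hw t).2 ρ hρ
  have : 0 < (ρ - TP_f w t) * c := mul_pos (by linarith) hc
  nlinarith [norm_nonneg ((ρ : ℂ) * cis t - w)]

private theorem TP_eq {w : ℂ} (hw : ‖w‖ ≤ 1 / 10) (t : ℝ) :
    ‖(TP_f w t : ℂ) * cis t - w‖ = 1 := by
  obtain ⟨c, hc, e⟩ := (TP_key hw t).2 _ (TP_key hw t).1.le
  rw [sub_self, zero_mul] at e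
  nlinarith [norm_nonneg ((TP_f w t : ℂ) * cis t - w)]

private theorem TP_near {w : ℂ} (hw : ‖w‖ ≤ 1 / 10) (t : ℝ) : |TP_f w t - 1| ≤ ‖w‖ := by
  have h := abs_norm_sub_norm_le ((TP_f w t : ℂ) * cis t) ((TP_f w t : ℂ) * cis t - w)
  rw [TP_eq hw, norm_mul, norm_cis, mul_one, Complex.norm_real, Real.norm_eq_abs,
    abs_of_pos (TP_key hw t).1, sub_sub_cancel] at h
  exact h

private theorem TP_cis_eq {s t : ℝ} (h : cis s = cis t) : ∃ n : ℤ, s = t + 2 * Real.pi * n := by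
  obtain ⟨n, hn⟩ := Complex.exp_eq_exp_iff_exists_int.1 h
  refine ⟨n, ?_⟩
  have := congrArg Complex.im hn
  simp at this
  linarith

theorem three_curve {v : ℂ} {δ : ℝ} (hδ : δ ≤ 1 / 10) (p : Fin 3 → ℂ) (hp : Function.Injective p)
    (hv : ∀ i, ‖p i - v‖ ≤ δ) :
    ∃ ζ ∈ Icc (-Real.pi) Real.pi, ∃ γ : ℝ → ℂ, Continuous γ ∧ ∀ t, ‖γ t - (v + cis t)‖ ≤ δ ∧
      ((∀ n : ℤ, t ≠ ζ + 2 * Real.pi * n) → ∃ i j, ‖γ t - p i‖ < 1 ∧ 1 < ‖γ t - p j‖) := by
  have hw : ∀ i, ‖p i - v‖ ≤ 1 / 10 := fun i => (hv i).trans hδ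
  set f : Fin 3 → ℝ → ℝ := fun i => TP_f (p i - v) with hf
  set m : ℝ → ℝ := fun t => min (f 0 t) (min (f 1 t) (f 2 t)) with hm
  set M : ℝ → ℝ := fun t => max (f 0 t) (max (f 1 t) (f 2 t)) with hM
  have hmi : ∀ t, ∃ j, m t = f j t := fun t => by
    rcases min_choice (f 0 t) (min (f 1 t) (f 2 t)) with h | h
    · exact ⟨0, h⟩
    · rcases min_choice (f 1 t) (f 2 t) with h' | h'
      · exact ⟨1, h.trans h'⟩
      · exact ⟨2, h.trans h'⟩
  have hMi : ∀ t, ∃ j, M t = f j t := fun t => by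
    rcases max_choice (f 0 t) (max (f 1 t) (f 2 t)) with h | h
    · exact ⟨0, h⟩
    · rcases max_choice (f 1 t) (f 2 t) with h' | h'
      · exact ⟨1, h.trans h'⟩
      · exact ⟨2, h.trans h'⟩
  have hml : ∀ t i, m t ≤ f i t := fun t i => by
    fin_cases i
    · exact min_le_left _ _
    · exact (min_le_right _ _).trans (min_le_left _ _)
    · exact (min_le_right _ _).trans (min_le_right _ _)
  have hMl : ∀ t i, f i t ≤ M t := fun t i => by
    fin_cases i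
    · exact le_max_left _ _
    · exact (le_max_left _ _).trans (le_max_right _ _)
    · exact (le_max_right _ _).trans (le_max_right _ _)
  set ρ : ℝ → ℝ := fun t => (m t + M t) / 2 with hρ
  have hρ1 : ∀ t, |ρ t - 1| ≤ δ := fun t => by
    obtain ⟨i, hi⟩ := hmi t
    obtain ⟨j, hj⟩ := hMi t
    have h1 := abs_le.1 ((TP_near (hw i) t).trans (hv i))
    have h2 := abs_le.1 ((TP_near (hw j) t).trans (hv j))
    simp only [hρ, hi, hj, hf]
    rw [abs_le]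
    constructor <;> linarith [h1.1, h1.2, h2.1, h2.2]
  have hρ0 : ∀ t, 0 < ρ t := fun t => by
    have := (abs_le.1 (hρ1 t)).1
    linarith
  set γ : ℝ → ℂ := fun t => v + (ρ t : ℂ) * cis t with hγ
  have hγp : ∀ t i, γ t - p i = (ρ t : ℂ) * cis t - (p i - v) := fun t i => by
    simp only [hγ]; ring
  have hcf : ∀ i, Continuous (f i) := fun i => TP_cont _
  have hcρ : Continuous ρ :=
    (((hcf 0).min ((hcf 1).min (hcf 2))).add ((hcf 0).max ((hcf 1).max (hcf 2)))).div_const 2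
  have hcγ : Continuous γ :=
    continuous_const.add ((Complex.continuous_ofReal.comp hcρ).mul continuous_cis)
  have hnear : ∀ t, ‖γ t - (v + cis t)‖ ≤ δ := fun t => by
    have : γ t - (v + cis t) = ((ρ t - 1 : ℝ) : ℂ) * cis t := by
      simp only [hγ]; push_cast; ring
    rw [this, norm_mul, norm_cis, mul_one, Complex.norm_real, Real.norm_eq_abs]
    exact hρ1 t
  have hsep : ∀ t, m t < M t → ∃ i j, ‖γ t - p i‖ < 1 ∧ 1 < ‖γ t - p j‖ := fun t ht => by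
    obtain ⟨j, hj⟩ := hmi t
    obtain ⟨i, hi⟩ := hMi t
    refine ⟨i, j, ?_, ?_⟩
    · rw [hγp]
      refine TP_lt (hw i) (hρ0 t).le ?_
      change ρ t < f i t
      rw [← hi]; simp only [hρ]; linarith
    · rw [hγp]
      refine TP_gt (hw j) (hρ0 t).le ?_
      change f j t < ρ t
      rw [← hj]; simp only [hρ]; linarith
  have hone : ∀ t, ¬ m t < M t → ∀ i, dist (p i) (γ t) = 1 := fun t ht i => by
    have h1 := hml t i
    have h2 := hMl t i
    have h3 : ρ t = f i t := by simp only [hρ]; linarith [not_lt.1 ht]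
    rw [dist_comm, dist_eq_norm, hγp, h3]
    exact TP_eq (hw i) t
  by_cases hex : ∃ t₀, ¬ m t₀ < M t₀
  · obtain ⟨t₀, ht₀⟩ := hex
    refine ⟨Complex.arg (γ t₀ - v), ⟨(Complex.neg_pi_lt_arg _).le, Complex.arg_le_pi _⟩, γ, hcγ,
      fun t => ⟨hnear t, fun hn => hsep t ?_⟩⟩
    by_contra ht
    have heq : γ t = γ t₀ := by
      by_contra hne
      have := EuclideanGeometry.eq_of_dist_eq_of_dist_eq_of_finrank_eq_two (V := ℂ) (P := ℂ)
        Complex.finrank_real_complex hne (p₁ := p 0) (p₂ := p 1) (p := p 2)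
        (fun h => absurd (hp h) (by decide)) (hone t ht 0) (hone t ht 1) (hone t ht 2)
        (hone t₀ ht₀ 0) (hone t₀ ht₀ 1) (hone t₀ ht₀ 2)
      rcases this with h | h <;> exact absurd (hp h) (by decide)
    have h1 : γ t₀ - v = (ρ t : ℂ) * cis t := by rw [← heq]; simp only [hγ]; ring
    have h2 : ‖γ t₀ - v‖ = ρ t := by
      rw [h1, norm_mul, norm_cis, mul_one, Complex.norm_real, Real.norm_eq_abs,
        abs_of_pos (hρ0 t)]
    have h3 := Complex.norm_mul_exp_arg_mul_I (γ t₀ - v)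
    rw [h2] at h3
    have h4 : cis t = cis (Complex.arg (γ t₀ - v)) := by
      have h5 : (ρ t : ℂ) ≠ 0 := by exact_mod_cast (hρ0 t).ne'
      refine mul_left_cancel₀ h5 ?_
      rw [← h1]
      exact h3.symm
    obtain ⟨n, hn'⟩ := TP_cis_eq h4
    exact hn n hn'
  · push Not at hex
    exact ⟨0, ⟨by linarith [Real.pi_pos], Real.pi_pos.le⟩, γ, hcγ,
      fun t => ⟨hnear t, fun _ => hsep t (hex t)⟩⟩

theorem Cfg.pinch {C : Cfg} {v : ℂ} {a b : Fin 5} (h : C.Γ v a b) :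
    ∃ ζ : ℝ, ∀ α β : ℝ, (∀ n : ℤ, ζ + 2 * Real.pi * n ∉ Icc α β) → ∀ δ > (0 : ℝ),
      ∃ γ : ℝ → ℂ, Continuous γ ∧ ∀ t ∈ Icc α β, ‖γ t - (v + cis t)‖ < δ ∧
        a ∉ C.I (γ t) ∧ b ∉ C.I (γ t) := by
  have key : ∀ n : ℕ, ∃ ζ ∈ Icc (-Real.pi) Real.pi, ∃ γ : ℝ → ℂ, Continuous γ ∧ ∀ t,
      ‖γ t - (v + cis t)‖ ≤ 1 / ((n : ℝ) + 1) ∧
      ((∀ k : ℤ, t ≠ ζ + 2 * Real.pi * k) → a ∉ C.I (γ t) ∧ b ∉ C.I (γ t)) := by
    intro n
    have hn : (0 : ℝ) < 1 / ((n : ℝ) + 1) := Nat.one_div_pos_of_nat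
    obtain ⟨K, hK, hKn, hKs⟩ := h.2 (min (1 / 10) (1 / ((n : ℝ) + 1)))
      (lt_min (by norm_num) hn)
    have hinf : K.Infinite := hK.2.1.infinite_of_nontrivial hKn
    set p : Fin 3 → ℂ := fun i => (hinf.natEmbedding K i : ℂ) with hp
    have hpK : ∀ i, p i ∈ K := fun i => (hinf.natEmbedding K i).2
    have hinj : Function.Injective p := fun i j hij =>
      Fin.ext ((hinf.natEmbedding K).injective (Subtype.ext hij))
    obtain ⟨ζ, hζ, γ, hγ, hs⟩ := three_curve (v := v) (min_le_left (1 / 10) (1 / ((n : ℝ) + 1)))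
      p hinj fun i => by
        have := hKs (hpK i)
        rw [mem_ball, dist_eq_norm] at this
        exact this.le
    refine ⟨ζ, hζ, γ, hγ, fun t => ⟨(hs t).1.trans (min_le_right _ _), fun ht => ?_⟩⟩
    obtain ⟨i, j, h1, h2⟩ := (hs t).2 ht
    have hd := Cfg.sep_disj hK (hpK i) (hpK j) h1 h2
    exact ⟨fun ha => Finset.disjoint_left.1 hd ha (by simp),
      fun hb => Finset.disjoint_left.1 hd hb (by simp)⟩
  choose ζ hζ γ hγ hs using key
  obtain ⟨z, -, φ, hφ, hz⟩ := isCompact_Icc.tendsto_subseq hζ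
  refine ⟨z, fun α β hαβ δ hδ => ?_⟩
  have hT : IsClosed (cis '' Icc α β) := (isCompact_Icc.image continuous_cis).isClosed
  have hzT : cis z ∉ cis '' Icc α β := by
    rintro ⟨t, ht, e⟩
    obtain ⟨n, hn⟩ := TP_cis_eq e
    exact hαβ n (hn ▸ ht)
  have h1 : ∀ᶠ n in Filter.atTop, cis (ζ (φ n)) ∉ cis '' Icc α β :=
    ((continuous_cis.tendsto z).comp hz).eventually (hT.isOpen_compl.mem_nhds hzT)
  have h2 : ∀ᶠ n in Filter.atTop, 1 / ((φ n : ℝ) + 1) < δ :=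
    (tendsto_one_div_add_atTop_nhds_zero_nat.comp hφ.tendsto_atTop).eventually
      (gt_mem_nhds hδ)
  obtain ⟨n, hn1, hn2⟩ := (h1.and h2).exists
  refine ⟨γ (φ n), hγ _, fun t ht => ⟨((hs _ t).1).trans_lt hn2, (hs _ t).2 fun k hk => ?_⟩⟩
  exact hn1 ⟨t, ht, by rw [hk, cis_add_int]⟩

end Crest.Agent.R40
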