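import Crest.Agent.R40.TTri
import Crest.Agent.R40.TPinch

/-!
# R40/TFour: no contact graph has a 4-cycle  (task)

Cycle `a b c d`, fifth colour `e` (`exists_fifth`), `ζ₁..ζ₄` from `pinch` for the four edges,
`g θ = sym a e (I (v + cis θ))`; generic `θ` have admissible colour sets (`adm_of`, `Gen.card_le`,
`not_sub_Γ`).
* local constancy at `θ₀ ∉ ⋃ (ζ_i + 2πℤ)`: `y₀ = v + cis θ₀`, `D = ball y₀ ε` from `Γ_ball`; `ε'` so small
  that `[θ₀ - ε', θ₀ + ε']` misses the `ζ_i + 2πℤ` and its arc lies in `ball y₀ (ε/2)`.  If generic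
  `θ₁ < θ₂` in it have different symbols apply `c4_comb` with `G = Γ y₀`, `S = I y₀`: two colours of
  `τ` give `Γ_of_two` hence a contact in `D`; for an edge `x y` take the curve `γ` of `pinch` on
  `[θ₁, θ₂]` with `δ` below `ε/2` and the `I_usc` radii at both ends, colours `i`, `j` of its ends, and
  `contact_of_path` in the open set `D \ (F x ∪ F y)`.  Then `no_tri` / `no_five` at `y₀`.
* counting: `θ` from `exists_gen`, moved (`isOpen_gen`, countable complement is dense) so that no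
  `θ + rπ/3` (`r : ℤ`) is in `ζ_i + 2πℤ` and `θ + rπ/3` is generic for `r = 0..6`.  Each `ζ_i` blocks
  only `r ≡ ⌊(ζ_i - θ)/(π/3)⌋ mod 6`; for a free `r < 6`, `lc_interval` (`dense_gen`) gives equal
  symbols at `θ + rπ/3` and `θ + (r+1)π/3`, contradicting `Gen.disj`, `sym_ne`.
-/

set_option autoImplicit false
open Set Metric

namespace Crest.Agent.R40.Cfg
variable {C : Cfg}

private theorem cis_eq_iff {s t : ℝ} (h : cis s = cis t) : ∃ n : ℤ, s = t + 2 * Real.pi * n := by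
  obtain ⟨n, hn⟩ := Complex.exp_eq_exp_iff_exists_int.1 h
  refine ⟨n, ?_⟩
  have := congrArg Complex.im hn
  simp at this
  linarith

private theorem adm_gen {v : ℂ} {a b c d e : Fin 5} (hnd : [a, b, c, d, e].Nodup)
    (gab : C.Γ v a b) (gbc : C.Γ v b c) (gcd : C.Γ v c d) (gda : C.Γ v d a) {θ : ℝ}
    (hθ : C.Gen v θ) : Adm a b c d e (C.I (v + cis θ)) := by
  have hn : ‖v + cis θ - v‖ = 1 := by simp
  exact adm_of hnd (I_nonempty _) hθ.card_le (not_sub_Γ gab hn) (not_sub_Γ gbc hn)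
    (not_sub_Γ gcd hn) (not_sub_Γ gda hn)

private theorem two_edge {y₀ p : ℂ} {ε : ℝ} (hε : 0 < ε)
    (hΓ : ∀ i j, i ≠ j → C.Contact (ball y₀ ε) i j → C.Γ y₀ i j) (hp : p ∈ ball y₀ (ε / 2))
    (h2 : (C.I p).card ≤ 2) : ∀ x ∈ C.I p, ∀ y ∈ C.I p, x ≠ y → C.Γ y₀ x y := by
  intro x hx y hy hxy
  have hI : C.I p = {x, y} := by
    symm
    apply Finset.eq_of_subset_of_card_le
    · intro z hz
      simp only [Finset.mem_insert, Finset.mem_singleton] at hz
      rcases hz with rfl | rfl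
      exacts [hx, hy]
    · rw [Finset.card_pair hxy]; exact h2
  have hg := Γ_of_two hxy hI
  refine hΓ x y hxy ((hg.2 (ε / 2) (by positivity)).mono ?_)
  intro z hz
  rw [mem_ball] at hz hp ⊢
  have := dist_triangle z p y₀
  linarith

private theorem loc_const {v : ℂ} {a b c d e : Fin 5} (hnd : [a, b, c, d, e].Nodup)
    (gab : C.Γ v a b) (gbc : C.Γ v b c) (gcd : C.Γ v c d) (gda : C.Γ v d a)
    (ζ : Fin 5 × Fin 5 → ℝ)
    (hζ : ∀ p ∈ [(a, b), (b, c), (c, d), (d, a)], ∀ α β : ℝ,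
      (∀ n : ℤ, ζ p + 2 * Real.pi * n ∉ Icc α β) → ∀ δ > (0 : ℝ),
      ∃ γ : ℝ → ℂ, Continuous γ ∧ ∀ t ∈ Icc α β, ‖γ t - (v + cis t)‖ < δ ∧
        p.1 ∉ C.I (γ t) ∧ p.2 ∉ C.I (γ t))
    {θ₀ : ℝ} (hθ₀ : ∀ p ∈ [(a, b), (b, c), (c, d), (d, a)], cis θ₀ ≠ cis (ζ p)) :
    ∃ ε > 0, ∀ u ∈ {θ | C.Gen v θ}, ∀ w ∈ {θ | C.Gen v θ}, |u - θ₀| < ε → |w - θ₀| < ε →
      sym a e (C.I (v + cis u)) = sym a e (C.I (v + cis w)) := by
  obtain ⟨ε, hε, hI, hΓ⟩ := Γ_ball (C := C) (v + cis θ₀)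
  -- an open set of good angles
  have ho : IsOpen {t : ℝ | ∀ p ∈ ([(a, b), (b, c), (c, d), (d, a)] : List (Fin 5 × Fin 5)),
      cis t ≠ cis (ζ p)} := by
    have : {t : ℝ | ∀ p ∈ ([(a, b), (b, c), (c, d), (d, a)] : List (Fin 5 × Fin 5)),
        cis t ≠ cis (ζ p)} = ⋂ p ∈ {p : Fin 5 × Fin 5 | p ∈ [(a, b), (b, c), (c, d), (d, a)]},
          {t | cis t ≠ cis (ζ p)} := by
      ext t; simp only [mem_ofPred_eq, mem_iInter]
    rw [this]
    exact (Set.toFinite _).isOpen_biInter fun p _ =>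
      isOpen_ne_fun continuous_cis continuous_const
  obtain ⟨ε₁, hε₁, hb⟩ := Metric.isOpen_iff.1 ho θ₀ hθ₀
  set ε' : ℝ := min (ε₁ / 2) (ε / 4) with hε'
  have hε'0 : 0 < ε' := lt_min (by positivity) (by positivity)
  have hε'1 : ε' ≤ ε₁ / 2 := min_le_left _ _
  have hε'2 : ε' ≤ ε / 4 := min_le_right _ _
  have harc : ∀ t ∈ Icc (θ₀ - ε') (θ₀ + ε'), v + cis t ∈ ball (v + cis θ₀) (ε / 2) := by
    intro t ht
    rw [mem_ball, dist_eq_norm, add_sub_add_left_eq_sub]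
    have h1 := norm_cis_sub_le t θ₀
    have h2 : |t - θ₀| ≤ ε' := abs_le.2 ⟨by linarith [ht.1], by linarith [ht.2]⟩
    linarith
  have hmiss : ∀ p ∈ [(a, b), (b, c), (c, d), (d, a)], ∀ n : ℤ,
      ζ p + 2 * Real.pi * n ∉ Icc (θ₀ - ε') (θ₀ + ε') := by
    intro p hp n hn
    have h1 : ζ p + 2 * Real.pi * n ∈ ball θ₀ ε₁ := by
      rw [mem_ball, Real.dist_eq, abs_lt]
      constructor <;> linarith [hn.1, hn.2]
    exact hb h1 p hp (cis_add_int _ _)
  refine ⟨ε', hε'0, fun u hu w hw huε hwε => ?_⟩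
  by_contra hne
  have hu' : u ∈ Icc (θ₀ - ε') (θ₀ + ε') := by
    rw [abs_lt] at huε; constructor <;> linarith [huε.1, huε.2]
  have hw' : w ∈ Icc (θ₀ - ε') (θ₀ + ε') := by
    rw [abs_lt] at hwε; constructor <;> linarith [hwε.1, hwε.2]
  have hsub : ball (v + cis θ₀) (ε / 2) ⊆ ball (v + cis θ₀) ε :=
    ball_subset_ball (by linarith)
  have key := c4_comb hnd (G := C.Γ (v + cis θ₀)) (fun x y h => h.symm) (fun x h => h.1 rfl)
    (S := C.I (v + cis θ₀)) (τ := C.I (v + cis u)) (τ' := C.I (v + cis w))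
    (fun x y h => h.mem) (hI _ (hsub (harc u hu'))) (hI _ (hsub (harc w hw')))
    (adm_gen hnd gab gbc gcd gda hu) (adm_gen hnd gab gbc gcd gda hw) hne
    (two_edge hε hΓ (harc u hu') (Gen.card_le hu)) (two_edge hε hΓ (harc w hw') (Gen.card_le hw))
    ?_
  · rcases key with h | ⟨h1, h2⟩
    · exact no_tri h
    · exact no_five h1 h2
  intro x y hxy
  obtain ⟨εu, hεu, hIu⟩ := I_usc (C := C) (v + cis u)
  obtain ⟨εw, hεw, hIw⟩ := I_usc (C := C) (v + cis w)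
  obtain ⟨γ, hγc, hγ⟩ := hζ (x, y) hxy _ _ (hmiss _ hxy) (min (ε / 2) (min εu εw))
    (lt_min (by positivity) (lt_min hεu hεw))
  obtain ⟨i, hi⟩ := I_nonempty (C := C) (γ u)
  obtain ⟨j, hj⟩ := I_nonempty (C := C) (γ w)
  have hγu := hγ u hu'
  have hγw := hγ w hw'
  refine ⟨i, hIu _ ?_ hi, j, hIw _ ?_ hj, ?_, ?_, ?_, ?_, ?_⟩
  · rw [mem_ball, dist_eq_norm]
    exact hγu.1.trans_le ((min_le_right _ _).trans (min_le_left _ _))
  · rw [mem_ball, dist_eq_norm]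
    exact hγw.1.trans_le ((min_le_right _ _).trans (min_le_right _ _))
  · rintro rfl; exact hγu.2.1 hi
  · rintro rfl; exact hγu.2.2 hi
  · rintro rfl; exact hγw.2.1 hj
  · rintro rfl; exact hγw.2.2 hj
  intro P hiP hjP
  have hV : IsOpen (ball (v + cis θ₀) ε ∩ (C.F x ∪ C.F y)ᶜ) :=
    isOpen_ball.inter ((C.closed x).union (C.closed y)).isOpen_compl
  have hpre : IsPreconnected (γ '' Icc (θ₀ - ε') (θ₀ + ε')) :=
    isPreconnected_Icc.image γ hγc.continuousOn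
  have hs : γ '' Icc (θ₀ - ε') (θ₀ + ε') ⊆ ball (v + cis θ₀) ε ∩ (C.F x ∪ C.F y)ᶜ := by
    rintro _ ⟨t, ht, rfl⟩
    have h1 := hγ t ht
    refine ⟨?_, ?_⟩
    · have h2 := harc t ht
      rw [mem_ball] at h2 ⊢
      have h3 := dist_triangle (γ t) (v + cis t) (v + cis θ₀)
      have h4 : dist (γ t) (v + cis t) < ε / 2 := by
        rw [dist_eq_norm]; exact h1.1.trans_le (min_le_left _ _)
      linarith
    · rintro (h2 | h2)
      · exact h1.2.1 (mem_I.2 h2)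
      · exact h1.2.2 (mem_I.2 h2)
  obtain ⟨p, hp, q, hq, hc⟩ := contact_of_path hV hpre hs (mem_image_of_mem γ hu')
    (mem_image_of_mem γ hw') hi hj hiP hjP
  have hpq : p ≠ q := by rintro rfl; exact hq hp
  have hg := hΓ p q hpq (hc.mono inter_subset_left)
  obtain ⟨K, hK, ⟨z, hz, -⟩, hKV⟩ := hc
  have hzp : z ∈ C.F p := mem_I.1 (hK.2.2 z hz (by simp))
  have hzq : z ∈ C.F q := mem_I.1 (hK.2.2 z hz (by simp))
  have hz' := (hKV hz).2
  refine ⟨p, hp, q, hq, ?_, ?_, ?_, ?_, hg⟩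
  · rintro rfl; exact hz' (Or.inl hzp)
  · rintro rfl; exact hz' (Or.inr hzp)
  · rintro rfl; exact hz' (Or.inl hzq)
  · rintro rfl; exact hz' (Or.inr hzq)

/-- an interval of angles all of whose hexagon rotations miss finitely many directions -/
private theorem exists_window (ζ : Fin 5 × Fin 5 → ℝ) :
    ∃ α β : ℝ, α < β ∧ ∀ t ∈ Ioo α β, ∀ r : Fin 7, ∀ p : Fin 5 × Fin 5,
      cis (t + (r : ℕ) * (Real.pi / 3)) ≠ cis (ζ p) := by
  have ho : IsOpen {t : ℝ | ∀ r : Fin 7, ∀ p : Fin 5 × Fin 5,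
      cis (t + (r : ℕ) * (Real.pi / 3)) ≠ cis (ζ p)} := by
    simp only [ofPred_forall]
    exact isOpen_iInter_of_finite fun r => isOpen_iInter_of_finite fun p =>
      isOpen_ne_fun (by fun_prop) continuous_const
  have hcount : (range fun q : Fin 7 × (Fin 5 × Fin 5) × ℤ =>
      ζ q.2.1 + 2 * Real.pi * q.2.2 - (q.1 : ℕ) * (Real.pi / 3)).Countable := countable_range _
  obtain ⟨t₀, ht₀⟩ := (hcount.dense_compl ℝ).nonempty
  have hmem : t₀ ∈ {t : ℝ | ∀ r : Fin 7, ∀ p : Fin 5 × Fin 5,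
      cis (t + (r : ℕ) * (Real.pi / 3)) ≠ cis (ζ p)} := by
    intro r p h
    obtain ⟨n, hn⟩ := cis_eq_iff h
    exact ht₀ ⟨(r, p, n), by simp only; linarith⟩
  obtain ⟨ε, hε, hb⟩ := Metric.isOpen_iff.1 ho t₀ hmem
  refine ⟨t₀ - ε, t₀ + ε, by linarith, fun t ht => hb ?_⟩
  rw [Real.ball_eq_Ioo]; exact ht

theorem no_four {v : ℂ} (h : Cyc4 (C.Γ v)) : False := by
  obtain ⟨a, b, c, d, hac, hbd, gab, gbc, gcd, gda⟩ := h
  have hnd4 : [a, b, c, d].Nodup := by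
    have := gab.1; have := gbc.1; have := gcd.1; have := gda.1.symm
    simp only [List.nodup_cons, List.mem_cons, List.not_mem_nil, or_false, not_or,
      not_false_eq_true, List.nodup_nil, and_true]
    tauto
  obtain ⟨e, hnd⟩ := exists_fifth hnd4
  have hex : ∀ p : Fin 5 × Fin 5, ∃ ζ : ℝ, p ∈ [(a, b), (b, c), (c, d), (d, a)] → ∀ α β : ℝ,
      (∀ n : ℤ, ζ + 2 * Real.pi * n ∉ Icc α β) → ∀ δ > (0 : ℝ),
      ∃ γ : ℝ → ℂ, Continuous γ ∧ ∀ t ∈ Icc α β, ‖γ t - (v + cis t)‖ < δ ∧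
        p.1 ∉ C.I (γ t) ∧ p.2 ∉ C.I (γ t) := by
    intro p
    by_cases hp : p ∈ [(a, b), (b, c), (c, d), (d, a)]
    · have hg : C.Γ v p.1 p.2 := by
        simp only [List.mem_cons, List.not_mem_nil, or_false] at hp
        rcases hp with rfl | rfl | rfl | rfl
        exacts [gab, gbc, gcd, gda]
      obtain ⟨ζ, hζ⟩ := pinch hg
      exact ⟨ζ, fun _ => hζ⟩
    · exact ⟨0, fun h => absurd h hp⟩
  choose ζ hζ using hex
  obtain ⟨α, β, hαβ, hwin⟩ := exists_window ζ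
  obtain ⟨θ, hθ, ρ, -, hgen⟩ := exists_gen (C := C) v hαβ
  have hgen' : ∀ r : ℕ, C.Gen v (θ + r * (Real.pi / 3)) := fun r => by
    simpa using (hgen r).1
  have hpi := Real.pi_pos
  -- every sixth of the circle is blocked
  have hblock : ∀ r : Fin 6, ∃ k : Fin 4, ∃ t ∈ Icc (θ + (r : ℕ) * (Real.pi / 3))
      (θ + ((r : ℕ) + 1) * (Real.pi / 3)),
      cis t = cis (ζ ([(a, b), (b, c), (c, d), (d, a)].get k)) := by
    intro r
    by_contra hcon
    push Not at hcon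
    have hlc := lc_interval (dense_gen (C := C) v) (fun t => sym a e (C.I (v + cis t)))
      (α := θ + (r : ℕ) * (Real.pi / 3)) (β := θ + ((r : ℕ) + 1) * (Real.pi / 3))
      (fun t ht => loc_const hnd gab gbc gcd gda ζ (fun p hp => hζ p hp) (θ₀ := t) (by
        intro p hp
        obtain ⟨k, rfl⟩ := List.get_of_mem hp
        exact hcon k t ht))
    have g1 := hgen' r
    have g2 := hgen' (r + 1)
    have e2 : θ + ((r : ℕ) + 1 : ℕ) * (Real.pi / 3) = θ + (r : ℕ) * (Real.pi / 3) + Real.pi / 3 := by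
      push_cast; ring
    rw [e2] at g2
    have hle : θ + (r : ℕ) * (Real.pi / 3) ≤ θ + ((r : ℕ) + 1) * (Real.pi / 3) := by nlinarith
    have heq := hlc _ g1 _ g2 ⟨le_rfl, hle⟩ ⟨by linarith, by linarith⟩
    exact sym_ne hnd (adm_gen hnd gab gbc gcd gda g1) (adm_gen hnd gab gbc gcd gda g2) g1.disj heq
  choose k t ht hcis using hblock
  -- the blocking points are interior
  have hlo : ∀ r : Fin 6, θ + (r : ℕ) * (Real.pi / 3) < t r := by
    intro r
    refine lt_of_le_of_ne (ht r).1 fun h => ?_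
    have := hwin θ hθ ⟨r, by omega⟩ ([(a, b), (b, c), (c, d), (d, a)].get (k r))
    exact this (by rw [← hcis r, ← h])
  have hhi : ∀ r : Fin 6, t r < θ + ((r : ℕ) + 1) * (Real.pi / 3) := by
    intro r
    refine lt_of_le_of_ne (ht r).2 fun h => ?_
    have := hwin θ hθ ⟨r + 1, by omega⟩ ([(a, b), (b, c), (c, d), (d, a)].get (k r))
    exact this (by rw [← hcis r, h]; simp)
  have hkey : ∀ r r' : Fin 6, r < r' → k r ≠ k r' := by
    intro r r' hlt hk
    have h1 : cis (t r') = cis (t r) := by rw [hcis, hcis, hk]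
    obtain ⟨n, hn⟩ := cis_eq_iff h1
    have h2 : ((r : ℕ) : ℝ) + 1 ≤ (r' : ℕ) := by exact_mod_cast hlt
    have h3 : ((r' : ℕ) : ℝ) + 1 ≤ 6 := by exact_mod_cast r'.2
    have h4 : (0 : ℝ) ≤ (r : ℕ) := Nat.cast_nonneg _
    have h5 := hlo r; have h6 := hhi r; have h7 := hlo r'; have h8 := hhi r'
    have hpos : 0 < 2 * Real.pi * n := by nlinarith
    have hlt2 : 2 * Real.pi * n < 2 * Real.pi * 1 := by nlinarith
    have hn0 : (0 : ℝ) < n := by
      by_contra hc; push Not at hc; nlinarith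
    have hn1 : (n : ℝ) < 1 := lt_of_mul_lt_mul_left hlt2 (by positivity)
    have : (0 : ℤ) < n := by exact_mod_cast hn0
    have : n < (1 : ℤ) := by exact_mod_cast hn1
    omega
  have hinj : Function.Injective k := by
    intro r r' hk
    rcases lt_trichotomy r r' with h | h | h
    · exact absurd hk (hkey r r' h)
    · exact h
    · exact absurd hk.symm (hkey r' r h)
  have := Fintype.card_le_of_injective k hinj
  simp at this

end Crest.Agent.R40.Cfg
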