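import Crest.Agent.R40.TBasic
import Crest.Agent.R40.TComb

/-!
# R40/TGen: generic points of the unit circle about `v`; cones; the case of five colours  (task)

* `exists_gen`: minimise `∑_{r < 6} card (I (v + cis (t + rπ/3)))` over `t ∈ Ioo α β`; `I_usc` and
  continuity make each summand non-increasing nearby, hence constant; periodicity
  (`cis_add_int`, `n = 6 q + r`) gives all integers `n`; `ρ` = minimum of six radii.
* `Gen.arc`: the closed arc `{v + cis t | |t - θ| ≤ ε/2}` is a non-trivial continuum of type `I`.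
* `Gen.card_le`: `td_M3`.  `Gen.disj`: `chord_lt`, `chord_gt`, `sep_disj` with the ends of a short arc.
* `Gen.cone`: `cone_hit`; a point of the (open) truncated cone is at unit distance from a point of
  the arc, so not in `U i`; the cone is open, so not in `F i` (`exists_U_near`).
* `no_mono_cone` (MB): `annulus_lune`; the segments `[v - u d, v + u d]` are continua of type `{c}`
  (the point `v` by closedness); `K` from `Γ v a b` in `ball v (min δ (1/20))`, `mid_lune`,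
  `Lune.near`, `two_col_arc` with `B = {a,b,c}ᶜ`.
* `no_five` (CA): `τ r = I (v + cis (θ + rπ/3))` has card 2 (`unit'`: not a singleton), `ca_comb`
  with `not_sub_Γ`; the cones at `θ + rπ/3` and `θ + rπ/3 + π` coincide (`cis_add_pi`, `w ↦ -w`), so
  cone points have the fifth colour `c`; `cyc_avoid`, `no_mono_cone`.
-/

set_option autoImplicit false
open Set Metric

namespace Crest.Agent.R40.Cfg
variable {C : Cfg}

private theorem cis_mod (s : ℝ) (n : ℤ) :
    cis (s + n * (Real.pi / 3)) = cis (s + ((n % 6).toNat : ℕ) * (Real.pi / 3)) := by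
  have h0 : 0 ≤ n % 6 := Int.emod_nonneg _ (by norm_num)
  have h1 : (((n % 6).toNat : ℕ) : ℝ) = ((n % 6 : ℤ) : ℝ) := by
    have : (((n % 6).toNat : ℕ) : ℤ) = n % 6 := Int.toNat_of_nonneg h0
    exact_mod_cast this
  have h2 : (n : ℝ) = ((n % 6 : ℤ) : ℝ) + 6 * ((n / 6 : ℤ) : ℝ) := by
    have : n = n % 6 + 6 * (n / 6) := by omega
    exact_mod_cast this
  rw [h1, ← cis_add_int (s + ((n % 6 : ℤ) : ℝ) * (Real.pi / 3)) (n / 6)]
  congr 1
  rw [h2]
  push_cast
  ring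

theorem exists_gen (v : ℂ) {α β : ℝ} (h : α < β) :
    ∃ θ ∈ Ioo α β, ∃ ρ > (0 : ℝ), ∀ n : ℤ, C.Gen v (θ + n * (Real.pi / 3)) ∧
      ∀ x ∈ ball (v + cis (θ + n * (Real.pi / 3))) ρ,
        C.I x ⊆ C.I (v + cis (θ + n * (Real.pi / 3))) := by
  classical
  set f : ℝ → ℕ := fun t => ∑ r : Fin 6, (C.I (v + cis (t + (r : ℕ) * (Real.pi / 3)))).card with hf
  obtain ⟨θ, hθ, hmin⟩ : ∃ θ ∈ Ioo α β, ∀ t ∈ Ioo α β, f θ ≤ f t := by
    have hne : (Ioo α β).Nonempty := nonempty_Ioo.2 h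
    exact ⟨Function.argminOn f (Ioo α β) hne, Function.argminOn_mem f _ hne,
      fun t ht => Function.argminOn_le f _ ht⟩
  have key : ∀ r : Fin 6, ∃ ρ > (0 : ℝ), ∀ y ∈ ball (v + cis (θ + (r : ℕ) * (Real.pi / 3))) ρ,
      C.I y ⊆ C.I (v + cis (θ + (r : ℕ) * (Real.pi / 3))) := fun r => I_usc _
  choose ρ hρ hρ' using key
  obtain ⟨r₀, -, hr₀⟩ := Finset.exists_min_image Finset.univ ρ Finset.univ_nonempty
  have hsub : ∀ t, |t - θ| < ρ r₀ → ∀ r : Fin 6, C.I (v + cis (t + (r : ℕ) * (Real.pi / 3))) ⊆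
      C.I (v + cis (θ + (r : ℕ) * (Real.pi / 3))) := by
    intro t ht r
    apply hρ' r
    rw [mem_ball, dist_eq_norm, add_sub_add_left_eq_sub]
    refine (norm_cis_sub_le _ _).trans_lt ?_
    rw [add_sub_add_right_eq_sub]
    exact ht.trans_le (hr₀ r (Finset.mem_univ _))
  have heq : ∀ t ∈ Ioo α β, |t - θ| < ρ r₀ → ∀ r : Fin 6,
      C.I (v + cis (t + (r : ℕ) * (Real.pi / 3))) =
        C.I (v + cis (θ + (r : ℕ) * (Real.pi / 3))) := by
    intro t ht htθ r
    have hle : ∀ r ∈ (Finset.univ : Finset (Fin 6)),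
        (C.I (v + cis (t + (r : ℕ) * (Real.pi / 3)))).card ≤
          (C.I (v + cis (θ + (r : ℕ) * (Real.pi / 3)))).card :=
      fun r _ => Finset.card_le_card (hsub t htθ r)
    have hsum : ∑ r : Fin 6, (C.I (v + cis (t + (r : ℕ) * (Real.pi / 3)))).card =
        ∑ r : Fin 6, (C.I (v + cis (θ + (r : ℕ) * (Real.pi / 3)))).card :=
      le_antisymm (Finset.sum_le_sum hle) (hmin t ht)
    have := (Finset.sum_eq_sum_iff_of_le hle).1 hsum r (Finset.mem_univ _)
    exact Finset.eq_of_subset_of_card_le (hsub t htθ r) this.ge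
  refine ⟨θ, hθ, ρ r₀, hρ r₀, fun n => ?_⟩
  have hlt : (n % 6).toNat < 6 := by omega
  set r : Fin 6 := ⟨(n % 6).toNat, hlt⟩ with hr
  have hc : ∀ s : ℝ, cis (s + n * (Real.pi / 3)) = cis (s + (r : ℕ) * (Real.pi / 3)) :=
    fun s => cis_mod s n
  refine ⟨⟨min (ρ r₀) (min (θ - α) (β - θ)),
    lt_min (hρ r₀) (lt_min (by linarith [hθ.1]) (by linarith [hθ.2])), fun t ht => ?_⟩, ?_⟩
  · have h1 := min_le_left (ρ r₀) (min (θ - α) (β - θ))
    have h2 := (min_le_right (ρ r₀) (min (θ - α) (β - θ))).trans (min_le_left _ _)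
    have h3 := (min_le_right (ρ r₀) (min (θ - α) (β - θ))).trans (min_le_right _ _)
    have ht1 := ht.1
    have ht2 := ht.2
    have e : t = (t - n * (Real.pi / 3)) + n * (Real.pi / 3) := by ring
    rw [e, hc, hc]
    exact heq _ ⟨by linarith, by linarith⟩ (abs_lt.2 ⟨by linarith, by linarith⟩) r
  · intro x hx
    rw [hc] at hx ⊢
    exact hρ' r x (ball_subset_ball (hr₀ r (Finset.mem_univ _)) hx)

theorem dense_gen (v : ℂ) : Dense {θ | C.Gen v θ} := by
  refine dense_of_exists_between fun a b hab => ?_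
  obtain ⟨θ, hθ, ρ, -, h⟩ := exists_gen (C := C) v hab
  refine ⟨θ, ?_, hθ.1, hθ.2⟩
  simpa using (h 0).1

theorem isOpen_gen (v : ℂ) : IsOpen {θ | C.Gen v θ} := by
  refine Metric.isOpen_iff.2 fun θ hθ => ?_
  obtain ⟨ε, hε, h⟩ := hθ
  refine ⟨ε, hε, fun t ht => ?_⟩
  rw [mem_ball, Real.dist_eq] at ht
  have ht' := abs_lt.1 ht
  refine ⟨ε - |t - θ|, by linarith, fun s hs => ?_⟩
  have h1 := le_abs_self (t - θ)
  have h2 := neg_abs_le (t - θ)
  rw [h s ⟨by linarith [hs.1], by linarith [hs.2]⟩, h t ⟨by linarith, by linarith⟩]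

private theorem arc_pre (v : ℂ) {s : Set ℝ} (hs : IsPreconnected s) :
    IsPreconnected ((fun t => v + cis t) '' s) :=
  hs.image _ (by fun_prop)

private theorem Gen.arc {v : ℂ} {θ : ℝ} (h : C.Gen v θ) :
    ∃ ε > (0 : ℝ), ε ≤ 1 ∧
      C.Cont (C.I (v + cis θ)) ((fun t => v + cis t) '' Icc (θ - ε) (θ + ε)) := by
  obtain ⟨ε, hε, h⟩ := h
  have h1 := min_le_left (ε / 2) 1
  refine ⟨min (ε / 2) 1, lt_min (by linarith) one_pos, min_le_right _ _,
    isCompact_Icc.image (by fun_prop), arc_pre v isPreconnected_Icc, ?_⟩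
  rintro x ⟨t, ht, rfl⟩
  exact (h t ⟨by linarith [ht.1], by linarith [ht.2]⟩).ge

theorem Gen.card_le {v : ℂ} {θ : ℝ} (h : C.Gen v θ) : (C.I (v + cis θ)).card ≤ 2 := by
  by_contra hc
  obtain ⟨ε, hε, hε1, -, hpre, hK⟩ := h.arc
  have hsub : (fun t => v + cis t) '' Icc (θ - ε) (θ + ε) ⊆ C.M3 := by
    intro x hx
    have := Finset.card_le_card (hK x hx)
    show 3 ≤ (C.I x).card
    omega
  have hss := td_M3 (C := C) _ hsub hpre
  have e : v + cis (θ + ε) = v + cis θ :=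
    hss ⟨θ + ε, ⟨by linarith, le_rfl⟩, rfl⟩ ⟨θ, ⟨by linarith, by linarith⟩, rfl⟩
  have e1 : cis θ * cis ε = cis θ * 1 := by
    rw [← cis_add, mul_one]; exact add_left_cancel e
  have hne : cis θ ≠ 0 := by
    intro h0
    have := norm_cis θ
    rw [h0, norm_zero] at this
    exact zero_ne_one this
  have e2 : cis ε = 1 := mul_left_cancel₀ hne e1
  have e3 := congrArg Complex.im e2
  rw [cis_im, Complex.one_im] at e3
  have := Real.sin_pos_of_pos_of_lt_pi hε (by linarith [Real.pi_gt_three])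
  linarith

theorem Gen.disj {v : ℂ} {θ : ℝ} (h : C.Gen v θ) :
    Disjoint (C.I (v + cis θ)) (C.I (v + cis (θ + Real.pi / 3))) := by
  obtain ⟨ε, hε, hε1, hK⟩ := h.arc
  have hpi := Real.pi_gt_three
  refine (sep_disj hK (a := v + cis (θ + ε)) (b := v + cis (θ - ε))
    ⟨θ + ε, ⟨by linarith, le_rfl⟩, rfl⟩ ⟨θ - ε, ⟨le_rfl, by linarith⟩, rfl⟩ ?_ ?_).symm
  · rw [add_sub_add_left_eq_sub]
    have := chord_lt (s := Real.pi / 3 - ε) (by linarith) (by linarith) (θ + ε)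
    rwa [show θ + ε + (Real.pi / 3 - ε) = θ + Real.pi / 3 by ring] at this
  · rw [add_sub_add_left_eq_sub]
    have := chord_gt (s := Real.pi / 3 + ε) (by linarith) (by linarith) (θ - ε)
    rwa [show θ - ε + (Real.pi / 3 + ε) = θ + Real.pi / 3 by ring] at this

theorem Gen.cone {v : ℂ} {θ : ℝ} (h : C.Gen v θ) :
    ∃ κ > (0 : ℝ), ∃ r > (0 : ℝ), ∀ w : ℂ, ‖w‖ < r → |w.re| < κ * |w.im| →
      Disjoint (C.I (v + cis θ * w)) (C.I (v + cis θ)) := by
  obtain ⟨ε, hε, h⟩ := h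
  obtain ⟨κ, hκ, r, hr, hit⟩ := cone_hit hε
  refine ⟨κ, hκ, r, hr, fun w hw hw' => ?_⟩
  rw [Finset.disjoint_left]
  intro i hi hi'
  have hopen : IsOpen {z : ℂ | ‖z‖ < r ∧ |z.re| < κ * |z.im|} := by
    have o1 : IsOpen {z : ℂ | ‖z‖ < r} := isOpen_lt (by fun_prop) (by fun_prop)
    have o2 : IsOpen {z : ℂ | |z.re| < κ * |z.im|} := isOpen_lt (by fun_prop) (by fun_prop)
    exact o1.inter o2
  obtain ⟨η, hη, hball⟩ := Metric.isOpen_iff.1 hopen w ⟨hw, hw'⟩
  obtain ⟨u, hu, hub⟩ := exists_U_near (mem_I.1 hi) hη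
  have hne : cis θ ≠ 0 := by
    intro h0
    have := norm_cis θ
    rw [h0, norm_zero] at this
    exact zero_ne_one this
  set w' := (u - v) / cis θ with hw'def
  have hu' : u = v + cis θ * w' := by
    rw [hw'def]; field_simp; ring
  have hw'b : w' ∈ ball w η := by
    rw [mem_ball, dist_eq_norm] at hub ⊢
    rw [hu', add_sub_add_left_eq_sub, ← mul_sub, norm_mul, norm_cis, one_mul] at hub
    exact hub
  obtain ⟨s, hs, hs1⟩ := hit w' (hball hw'b).1 (hball hw'b).2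
  have hiF : v + cis (θ + s) ∈ C.F i := by
    rw [← mem_I, h (θ + s) ⟨by linarith [hs.1], by linarith [hs.2]⟩]
    exact hi'
  refine unit' hiF hu ?_
  rw [hu', add_sub_add_left_eq_sub, cis_add, ← mul_sub, norm_mul, norm_cis, one_mul, hs1]

private theorem seg_cont {v u : ℂ} {κ r : ℝ} {c : Fin 5}
    (hc : ∀ w : ℂ, ‖w‖ < r → |w.re| < κ * |w.im| → v + u * w ∈ C.F c) {d : ℂ} (hd : ‖d‖ < r)
    (hd' : |d.re| < κ * |d.im|) :
    C.Cont {c} ((fun s : ℝ => v + u * (s * d)) '' Icc (-1) 1) := by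
  have hcont : Continuous fun s : ℝ => v + u * (s * d) := by fun_prop
  have hne : ∀ s : ℝ, s ≠ 0 → |s| ≤ 1 → v + u * (s * d) ∈ C.F c := by
    intro s hs hs1
    have hp : 0 < |s| := abs_pos.2 hs
    apply hc
    · rw [norm_mul, Complex.norm_real, Real.norm_eq_abs]
      nlinarith [norm_nonneg d]
    · simp only [Complex.mul_re, Complex.ofReal_re, Complex.ofReal_im, zero_mul, sub_zero,
        Complex.mul_im, add_zero, abs_mul]
      nlinarith
  refine ⟨isCompact_Icc.image hcont, isPreconnected_Icc.image _ hcont.continuousOn, ?_⟩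
  rintro x ⟨s, hs, rfl⟩
  rw [Finset.singleton_subset_iff, mem_I]
  by_cases hs0 : s = 0
  · have hcl : IsClosed {s : ℝ | v + u * (s * d) ∈ C.F c} := (C.closed c).preimage hcont
    have hsub : Ioo (0 : ℝ) 1 ⊆ {s : ℝ | v + u * (s * d) ∈ C.F c} := fun t ht =>
      hne t ht.1.ne' (abs_le.2 ⟨by linarith [ht.1], ht.2.le⟩)
    have h0 : (0 : ℝ) ∈ closure (Ioo (0 : ℝ) 1) := by
      rw [closure_Ioo zero_ne_one]; exact ⟨le_rfl, zero_le_one⟩
    rw [hs0]
    exact hcl.closure_subset_iff.2 hsub h0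
  · exact hne s hs0 (abs_le.2 hs)

theorem no_mono_cone {v u : ℂ} (hu : ‖u‖ = 1) {κ r : ℝ} (hκ : 0 < κ) (hr : 0 < r) {a b c : Fin 5}
    (hc : ∀ w : ℂ, ‖w‖ < r → |w.re| < κ * |w.im| → v + u * w ∈ C.F c) (h : C.Γ v a b)
    (hca : c ≠ a) (hcb : c ≠ b) : False := by
  obtain ⟨d₁, d₂, h1, h2, h1', h2', δ, hδ, hl⟩ := annulus_lune hu hκ hr v
  have hends : ∀ d : ℂ, v + u * d ∈ (fun s : ℝ => v + u * (s * d)) '' Icc (-1) 1 ∧
      v - u * d ∈ (fun s : ℝ => v + u * (s * d)) '' Icc (-1) 1 := fun d =>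
    ⟨⟨1, ⟨by norm_num, le_rfl⟩, by simp⟩, ⟨-1, ⟨le_rfl, by norm_num⟩, by
      simp [sub_eq_add_neg]⟩⟩
  have hann : ∀ w : ℂ, |‖w - v‖ - 1| < δ → c ∉ C.I w := by
    intro w hw hcw
    rcases hl w hw with hw | hw
    · exact Finset.disjoint_left.1
        (lune_disj (seg_cont hc h1 h1') (hends d₁).1 (hends d₁).2 hw) hcw (by simp)
    · exact Finset.disjoint_left.1
        (lune_disj (seg_cont hc h2 h2') (hends d₂).1 (hends d₂).2 hw) hcw (by simp)
  obtain ⟨K, hK, ⟨x₁, hx₁, x₂, hx₂, hne⟩, hKs⟩ :=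
    h.2 (min δ (1 / 20)) (lt_min hδ (by norm_num))
  have hb1 := hKs hx₁
  have hb2 := hKs hx₂
  have hd : ‖x₁ - x₂‖ ≤ 1 / 10 := by
    have e1 := mem_ball.1 hb1
    have e2 := mem_ball.1 hb2
    have := dist_triangle_right x₁ x₂ v
    have := min_le_right δ (1 / 20)
    rw [← dist_eq_norm]
    linarith
  obtain ⟨β, hβ⟩ := mid_lune hne hd le_rfl
  have hab := h.1
  have hcard : (({a, b, c} : Finset (Fin 5))ᶜ).card ≤ 2 := by
    rw [Finset.card_compl, Finset.card_eq_three.2 ⟨a, b, c, hab, hca.symm, hcb.symm, rfl⟩]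
    simp
  refine two_col_arc (C := C) hcard (q := (x₁ + x₂) / 2) (α := β + 1 / 10) fun t ht => ?_
  have hL := hβ t ⟨ht.1, by linarith [ht.2, Real.pi_gt_three]⟩
  have hdis := lune_disj hK hx₁ hx₂ hL
  have hnear := (hL.near hb1 hb2).trans_le (min_le_left _ _)
  intro i hi
  simp only [Finset.mem_compl, Finset.mem_insert, Finset.mem_singleton, not_or]
  refine ⟨?_, ?_, ?_⟩
  · rintro rfl; exact Finset.disjoint_left.1 hdis hi (by simp)
  · rintro rfl; exact Finset.disjoint_left.1 hdis hi (by simp)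
  · rintro rfl; exact hann _ hnear hi

theorem no_five {v : ℂ} (hv : C.I v = Finset.univ) (h : Cyc4 (C.Γ v) ∨ Cyc5 (C.Γ v)) : False := by
  obtain ⟨θ, -, ρ, -, hθ⟩ := exists_gen (C := C) v (zero_lt_one' ℝ)
  have hgen : ∀ r : ℕ, C.Gen v (θ + r * (Real.pi / 3)) := fun r => by
    simpa using (hθ r).1
  have hi : ∀ a, ¬ C.Γ v a a := fun a ha => ha.1 rfl
  set τ : ℕ → Finset (Fin 5) := fun r => C.I (v + cis (θ + r * (Real.pi / 3))) with hτ
  have hcard : ∀ r, (τ r).card = 2 := by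
    intro r
    have h2 : (τ r).card ≤ 2 := (hgen r).card_le
    have h0 : 0 < (τ r).card := Finset.card_pos.2 (I_nonempty _)
    have h1 : (τ r).card ≠ 1 := by
      intro h1
      obtain ⟨i, hi⟩ := mem_UU.2 h1
      have hvF : v ∈ C.F i := by rw [← mem_I, hv]; exact Finset.mem_univ _
      refine unit' hvF hi ?_
      simp
    omega
  have hd : ∀ r, Disjoint (τ r) (τ (r + 1)) := by
    intro r
    have := (hgen r).disj
    simp only [hτ]
    rwa [show θ + ((r + 1 : ℕ) : ℝ) * (Real.pi / 3) = θ + r * (Real.pi / 3) + Real.pi / 3 by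
      push_cast; ring]
  have hp : τ 6 = τ 0 := by
    simp only [hτ]
    rw [show θ + ((6 : ℕ) : ℝ) * (Real.pi / 3) = θ + ((0 : ℕ) : ℝ) * (Real.pi / 3) + 2 * Real.pi by
      push_cast; ring, cis_add_two_pi]
  have hG : ∀ r a b, C.Γ v a b → ¬ τ r ⊆ {a, b} := fun r a b hab =>
    not_sub_Γ hab (by simp)
  obtain ⟨r, hr⟩ := ca_comb hi h τ hcard hd hp hG
  obtain ⟨κ₁, hκ₁, r₁, hr₁, hc₁⟩ := (hgen r).cone
  obtain ⟨κ₂, hκ₂, r₂, hr₂, hc₂⟩ := (hgen (r + 3)).cone
  have hneg : cis (θ + ((r + 3 : ℕ) : ℝ) * (Real.pi / 3)) = - cis (θ + r * (Real.pi / 3)) := by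
    rw [← cis_add_pi]; congr 1; push_cast; ring
  have hc1 : ((τ r ∪ τ (r + 3))ᶜ).card = 1 := by
    rw [Finset.card_compl, Finset.card_union_of_disjoint hr, hcard, hcard]
    simp
  obtain ⟨c, hc⟩ := Finset.card_eq_one.1 hc1
  obtain ⟨a, b, hab, hca, hcb⟩ := cyc_avoid hi h c
  refine no_mono_cone (C := C) (u := cis (θ + r * (Real.pi / 3))) (norm_cis _)
    (lt_min hκ₁ hκ₂) (lt_min hr₁ hr₂) (fun w hw hw' => ?_) hab hca hcb
  have d1 := hc₁ w (hw.trans_le (min_le_left _ _))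
    (hw'.trans_le (mul_le_mul_of_nonneg_right (min_le_left _ _) (abs_nonneg _)))
  have d2 := hc₂ (-w) (by rw [norm_neg]; exact hw.trans_le (min_le_right _ _))
    (by
      simp only [Complex.neg_re, Complex.neg_im, abs_neg]
      exact hw'.trans_le (mul_le_mul_of_nonneg_right (min_le_right _ _) (abs_nonneg _)))
  have e : cis (θ + ((r + 3 : ℕ) : ℝ) * (Real.pi / 3)) * (-w) = cis (θ + r * (Real.pi / 3)) * w := by
    rw [hneg]; ring
  rw [e] at d2
  obtain ⟨j, hj⟩ := I_nonempty (C := C) (v + cis (θ + r * (Real.pi / 3)) * w)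
  have hjc : j ∈ (τ r ∪ τ (r + 3))ᶜ := by
    rw [Finset.mem_compl, Finset.mem_union, not_or]
    exact ⟨Finset.disjoint_left.1 d1 hj, Finset.disjoint_left.1 d2 hj⟩
  rw [hc, Finset.mem_singleton] at hjc
  rw [← hjc]
  exact mem_I.1 hj

end Crest.Agent.R40.Cfg
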