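import Crest.Agent.R40.TCross

/-!
# R40/TLift: local lifts glue on rectangles  (task)

* `lift_unique`: `lc_convex` for `ℓ - ℓ'` (if `U ∩ V` is empty take `c = 0`).
* `lift_rect`: let `Good a b c d` = a lift exists on `Ioo a b ×ℂ Ioo c d`.  It is monotone, and glues
  horizontally / vertically along overlaps (`lift_unique` on the overlap, which is an open convex
  rectangle; correct the second lift by the constant; define `ℓ` by `if u.re < b' then .. else ..`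
  for a cut `b'` strictly inside the overlap).  One-dimensional lemma: if `P s t` is monotone,
  glues (`P s t → P s' t' → s < s' → s' < t → t < t' → P s t'`) and every `x ∈ Icc α β` has
  `s < x < t` with `P s t`, then `P s t` for some `s < α`, `β < t` (sup argument).  Use it with
  `P s t = ∃ c < y < d, Good s t c d`, then vertically: `Good` for every rectangle whose closure lies
  in `V`.  Exhaust `V` by `Ioo (a + (b-a)/(n+3)) (b - (b-a)/(n+3)) ×ℂ …`, normalise the lifts at a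
  point of `U` in the smallest one, they agree on overlaps; `ℓ u = ℓ_{n(u)} u`.
-/

set_option autoImplicit false
open Set Metric

namespace Crest.Agent.R40

variable {A : Type} [AddCommGroup A] {U M : Set ℂ} {σ : ℂ → ℂ → A}

theorem lift_unique {V : Set ℂ} (hV : IsOpen V) (hc : Convex ℝ V) (hU : V ⊆ closure U)
    (hM : IsTotallyDisconnected M) (hUM : Disjoint U M) {ℓ ℓ' : ℂ → A}
    (h : IsLift U M σ V ℓ) (h' : IsLift U M σ V ℓ') : ∃ c, ∀ u ∈ U, u ∈ V → ℓ u = ℓ' u + c := by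
  have key := lc_convex hV hc hU hM hUM (fun u => ℓ u - ℓ' u) (fun x hx hxM => by
    obtain ⟨ε, hε, c, h1⟩ := h x hx hxM
    obtain ⟨ε', hε', c', h2⟩ := h' x hx hxM
    refine ⟨min ε ε', lt_min hε hε', fun u hu v hv hub hvb => ?_⟩
    rw [h1 u hu (ball_subset_ball (min_le_left _ _) hub),
      h2 u hu (ball_subset_ball (min_le_right _ _) hub),
      h1 v hv (ball_subset_ball (min_le_left _ _) hvb),
      h2 v hv (ball_subset_ball (min_le_right _ _) hvb)]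
    abel)
  by_cases hne : ∃ p ∈ U, p ∈ V
  · obtain ⟨p, hp, hpV⟩ := hne
    refine ⟨ℓ p - ℓ' p, fun u hu huV => ?_⟩
    rw [← key u hu p hp huV hpV]
    abel
  · exact ⟨0, fun u hu huV => (hne ⟨u, hu, huV⟩).elim⟩

theorem IsLift.add_const {V : Set ℂ} {ℓ : ℂ → A} (h : IsLift U M σ V ℓ) (c : A) :
    IsLift U M σ V (fun u => ℓ u + c) := by
  intro x hx hxM
  obtain ⟨ε, hε, c', h1⟩ := h x hx hxM
  exact ⟨ε, hε, c' + c, fun u hu hub => by rw [← add_assoc, ← h1 u hu hub]⟩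

/-- a function that agrees on each member of an open cover with a lift is a lift -/
theorem tlift_of_cover {V : Set ℂ} {ℓ : ℂ → A}
    (h : ∀ x ∈ V, ∃ W ℓ', IsOpen W ∧ x ∈ W ∧ IsLift U M σ W ℓ' ∧ ∀ u ∈ U, u ∈ W → ℓ u = ℓ' u) :
    IsLift U M σ V ℓ := by
  intro x hx hxM
  obtain ⟨W, ℓ', hW, hxW, hl, he⟩ := h x hx
  obtain ⟨ε, hε, c, h1⟩ := hl x hxW hxM
  obtain ⟨δ, hδ, h2⟩ := Metric.isOpen_iff.1 hW x hxW
  refine ⟨min ε δ, lt_min hε hδ, c, fun u hu hub => ?_⟩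
  rw [he u hu (h2 (ball_subset_ball (min_le_right _ _) hub)),
    h1 u hu (ball_subset_ball (min_le_left _ _) hub)]

theorem tlift_union {V W : Set ℂ} (hV : IsOpen V) (hW : IsOpen W) (hc : Convex ℝ (V ∩ W))
    (hU : V ∩ W ⊆ closure U) (hM : IsTotallyDisconnected M) (hUM : Disjoint U M) {ℓ ℓ' : ℂ → A}
    (h : IsLift U M σ V ℓ) (h' : IsLift U M σ W ℓ') : ∃ ℓ'', IsLift U M σ (V ∪ W) ℓ'' := by
  classical
  obtain ⟨c, hcc⟩ := lift_unique (hV.inter hW) hc hU hM hUM (h.mono inter_subset_left)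
    (h'.mono inter_subset_right)
  refine ⟨fun u => if u ∈ V then ℓ u else ℓ' u + c, tlift_of_cover fun x hx => ?_⟩
  rcases hx with hx | hx
  · exact ⟨V, ℓ, hV, hx, h, fun u _ huV => if_pos huV⟩
  · refine ⟨W, _, hW, hx, h'.add_const c, fun u hu huW => ?_⟩
    by_cases huV : u ∈ V
    · exact (if_pos huV).trans (hcc u hu ⟨huV, huW⟩)
    · exact if_neg huV

theorem tlift_segment {V : Set ℂ} (hV : IsOpen V) (hc : Convex ℝ V) (hU : V ⊆ closure U)
    (hM : IsTotallyDisconnected M) (hUM : Disjoint U M)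
    (hloc : ∀ x ∈ V, ∃ ε > 0, ∃ ℓ, IsLift U M σ (ball x ε) ℓ) {p x : ℂ} (hp : p ∈ V)
    (hx : x ∈ V) :
    ∃ W ℓ, IsOpen W ∧ Convex ℝ W ∧ W ⊆ V ∧ p ∈ W ∧ x ∈ W ∧ IsLift U M σ W ℓ := by
  set γ : ℝ →ᵃ[ℝ] ℂ := AffineMap.lineMap p x with hγ
  have hγc : Continuous γ := AffineMap.lineMap_continuous
  have hγV : ∀ t ∈ Icc (0 : ℝ) 1, γ t ∈ V := fun t ht => hc.lineMap_mem hp hx ht
  have hloc' : ∀ y ∈ V, ∃ ε > 0, ball y ε ⊆ V ∧ ∃ ℓ, IsLift U M σ (ball y ε) ℓ := by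
    intro y hy
    obtain ⟨ε, hε, ℓ, hl⟩ := hloc y hy
    obtain ⟨δ, hδ, h2⟩ := Metric.isOpen_iff.1 hV y hy
    exact ⟨min ε δ, lt_min hε hδ, (ball_subset_ball (min_le_right _ _)).trans h2, ℓ,
      hl.mono (ball_subset_ball (min_le_left _ _))⟩
  -- convexification of a neighbourhood of an initial segment
  have conv : ∀ t : ℝ, ∀ W ℓ, IsOpen W → W ⊆ V → (∀ s ∈ Icc (0 : ℝ) t, γ s ∈ W) →
      IsLift U M σ W ℓ → ∃ W', IsOpen W' ∧ Convex ℝ W' ∧ W' ⊆ V ∧ (∀ s ∈ Icc (0 : ℝ) t, γ s ∈ W') ∧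
        IsLift U M σ W' ℓ := by
    intro t W ℓ hW hWV hs hl
    have hK : IsCompact (γ '' Icc 0 t) := isCompact_Icc.image hγc
    obtain ⟨δ, hδ, h1⟩ := hK.exists_thickening_subset_open hW (by
      rintro _ ⟨s, hs', rfl⟩; exact hs s hs')
    exact ⟨thickening δ (γ '' Icc 0 t), isOpen_thickening,
      ((convex_Icc 0 t).affine_image γ).thickening δ, h1.trans hWV,
      fun s hs' => self_subset_thickening hδ _ ⟨s, hs', rfl⟩, hl.mono h1⟩
  set S : Set ℝ := {t | t ∈ Icc (0 : ℝ) 1 ∧ ∃ W ℓ, IsOpen W ∧ W ⊆ V ∧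
    (∀ s ∈ Icc (0 : ℝ) t, γ s ∈ W) ∧ IsLift U M σ W ℓ} with hS
  have h0 : (0 : ℝ) ∈ S := by
    obtain ⟨ε, hε, h1, ℓ, hl⟩ := hloc' _ (hγV 0 ⟨le_rfl, zero_le_one⟩)
    refine ⟨⟨le_rfl, zero_le_one⟩, _, ℓ, isOpen_ball, h1, fun s hs => ?_, hl⟩
    rw [le_antisymm hs.2 hs.1]
    exact mem_ball_self hε
  have hb : BddAbove S := ⟨1, fun t ht => ht.1.2⟩
  have hT : sSup S ∈ Icc (0 : ℝ) 1 := ⟨le_csSup hb h0, csSup_le ⟨0, h0⟩ fun t ht => ht.1.2⟩
  have h1 : (1 : ℝ) ∈ S := by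
    obtain ⟨ε, hε, hB, ℓ, hl⟩ := hloc' _ (hγV _ hT)
    obtain ⟨η, hη, hη'⟩ := Metric.continuous_iff.1 hγc (sSup S) ε hε
    obtain ⟨s, hs, hs'⟩ := exists_lt_of_lt_csSup ⟨0, h0⟩ (show sSup S - η < sSup S by linarith)
    obtain ⟨-, W, ℓ', hW, hWV, hsW, hl'⟩ := hs
    obtain ⟨W', hW', hc', hW'V, hsW', hl''⟩ := conv s W ℓ' hW hWV hsW hl'
    obtain ⟨ℓ'', h3⟩ := tlift_union hW' isOpen_ball (hc'.inter (convex_ball _ _))
      (inter_subset_left.trans (hW'V.trans hU)) hM hUM hl'' hl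
    have h4 : min 1 (sSup S + η / 2) ∈ S := by
      refine ⟨⟨le_min zero_le_one (by linarith [hT.1]), min_le_left _ _⟩, _, ℓ'',
        hW'.union isOpen_ball, union_subset hW'V hB, fun r hr => ?_, h3⟩
      by_cases hrs : r ≤ s
      · exact Or.inl (hsW' r ⟨hr.1, hrs⟩)
      · refine Or.inr (hη' r ?_)
        have := hr.2.trans (min_le_right _ _)
        rw [Real.dist_eq, abs_lt]
        constructor <;> linarith
    have h5 := le_csSup hb h4
    rwa [min_eq_left] at h4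
    rcases min_le_iff.1 h5 with h6 | h6 <;> linarith
  obtain ⟨-, W, ℓ, hW, hWV, hsW, hl⟩ := h1
  obtain ⟨W', hW', hc', hW'V, hsW', hl'⟩ := conv 1 W ℓ hW hWV hsW hl
  refine ⟨W', ℓ, hW', hc', hW'V, ?_, ?_, hl'⟩
  · simpa [hγ] using hsW' 0 ⟨le_rfl, zero_le_one⟩
  · simpa [hγ] using hsW' 1 ⟨zero_le_one, le_rfl⟩

/-- local lifts glue on every open convex set -/
theorem lift_convex {V : Set ℂ} (hV : IsOpen V) (hc : Convex ℝ V) (hU : V ⊆ closure U)
    (hM : IsTotallyDisconnected M) (hUM : Disjoint U M)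
    (hloc : ∀ x ∈ V, ∃ ε > 0, ∃ ℓ, IsLift U M σ (ball x ε) ℓ) : ∃ ℓ, IsLift U M σ V ℓ := by
  classical
  rcases V.eq_empty_or_nonempty with rfl | ⟨q, hq⟩
  · exact ⟨fun _ => 0, fun x hx => hx.elim⟩
  obtain ⟨p, hpV, hp⟩ := mem_closure_iff.1 (hU hq) V hV hq
  choose! W ℓ hW hcW hWV hpW hxW hl using
    fun x (hx : x ∈ V) => tlift_segment hV hc hU hM hUM hloc hpV hx
  refine ⟨fun u => ℓ u u - ℓ u p, tlift_of_cover fun x hx => ?_⟩
  refine ⟨W x, _, hW x hx, hxW x hx, (hl x hx).add_const (-ℓ x p), fun u hu huW => ?_⟩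
  have huV := hWV x hx huW
  obtain ⟨c, hcc⟩ := lift_unique ((hW u huV).inter (hW x hx)) ((hcW u huV).inter (hcW x hx))
    (inter_subset_left.trans ((hWV u huV).trans hU)) hM hUM ((hl u huV).mono inter_subset_left)
    ((hl x hx).mono inter_subset_right)
  show ℓ u u - ℓ u p = ℓ x u + -ℓ x p
  rw [hcc u hu ⟨hxW u huV, huW⟩, hcc p hp ⟨hpW u huV, hpW x hx⟩]
  abel

theorem lift_rect {a b c d : ℝ} (hU : Ioo a b ×ℂ Ioo c d ⊆ closure U)
    (hM : IsTotallyDisconnected M) (hUM : Disjoint U M)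
    (hloc : ∀ x ∈ Ioo a b ×ℂ Ioo c d, ∃ ε > 0, ∃ ℓ, IsLift U M σ (ball x ε) ℓ) :
    ∃ ℓ, IsLift U M σ (Ioo a b ×ℂ Ioo c d) ℓ := by
  refine lift_convex (isOpen_Ioo.reProdIm isOpen_Ioo) ?_ hU hM hUM hloc
  exact ((convex_Ioo a b).is_linear_preimage Complex.reLm.isLinear).inter
    ((convex_Ioo c d).is_linear_preimage Complex.imLm.isLinear)

end Crest.Agent.R40
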