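import Crest.Agent.R40.TGen

/-!
# R40/TTri: no contact graph has a triangle  (owner helper65)
-/

set_option autoImplicit false
open Set Metric

namespace Crest.Agent.R40.Cfg
variable {C : Cfg}

/-- a unit step from `z` turning by about `2π/3` from the direction `z - q` -/
noncomputable def Ψ (q z : ℂ) (s : ℝ) : ℂ :=
  z + cis (2 * Real.pi / 3 + s) * ((z - q) / (‖z - q‖ : ℂ))

theorem norm_dir {q z : ℂ} (h : z ≠ q) : ‖(z - q) / (‖z - q‖ : ℂ)‖ = 1 := by
  have : ‖z - q‖ ≠ 0 := norm_ne_zero_iff.2 (sub_ne_zero.2 h)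
  rw [norm_div, Complex.norm_real, norm_norm, div_self this]

theorem norm_Ψ {q z : ℂ} (h : z ≠ q) (s : ℝ) : ‖Ψ q z s - z‖ = 1 := by
  rw [Ψ, add_sub_cancel_left, norm_mul, norm_cis, norm_dir h, one_mul]

theorem Ψ_cis (q : ℂ) (t : ℝ) : Ψ q (q + cis t) 0 = q + cis (t + Real.pi / 3) := by
  rw [Ψ, add_sub_cancel_left, norm_cis, add_zero, Complex.ofReal_one, div_one, ← cis_add,
    ← hexagon t, add_assoc, add_comm (2 * Real.pi / 3) t]

theorem Ψ_contAt {q : ℂ} {p : ℂ × ℝ} (h : p.1 ≠ q) :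
    ContinuousAt (fun p : ℂ × ℝ => Ψ q p.1 p.2) p := by
  have h' : ((‖p.1 - q‖ : ℝ) : ℂ) ≠ 0 := by
    exact_mod_cast norm_ne_zero_iff.2 (sub_ne_zero.2 h)
  unfold Ψ
  refine ContinuousAt.add continuousAt_fst (ContinuousAt.mul (by fun_prop) ?_)
  exact ContinuousAt.div (by fun_prop) (by fun_prop) h'

theorem Ψ_contAt' {q z : ℂ} (h : z ≠ q) (s : ℝ) : ContinuousAt (fun z => Ψ q z s) z :=
  (Ψ_contAt (p := (z, s)) h).comp (f := fun z : ℂ => (z, s)) (by fun_prop)

theorem exists_tube {Λ : Set ℂ} (hΛ : IsOpen Λ) {q : ℂ} {α : ℝ}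
    (ha : ∀ t ∈ Icc α (α + 2 * Real.pi / 3), q + cis t ∈ Λ) :
    ∃ δ > (0 : ℝ), ∀ t ∈ Icc α (α + Real.pi / 3), ∀ z ∈ ball (q + cis t) δ,
      z ≠ q ∧ z ∈ Λ ∧ ∀ s ∈ Icc (-δ) δ, Ψ q z s ∈ Λ := by
  have hpi := Real.pi_pos
  set O : Set (ℂ × ℝ) := {p | p.1 ≠ q ∧ p.1 ∈ Λ ∧ Ψ q p.1 p.2 ∈ Λ} with hO
  have hOo : IsOpen O := by
    rw [isOpen_iff_mem_nhds]
    rintro p ⟨h1, h2, h3⟩
    have a1 : ∀ᶠ p' : ℂ × ℝ in nhds p, p'.1 ≠ q :=
      continuousAt_fst.eventually (isOpen_ne.mem_nhds h1)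
    have a2 : ∀ᶠ p' : ℂ × ℝ in nhds p, p'.1 ∈ Λ := continuousAt_fst.eventually (hΛ.mem_nhds h2)
    have a3 : ∀ᶠ p' : ℂ × ℝ in nhds p, Ψ q p'.1 p'.2 ∈ Λ :=
      (Ψ_contAt h1).eventually (hΛ.mem_nhds h3)
    filter_upwards [a1, a2, a3] with p' b1 b2 b3 using ⟨b1, b2, b3⟩
  have hK : IsCompact ((fun t : ℝ => ((q + cis t, 0) : ℂ × ℝ)) '' Icc α (α + Real.pi / 3)) :=
    isCompact_Icc.image (by fun_prop)
  obtain ⟨δ, hδ, hsub⟩ := hK.exists_thickening_subset_open hOo (by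
    rintro _ ⟨t, ht, rfl⟩
    refine ⟨?_, ha t ⟨ht.1, by linarith [ht.2]⟩, ?_⟩
    · intro h
      have : cis t = 0 := by simpa using h
      simpa [this] using norm_cis t
    · show Ψ q (q + cis t) 0 ∈ Λ
      rw [Ψ_cis]
      exact ha _ ⟨by linarith [ht.1], by linarith [ht.2]⟩)
  refine ⟨δ / 2, by positivity, fun t ht z hz => ?_⟩
  have key : ∀ s ∈ Icc (-(δ / 2)) (δ / 2), (z, s) ∈ O := fun s hs => by
    refine hsub (mem_thickening_iff.2 ⟨(q + cis t, 0), ⟨t, ht, rfl⟩, ?_⟩)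
    rw [Prod.dist_eq, max_lt_iff]
    refine ⟨by linarith [mem_ball.1 hz], ?_⟩
    rw [Real.dist_eq, sub_zero]
    exact abs_lt.2 ⟨by linarith [hs.1], by linarith [hs.2]⟩
  have h0 := key 0 ⟨by linarith, by linarith⟩
  exact ⟨h0.1, h0.2.1, fun s hs => (key s hs).2.2⟩

theorem tri_core {Λ : Set ℂ} (hΛ : IsOpen Λ) {c d e : Fin 5} (hcd : c ≠ d) (hce : c ≠ e)
    (hde : d ≠ e) (hI : ∀ x ∈ Λ, C.I x ⊆ {c, d, e}) (hm : ∀ x ∈ Λ, C.I x ≠ {d, e}) {q : ℂ} {α : ℝ}
    (ha : ∀ t ∈ Icc α (α + 2 * Real.pi / 3), q + cis t ∈ Λ) (h0 : e ∉ C.I (q + cis α))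
    (h1 : d ∉ C.I (q + cis (α + Real.pi / 3))) (h2 : e ∉ C.I (q + cis (α + 2 * Real.pi / 3))) :
    False := by
  have hpi := Real.pi_pos
  obtain ⟨δ, hδ, hT⟩ := exists_tube hΛ ha
  set N : Set ℂ := ⋃ t ∈ Icc α (α + Real.pi / 3), ball (q + cis t) δ with hN
  have hNo : IsOpen N := isOpen_biUnion fun _ _ => isOpen_ball
  have hNT : ∀ z ∈ N, z ≠ q ∧ z ∈ Λ ∧ ∀ s ∈ Icc (-δ) δ, Ψ q z s ∈ Λ := fun z hz => by
    simp only [hN, mem_iUnion] at hz
    obtain ⟨t, ht, hz⟩ := hz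
    exact hT t ht z hz
  have z0 : (0 : ℝ) ∈ Icc (-δ) δ := ⟨by linarith, hδ.le⟩
  -- the arc from a point of colour `c` has one colour
  have arcU : ∀ z ∈ N, z ∈ C.U c →
      (∀ s ∈ Icc (-δ) δ, Ψ q z s ∈ C.U d) ∨ (∀ s ∈ Icc (-δ) δ, Ψ q z s ∈ C.U e) := by
    intro z hz hzc
    obtain ⟨hzq, -, hΨ⟩ := hNT z hz
    have hpc : IsPreconnected ((fun s => Ψ q z s) '' Icc (-δ) δ) :=
      isPreconnected_Icc.image _ (fun s _ => ((Ψ_contAt (p := (z, s)) hzq).comp
        (f := fun s : ℝ => (z, s)) (by fun_prop)).continuousWithinAt)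
    have hsub : (fun s => Ψ q z s) '' Icc (-δ) δ ⊆ C.U d ∪ C.U e := by
      rintro _ ⟨s, hs, rfl⟩
      have hc : c ∉ C.I (Ψ q z s) := fun h => unit' (mem_I.1 h) hzc (norm_Ψ hzq s)
      have hs1 : C.I (Ψ q z s) ⊆ {d, e} := fun i hi => by
        have := hI _ (hΨ s hs) hi
        simp only [Finset.mem_insert, Finset.mem_singleton] at this ⊢
        rcases this with rfl | h | h
        exacts [absurd hi hc, Or.inl h, Or.inr h]
      have hs2 := hm _ (hΨ s hs)
      by_cases hd : d ∈ C.I (Ψ q z s)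
      · left
        refine mem_U.2 fun j hj => ?_
        have := hs1 (mem_I.2 hj)
        simp only [Finset.mem_insert, Finset.mem_singleton] at this
        rcases this with h | rfl
        · exact h
        · exact absurd (Finset.Subset.antisymm hs1 (by
            rw [Finset.insert_subset_iff, Finset.singleton_subset_iff]
            exact ⟨hd, mem_I.2 hj⟩)) hs2
      · right
        refine mem_U.2 fun j hj => ?_
        have := hs1 (mem_I.2 hj)
        simp only [Finset.mem_insert, Finset.mem_singleton] at this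
        rcases this with rfl | h
        · exact absurd (mem_I.2 hj) hd
        · exact h
    have hdis : Disjoint (C.U d) (C.U e) :=
      Set.disjoint_left.2 fun x h h' => hde (U_unique h h')
    rcases hpc.subset_or_subset (isOpen_U d) (isOpen_U e) hdis hsub with h | h
    · exact Or.inl fun s hs => h ⟨s, hs, rfl⟩
    · exact Or.inr fun s hs => h ⟨s, hs, rfl⟩
  -- the two sides
  set S : Fin 5 → Fin 5 → Set ℂ := fun d e =>
    N ∩ (C.U d ∪ (C.U c ∩ (fun z => Ψ q z 0) ⁻¹' C.U e)) with hS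
  have hSo : ∀ d e, IsOpen (S d e) := fun d e => by
    have : S d e = (N ∩ C.U d) ∪ (C.U c ∩ (N ∩ (fun z => Ψ q z 0) ⁻¹' C.U e)) := by
      ext x; simp only [hS, mem_inter_iff, mem_union]; tauto
    rw [this]
    refine (hNo.inter (isOpen_U d)).union ((isOpen_U c).inter ?_)
    exact ContinuousOn.isOpen_inter_preimage
      (fun z hz => (Ψ_contAt' (hNT z hz).1 0).continuousWithinAt) hNo (isOpen_U e)
  have hcl : ∀ d' e', (d' = d ∧ e' = e) ∨ (d' = e ∧ e' = d) → ∀ x ∈ N, x ∈ closure (S d' e') →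
      x ∈ C.F d' ∨ (x ∈ C.F c ∧ ∀ s ∈ Icc (-δ) δ, Ψ q x s ∈ C.F e') := by
    intro d' e' hde' x hx hxc
    have : S d' e' ⊆ C.F d' ∪ (N ∩ (C.U c ∩ (fun z => Ψ q z 0) ⁻¹' C.U e')) := by
      rintro y ⟨hy, h | h⟩
      exacts [Or.inl (U_sub_F h), Or.inr ⟨hy, h⟩]
    have h3 := closure_mono this hxc
    rw [closure_union, (C.closed d').closure_eq] at h3
    refine h3.imp id fun h3 => ⟨?_, fun s hs => ?_⟩
    · exact (C.closed c).closure_subset_iff.2 (fun y hy => U_sub_F hy.2.1) h3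
    · have h4 := (Ψ_contAt' (hNT x hx).1 s).continuousWithinAt.mem_closure_image h3
      refine (C.closed e').closure_subset_iff.2 ?_ h4
      rintro _ ⟨y, ⟨hy, hyc, hy0⟩, rfl⟩
      rcases arcU y hy hyc with h | h
      · rcases hde' with ⟨-, rfl⟩ | ⟨-, rfl⟩
        · exact absurd (U_unique (h 0 z0) hy0) hde
        · exact U_sub_F (h s hs)
      · rcases hde' with ⟨-, rfl⟩ | ⟨-, rfl⟩
        · exact U_sub_F (h s hs)
        · exact absurd (U_unique hy0 (h 0 z0)) hde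
  have hL := hcl d e (Or.inl ⟨rfl, rfl⟩)
  have hR := hcl e d (Or.inr ⟨rfl, rfl⟩)
  have hdis : Disjoint (S d e) (S e d) := by
    rw [Set.disjoint_left]
    rintro x ⟨-, h | h⟩ ⟨-, h' | h'⟩
    · exact hde (U_unique h h')
    · exact hcd (U_unique h'.1 h)
    · exact hce (U_unique h.1 h')
    · exact hde (U_unique h'.2 h.2)
  have hden : N ⊆ closure (S d e ∪ S e d) := by
    refine (dense_UU (C := C)).open_subset_closure_inter hNo |>.trans (closure_mono ?_)
    rintro u ⟨hu, k, hk⟩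
    have := hI u (hNT u hu).2.1 (mem_I.2 (U_sub_F hk))
    simp only [Finset.mem_insert, Finset.mem_singleton] at this
    rcases this with rfl | rfl | rfl
    · rcases arcU u hu hk with h | h
      · exact Or.inr ⟨hu, Or.inr ⟨hk, h 0 z0⟩⟩
      · exact Or.inl ⟨hu, Or.inr ⟨hk, h 0 z0⟩⟩
    · exact Or.inl ⟨hu, Or.inl hk⟩
    · exact Or.inr ⟨hu, Or.inl hk⟩
  have hAN : ∀ t ∈ Icc α (α + Real.pi / 3), q + cis t ∈ N := fun t ht =>
    mem_biUnion ht (mem_ball_self hδ)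
  have e0 : α ∈ Icc α (α + Real.pi / 3) := ⟨le_rfl, by linarith⟩
  have e1 : α + Real.pi / 3 ∈ Icc α (α + Real.pi / 3) := ⟨by linarith, le_rfl⟩
  have n0 : q + cis α ∉ closure (S e d) := fun h => by
    rcases hR _ (hAN _ e0) h with h | ⟨-, h⟩
    · exact h0 (mem_I.2 h)
    · have := h 0 z0
      rw [Ψ_cis] at this
      exact h1 (mem_I.2 this)
  have n1 : q + cis (α + Real.pi / 3) ∉ closure (S d e) := fun h => by
    rcases hL _ (hAN _ e1) h with h | ⟨-, h⟩
    · exact h1 (mem_I.2 h)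
    · have := h 0 z0
      rw [Ψ_cis, show α + Real.pi / 3 + Real.pi / 3 = α + 2 * Real.pi / 3 by ring] at this
      exact h2 (mem_I.2 this)
  have hpc : IsPreconnected ((fun t => q + cis t) '' Icc α (α + Real.pi / 3)) :=
    isPreconnected_Icc.image _ (by fun_prop)
  have hcov : (fun t => q + cis t) '' Icc α (α + Real.pi / 3) ⊆
      closure (S d e) ∪ closure (S e d) := by
    rintro _ ⟨t, ht, rfl⟩
    rw [← closure_union]
    exact hden (hAN t ht)
  obtain ⟨x₀, ⟨t₀, ht₀, hx₀⟩, hxL, hxR⟩ := isPreconnected_closed_iff.1 hpc _ _ isClosed_closure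
    isClosed_closure hcov ⟨_, ⟨α, e0, rfl⟩, (hcov ⟨α, e0, rfl⟩).resolve_right n0⟩
    ⟨_, ⟨_, e1, rfl⟩, (hcov ⟨_, e1, rfl⟩).resolve_left n1⟩
  have hx₀N : x₀ ∈ N := hx₀ ▸ hAN t₀ ht₀
  have hx₀q := (hNT x₀ hx₀N).1
  obtain ⟨ε₁, hε₁, hlune⟩ := exists_lune_near (p := x₀) (q := Ψ q x₀ 0)
    (by rw [norm_sub_rev]; exact norm_Ψ hx₀q 0) (show 0 < δ / 4 by positivity)
  obtain ⟨ε₂, hε₂, hcont⟩ := Metric.continuousAt_iff.1 (Ψ_contAt' hx₀q 0) (δ / 4) (by positivity)
  obtain ⟨K, -, hKc, ⟨p₁, hp₁, p₂, hp₂, hne⟩, hKs⟩ := sep_cont (V := N ∩ ball x₀ (min ε₁ ε₂))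
    (hNo.inter isOpen_ball) (hSo d e) (hSo e d) hdis (fun x hx => hden hx.1)
    ⟨hx₀N, mem_ball_self (lt_min hε₁ hε₂)⟩ hxL hxR
  obtain ⟨w, hw, hwl⟩ := hlune p₁ (ball_subset_ball (min_le_left _ _) (hKs hp₁).1.2) p₂
    (ball_subset_ball (min_le_left _ _) (hKs hp₂).1.2) hne
  obtain ⟨z, ⟨hz, hzl⟩, k, hk⟩ := (dense_UU (C := C)).inter_open_nonempty _
    (isOpen_ball.inter (isOpen_lune p₁ p₂)) ⟨w, hw, hwl⟩
  obtain ⟨p, hp, hp1⟩ : ∃ p ∈ K, ‖z - p‖ = 1 := by
    have hc : ContinuousOn (fun p : ℂ => ‖z - p‖) K := by fun_prop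
    rcases hzl with h | h
    · exact hKc.intermediate_value hp₁ hp₂ hc ⟨h.1.le, h.2.le⟩
    · exact hKc.intermediate_value hp₂ hp₁ hc ⟨h.1.le, h.2.le⟩
  obtain ⟨⟨hpN, hpb⟩, hpL, hpR⟩ := hKs hp
  have hpq := (hNT p hpN).1
  set u := (p - q) / (‖p - q‖ : ℂ) with hu
  have hu1 : ‖u‖ = 1 := norm_dir hpq
  have hu0 : u ≠ 0 := by
    intro h; rw [h, norm_zero] at hu1; exact zero_ne_one hu1
  obtain ⟨φ, hφ, hφ'⟩ := exists_arg_near (u := (z - p) / u) (t := 2 * Real.pi / 3) (ε := δ / 2)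
    (by rw [norm_div, hp1, hu1, div_one]) (by
      have a1 : (z - p) / u - cis (2 * Real.pi / 3) = (z - Ψ q p 0) / u := by
        rw [Ψ, ← hu, add_zero]; field_simp; ring
      rw [a1, norm_div, hu1, div_one]
      have a2 := hcont (lt_of_lt_of_le (mem_ball.1 hpb) (min_le_right _ _))
      have a3 := mem_ball.1 hz
      have a4 := dist_triangle_right z (Ψ q p 0) (Ψ q x₀ 0)
      rw [← dist_eq_norm]
      linarith)
  have hs : φ - 2 * Real.pi / 3 ∈ Icc (-δ) δ := by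
    have := abs_le.1 hφ'
    exact ⟨by linarith [this.1], by linarith [this.2]⟩
  have hz' : Ψ q p (φ - 2 * Real.pi / 3) = z := by
    rw [Ψ, ← hu, add_sub_cancel, ← hφ]; field_simp; ring
  have hpk : p ∉ C.F k := fun h => unit' h hk (by rw [norm_sub_rev]; exact hp1)
  have hzΛ : z ∈ Λ := hz' ▸ (hNT p hpN).2.2 _ hs
  have := hI z hzΛ (mem_I.2 (U_sub_F hk))
  simp only [Finset.mem_insert, Finset.mem_singleton] at this
  rcases this with rfl | rfl | rfl
  · have a1 : p ∈ C.F d := (hL p hpN hpL).resolve_right fun h => hpk h.1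
    have a2 : p ∈ C.F e := (hR p hpN hpR).resolve_right fun h => hpk h.1
    refine hm p (hNT p hpN).2.1 (Finset.Subset.antisymm (fun i hi => ?_) ?_)
    · have := hI p (hNT p hpN).2.1 hi
      simp only [Finset.mem_insert, Finset.mem_singleton] at this ⊢
      rcases this with rfl | h | h
      exacts [absurd (mem_I.1 hi) hpk, Or.inl h, Or.inr h]
    · rw [Finset.insert_subset_iff, Finset.singleton_subset_iff]
      exact ⟨mem_I.2 a1, mem_I.2 a2⟩
  · rcases hL p hpN hpL with h | ⟨-, h⟩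
    · exact hpk h
    · have := h _ hs
      rw [hz'] at this
      exact hde (mem_U.1 hk _ this).symm
  · rcases hR p hpN hpR with h | ⟨-, h⟩
    · exact hpk h
    · have := h _ hs
      rw [hz'] at this
      exact hde (mem_U.1 hk _ this)

theorem exists_two_more : ∀ a b c : Fin 5, a ≠ b → b ≠ c → c ≠ a → ∃ d e : Fin 5,
    c ≠ d ∧ c ≠ e ∧ d ≠ e ∧ ∀ i, i = a ∨ i = b ∨ i = c ∨ i = d ∨ i = e := by
  decide

theorem no_tri {v : ℂ} (h : Tri (C.Γ v)) : False := by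
  have hpi := Real.pi_gt_three
  obtain ⟨a, b, c, gab, gbc, gca⟩ := h
  obtain ⟨d, e, hcd, hce, hde, hall⟩ := exists_two_more a b c gab.1 gbc.1 gca.1
  have hn : ∀ θ : ℝ, ‖v + cis θ - v‖ = 1 := fun θ => by simp
  have gen : ∀ θ, C.Gen v θ → d ∈ C.I (v + cis θ) ∨ e ∈ C.I (v + cis θ) := by
    intro θ hθ
    by_contra hc
    push Not at hc
    have sub : ∀ i ∈ C.I (v + cis θ), i = a ∨ i = b ∨ i = c := fun i hi => by
      rcases hall i with h | h | h | rfl | rfl
      exacts [Or.inl h, Or.inr (Or.inl h), Or.inr (Or.inr h), absurd hi hc.1, absurd hi hc.2]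
    have ha : a ∈ C.I (v + cis θ) := by
      by_contra hx
      refine not_sub_Γ gbc (hn θ) fun i hi => ?_
      rcases sub i hi with rfl | rfl | rfl <;> simp_all
    have hb : b ∈ C.I (v + cis θ) := by
      by_contra hx
      refine not_sub_Γ gca (hn θ) fun i hi => ?_
      rcases sub i hi with rfl | rfl | rfl <;> simp_all
    have hc' : c ∈ C.I (v + cis θ) := by
      by_contra hx
      refine not_sub_Γ gab (hn θ) fun i hi => ?_
      rcases sub i hi with rfl | rfl | rfl <;> simp_all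
    have h3 : ({a, b, c} : Finset (Fin 5)) ⊆ C.I (v + cis θ) := by
      simp only [Finset.insert_subset_iff, Finset.singleton_subset_iff]
      exact ⟨ha, hb, hc'⟩
    have := Finset.card_le_card h3
    rw [Finset.card_eq_three.2 ⟨a, b, c, gab.1, gca.1.symm, gbc.1, rfl⟩] at this
    have := hθ.card_le
    omega
  have all : ∀ θ : ℝ, v + cis θ ∈ C.F d ∪ C.F e := by
    have hcl : IsClosed {θ : ℝ | v + cis θ ∈ C.F d ∪ C.F e} :=
      ((C.closed d).union (C.closed e)).preimage (f := fun θ : ℝ => v + cis θ) (by fun_prop)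
    intro θ
    refine hcl.closure_subset_iff.2 (fun t ht => ?_) (dense_gen (C := C) v θ)
    exact (gen t ht).imp mem_I.1 mem_I.1
  have mono : ∀ x : ℂ, |‖x - v‖ - 1| < 1 / 200 → C.I x ≠ {d, e} := by
    intro x hx hI
    obtain ⟨K, hK, ⟨x₁, h₁, x₂, h₂, hne⟩, hs⟩ := (Γ_of_two hde hI).2 (1 / 200) (by norm_num)
    have nr : ∀ y ∈ K, |‖y - v‖ - 1| ≤ 1 / 100 := fun y hy => by
      have a1 : ‖y - x‖ < 1 / 200 := by rw [← dist_eq_norm]; exact hs hy
      have a2 := abs_norm_sub_norm_le (y - v) (x - v)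
      rw [sub_sub_sub_cancel_right] at a2
      have a3 := abs_lt.1 hx
      have a4 := abs_le.1 a2
      exact abs_le.2 ⟨by linarith, by linarith⟩
    obtain ⟨θ, hθ⟩ := arc_window (nr x₁ h₁) (nr x₂ h₂) (by
      have a1 := mem_ball.1 (hs h₁)
      have a2 := mem_ball.1 (hs h₂)
      have := dist_triangle_right x₁ x₂ x
      rw [← dist_eq_norm]; linarith) hne
    have hd := Finset.disjoint_left.1 (lune_disj hK h₁ h₂ hθ)
    rcases all θ with h | h
    · exact hd (mem_I.2 h) (by simp)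
    · exact hd (mem_I.2 h) (by simp)
  obtain ⟨θ, -, ρ, hρ, hgen⟩ := exists_gen (C := C) v (show (0 : ℝ) < 1 by norm_num)
  set η := min (ρ / 4) (1 / 400) with hη
  have hη0 : 0 < η := lt_min (by positivity) (by norm_num)
  have hη1 : η ≤ ρ / 4 := min_le_left _ _
  have hη2 : η ≤ 1 / 400 := min_le_right _ _
  obtain ⟨K, hK, ⟨p, hp, p', hp', hne⟩, hs⟩ := gab.2 (η / 2) (by positivity)
  have b1 := mem_ball.1 (hs hp)
  have b2 := mem_ball.1 (hs hp')
  obtain ⟨β, hβ⟩ := mid_lune hne (η := η) (by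
    have := dist_triangle_right p p' v
    rw [← dist_eq_norm]; linarith) (by linarith)
  set n : ℤ := ⌈(β - θ) / (Real.pi / 3)⌉ with hnd
  have hp3 : 0 < Real.pi / 3 := by positivity
  have n1 : β ≤ θ + n * (Real.pi / 3) := by
    have := Int.le_ceil ((β - θ) / (Real.pi / 3))
    rw [div_le_iff₀ hp3, ← hnd] at this
    linarith
  have n2 : θ + n * (Real.pi / 3) ≤ β + Real.pi / 3 := by
    have := (Int.ceil_lt_add_one ((β - θ) / (Real.pi / 3))).le
    rw [← sub_le_iff_le_add, le_div_iff₀ hp3, ← hnd] at this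
    linarith
  set α := max (β + η) (min (θ + n * (Real.pi / 3)) (β + Real.pi / 3 - η)) with hα
  have α1 : β + η ≤ α := le_max_left _ _
  have α2 : α ≤ β + Real.pi / 3 - η := max_le (by linarith) (min_le_right _ _)
  have α3 : |α - (θ + n * (Real.pi / 3))| ≤ η := by
    refine abs_le.2 ⟨?_, ?_⟩
    · have : θ + n * (Real.pi / 3) - η ≤ α :=
        le_max_of_le_right (le_min (by linarith) (by linarith))
      linarith
    · have : α ≤ θ + n * (Real.pi / 3) + η :=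
        max_le (by linarith) (min_le_of_left_le (by linarith))
      linarith
  set q := (p + p') / 2 with hq
  have hqv : ‖q - v‖ < η / 2 := by
    have : q - v = ((p - v) + (p' - v)) / 2 := by rw [hq]; ring
    rw [this, norm_div, Complex.norm_two]
    have := norm_add_le (p - v) (p' - v)
    rw [dist_eq_norm] at b1 b2
    linarith
  have sub : ∀ r : ℤ, C.I (q + cis (α + r * (Real.pi / 3))) ⊆
      C.I (v + cis (θ + (n + r : ℤ) * (Real.pi / 3))) := fun r => by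
    refine (hgen (n + r)).2 _ ?_
    rw [mem_ball, dist_eq_norm, add_sub_add_comm]
    have a1 := norm_cis_sub_le (α + r * (Real.pi / 3)) (θ + (n + r : ℤ) * (Real.pi / 3))
    rw [show α + r * (Real.pi / 3) - (θ + (n + r : ℤ) * (Real.pi / 3)) =
      α - (θ + n * (Real.pi / 3)) by push_cast; ring] at a1
    have a2 := norm_add_le (q - v)
      (cis (α + r * (Real.pi / 3)) - cis (θ + (n + r : ℤ) * (Real.pi / 3)))
    linarith
  have dj : ∀ r : ℤ, Disjoint (C.I (v + cis (θ + (n + r : ℤ) * (Real.pi / 3))))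
      (C.I (v + cis (θ + (n + (r + 1) : ℤ) * (Real.pi / 3)))) := fun r => by
    have := (hgen (n + r)).1.disj
    rwa [show θ + (n + r : ℤ) * (Real.pi / 3) + Real.pi / 3 =
      θ + (n + (r + 1) : ℤ) * (Real.pi / 3) by push_cast; ring] at this
  have s0 := sub 0
  have s1 := sub 1
  have s2 := sub 2
  have d0 := Finset.disjoint_left.1 (dj 0)
  have d1 := Finset.disjoint_left.1 (dj 1)
  have g0 := gen _ (hgen (n + 0)).1
  have g1 := gen _ (hgen (n + 1)).1
  rw [show α + ((0 : ℤ) : ℝ) * (Real.pi / 3) = α by simp] at s0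
  rw [show α + ((1 : ℤ) : ℝ) * (Real.pi / 3) = α + Real.pi / 3 by simp] at s1
  rw [show α + ((2 : ℤ) : ℝ) * (Real.pi / 3) = α + 2 * Real.pi / 3 by push_cast; ring] at s2
  rw [zero_add] at d0
  rw [show (1 : ℤ) + 1 = 2 by rfl] at d1
  have hΛ : ∀ x ∈ {w | Lune p p' w}, ∀ i ∈ C.I x, i = c ∨ i = d ∨ i = e := fun x hx i hi => by
    have hd := Finset.disjoint_left.1 (lune_disj hK hp hp' hx) hi
    rcases hall i with rfl | rfl | h
    · exact absurd (by simp) hd
    · exact absurd (by simp) hd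
    · exact h
  have hm : ∀ x ∈ {w | Lune p p' w}, C.I x ≠ {d, e} := fun x hx =>
    mono x (lt_of_lt_of_le (Lune.near hx (hs hp) (hs hp')) (by linarith))
  have harc : ∀ t ∈ Icc α (α + 2 * Real.pi / 3), q + cis t ∈ {w | Lune p p' w} := fun t ht =>
    hβ t ⟨by linarith [ht.1], by linarith [ht.2]⟩
  rcases g0 with g0 | g0
  · have g1' := g1.resolve_left (d0 g0)
    exact tri_core (isOpen_lune p p') hcd hce hde
      (fun x hx i hi => by simpa using hΛ x hx i hi) hm harc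
      (fun h => d0 (s0 h) g1') (fun h => d0 g0 (s1 h)) (fun h => d1 g1' (s2 h))
  · have g1' := g1.resolve_right (d0 g0)
    exact tri_core (isOpen_lune p p') hce hcd hde.symm
      (fun x hx i hi => by have := hΛ x hx i hi; simp only [Finset.mem_insert,
        Finset.mem_singleton]; tauto)
      (fun x hx => by rw [Finset.pair_comm]; exact hm x hx) harc
      (fun h => d0 (s0 h) g1') (fun h => d0 g0 (s1 h)) (fun h => d1 g1' (s2 h))

end Crest.Agent.R40.Cfg
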